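import Vale.Agent.P200E.PP0

namespace Vale.Agent.P200E

open MvPolynomial TensorProduct

universe u

variable {k D : Type u} [Field k] [DivisionRing D] [Algebra k D] [FiniteDimensional k D]
  {σ ι : Type} [Fintype σ] [DecidableEq σ] {d : ℕ} {Y : Sys k σ ι d}

omit [Fintype σ] [DecidableEq σ] in
theorem whc_mul_PP {M : Type} [AddCommGroup M] {w : σ → M} {p : MvPolynomial σ k} {ψ : M}
    (hp : p.IsWeightedHomogeneous w ψ) (χ : M) (r : MvPolynomial σ k) :
    weightedHomogeneousComponent w (ψ + χ) (p * r) = p * weightedHomogeneousComponent w χ r := by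
  classical
  induction r using MvPolynomial.induction_on' with
  | add a b ha hb => rw [mul_add, map_add, map_add, ha, hb, mul_add]
  | monomial s c =>
    have h1 : (monomial s c : MvPolynomial σ k).IsWeightedHomogeneous w (Finsupp.weight w s) :=
      isWeightedHomogeneous_monomial _ _ _ rfl
    rw [weightedHomogeneousComponent_of_mem (hp.mul h1), weightedHomogeneousComponent_of_mem h1]
    by_cases h : χ = Finsupp.weight w s <;> simp [h]

omit [Fintype σ] in
theorem fix_cz_PP (Z : Finset σ) (f : MvPolynomial σ k →ₐ[k] MvPolynomial σ k)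
    (hf : ∀ j, j ∉ Z → f (X j) = X j) {r : MvPolynomial σ k} (hr : cz k Z r = r) : f r = r := by
  have : f.comp (cz k Z) = cz k Z := by
    ext1 j
    by_cases hj : j ∈ Z <;> simp [cz, hj, hf]
  rw [← hr]
  exact DFunLike.congr_fun this r

omit [Fintype σ] in
theorem hom_cz_PP (Z : Finset σ) {r : MvPolynomial σ k} (hr : cz k Z r = r) :
    r.IsWeightedHomogeneous (fun i (_ : Unit) => if i ∈ Z then (1 : ℤ) else 0) 0 := by
  rw [← hr]
  clear hr
  induction r using MvPolynomial.induction_on with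
  | C a => simpa [cz] using isWeightedHomogeneous_C _ a
  | add p q hp hq => rw [map_add]; exact hp.add hq
  | mul_X p j hp =>
    rw [map_mul]
    by_cases hj : j ∈ Z
    · simpa [cz, hj] using isWeightedHomogeneous_zero k _ _
    · have h1 := isWeightedHomogeneous_X k (fun i (_ : Unit) => if i ∈ Z then (1 : ℤ) else 0) j
      have h2 : cz k Z (X j) = X j := by simp [cz, hj]
      have h3 := hp.mul h1
      rw [h2]
      convert h3 using 1
      funext _
      simp [hj]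

omit [Fintype σ] in
theorem whc_tau_PP (Z : Finset σ) {μ : MvPolynomial σ k} (hμ : cz k Z μ = μ)
    (τ : MvPolynomial σ k →ₐ[k] MvPolynomial σ k) (h1 : ∀ j, j ∉ Z → τ (X j) = X j)
    (h2 : ∀ j ∈ Z, τ (X j) = μ * X j) (χ : Unit → ℤ) (r : MvPolynomial σ k) :
    weightedHomogeneousComponent (fun i (_ : Unit) => if i ∈ Z then (1 : ℤ) else 0) χ (τ r) =
      μ ^ (χ ()).toNat *
        weightedHomogeneousComponent (fun i (_ : Unit) => if i ∈ Z then (1 : ℤ) else 0) χ r := by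
  classical
  have B : ∀ s : σ →₀ ℕ, ∃ e : ℕ,
      Finsupp.weight (fun i (_ : Unit) => if i ∈ Z then (1 : ℤ) else 0) s () = e ∧
      τ (monomial s 1) = μ ^ e * monomial s 1 := by
    intro s
    induction s using Finsupp.induction_linear with
    | zero => exact ⟨0, by simp, by simp⟩
    | add s t hs ht =>
      obtain ⟨e, a1, a2⟩ := hs
      obtain ⟨e', b1, b2⟩ := ht
      refine ⟨e + e', by rw [map_add, Pi.add_apply, a1, b1]; push_cast; rfl, ?_⟩
      have : (monomial (s + t) 1 : MvPolynomial σ k) = monomial s 1 * monomial t 1 := by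
        rw [monomial_mul, one_mul]
      rw [this, map_mul, a2, b2]; ring
    | single i n =>
      rw [← X_pow_eq_monomial, map_pow, Finsupp.weight_single]
      by_cases hi : i ∈ Z
      · exact ⟨n, by simp [hi], by rw [h2 i hi, mul_pow]⟩
      · exact ⟨0, by simp [hi], by rw [h1 i hi]; simp⟩
  induction r using MvPolynomial.induction_on' with
  | add a b ha hb => rw [map_add, map_add, map_add, ha, hb, mul_add]
  | monomial s c =>
    obtain ⟨e, a1, a2⟩ := B s
    have h3 : τ (monomial s c) = μ ^ e * monomial s c := by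
      have : (monomial s c : MvPolynomial σ k) = c • monomial s 1 := by
        rw [smul_monomial, smul_eq_mul, mul_one]
      rw [this, map_smul, a2, mul_smul_comm]
    have h4 := whc_mul_PP (hom_cz_PP Z (r := μ ^ e) (by rw [map_pow, hμ])) χ (monomial s c)
    rw [zero_add] at h4
    rw [h3, h4, weightedHomogeneousComponent_of_mem (isWeightedHomogeneous_monomial _ _ _ rfl)]
    split_ifs with h
    · rw [h, a1]; rfl
    · simp

theorem Sys.exists_psi (Y : Sys k σ ι d) (C : Fin d → σ) (hC : ∀ i, C i ∈ Y.Z)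
    (h0 : Y.minor C ≠ 0) : ∃ ψ : MvPolynomial σ k →ₐ[k] MvPolynomial σ k,
      RingHom.ker ψ = Y.PP ∧ (∀ j, j ∉ Y.Z → ψ (X j) = X j) ∧
      (∀ j ∈ Y.Z, j ∉ Set.range C → ψ (X j) = Y.minor C * X j) ∧
      ∀ r ∈ Y.PP, ∃ m : ℕ, Y.minor C ^ m * r ∈ Y.J := by

  classical
  obtain ⟨u, v, u1, u2, v1, v2, -, uv, vu⟩ := Y.exists_uv C hC (Y.minor_inj h0)
  have nr : ∀ j, j ∉ Y.Z → j ∉ Set.range C := by
    rintro j hj ⟨i, rfl⟩
    exact hj (hC i)
  have K1 : ∀ j, j ∉ Set.range C → cz k (Finset.univ.image C) (X j) = X j := fun j hj => by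
    have : j ∉ Finset.univ.image C := by simpa using hj
    simp only [cz, aeval_X, if_neg this]
  have K2 : ∀ i, cz k (Finset.univ.image C) (X (C i)) = 0 := fun i => by
    simp [cz]
  have Kμ : cz k (Finset.univ.image C) (Y.minor C) = Y.minor C :=
    fix_cz_PP Y.Z _ (fun j hj => K1 j (nr j hj)) (Y.cz_minor C)
  have p1 : ∀ j, j ∉ Y.Z → ((cz k (Finset.univ.image C)).comp v) (X j) = X j := fun j hj => by
    rw [AlgHom.comp_apply, v1 j hj, K1 j (nr j hj)]
  have sat : ∀ r, ((cz k (Finset.univ.image C)).comp v) r = 0 →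
      ∃ m : ℕ, Y.minor C ^ m * r ∈ Y.J := by
    intro r hr
    have h1 := sub_cz_mem (Finset.univ.image C) (v r)
    rw [AlgHom.comp_apply] at hr
    rw [hr, sub_zero] at h1
    have h2 : (u.comp v) r ∈ Y.J := by
      have := Ideal.mem_map_of_mem u h1
      rw [Ideal.map_span] at this
      refine Ideal.span_mono ?_ this
      rintro _ ⟨_, ⟨j, hj, rfl⟩, rfl⟩
      obtain ⟨i, -, rfl⟩ := Finset.mem_image.1 (Finset.mem_coe.1 hj)
      exact ⟨i, (u2 i).symm⟩
    have hJ : HomI (fun i (_ : Unit) => if i ∈ Y.Z then (1 : ℤ) else 0) Y.J := by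
      refine homI_span ?_
      rintro _ ⟨i, rfl⟩
      refine ⟨fun _ => 1, (weightedHomogeneousSubmodule k _ _).sum_mem fun j hj => ?_⟩
      have := (hom_cz_PP Y.Z (Y.hhb i j)).mul
        (isWeightedHomogeneous_X k (fun i (_ : Unit) => if i ∈ Y.Z then (1 : ℤ) else 0) j)
      simpa [hj] using this
    have h3 : ∀ χ, ∃ m : ℕ, Y.minor C ^ m * weightedHomogeneousComponent
        (fun i (_ : Unit) => if i ∈ Y.Z then (1 : ℤ) else 0) χ r ∈ Y.J := fun χ =>
      ⟨_, whc_tau_PP Y.Z (Y.cz_minor C) (u.comp v)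
        (fun j hj => by rw [AlgHom.comp_apply, v1 j hj, u1 j (nr j hj)])
        (fun j hj => uv j hj) χ r ▸ hJ χ _ h2⟩
    rw [← sum_weightedHomogeneousComponent (fun i (_ : Unit) => if i ∈ Y.Z then (1 : ℤ) else 0) r]
    refine finsum_induction (fun x => ∃ m : ℕ, Y.minor C ^ m * x ∈ Y.J) ⟨0, by simp⟩ ?_ h3
    rintro x y ⟨m, hm⟩ ⟨n, hn⟩
    refine ⟨m + n, ?_⟩
    have : Y.minor C ^ (m + n) * (x + y) =
        Y.minor C ^ n * (Y.minor C ^ m * x) + Y.minor C ^ m * (Y.minor C ^ n * y) := by ring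
    rw [this]
    exact add_mem (Ideal.mul_mem_left _ _ hm) (Ideal.mul_mem_left _ _ hn)
  have ker : ∀ r ∈ Y.PP, ((cz k (Finset.univ.image C)).comp v) r = 0 := by
    rintro r ⟨β, b1, b2, b3⟩
    have hJ : Y.J ≤ RingHom.ker ((cz k (Finset.univ.image C)).comp v) := by
      refine Ideal.span_le.2 ?_
      rintro _ ⟨i, rfl⟩
      change cz k (Finset.univ.image C) (v (Y.ell i)) = 0
      rw [← u2 i, vu _ (hC i), map_mul, K2, mul_zero]
    have h1 : ((cz k (Finset.univ.image C)).comp v) (β * r) = 0 := hJ b3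
    rw [map_mul, fix_cz_PP Y.Z _ p1 b2] at h1
    exact (mul_eq_zero.1 h1).resolve_left b1
  refine ⟨(cz k (Finset.univ.image C)).comp v, le_antisymm (fun r hr => ?_) ker, p1,
    fun j hj hj' => ?_, fun r hr => sat r (ker r hr)⟩
  · obtain ⟨m, hm⟩ := sat r hr
    exact ⟨_, pow_ne_zero m h0, by rw [map_pow, Y.cz_minor], hm⟩
  · rw [AlgHom.comp_apply, v2 j hj hj', map_mul, Kμ, K1 j hj']

theorem Sys.homI_PP (Y : Sys k σ ι d) (C : Fin d → σ) (hC : ∀ i, C i ∈ Y.Z)
    (h0 : Y.minor C ≠ 0) : HomI Y.w Y.PP := by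

  obtain ⟨ψ, -, -, -, hs⟩ := Y.exists_psi C hC h0
  intro χ r hr
  obtain ⟨m, hm⟩ := hs r hr
  have h1 : (Y.minor C).IsWeightedHomogeneous Y.w (∑ i, (Y.S - Y.w (C i))) := by
    rw [Sys.minor, Matrix.det_apply]
    refine (weightedHomogeneousSubmodule k _ _).sum_mem fun s _ => ?_
    rw [Units.smul_def]
    refine Submodule.smul_of_tower_mem _ _ ?_
    exact IsWeightedHomogeneous.prod _ _ _ fun i _ => Y.hhw (s i) (C i)
  have h2 : (Y.minor C ^ m).IsWeightedHomogeneous Y.w (m • ∑ i, (Y.S - Y.w (C i))) := h1.pow m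
  have h3 := Y.homI_J (m • ∑ i, (Y.S - Y.w (C i)) + χ) _ hm
  rw [whc_mul_PP h2] at h3
  exact ⟨_, pow_ne_zero m h0, by rw [map_pow, Y.cz_minor], h3⟩

theorem Sys.iA_PP_prime (Y : Sys k σ ι d) (C : Fin d → σ) (hC : ∀ i, C i ∈ Y.Z)
    (h0 : Y.minor C ≠ 0) (x y : AA k D σ) (h : x * y ∈ iA D Y.PP) :
    x ∈ iA D Y.PP ∨ y ∈ iA D Y.PP := by

  obtain ⟨ψ, hψ, -⟩ := Y.exists_psi C hC h0
  rw [← hψ] at h ⊢
  rw [mem_iA_ker, map_mul] at h
  rw [mem_iA_ker, mem_iA_ker]
  exact aa_domain _ _ h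

theorem Sys.PP_prime (Y : Sys k σ ι d) (C : Fin d → σ) (hC : ∀ i, C i ∈ Y.Z)
    (h0 : Y.minor C ≠ 0) : Y.PP.IsPrime := by

  obtain ⟨ψ, hψ, -⟩ := Y.exists_psi C hC h0
  rw [← hψ]
  exact RingHom.ker_isPrime ψ

omit [FiniteDimensional k D] [Fintype σ] [DecidableEq σ] in
theorem tmul_one_PP {r : MvPolynomial σ k} (h : (r ⊗ₜ[k] (1 : D) : AA k D σ) = 0) : r = 0 :=
  Algebra.TensorProduct.includeLeft_injective (R := k) (S := k) (A := MvPolynomial σ k) (B := D)
    (algebraMap k D).injective (by rw [map_zero]; exact h)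

theorem Sys.tmul_mem_iA (Y : Sys k σ ι d) (C : Fin d → σ) (hC : ∀ i, C i ∈ Y.Z)
    (h0 : Y.minor C ≠ 0) (r : MvPolynomial σ k) :
    (r ⊗ₜ[k] (1 : D) : AA k D σ) ∈ iA D Y.PP ↔ r ∈ Y.PP := by

  obtain ⟨ψ, hψ, -⟩ := Y.exists_psi C hC h0
  rw [← hψ, mem_iA_ker, Algebra.TensorProduct.map_tmul, RingHom.mem_ker]
  exact ⟨fun h => tmul_one_PP h, fun h => by rw [h, zero_tmul]⟩

theorem Sys.indep (Y : Sys k σ ι d) (C : Fin d → σ) (hC : ∀ i, C i ∈ Y.Z)
    (h0 : Y.minor C ≠ 0) {m : ℕ} (j : Fin m → σ) (hj : Function.Injective j)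
    (hjZ : ∀ i, j i ∈ Y.Z) (hjC : ∀ i, j i ∉ Set.range C) (v : Fin m → D)
    (h : (∑ i, X (j i) ⊗ₜ[k] v i : AA k D σ) ∈ iA D Y.PP) : v = 0 := by

  obtain ⟨ψ, hψ, -, h2, -⟩ := Y.exists_psi C hC h0
  rw [← hψ, mem_iA_ker, map_sum] at h
  have e : ∑ i, Algebra.TensorProduct.map ψ (AlgHom.id k D) (X (j i) ⊗ₜ[k] v i : AA k D σ) =
      (Y.minor C ⊗ₜ[k] (1 : D) : AA k D σ) * ∑ i, X (j i) ⊗ₜ[k] v i := by
    rw [Finset.mul_sum]
    refine Finset.sum_congr rfl fun i _ => ?_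
    rw [Algebra.TensorProduct.map_tmul, h2 _ (hjZ i) (hjC i), Algebra.TensorProduct.tmul_mul_tmul,
      one_mul]
    rfl
  rw [e] at h
  have h3 := (aa_domain _ _ h).resolve_left fun h => h0 (tmul_one_PP h)
  funext i
  have h4 := congrArg (fun z => TensorProduct.lid k D
    ((lcoeff k (Finsupp.single (j i) 1)).rTensor D z)) h3
  simp only [map_sum, LinearMap.rTensor_tmul, lcoeff_apply, TensorProduct.lid_tmul, map_zero,
    coeff_X, Finsupp.single_left_inj one_ne_zero, hj.eq_iff, ite_smul, one_smul, zero_smul,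
    Finset.sum_ite_eq', Finset.mem_univ, if_true] at h4
  exact h4

end Vale.Agent.P200E
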