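import Vale.Agent.P200E.Act0
import Vale.Agent.P200E.PP

namespace Vale.Agent.P200E

open MvPolynomial TensorProduct

universe u

variable {k D : Type u} [Field k] [DivisionRing D] [Algebra k D] [FiniteDimensional k D]
  {N a c d : ℕ} [NeZero a]

theorem map_act_lab (ζ : k) (γ : Fin N → ZMod a) (l : Fin N) (t : ZMod a) :
    MvPolynomial.map (act c ζ γ).toRingHom (lab k c l t) =
      C (C (ζ ^ (∑ m ∈ Finset.univ.filter (· < l), (γ m).val))) * lab k c l (t + γ l) := by
  rw [lab, lab, map_sum, Finset.mul_sum]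
  refine Finset.sum_congr rfl fun κ _ => ?_
  rw [map_mul, map_C, map_X, ← mul_assoc, ← C_mul]
  congr 2
  exact aeval_X _ _

theorem map_act_gg {ζ : k} (hζ : ζ ^ a = 1) (γ : Fin N → ZMod a) :
    MvPolynomial.map (act c ζ γ).toRingHom (gg k N a c) = gg k N a c := by
  rw [gg, map_sum]
  refine Finset.sum_congr rfl fun l _ => ?_
  rw [map_prod]
  simp only [map_act_lab]
  rw [Finset.prod_mul_distrib, Finset.prod_const, Finset.card_univ, ZMod.card, ← C_pow, ← C_pow,
    ← pow_mul, mul_comm _ a, pow_mul, hζ, one_pow, C_1, C_1, one_mul]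
  exact Equiv.prod_comp (Equiv.addRight (γ l)) (fun t => lab k c l t)

theorem act_lamE_sub {T : Type u} [CommRing T] [Algebra k T]
    (lam : MvPolynomial (Fin c) k →ₗ[k] k) (q : MvPolynomial (Fin c) T)
    {S : Finset (Fin c →₀ ℕ)} (hS : q.support ⊆ S) :
    lamE lam q = ∑ α ∈ S, lam (monomial α 1) • coeff α q := by
  refine Finset.sum_subset hS fun α _ h => ?_
  rw [notMem_support_iff.1 h, smul_zero]

theorem act_lamE_add {T : Type u} [CommRing T] [Algebra k T]
    (lam : MvPolynomial (Fin c) k →ₗ[k] k) (p q : MvPolynomial (Fin c) T) :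
    lamE lam (p + q) = lamE lam p + lamE lam q := by
  classical
  rw [act_lamE_sub lam (p + q) (support_add (p := p) (q := q)),
    act_lamE_sub lam p (S := p.support ∪ q.support) Finset.subset_union_left,
    act_lamE_sub lam q (S := p.support ∪ q.support) Finset.subset_union_right,
    ← Finset.sum_add_distrib]
  simp only [coeff_add, smul_add]

theorem act_lamE_sum {T : Type u} [CommRing T] [Algebra k T] {ι : Type*}
    (lam : MvPolynomial (Fin c) k →ₗ[k] k) (s : Finset ι) (p : ι → MvPolynomial (Fin c) T) :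
    lamE lam (∑ i ∈ s, p i) = ∑ i ∈ s, lamE lam (p i) := by
  classical
  induction s using Finset.induction_on with
  | empty => simp [lamE]
  | insert i s hi ih => rw [Finset.sum_insert hi, Finset.sum_insert hi, act_lamE_add, ih]

theorem act_lamE_C {T : Type u} [CommRing T] [Algebra k T]
    (lam : MvPolynomial (Fin c) k →ₗ[k] k) (t : T) (q : MvPolynomial (Fin c) T) :
    lamE lam (C t * q) = t * lamE lam q := by
  have h : (C t * q).support ⊆ q.support := fun α hα => by
    rw [mem_support_iff, coeff_C_mul] at hα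
    exact mem_support_iff.2 fun h => hα (by rw [h, mul_zero])
  rw [act_lamE_sub lam _ h, lamE, Finset.mul_sum]
  simp only [coeff_C_mul, mul_smul_comm]

theorem lamE_map {T T' : Type u} [CommRing T] [Algebra k T] [CommRing T'] [Algebra k T']
    (g : T →ₐ[k] T') (lam : MvPolynomial (Fin c) k →ₗ[k] k) (q : MvPolynomial (Fin c) T) :
    lamE lam (MvPolynomial.map g.toRingHom q) = g (lamE lam q) := by
  rw [act_lamE_sub lam _ (support_map_subset g.toRingHom q), lamE, map_sum]
  refine Finset.sum_congr rfl fun α _ => ?_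
  rw [coeff_map, map_smul]
  rfl

theorem gad_ell (lam : Fin d → MvPolynomial (Fin c) k →ₗ[k] k) (i : Fin d) :
    (gad N a lam).ell i = lamE (lam i) (gg k N a c) := by
  change ∑ j ∈ gZ N a c, ghh lam i j * X j = _
  rw [gg, act_lamE_sum, gZ, Finset.sum_filter, Fintype.sum_prod_type]
  refine Finset.sum_congr rfl fun l _ => ?_
  rw [Fintype.sum_prod_type, Finset.sum_eq_single (0 : ZMod a),
    ← Finset.mul_prod_erase _ _ (Finset.mem_univ (0 : ZMod a)), lab, Finset.sum_mul,
    act_lamE_sum]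
  · refine Finset.sum_congr rfl fun κ _ => ?_
    rw [if_pos rfl, mul_assoc, act_lamE_C, ghh, if_pos rfl, mul_comm]
    rfl
  · intro t _ ht
    simp [ht]
  · simp

theorem lamE_gg_hom (lam : MvPolynomial (Fin c) k →ₗ[k] k) :
    (lamE lam (gg k N a c)).IsWeightedHomogeneous gw (a • th0 N a) := by
  refine lamE_mem _ (weightedHomogeneousSubmodule k gw _) fun α => ?_
  rw [gg, coeff_sum]
  refine Submodule.sum_mem _ fun l _ => ?_
  have h1 := coeff_prod_hom gw Finset.univ (fun t => lab k c l t)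
    (fun t => th0 N a + eps l t) (fun t _ => coeff_lab_hom gw l t fun _ => rfl) α
  rwa [Finset.sum_add_distrib, sum_eps, add_zero, Finset.sum_const, Finset.card_univ,
    ZMod.card] at h1

theorem act_ghh (ζ : k) (lam : Fin d → MvPolynomial (Fin c) k →ₗ[k] k) (γ : Fin N → ZMod a)
    (i : Fin d) (j : SG N a c) (hj : γ j.1 = 0) :
    ∃ s : k, act c ζ γ (ghh lam i j) = s • ghh lam i j := by
  unfold ghh
  split_ifs
  · refine ⟨(ζ ^ (∑ m ∈ Finset.univ.filter (· < j.1), (γ m).val)) ^
      (Finset.univ.erase (0 : ZMod a)).card, ?_⟩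
    rw [← lamE_map, map_mul, map_X, pri, map_prod]
    simp only [map_act_lab, hj, add_zero]
    rw [Finset.prod_mul_distrib, Finset.prod_const, ← C_pow, ← C_pow, mul_left_comm, act_lamE_C,
      smul_eq_C_mul]
  · exact ⟨0, by simp⟩

theorem act_J {ζ : k} (hζ : ζ ^ a = 1) (lam : Fin d → MvPolynomial (Fin c) k →ₗ[k] k)
    (γ : Fin N → ZMod a) {r : MvPolynomial (SG N a c) k} (hr : r ∈ (gad N a lam).J) :
    act c ζ γ r ∈ (gad N a lam).J := by
  have h : (gad N a lam).J ≤ (gad N a lam).J.comap (act c ζ γ) := by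
    refine Ideal.span_le.2 ?_
    rintro _ ⟨i, rfl⟩
    change act c ζ γ _ ∈ (gad N a lam).J
    rw [gad_ell, ← lamE_map, map_act_gg hζ, ← gad_ell]
    exact Ideal.subset_span ⟨i, rfl⟩
  exact h hr

theorem act_PP1 {ζ : k} (hζ : ζ ^ a = 1) (lam : Fin d → MvPolynomial (Fin c) k →ₗ[k] k)
    (γ : Fin N → ZMod a) (C : Fin d → SG N a c) (hC : ∀ i, C i ∈ gZ N a c ∧ γ (C i).1 = 0)
    (h0 : (gad N a lam).minor C ≠ 0) {r : MvPolynomial (SG N a c) k}
    (hr : r ∈ (gad N a lam).PP) : act c ζ γ r ∈ (gad N a lam).PP := by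
  obtain ⟨ψ, -, -, -, h⟩ := (gad N a lam).exists_psi C (fun i => (hC i).1) h0
  obtain ⟨m, hm⟩ := h r hr
  refine ⟨act c ζ γ ((gad N a lam).minor C) ^ m, pow_ne_zero _ fun h1 => h0 ?_, ?_, ?_⟩
  · have h2 := congrArg (act c ζ (-γ)) h1
    rwa [← AlgHom.comp_apply, ← act_add hζ, neg_add_cancel, act_zero, map_zero] at h2
  · rw [map_pow, ← AlgHom.comp_apply, Sys.minor, AlgHom.map_det, AlgHom.map_det]
    congr 2
    ext1 i i'
    obtain ⟨s, hs⟩ := act_ghh ζ lam γ i (C i') (hC i').2
    change cz k (gZ N a c) (act c ζ γ (ghh lam i (C i'))) = act c ζ γ (ghh lam i (C i'))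
    rw [hs, map_smul]
    congr 1
    exact (gad N a lam).hhb i (C i')
  · rw [← map_pow, ← map_mul]
    exact act_J hζ lam γ hm

theorem act_PP {ζ : k} (hζ : ζ ^ a = 1) (lam : Fin d → MvPolynomial (Fin c) k →ₗ[k] k)
    (hm : ∀ l : Fin N, ∃ C : Fin d → SG N a c, (∀ i, C i ∈ gZ N a c ∧ (C i).1 ≠ l) ∧
      (gad N a lam).minor C ≠ 0) (γ : Fin N → ZMod a) {r : MvPolynomial (SG N a c) k}
    (hr : r ∈ (gad N a lam).PP) : act c ζ γ r ∈ (gad N a lam).PP := by
  rw [← Finset.univ_sum_single γ]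
  induction (Finset.univ : Finset (Fin N)) using Finset.induction_on with
  | empty => rwa [Finset.sum_empty, act_zero]
  | insert l s hl ih =>
    rw [Finset.sum_insert hl, act_add hζ, AlgHom.comp_apply]
    obtain ⟨C, hC, h0⟩ := hm l
    exact act_PP1 hζ lam _ C (fun i => ⟨(hC i).1, Pi.single_eq_of_ne (hC i).2 _⟩) h0 ih

end Vale.Agent.P200E
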