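import Vale.Agent.P200E.Def2

namespace Vale.Agent.P200E

open MvPolynomial TensorProduct

universe u

variable {k D : Type u} [Field k] [DivisionRing D] [Algebra k D] [FiniteDimensional k D]
  {N a c d : ℕ} [NeZero a]

theorem act0_sL_apply (γ : Fin N → ZMod a) (χ : IG N a → ℤ) :
    sL γ χ = χ none • th0 N a + ∑ l, (χ (some (l, 0)) • Pi.single (some (l, 0)) 1 +
      ∑ t ∈ Finset.univ.erase (0 : ZMod a), χ (some (l, t)) • eps l (t + γ l)) := rfl

theorem act0_sL_s0 (γ : Fin N → ZMod a) (l : Fin N) :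
    sL γ (Pi.single (some (l, 0)) 1) = Pi.single (some (l, 0)) 1 := by
  rw [act0_sL_apply, Finset.sum_eq_single l]
  · rw [Finset.sum_eq_zero]
    · simp
    · intro t ht
      have := (Finset.mem_erase.1 ht).1
      simp [Pi.single_apply, this]
  · intro b _ hb
    simp [Pi.single_apply, hb]
  · simp

theorem act0_sL_st (γ : Fin N → ZMod a) (l : Fin N) {t : ZMod a} (ht : t ≠ 0) :
    sL γ (Pi.single (some (l, t)) 1) = eps l (t + γ l) := by
  rw [act0_sL_apply, Finset.sum_eq_single l]
  · rw [Finset.sum_eq_single t]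
    · simp [Pi.single_apply, ht.symm]
    · intro b _ hb
      simp [Pi.single_apply, hb]
    · intro h
      exact absurd (Finset.mem_erase.2 ⟨ht, Finset.mem_univ _⟩) h
  · intro b _ hb
    simp [Pi.single_apply, hb]
  · simp

theorem act0_ext {M : Type*} [AddCommGroup M] {f g : (IG N a → ℤ) →+ M}
    (h0 : f (th0 N a) = g (th0 N a))
    (h1 : ∀ l, f (Pi.single (some (l, 0)) 1) = g (Pi.single (some (l, 0)) 1))
    (h2 : ∀ l t, t ≠ 0 → f (Pi.single (some (l, t)) 1) = g (Pi.single (some (l, t)) 1)) :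
    f = g := by
  refine AddMonoidHom.functions_ext _ f g fun i x => ?_
  have h : (Pi.single i x : IG N a → ℤ) = x • Pi.single i 1 := by
    rw [← Pi.single_smul, smul_eq_mul, mul_one]
  rw [h, map_zsmul, map_zsmul]
  congr 1
  rcases i with _ | ⟨l, t⟩
  · exact h0
  · by_cases ht : t = 0
    · subst ht
      exact h1 l
    · exact h2 l t ht

theorem sL_th0 (γ : Fin N → ZMod a) : sL γ (th0 N a) = th0 N a := by
  rw [act0_sL_apply]
  simp [th0]

theorem act0_sum_eps (l : Fin N) (x : ZMod a) : ∑ t : ZMod a, eps l (t + x) = 0 := by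
  rw [← sum_eps (a := a) l]
  exact Equiv.sum_comp (Equiv.addRight x) (fun t => eps l t)

theorem sL_eps (γ : Fin N → ZMod a) (l : Fin N) (t : ZMod a) :
    sL γ (eps l t) = eps l (t + γ l) := by
  by_cases ht : t = 0
  · subst ht
    have h := act0_sum_eps l (γ l)
    rw [← Finset.add_sum_erase _ _ (Finset.mem_univ (0 : ZMod a))] at h
    rw [eps, if_pos rfl, map_neg, map_sum,
      Finset.sum_congr rfl fun t ht => act0_sL_st γ l (Finset.mem_erase.1 ht).1]
    exact (eq_neg_of_add_eq_zero_left h).symm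
  · rw [eps, if_neg ht, act0_sL_st γ l ht]

theorem sL_zero (χ : IG N a → ℤ) : sL (0 : Fin N → ZMod a) χ = χ := by
  have h : sL (0 : Fin N → ZMod a) = AddMonoidHom.id _ := by
    refine act0_ext (sL_th0 _) (fun l => act0_sL_s0 _ l) fun l t ht => ?_
    rw [act0_sL_st _ l ht, Pi.zero_apply, add_zero, eps, if_neg ht]
    rfl
  rw [h]
  rfl

theorem sL_add (γ γ' : Fin N → ZMod a) (χ : IG N a → ℤ) :
    sL (γ + γ') χ = sL γ (sL γ' χ) := by
  have h : sL (γ + γ') = (sL γ).comp (sL γ') := by
    refine act0_ext ?_ (fun l => ?_) fun l t ht => ?_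
    · simp only [AddMonoidHom.comp_apply, sL_th0]
    · simp only [AddMonoidHom.comp_apply, act0_sL_s0]
    · rw [AddMonoidHom.comp_apply, act0_sL_st _ l ht, act0_sL_st _ l ht, sL_eps, Pi.add_apply,
        add_assoc, add_comm (γ l)]
  rw [h]
  rfl

theorem sL_gw (γ : Fin N → ZMod a) (i : SG N a c) :
    sL γ (gw i) = gw ((i.1, i.2.1 + γ i.1, i.2.2) : SG N a c) := by
  rw [gw, gw, map_add, sL_th0, sL_eps]

theorem cc_zero : cc (0 : Fin N → ZMod a) = 0 := by
  simp [cc]

theorem act0_range {M : Type*} [AddCommMonoid M] (g : ZMod a → M) :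
    ∑ s ∈ Finset.range a, g (s : ZMod a) = ∑ t, g t := by
  refine Finset.sum_nbij' (fun s => (s : ZMod a)) (fun t => t.val) ?_ ?_ ?_ ?_ ?_
  · intro s _
    exact Finset.mem_univ _
  · intro t _
    exact Finset.mem_range.2 (ZMod.val_lt t)
  · intro s hs
    exact ZMod.val_cast_of_lt (Finset.mem_range.1 hs)
  · intro t _
    exact ZMod.natCast_zmod_val t
  · intro s _
    rfl

theorem act0_per (l : Fin N) (r q : ℕ) :
    ∑ s ∈ Finset.range (r + a * q), eps l (s : ZMod a) =
      ∑ s ∈ Finset.range r, eps l (s : ZMod a) := by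
  induction q with
  | zero => simp
  | succ q ih =>
    rw [Nat.mul_succ, ← add_assoc, Finset.sum_range_add, ih]
    have h := act0_range (fun t : ZMod a => eps l (t + ((r + a * q : ℕ) : ZMod a)))
    rw [act0_sum_eps] at h
    have h2 : ∑ x ∈ Finset.range a, eps l ((r + a * q + x : ℕ) : ZMod a) = 0 := by
      rw [← h]
      refine Finset.sum_congr rfl fun x _ => ?_
      rw [Nat.cast_add _ x, add_comm]
    rw [h2, add_zero]

theorem cc_add (γ γ' : Fin N → ZMod a) : cc (γ + γ') = cc γ + sL γ (cc γ') := by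
  rw [cc, cc, cc, map_neg, map_sum, ← neg_add, ← Finset.sum_add_distrib]
  congr 1
  refine Finset.sum_congr rfl fun l _ => ?_
  rw [map_sum, Pi.add_apply, ZMod.val_add, ← act0_per l _ (((γ l).val + (γ' l).val) / a),
    Nat.mod_add_div, Finset.sum_range_add]
  congr 1
  refine Finset.sum_congr rfl fun s _ => ?_
  rw [sL_eps, Nat.cast_add, ZMod.natCast_zmod_val, add_comm]

theorem cc_single (ha : 2 ≤ a) (l : Fin N) :
    cc (Pi.single l 1 : Fin N → ZMod a) = -eps l 0 := by
  haveI : Fact (1 < a) := ⟨ha⟩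
  rw [cc, Finset.sum_eq_single l]
  · simp [ZMod.val_one]
  · intro b _ hb
    simp [Pi.single_apply, hb]
  · simp

theorem act0_sum_gam (l : Fin N) (t : ZMod a) : ∑ γ : Fin N → ZMod a, eps l (t + γ l) = 0 := by
  rw [← Equiv.sum_comp (Equiv.funSplitAt l (ZMod a)).symm, Fintype.sum_prod_type_right]
  refine Finset.sum_eq_zero fun y _ => ?_
  rw [← act0_sum_eps l t]
  refine Finset.sum_congr rfl fun x _ => ?_
  simp [add_comm]

theorem sum_sL (m : SG N a c →₀ ℕ) : ∃ n : ℤ,
    ∑ γ : Fin N → ZMod a, sL γ (Finsupp.weight gw m) = n • th0 N a := by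
  induction m using Finsupp.induction_linear with
  | zero => exact ⟨0, by simp⟩
  | add x y hx hy =>
    obtain ⟨n, hn⟩ := hx
    obtain ⟨n', hn'⟩ := hy
    refine ⟨n + n', ?_⟩
    simp only [map_add, Finset.sum_add_distrib, hn, hn', add_smul]
  | single i n =>
    refine ⟨n * Fintype.card (Fin N → ZMod a), ?_⟩
    simp only [Finsupp.weight_single, map_nsmul, sL_gw, ← Finset.smul_sum]
    simp only [gw, Finset.sum_add_distrib, act0_sum_gam, add_zero, Finset.sum_const,
      Finset.card_univ]
    rw [mul_smul, natCast_zsmul, natCast_zsmul]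

theorem act0_mon (ζ : k) (γ : Fin N → ZMod a) (m : SG N a c →₀ ℕ) (s : k) :
    (act c ζ γ (monomial m s)).IsWeightedHomogeneous gw (sL γ (Finsupp.weight gw m)) := by
  induction m using Finsupp.induction_linear generalizing s with
  | zero =>
    rw [map_zero, map_zero, monomial_zero', algHom_C]
    exact isWeightedHomogeneous_C _ _
  | add x y hx hy =>
    rw [← mul_one s, ← monomial_mul, map_mul, map_add, map_add]
    exact (hx s).mul (hy 1)
  | single i n =>
    rw [← C_mul_X_pow_eq_monomial, map_mul, map_pow, algHom_C, Finsupp.weight_single, map_nsmul,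
      sL_gw, act, aeval_X]
    exact (((isWeightedHomogeneous_X k gw _).C_mul _).pow n).C_mul s

theorem act0_hom (ζ : k) (γ : Fin N → ZMod a) {χ : IG N a → ℤ} {r : MvPolynomial (SG N a c) k}
    (hr : r.IsWeightedHomogeneous gw χ) : (act c ζ γ r).IsWeightedHomogeneous gw (sL γ χ) := by
  rw [r.as_sum, map_sum]
  refine IsWeightedHomogeneous.sum _ _ _ fun m hm => ?_
  rw [← hr (mem_support_iff.1 hm)]
  exact act0_mon ζ γ m _

theorem act0_inj (γ : Fin N → ZMod a) : Function.Injective (sL γ) := fun x y h => by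
  have h1 := congrArg (sL (-γ)) h
  rwa [← sL_add, ← sL_add, neg_add_cancel, sL_zero, sL_zero] at h1

theorem act_whc (ζ : k) (γ : Fin N → ZMod a) (χ : IG N a → ℤ) (r : MvPolynomial (SG N a c) k) :
    weightedHomogeneousComponent gw (sL γ χ) (act c ζ γ r) =
      act c ζ γ (weightedHomogeneousComponent gw χ r) := by
  induction r using MvPolynomial.induction_on' with
  | monomial m s =>
    have h1 := act0_mon ζ γ m s
    have h2 : (monomial m s).IsWeightedHomogeneous gw (Finsupp.weight gw m) :=
      isWeightedHomogeneous_monomial _ _ _ rfl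
    by_cases h : χ = Finsupp.weight gw m
    · subst h
      rw [h1.weightedHomogeneousComponent_same, h2.weightedHomogeneousComponent_same]
    · rw [h1.weightedHomogeneousComponent_ne _ fun h' => h (act0_inj γ h'),
        h2.weightedHomogeneousComponent_ne _ h, map_zero]
  | add p q hp hq => simp only [map_add, hp, hq]

theorem actA_whc (ζ : k) (γ : Fin N → ZMod a) (χ : IG N a → ℤ) (r : AA k D (SG N a c)) :
    (weightedHomogeneousComponent gw (sL γ χ)).rTensor D (actA D c ζ γ r) =
      actA D c ζ γ ((weightedHomogeneousComponent gw χ).rTensor D r) := by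
  induction r using TensorProduct.induction_on with
  | zero => simp
  | tmul r x =>
    simp only [actA, Algebra.TensorProduct.map_tmul, LinearMap.rTensor_tmul, act_whc]
  | add x y hx hy => simp only [map_add, hx, hy]

end Vale.Agent.P200E
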