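import Vale.Agent.P200E.LinR

namespace Vale.Agent.P200E

open MvPolynomial TensorProduct

universe u

variable {k D : Type u} [Field k] [DivisionRing D] [Algebra k D] [FiniteDimensional k D]
  {σ ι : Type} [Fintype σ] [DecidableEq σ] {d : ℕ} {Y : Sys k σ ι d}

/-- linear in the variables of `Z` with base coefficients -/
def BasLin (Z : Finset σ) (p : MvPolynomial σ k) : Prop :=
  ∃ β : σ → MvPolynomial σ k, (∀ i, cz k Z (β i) = β i) ∧ p = ∑ i ∈ Z, β i * X i

omit [Fintype σ] in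
theorem BasLin.add {Z : Finset σ} {p q : MvPolynomial σ k} (hp : BasLin Z p) (hq : BasLin Z q) :
    BasLin Z (p + q) := by
  obtain ⟨β, h1, rfl⟩ := hp
  obtain ⟨β', h1', rfl⟩ := hq
  refine ⟨fun i => β i + β' i, fun i => by rw [map_add, h1, h1'], ?_⟩
  simp only [add_mul, Finset.sum_add_distrib]

omit [Fintype σ] in
theorem BasLin.mul {Z : Finset σ} {p c : MvPolynomial σ k} (hc : cz k Z c = c)
    (hp : BasLin Z p) : BasLin Z (c * p) := by
  obtain ⟨β, h1, rfl⟩ := hp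
  refine ⟨fun i => c * β i, fun i => by rw [map_mul, h1, hc], ?_⟩
  simp only [Finset.mul_sum, mul_assoc]

omit [Fintype σ] in
theorem BasLin.sub {Z : Finset σ} {p q : MvPolynomial σ k} (hp : BasLin Z p) (hq : BasLin Z q) :
    BasLin Z (p - q) := by
  have := hp.add (hq.mul (c := -1) (by simp))
  rwa [neg_one_mul, ← sub_eq_add_neg] at this

omit [Fintype σ] in
theorem BasLin.sum {Z : Finset σ} {T : Type} (s : Finset T) {p : T → MvPolynomial σ k}
    (hp : ∀ t ∈ s, BasLin Z (p t)) : BasLin Z (∑ t ∈ s, p t) :=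
  Finset.sum_induction _ _ (fun _ _ => BasLin.add) ⟨0, by simp, by simp⟩ hp

omit [Fintype σ] in
theorem basLin_X {Z : Finset σ} {j : σ} (hj : j ∈ Z) : BasLin Z (X j : MvPolynomial σ k) := by
  refine ⟨fun i => if i = j then 1 else 0, fun i => by by_cases h : i = j <;> simp [h], ?_⟩
  rw [Finset.sum_eq_single j] <;> simp_all

omit [Fintype σ] in
theorem bas_fix {Z : Finset σ} {u : MvPolynomial σ k →ₐ[k] MvPolynomial σ k}
    (hu : ∀ j, j ∉ Z → u (X j) = X j) {β : MvPolynomial σ k} (hβ : cz k Z β = β) : u β = β := by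
  have : u.comp (cz k Z) = cz k Z := by
    ext1 j
    by_cases hj : j ∈ Z
    · simp [cz, hj]
    · simp [cz, hj, hu j hj]
  rw [← hβ]
  exact DFunLike.congr_fun this β

omit [Fintype σ] in
theorem bas_ell (Y : Sys k σ ι d) (C : Fin d → σ) (hC : ∀ i, C i ∈ Y.Z)
    (hinj : Function.Injective C) (i : Fin d) :
    Y.ell i = ∑ i', Y.hh i (C i') * X (C i') +
      ∑ j ∈ Y.Z \ Finset.univ.image C, Y.hh i j * X j := by
  have hs : Finset.univ.image C ⊆ Y.Z := by
    intro j hj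
    obtain ⟨i', _, rfl⟩ := Finset.mem_image.1 hj
    exact hC i'
  rw [Sys.ell, ← Finset.sum_sdiff hs, add_comm, Finset.sum_image fun a _ b _ h => hinj h]

omit [Fintype σ] in
theorem bas_adj (Y : Sys k σ ι d) (C : Fin d → σ) (i i' : Fin d) :
    cz k Y.Z ((Matrix.of fun i i' => Y.hh i (C i')).adjugate i i') =
      (Matrix.of fun i i' => Y.hh i (C i')).adjugate i i' := by
  have h := AlgHom.map_adjugate (cz k Y.Z) (Matrix.of fun i i' => Y.hh i (C i'))
  have h2 : (cz k Y.Z).mapMatrix (Matrix.of fun i i' => Y.hh i (C i')) =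
      Matrix.of fun i i' => Y.hh i (C i') := by
    ext1 a b
    simp [Y.hhb]
  rw [h2] at h
  exact congrFun (congrFun h i) i'

theorem Sys.exists_uv (Y : Sys k σ ι d) (C : Fin d → σ) (hC : ∀ i, C i ∈ Y.Z)
    (hinj : Function.Injective C) :
    ∃ u v : MvPolynomial σ k →ₐ[k] MvPolynomial σ k,
      (∀ j, j ∉ Set.range C → u (X j) = X j) ∧ (∀ i, u (X (C i)) = Y.ell i) ∧
      (∀ j, j ∉ Y.Z → v (X j) = X j) ∧
      (∀ j ∈ Y.Z, j ∉ Set.range C → v (X j) = Y.minor C * X j) ∧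
      (∀ j ∈ Y.Z, ∃ β : σ → MvPolynomial σ k, (∀ i, cz k Y.Z (β i) = β i) ∧
        v (X j) = ∑ i ∈ Y.Z, β i * X i) ∧
      (∀ j ∈ Y.Z, u (v (X j)) = Y.minor C * X j) ∧ ∀ j ∈ Y.Z, v (u (X j)) = Y.minor C * X j := by
  classical
  set M : Matrix (Fin d) (Fin d) (MvPolynomial σ k) := Matrix.of fun i i' => Y.hh i (C i')
    with hM
  set R : Fin d → MvPolynomial σ k := fun i => ∑ j ∈ Y.Z \ Finset.univ.image C, Y.hh i j * X j
    with hR
  let u : MvPolynomial σ k →ₐ[k] MvPolynomial σ k := aeval (Function.extend C Y.ell X)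
  let v : MvPolynomial σ k →ₐ[k] MvPolynomial σ k :=
    aeval (Function.extend C (fun i => ∑ i', M.adjugate i i' * (X (C i') - R i'))
      fun j => if j ∈ Y.Z then Y.minor C * X j else X j)
  have hu1 : ∀ j, j ∉ Set.range C → u (X j) = X j := fun j hj => by
    simp only [u, aeval_X]
    exact Function.extend_apply' _ _ _ hj
  have hu2 : ∀ i, u (X (C i)) = Y.ell i := fun i => by
    simp only [u, aeval_X]
    exact hinj.extend_apply _ _ i
  have hnZ : ∀ j, j ∉ Y.Z → j ∉ Set.range C := by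
    rintro j hj ⟨i, rfl⟩
    exact hj (hC i)
  have hv1 : ∀ j, j ∉ Y.Z → v (X j) = X j := fun j hj => by
    simp only [v, aeval_X]
    rw [Function.extend_apply' _ _ _ (hnZ j hj), if_neg hj]
  have hv2 : ∀ j ∈ Y.Z, j ∉ Set.range C → v (X j) = Y.minor C * X j := fun j hj hj' => by
    simp only [v, aeval_X]
    rw [Function.extend_apply' _ _ _ hj', if_pos hj]
  have hv3 : ∀ i, v (X (C i)) = ∑ i', M.adjugate i i' * (X (C i') - R i') := fun i => by
    simp only [v, aeval_X]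
    exact hinj.extend_apply _ _ i
  have hub : ∀ β, cz k Y.Z β = β → u β = β := fun β => bas_fix fun j hj => hu1 j (hnZ j hj)
  have hvb : ∀ β, cz k Y.Z β = β → v β = β := fun β => bas_fix hv1
  have hmem : ∀ j ∈ Y.Z \ Finset.univ.image C, j ∈ Y.Z ∧ j ∉ Set.range C := by
    intro j hj
    rw [Finset.mem_sdiff] at hj
    refine ⟨hj.1, ?_⟩
    rintro ⟨i, rfl⟩
    exact hj.2 (Finset.mem_image_of_mem _ (Finset.mem_univ i))
  have huR : ∀ i, u (R i) = R i := fun i => by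
    simp only [hR, map_sum, map_mul]
    exact Finset.sum_congr rfl fun j hj => by rw [hub _ (Y.hhb i j), hu1 j (hmem j hj).2]
  have hvR : ∀ i, v (R i) = Y.minor C * R i := fun i => by
    simp only [hR, map_sum, map_mul, Finset.mul_sum]
    exact Finset.sum_congr rfl fun j hj => by
      rw [hvb _ (Y.hhb i j), hv2 j (hmem j hj).1 (hmem j hj).2]
      ring
  have hell : ∀ i, Y.ell i = ∑ i', M i i' * X (C i') + R i := bas_ell Y C hC hinj
  have hdet : Y.minor C = M.det := rfl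
  refine ⟨u, v, hu1, hu2, hv1, hv2, fun j hj => ?_, fun j hj => ?_, fun j hj => ?_⟩
  · change BasLin Y.Z (v (X j))
    by_cases h : j ∈ Set.range C
    · obtain ⟨i, rfl⟩ := h
      rw [hv3]
      refine BasLin.sum _ fun i' _ => BasLin.mul (bas_adj Y C i i') ((basLin_X (hC i')).sub ?_)
      exact BasLin.sum _ fun j hj => BasLin.mul (Y.hhb _ _) (basLin_X (hmem j hj).1)
    · rw [hv2 j hj h]
      exact BasLin.mul (Y.cz_minor C) (basLin_X hj)
  · by_cases h : j ∈ Set.range C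
    · obtain ⟨i, rfl⟩ := h
      rw [hv3, map_sum]
      have h1 : ∀ i', u (M.adjugate i i' * (X (C i') - R i')) =
          M.adjugate i i' * (M.mulVec fun a => X (C a)) i' := fun i' => by
        rw [map_mul, hub _ (bas_adj Y C i i'), map_sub, hu2, huR, hell, add_sub_cancel_right]
        rfl
      rw [Finset.sum_congr rfl fun i' _ => h1 i']
      have h2 := congrFun (Matrix.mulVec_mulVec (fun a => (X (C a) : MvPolynomial σ k))
        M.adjugate M) i
      rw [Matrix.adjugate_mul, Matrix.smul_mulVec, Matrix.one_mulVec] at h2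
      exact h2
    · rw [hv2 j hj h, map_mul, hub _ (Y.cz_minor C), hu1 j h]
  · by_cases h : j ∈ Set.range C
    · obtain ⟨i, rfl⟩ := h
      rw [hu2, hell, map_add, hvR, map_sum]
      have h1 : ∀ i', v (M i i' * X (C i')) =
          M i i' * (M.adjugate.mulVec fun a => X (C a) - R a) i' := fun i' => by
        rw [map_mul, hvb (M i i') (Y.hhb _ _), hv3]
        rfl
      rw [Finset.sum_congr rfl fun i' _ => h1 i']
      have h2 := congrFun (Matrix.mulVec_mulVec (fun a => (X (C a) - R a : MvPolynomial σ k))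
        M M.adjugate) i
      rw [Matrix.mul_adjugate, Matrix.smul_mulVec, Matrix.one_mulVec] at h2
      have h3 : ∑ i', M i i' * (M.adjugate.mulVec fun a => X (C a) - R a) i' =
          M.det * (X (C i) - R i) := h2
      rw [h3, hdet]
      ring
    · rw [hu1 j h, hv2 j hj h]

theorem Sys.minor_inj (Y : Sys k σ ι d) {C : Fin d → σ} (h : Y.minor C ≠ 0) :
    Function.Injective C := by
  intro a b hab
  by_contra hne
  exact h (Matrix.det_zero_of_column_eq hne fun i => by simp [hab])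

theorem bas_hu (Y : Sys k σ ι d) {C : Fin d → σ}
    {u : MvPolynomial σ k →ₐ[k] MvPolynomial σ k}
    (hu1 : ∀ j, j ∉ Set.range C → u (X j) = X j) (hu2 : ∀ i, u (X (C i)) = Y.ell i) :
    ∀ j ∈ Y.Z, BasLin Y.Z (u (X j)) := by
  intro j hj
  by_cases h : j ∈ Set.range C
  · obtain ⟨i, rfl⟩ := h
    rw [hu2]
    exact ⟨Y.hh i, Y.hhb i, rfl⟩
  · rw [hu1 j h]
    exact basLin_X hj

theorem Sys.reg_ell (Y : Sys k σ ι d) (C : Fin d → σ) (hC : ∀ i, C i ∈ Y.Z)
    (L : Submodule (AA k D σ) (AA k D σ)) (i : Fin d) (r : AA k D σ)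
    (h : Y.ell i • r ∈ extL Y.Z L ⊔ iA D (Ideal.span (Y.ell '' {i' | i' < i}))) :
    ∃ m : ℕ, Y.minor C ^ m • r ∈ extL Y.Z L ⊔ iA D (Ideal.span (Y.ell '' {i' | i' < i})) := by
  by_cases h0 : Y.minor C = 0
  · exact ⟨1, by rw [h0, pow_one, zero_smul]; exact zero_mem _⟩
  have hinj := Y.minor_inj h0
  obtain ⟨u, v, hu1, hu2, hv1, -, -, huv, hvu⟩ := Y.exists_uv C hC hinj
  have hnZ : ∀ j, j ∉ Y.Z → j ∉ Set.range C := by
    rintro j hj ⟨i, rfl⟩
    exact hj (hC i)
  have himg : (fun j => u (X j)) '' (C '' {i' | i' < i}) = Y.ell '' {i' | i' < i} := by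
    rw [Set.image_image]
    exact Set.image_congr fun a _ => hu2 a
  rw [← himg] at h ⊢
  rw [← hu2] at h
  refine linR Y.Z _ (Y.cz_minor C) u v (fun j hj => hu1 j (hnZ j hj)) hv1 (bas_hu Y hu1 hu2)
    huv hvu L _ ?_ (C i) (hC i) ?_ r h
  · rintro _ ⟨a, _, rfl⟩
    exact hC a
  · rintro ⟨a, ha, hai⟩
    rw [hinj hai] at ha
    exact lt_irrefl _ (show i < i from ha)

theorem Sys.reg_X (Y : Sys k σ ι d) (C : Fin d → σ) (hC : ∀ i, C i ∈ Y.Z)
    (L : Submodule (AA k D σ) (AA k D σ)) (T : Set σ) (hT : ∀ j ∈ T, j ∈ Y.Z ∧ j ∉ Set.range C)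
    (j : σ) (hj : j ∈ Y.Z) (hjC : j ∉ Set.range C) (hjT : j ∉ T) (r : AA k D σ)
    (h : (X j : MvPolynomial σ k) • r ∈
      extL Y.Z L ⊔ iA D (Y.J ⊔ Ideal.span ((fun i => (X i : MvPolynomial σ k)) '' T))) :
    ∃ m : ℕ, Y.minor C ^ m • r ∈
      extL Y.Z L ⊔ iA D (Y.J ⊔ Ideal.span ((fun i => (X i : MvPolynomial σ k)) '' T)) := by
  by_cases h0 : Y.minor C = 0
  · exact ⟨1, by rw [h0, pow_one, zero_smul]; exact zero_mem _⟩
  have hinj := Y.minor_inj h0
  obtain ⟨u, v, hu1, hu2, hv1, -, -, huv, hvu⟩ := Y.exists_uv C hC hinj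
  have hnZ : ∀ j, j ∉ Y.Z → j ∉ Set.range C := by
    rintro j hj ⟨i, rfl⟩
    exact hj (hC i)
  have himg : Ideal.span ((fun j => u (X j)) '' (Set.range C ∪ T)) =
      Y.J ⊔ Ideal.span ((fun i => (X i : MvPolynomial σ k)) '' T) := by
    rw [Set.image_union, Ideal.span_union, ← Set.range_comp]
    congr 2
    · exact congrArg Set.range (funext hu2)
    · exact Set.image_congr fun a ha => hu1 a (hT a ha).2
  rw [← himg] at h ⊢
  rw [← hu1 j hjC] at h
  refine linR Y.Z _ (Y.cz_minor C) u v (fun j hj => hu1 j (hnZ j hj)) hv1 (bas_hu Y hu1 hu2)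
    huv hvu L _ ?_ j hj ?_ r h
  · rintro a (⟨a, rfl⟩ | ha)
    · exact hC a
    · exact (hT a ha).1
  · rintro (h1 | h1)
    · exact hjC h1
    · exact hjT h1

theorem Sys.minor_X (Y : Sys k σ ι d) (C : Fin d → σ) (hC : ∀ i, C i ∈ Y.Z) (j : σ)
    (hj : j ∈ Y.Z) : Y.minor C * X j ∈ Y.J ⊔
      Ideal.span ((fun i => (X i : MvPolynomial σ k)) '' {i | i ∈ Y.Z ∧ i ∉ Set.range C}) := by
  by_cases h0 : Y.minor C = 0
  · rw [h0, zero_mul]
    exact zero_mem _
  have hinj := Y.minor_inj h0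
  obtain ⟨u, v, hu1, hu2, -, -, hvl, huv, -⟩ := Y.exists_uv C hC hinj
  have hnZ : ∀ j, j ∉ Y.Z → j ∉ Set.range C := by
    rintro j hj ⟨i, rfl⟩
    exact hj (hC i)
  obtain ⟨β, -, hβ⟩ := hvl j hj
  rw [← huv j hj, hβ, map_sum]
  refine Ideal.sum_mem _ fun i hi => ?_
  rw [map_mul]
  refine Ideal.mul_mem_left _ _ ?_
  by_cases h : i ∈ Set.range C
  · obtain ⟨a, rfl⟩ := h
    rw [hu2]
    exact Ideal.mem_sup_left (Ideal.subset_span ⟨a, rfl⟩)
  · rw [hu1 i h]
    exact Ideal.mem_sup_right (Ideal.subset_span ⟨i, ⟨hi, h⟩, rfl⟩)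

end Vale.Agent.P200E
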