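import Vale.Agent.P200E.Defs

namespace Vale.Agent.P200E

open MvPolynomial TensorProduct

universe u

variable {k L : Type u} [Field k] [Field L] [Algebra k L] {c : ℕ}

theorem Cod0_le {s t : Set L} (h : ∀ a ∈ s, IsAlgebraic (Algebra.adjoin k t) a) :
    (AlgebraicIndependent.matroid k L).eRk s ≤ (AlgebraicIndependent.matroid k L).eRk t := by
  rw [← Matroid.eRk_closure_eq _ t]
  refine Matroid.eRk_mono _ fun a ha => ?_
  rw [AlgebraicIndependent.matroid_closure_eq]
  exact h a ha

theorem Cod0_mem {t : Set L} {a : L} (h : a ∈ Algebra.adjoin k t) :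
    IsAlgebraic (Algebra.adjoin k t) a :=
  isAlgebraic_algebraMap (⟨a, h⟩ : Algebra.adjoin k t)

theorem Cod0_fin (s : Set L) {T : Type} (F : Finset T) (m : T → L) :
    (AlgebraicIndependent.matroid k L).eRk (s ∪ m '' F) ≤
      (AlgebraicIndependent.matroid k L).eRk s + (F.card : ℕ) := by
  refine (Matroid.eRk_union_le_eRk_add_encard _ _ _).trans ?_
  gcongr
  refine (Set.encard_image_le _ _).trans ?_
  rw [Set.encard_coe_eq_coe_finsetCard]

theorem alg_drop (s : Set L) (m : Fin c → L) (q : MvPolynomial (Fin c) L) (hq : q ≠ 0)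
    (hs : ∀ α, coeff α q ∈ Algebra.adjoin k s) (h : eval m q = 0) :
    (AlgebraicIndependent.matroid k L).eRk (s ∪ Set.range m) + 1 ≤
      (AlgebraicIndependent.matroid k L).eRk s + c := by
  induction c with
  | zero =>
    exfalso
    apply hq
    rw [q.eq_C_of_isEmpty] at h ⊢
    rw [eval_C] at h
    rw [h, C_0]
  | succ n ih =>
    have hP : finSuccEquiv L n q ≠ 0 := by
      intro h0
      exact hq ((finSuccEquiv L n).injective (by rw [h0, map_zero]))
    rw [← Fin.cons_self_tail m, eval_eq_eval_mv_eval'] at h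
    have hc : ∀ i α, coeff α ((finSuccEquiv L n q).coeff i) ∈ Algebra.adjoin k s := fun i α => by
      rw [finSuccEquiv_coeff_coeff]
      exact hs _
    have hr : s ∪ Set.range m = insert (m 0) (s ∪ Set.range (Fin.tail m)) := by
      conv_lhs => rw [← Fin.cons_self_tail m, Fin.range_cons]
      rw [Set.union_insert]
    rw [hr]
    by_cases h0 : Polynomial.map (eval (Fin.tail m)) (finSuccEquiv L n q) = 0
    · obtain ⟨i, hi⟩ : ∃ i, (finSuccEquiv L n q).coeff i ≠ 0 :=
        ⟨_, Polynomial.leadingCoeff_ne_zero.2 hP⟩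
      have h1 : eval (Fin.tail m) ((finSuccEquiv L n q).coeff i) = 0 := by
        rw [← Polynomial.coeff_map, h0, Polynomial.coeff_zero]
      have h2 := ih (Fin.tail m) _ hi (hc i) h1
      calc _ ≤ (AlgebraicIndependent.matroid k L).eRk (s ∪ Set.range (Fin.tail m)) + 1 + 1 := by
            gcongr
            exact Matroid.eRk_insert_le_add_one _ _ _
        _ ≤ (AlgebraicIndependent.matroid k L).eRk s + n + 1 := by gcongr
        _ = _ := by push_cast; rw [add_assoc]
    · have hl : Polynomial.map (eval (Fin.tail m)) (finSuccEquiv L n q) ∈ Polynomial.lifts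
          (algebraMap (Algebra.adjoin k (s ∪ Set.range (Fin.tail m))) L) := by
        rw [Polynomial.lifts_iff_coeff_lifts]
        intro i
        rw [Polynomial.coeff_map]
        refine ⟨⟨_, eval_mem (fun α _ => Algebra.adjoin_mono Set.subset_union_left (hc i α))
          fun j => Algebra.subset_adjoin (Or.inr ⟨j, rfl⟩)⟩, rfl⟩
      obtain ⟨p, hp⟩ := (Polynomial.mem_lifts _).1 hl
      have ha : IsAlgebraic (Algebra.adjoin k (s ∪ Set.range (Fin.tail m))) (m 0) := by
        refine ⟨p, fun hp0 => h0 (by rw [← hp, hp0, Polynomial.map_zero]), ?_⟩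
        rw [Polynomial.aeval_def, Polynomial.eval₂_eq_eval_map, hp, h]
      have h3 : (AlgebraicIndependent.matroid k L).eRk
          (insert (m 0) (s ∪ Set.range (Fin.tail m))) ≤
          (AlgebraicIndependent.matroid k L).eRk (s ∪ Set.range (Fin.tail m)) := by
        refine Cod0_le ?_
        rintro a (rfl | ha')
        · exact ha
        · exact Cod0_mem (Algebra.subset_adjoin ha')
      have h4 := Cod0_fin (k := k) s Finset.univ (Fin.tail m)
      rw [Finset.coe_univ, Set.image_univ, Finset.card_univ, Fintype.card_fin] at h4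
      calc _ ≤ (AlgebraicIndependent.matroid k L).eRk s + n + 1 := by
            gcongr
            exact h3.trans h4
        _ = _ := by push_cast; rw [add_assoc]

theorem Cod0_cramer (S : Subalgebra k L) (m A B : Fin c → L) (hA : ∀ x, A x ∈ S)
    (hB : ∀ x, B x ∈ S) (h1 : ∑ x, m x * A x = 0) (h2 : ∑ x, m x * B x = 0)
    {x y : Fin c} (h : A x * B y ≠ A y * B x) (hm : ∀ z, z ≠ x → z ≠ y → m z ∈ S) :
    IsAlgebraic S (m x) := by
  have hD : A x * B y - A y * B x ∈ S :=
    sub_mem (mul_mem (hA _) (hB _)) (mul_mem (hA _) (hB _))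
  have e : ∑ z, m z * (A z * B y - A y * B z) = 0 := by
    have : ∀ z, m z * (A z * B y - A y * B z) = m z * A z * B y - A y * (m z * B z) :=
      fun z => by ring
    simp only [this, Finset.sum_sub_distrib, ← Finset.sum_mul, ← Finset.mul_sum, h1, h2]
    ring
  rw [← Finset.add_sum_erase _ _ (Finset.mem_univ x)] at e
  have hS : ∑ z ∈ Finset.univ.erase x, m z * (A z * B y - A y * B z) ∈ S := by
    refine sum_mem fun z hz => ?_
    by_cases hzy : z = y
    · subst hzy
      rw [sub_self, mul_zero]
      exact zero_mem _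
    · exact mul_mem (hm z (Finset.mem_erase.1 hz).1 hzy)
        (sub_mem (mul_mem (hA _) (hB _)) (mul_mem (hA _) (hB _)))
  have hx : (A x * B y - A y * B x) * m x ∈ S := by
    rw [mul_comm, eq_neg_of_add_eq_zero_left e]
    exact neg_mem hS
  exact IsAlgebraic.of_mul (mem_nonZeroDivisors_of_ne_zero (sub_ne_zero.2 h))
    (isAlgebraic_algebraMap (⟨_, hD⟩ : S)) (isAlgebraic_algebraMap (⟨_, hx⟩ : S))

theorem lin_drop2 (s : Set L) (m A B : Fin c → L) (hA : ∀ x, A x ∈ Algebra.adjoin k s)
    (hB : ∀ x, B x ∈ Algebra.adjoin k s) (h1 : ∑ x, m x * A x = 0) (h2 : ∑ x, m x * B x = 0)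
    {x y : Fin c} (h : A x * B y ≠ A y * B x) :
    (AlgebraicIndependent.matroid k L).eRk (s ∪ Set.range m) + 2 ≤
      (AlgebraicIndependent.matroid k L).eRk s + c := by
  have hxy : y ≠ x := by
    rintro rfl
    exact h rfl
  set F : Finset (Fin c) := (Finset.univ.erase x).erase y with hF
  have hcard : F.card + 2 = c := by
    have a := Finset.card_erase_add_one
      (Finset.mem_erase.2 ⟨hxy, Finset.mem_univ y⟩ : y ∈ Finset.univ.erase x)
    have b := Finset.card_erase_add_one (Finset.mem_univ x)
    rw [Finset.card_univ, Fintype.card_fin] at b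
    rw [hF]
    omega
  have hA' : ∀ z, A z ∈ Algebra.adjoin k (s ∪ m '' F) := fun z =>
    Algebra.adjoin_mono Set.subset_union_left (hA z)
  have hB' : ∀ z, B z ∈ Algebra.adjoin k (s ∪ m '' F) := fun z =>
    Algebra.adjoin_mono Set.subset_union_left (hB z)
  have hm : ∀ z, z ≠ x → z ≠ y → m z ∈ Algebra.adjoin k (s ∪ m '' F) := fun z a b =>
    Algebra.subset_adjoin (Or.inr ⟨z, by simp [hF, a, b], rfl⟩)
  have h3 : (AlgebraicIndependent.matroid k L).eRk (s ∪ Set.range m) ≤
      (AlgebraicIndependent.matroid k L).eRk (s ∪ m '' F) := by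
    refine Cod0_le ?_
    rintro a (ha | ⟨z, rfl⟩)
    · exact Cod0_mem (Algebra.subset_adjoin (Or.inl ha))
    · by_cases hzx : z = x
      · subst hzx
        exact Cod0_cramer _ m A B hA' hB' h1 h2 h hm
      · by_cases hzy : z = y
        · subst hzy
          exact Cod0_cramer _ m A B hA' hB' h1 h2 h.symm fun w a b => hm w b a
        · exact Cod0_mem (hm z hzx hzy)
  calc _ ≤ (AlgebraicIndependent.matroid k L).eRk s + (F.card : ℕ) + 2 := by
        gcongr
        exact h3.trans (Cod0_fin s F m)
    _ = _ := by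
        rw [add_assoc]
        congr 1
        exact_mod_cast hcard

end Vale.Agent.P200E
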