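import Vale.Agent.P200E.Defs

namespace Vale.Agent.P200E

open MvPolynomial TensorProduct

universe u

variable {k L : Type u} [Field k] [Field L] [Algebra k L] {c : ℕ}

theorem prod_add_Pur (p : Fin c → L) (α β : Fin c →₀ ℕ) :
    ((α + β).prod fun κ n => p κ ^ n) =
      (α.prod fun κ n => p κ ^ n) * β.prod fun κ n => p κ ^ n :=
  Finsupp.prod_add_index' (fun _ => pow_zero _) fun _ _ _ => pow_add _ _ _

theorem prod_single_Pur (p : Fin c → L) (x : Fin c) (n : ℕ) :
    ((Finsupp.single x n).prod fun κ n => p κ ^ n) = p x ^ n :=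
  Finsupp.prod_single_index (pow_zero _)

theorem split_Pur {n : ℕ} {α : Fin c →₀ ℕ} (h : α.degree = n + 1) :
    ∃ x β, α = Finsupp.single x 1 + β ∧ β.degree = n := by
  have h0 : α ≠ 0 := by
    rintro rfl
    simp at h
  obtain ⟨x, hx⟩ := Finsupp.ne_iff.1 h0
  have h1 : Finsupp.single x 1 ≤ α := Finsupp.single_le_iff.2 (Nat.pos_of_ne_zero hx)
  obtain ⟨β, rfl⟩ := exists_add_of_le h1
  refine ⟨x, β, rfl, ?_⟩
  rw [map_add, Finsupp.degree_single] at h
  omega

theorem X_mul_Pur (x : Fin c) (u : Fin c →₀ ℕ) :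
    (X x * monomial u 1 : MvPolynomial (Fin c) L) = monomial (Finsupp.single x 1 + u) 1 := by
  rw [X, monomial_mul, one_mul]

theorem deg_Pur (x : Fin c) {u : Fin c →₀ ℕ} {n : ℕ} (h : u.degree = n) :
    (Finsupp.single x 1 + u).degree = n + 1 := by
  rw [map_add, Finsupp.degree_single, h, add_comm]

theorem pure_of_minor {b : ℕ} (lam : MvPolynomial (Fin c) L →ₗ[L] L)
    (h : ∀ (x y : Fin c) (u v : Fin c →₀ ℕ), u.degree = b → v.degree = b →
      lam (X x * monomial u 1) * lam (X y * monomial v 1) =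
        lam (X y * monomial u 1) * lam (X x * monomial v 1)) :
    ∃ (p : Fin c → L) (r : L), ∀ α : Fin c →₀ ℕ, α.degree = b + 1 →
      lam (monomial α 1) = r * α.prod fun κ n => p κ ^ n := by

  by_cases h0 : ∀ α : Fin c →₀ ℕ, α.degree = b + 1 → lam (monomial α 1) = 0
  · exact ⟨0, 0, fun α hα => by rw [h0 α hα, zero_mul]⟩
  push Not at h0
  obtain ⟨α0, hα0, hne⟩ := h0
  obtain ⟨x0, u0, rfl, hu0⟩ := split_Pur hα0
  simp only [X_mul_Pur] at h
  refine ⟨fun x => lam (monomial (Finsupp.single x 1 + u0) 1) /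
    lam (monomial (Finsupp.single x0 1 + u0) 1), lam (monomial (Finsupp.single x0 (b + 1)) 1), ?_⟩
  have key : ∀ (n : ℕ) (β : Fin c →₀ ℕ) (m : ℕ), β.degree = n → n + m = b + 1 →
      lam (monomial (β + Finsupp.single x0 m) 1) = lam (monomial (Finsupp.single x0 (b + 1)) 1) *
        β.prod fun κ n => (lam (monomial (Finsupp.single κ 1 + u0) 1) /
          lam (monomial (Finsupp.single x0 1 + u0) 1)) ^ n := by
    intro n
    induction n with
    | zero =>
      intro β m hβ hm
      rw [(Finsupp.degree_eq_zero_iff β).1 hβ, zero_add] 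
      rw [zero_add] at hm
      simp [hm]
    | succ n ih =>
      intro β m hβ hm
      obtain ⟨x, β', rfl, hβ'⟩ := split_Pur hβ
      have h1 := h x x0 u0 (β' + Finsupp.single x0 m) hu0
        (by rw [map_add, Finsupp.degree_single, hβ']; omega)
      have h2 := ih β' (m + 1) hβ' (by omega)
      have e : Finsupp.single x0 1 + (β' + Finsupp.single x0 m) = β' + Finsupp.single x0 (m + 1) := by
        rw [Finsupp.single_add]; abel
      rw [e, h2] at h1
      rw [add_assoc, prod_add_Pur, prod_single_Pur, pow_one]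
      field_simp
      linear_combination -h1
  intro α hα
  simpa using key (b + 1) α 0 hα rfl

theorem par_Pur {p q : Fin c → L} (h : ∀ a e, p a * q e = p e * q a) (n : ℕ) :
    ∀ u v : Fin c →₀ ℕ, u.degree = n → v.degree = n →
      (u.prod fun κ n => p κ ^ n) * (v.prod fun κ n => q κ ^ n) =
        (u.prod fun κ n => q κ ^ n) * v.prod fun κ n => p κ ^ n := by
  induction n with
  | zero =>
    intro u v hu hv
    rw [(Finsupp.degree_eq_zero_iff u).1 hu, (Finsupp.degree_eq_zero_iff v).1 hv]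
    simp
  | succ n ih =>
    intro u v hu hv
    obtain ⟨a, u', rfl, hu'⟩ := split_Pur hu
    obtain ⟨e, v', rfl, hv'⟩ := split_Pur hv
    simp only [prod_add_Pur, prod_single_Pur, pow_one]
    have h1 := ih u' v' hu' hv'
    have h2 := h a e
    generalize (u'.prod fun κ n => p κ ^ n) = A at *
    generalize (v'.prod fun κ n => q κ ^ n) = B at *
    generalize (u'.prod fun κ n => q κ ^ n) = A' at *
    generalize (v'.prod fun κ n => p κ ^ n) = B' at *
    linear_combination (p a * q e) * h1 + (A' * B') * h2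

theorem nonpure_poly {b : ℕ} (s : Set L) (lam : MvPolynomial (Fin c) L →ₗ[L] L)
    (hs : ∀ α : Fin c →₀ ℕ, α.degree = b + 3 → lam (monomial α 1) ∈ Algebra.adjoin k s)
    (hnp : ∀ (p : Fin c → L) (r : L),
      ¬ ∀ α : Fin c →₀ ℕ, α.degree = b + 3 → lam (monomial α 1) = r * α.prod fun κ n => p κ ^ n) :
    ∃ q : MvPolynomial (Fin c) L, q ≠ 0 ∧ (∀ α, coeff α q ∈ Algebra.adjoin k s) ∧
      ∀ (m p : Fin c → L) (r : L), (∀ α : Fin c →₀ ℕ, α.degree = b + 2 →
        lam ((∑ κ, C (m κ) * X κ) * monomial α 1) = r * α.prod fun κ n => p κ ^ n) →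
        eval m q = 0 := by

  classical
  let A : (Fin c →₀ ℕ) → MvPolynomial (Fin c) L := fun α =>
    ∑ κ, C (lam (monomial (Finsupp.single κ 1 + α) 1)) * X κ
  have hA : ∀ (m : Fin c → L) (α : Fin c →₀ ℕ),
      eval m (A α) = lam ((∑ κ, C (m κ) * X κ) * monomial α 1) := by
    intro m α
    simp only [A, map_sum, map_mul, eval_C, eval_X, Finset.sum_mul]
    refine Finset.sum_congr rfl fun κ _ => ?_
    rw [mul_assoc, X_mul_Pur, ← smul_eq_C_mul, map_smul, smul_eq_mul, mul_comm]
  have hc : ∀ α : Fin c →₀ ℕ, α.degree = b + 2 → ∀ β, coeff β (A α) ∈ Algebra.adjoin k s := by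
    intro α hα β
    simp only [A, coeff_sum, coeff_C_mul, coeff_X]
    refine Subalgebra.sum_mem _ fun κ _ => Subalgebra.mul_mem _ (hs _ (deg_Pur κ hα)) ?_
    split_ifs
    exacts [one_mem _, zero_mem _]
  have hc2 : ∀ α α' : Fin c →₀ ℕ, α.degree = b + 2 → α'.degree = b + 2 →
      ∀ β, coeff β (A α * A α') ∈ Algebra.adjoin k s := fun α α' h1 h2 β => by
    rw [coeff_mul]
    exact Subalgebra.sum_mem _ fun z _ => Subalgebra.mul_mem _ (hc _ h1 _) (hc _ h2 _)
  by_contra hno
  have all : ∀ (x y : Fin c) (u v : Fin c →₀ ℕ), u.degree = b + 1 → v.degree = b + 1 →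
      A (Finsupp.single x 1 + u) * A (Finsupp.single y 1 + v) -
        A (Finsupp.single y 1 + u) * A (Finsupp.single x 1 + v) = 0 := by
    intro x y u v hu hv
    by_contra hq
    refine hno ⟨_, hq, fun β => ?_, fun m p r hp => ?_⟩
    · rw [coeff_sub]
      exact Subalgebra.sub_mem _ (hc2 _ _ (deg_Pur x hu) (deg_Pur y hv) β)
        (hc2 _ _ (deg_Pur y hu) (deg_Pur x hv) β)
    · rw [map_sub, map_mul, map_mul, hA, hA, hA, hA, hp _ (deg_Pur x hu), hp _ (deg_Pur y hv),
        hp _ (deg_Pur y hu), hp _ (deg_Pur x hv)]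
      simp only [prod_add_Pur]
      ring
  have ev : ∀ (m : Fin c → L) (x y : Fin c) (u v : Fin c →₀ ℕ), u.degree = b + 1 →
      v.degree = b + 1 →
      eval m (A (Finsupp.single x 1 + u)) * eval m (A (Finsupp.single y 1 + v)) =
        eval m (A (Finsupp.single y 1 + u)) * eval m (A (Finsupp.single x 1 + v)) := by
    intro m x y u v hu hv
    have := congrArg (eval m) (all x y u v hu hv)
    rwa [map_sub, map_mul, map_mul, map_zero, sub_eq_zero] at this
  have e1 : ∀ (i : Fin c) (α : Fin c →₀ ℕ),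
      eval (Pi.single i 1) (A α) = lam (X i * monomial α 1) := by
    intro i α
    simp [A, Pi.single_apply, X_mul_Pur]
  have e2 : ∀ (i j : Fin c) (α : Fin c →₀ ℕ), eval (Pi.single i 1 + Pi.single j 1) (A α) =
      lam (X i * monomial α 1) + lam (X j * monomial α 1) := by
    intro i j α
    simp [A, Pi.single_apply, X_mul_Pur, mul_add, Finset.sum_add_distrib]
  have pu : ∀ i : Fin c, ∃ (p : Fin c → L) (r : L), ∀ α : Fin c →₀ ℕ, α.degree = b + 2 →
      lam (X i * monomial α 1) = r * α.prod fun κ n => p κ ^ n := by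
    intro i
    refine pure_of_minor (b := b + 1) (lam ∘ₗ LinearMap.mulLeft L (X i)) fun x y u v hu hv => ?_
    have := ev (Pi.single i 1) x y u v hu hv
    simp only [e1] at this
    simpa only [LinearMap.comp_apply, LinearMap.mulLeft_apply, X_mul_Pur x, X_mul_Pur y] using this
  obtain ⟨p, r, hp⟩ := pure_of_minor (b := b + 2) lam fun i j u v hu hv => by
    obtain ⟨p, r, hp⟩ := pu i
    obtain ⟨q, t, hq⟩ := pu j
    rw [hp u hu, hq v hv, hq u hu, hp v hv]
    by_cases hr : r * t = 0
    · linear_combination ((u.prod fun κ n => p κ ^ n) * (v.prod fun κ n => q κ ^ n) -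
        (u.prod fun κ n => q κ ^ n) * v.prod fun κ n => p κ ^ n) * hr
    have h3 : ∀ (a e : Fin c) (w w' : Fin c →₀ ℕ), w.degree = b + 1 → w'.degree = b + 1 →
        (p a * q e - p e * q a) * ((w.prod fun κ n => p κ ^ n) * (w'.prod fun κ n => q κ ^ n) -
          (w.prod fun κ n => q κ ^ n) * w'.prod fun κ n => p κ ^ n) = 0 := by
      intro a e w w' hw hw'
      have := ev (Pi.single i 1 + Pi.single j 1) a e w w' hw hw'
      rw [e2, e2, e2, e2, hp _ (deg_Pur a hw), hp _ (deg_Pur e hw), hp _ (deg_Pur a hw'),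
        hp _ (deg_Pur e hw'), hq _ (deg_Pur a hw), hq _ (deg_Pur e hw), hq _ (deg_Pur a hw'),
        hq _ (deg_Pur e hw')] at this
      simp only [prod_add_Pur, prod_single_Pur, pow_one] at this
      refine mul_left_cancel₀ hr ?_
      linear_combination this
    have h4 : ∀ a e, p a * q e = p e * q a := by
      intro a e
      by_contra hne
      have hD := sub_ne_zero.2 hne
      have h5 := (mul_eq_zero.1 (h3 a e (Finsupp.single a (b + 1)) (Finsupp.single e (b + 1))
        (Finsupp.degree_single _ _) (Finsupp.degree_single _ _))).resolve_left hD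
      have h6 := (mul_eq_zero.1 (h3 a e (Finsupp.single a 1 + Finsupp.single a b)
        (Finsupp.single e 1 + Finsupp.single a b) (deg_Pur a (Finsupp.degree_single _ _))
        (deg_Pur e (Finsupp.degree_single _ _)))).resolve_left hD
      simp only [prod_add_Pur, prod_single_Pur, pow_one] at h5 h6
      have h7 : (p a * q a) ^ b * (p a * q e - p e * q a) = 0 := by
        rw [mul_pow]; linear_combination h6
      have h8 : p a * q a = 0 := pow_eq_zero_of_le (Nat.le_refl b) ((mul_eq_zero.1 h7).resolve_right hD)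
        |> eq_zero_of_pow_eq_zero
      have h9 : (p a * q e) ^ (b + 1) = (p e * q a) ^ (b + 1) := by
        rw [mul_pow, mul_pow]; linear_combination h5
      rcases mul_eq_zero.1 h8 with h | h
      · rw [h, zero_mul, zero_pow (Nat.succ_ne_zero b)] at h9
        exact hne (by rw [h, zero_mul, eq_zero_of_pow_eq_zero h9.symm])
      · rw [h, mul_zero, zero_pow (Nat.succ_ne_zero b)] at h9
        exact hne (by rw [h, mul_zero, eq_zero_of_pow_eq_zero h9])
    linear_combination (r * t) * par_Pur h4 (b + 2) u v hu hv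
  exact hnp p r hp

end Vale.Agent.P200E
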