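import Vale.Agent.P200E.Cod0
import Vale.Agent.P200E.Pur

namespace Vale.Agent.P200E

open MvPolynomial TensorProduct

universe u

variable {k L : Type u} [Field k] [Field L] [Algebra k L] {c : ℕ}

theorem cod1_range (s : Set L) (m : Fin c → L) :
    (AlgebraicIndependent.matroid k L).eRk (s ∪ Set.range m) ≤
      (AlgebraicIndependent.matroid k L).eRk s + c := by
  refine (Matroid.eRk_union_le_eRk_add_encard _ _ _).trans ?_
  gcongr
  rw [← Set.image_univ]
  refine (Set.encard_image_le _ _).trans ?_
  simp [Set.encard_univ]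

theorem cod1_blocks (s : Set L) {T : Type} (F : Finset T) (m : T → Fin c → L) :
    (AlgebraicIndependent.matroid k L).eRk (s ∪ ⋃ t ∈ F, Set.range (m t)) ≤
      (AlgebraicIndependent.matroid k L).eRk s + F.card * c := by
  classical
  induction F using Finset.induction_on with
  | empty => simp
  | insert t F ht ih =>
    have e : (s ∪ ⋃ t' ∈ insert t F, Set.range (m t')) =
        (s ∪ ⋃ t' ∈ F, Set.range (m t')) ∪ Set.range (m t) := by
      rw [Finset.set_biUnion_insert]
      ext x
      simp only [Set.mem_union]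
      tauto
    rw [e, Finset.card_insert_of_notMem ht]
    refine (cod1_range _ _).trans ?_
    push_cast
    rw [add_mul, one_mul, ← add_assoc]
    gcongr

theorem cod1_eval {b : ℕ} (lam : MvPolynomial (Fin c) L →ₗ[L] L) (p : Fin c → L) (r : L)
    (h : ∀ α : Fin c →₀ ℕ, α.degree = b → lam (monomial α 1) = r * α.prod fun κ n => p κ ^ n)
    {g : MvPolynomial (Fin c) L} (hg : g.IsHomogeneous b) : lam g = r * eval p g := by
  conv_lhs => rw [g.as_sum]
  conv_rhs => rw [g.as_sum]
  rw [map_sum, map_sum, Finset.mul_sum]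
  refine Finset.sum_congr rfl fun α hα => ?_
  have hd : α.degree = b := by
    by_contra hne
    exact (mem_support_iff.1 hα) (hg.coeff_eq_zero hne)
  have e : (monomial α (coeff α g) : MvPolynomial (Fin c) L) = coeff α g • monomial α 1 := by
    rw [smul_monomial, smul_eq_mul, mul_one]
  rw [eval_monomial, e, map_smul, h α hd, smul_eq_mul]
  ring

theorem cod1_lin_hom (m : Fin c → L) :
    (∑ κ, C (m κ) * X κ : MvPolynomial (Fin c) L).IsHomogeneous 1 :=
  IsHomogeneous.sum _ _ _ fun _ _ => isHomogeneous_C_mul_X _ _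

theorem cod1_X_mul (κ : Fin c) (α : Fin c →₀ ℕ) :
    (X κ * monomial α 1 : MvPolynomial (Fin c) L) = monomial (Finsupp.single κ 1 + α) 1 := by
  rw [X, monomial_mul, one_mul]

theorem cod1_lam_lin (lam : MvPolynomial (Fin c) L →ₗ[L] L) (m : Fin c → L)
    (g : MvPolynomial (Fin c) L) :
    lam ((∑ κ, C (m κ) * X κ) * g) = ∑ κ, m κ * lam (X κ * g) := by
  rw [Finset.sum_mul, map_sum]
  refine Finset.sum_congr rfl fun κ _ => ?_
  rw [mul_assoc, C_mul', map_smul, smul_eq_mul]

theorem cod1_deg (κ : Fin c) (α : Fin c →₀ ℕ) :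
    (Finsupp.single κ 1 + α).degree = α.degree + 1 := by
  rw [map_add, Finsupp.degree_single, add_comm]

theorem cod1_deg_one {α : Fin c →₀ ℕ} (h : α.degree = 1) : ∃ κ, α = Finsupp.single κ 1 := by
  have h0 : α ≠ 0 := by
    rintro rfl
    simp at h
  obtain ⟨κ, hκ⟩ := Finsupp.ne_iff.1 h0
  have hk : α κ ≠ 0 := by simpa using hκ
  have hle : Finsupp.single κ 1 ≤ α := by
    rw [Finsupp.single_le_iff]
    omega
  obtain ⟨β, rfl⟩ := exists_add_of_le hle
  rw [cod1_deg] at h
  have : β = 0 := (Finsupp.degree_eq_zero_iff β).1 (by omega)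
  exact ⟨κ, by rw [this, add_zero]⟩

theorem block_drop {a : ℕ} (s : Set L) (lam : MvPolynomial (Fin c) L →ₗ[L] L)
    (hs : ∀ α : Fin c →₀ ℕ, α.degree = a → lam (monomial α 1) ∈ Algebra.adjoin k s)
    (hnp : ∀ (p : Fin c → L) (r : L),
      ¬ ∀ α : Fin c →₀ ℕ, α.degree = a → lam (monomial α 1) = r * α.prod fun κ n => p κ ^ n)
    {T : Type} (F : Finset T) (hF : F.card + 1 = a) (m : T → Fin c → L)
    (h : ∀ κ, lam (X κ * ∏ t ∈ F, ∑ κ', C (m t κ') * X κ') = 0) :
    (AlgebraicIndependent.matroid k L).eRk (s ∪ ⋃ t ∈ F, Set.range (m t)) + 2 ≤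
      (AlgebraicIndependent.matroid k L).eRk s + F.card * c := by
  classical
  induction F using Finset.induction_on generalizing a s lam with
  | empty =>
    exfalso
    refine hnp 0 0 fun α hα => ?_
    obtain ⟨κ, rfl⟩ := cod1_deg_one (α := α) (by rw [hα, ← hF]; simp)
    have := h κ
    rw [Finset.prod_empty, mul_one] at this
    rw [zero_mul]
    exact this
  | insert t F ht ih =>
    rw [Finset.card_insert_of_notMem ht] at hF ⊢
    set l : MvPolynomial (Fin c) L := ∑ κ', C (m t κ') * X κ' with hl
    set lam' : MvPolynomial (Fin c) L →ₗ[L] L := lam ∘ₗ LinearMap.mulLeft L l with hlam'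
    have hl' : ∀ g, lam' g = lam (l * g) := fun g => rfl
    set s' : Set L := s ∪ Set.range (m t) with hs'
    have e : (s ∪ ⋃ t' ∈ insert t F, Set.range (m t')) = s' ∪ ⋃ t' ∈ F, Set.range (m t') := by
      rw [Finset.set_biUnion_insert, hs', Set.union_assoc]
    have hsX : ∀ (κ : Fin c) (α : Fin c →₀ ℕ), α.degree = F.card + 1 →
        lam (X κ * monomial α 1) ∈ Algebra.adjoin k s := fun κ α hα => by
      rw [cod1_X_mul]
      exact hs _ (by rw [cod1_deg, hα, hF])
    have hs1 : ∀ α : Fin c →₀ ℕ, α.degree = F.card + 1 →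
        lam' (monomial α 1) ∈ Algebra.adjoin k s' := fun α hα => by
      rw [hl', hl, cod1_lam_lin]
      refine Subalgebra.sum_mem _ fun κ _ => Subalgebra.mul_mem _ ?_ ?_
      · exact Algebra.subset_adjoin (Or.inr ⟨κ, rfl⟩)
      · exact Algebra.adjoin_mono Set.subset_union_left (hsX κ α hα)
    have h1 : ∀ κ, lam' (X κ * ∏ t ∈ F, ∑ κ', C (m t κ') * X κ') = 0 := fun κ => by
      rw [hl', ← h κ, Finset.prod_insert ht]
      congr 1
      rw [← hl]
      ring
    rw [e]
    have hc : ((F.card + 1 : ℕ) : ℕ∞) * c = c + F.card * c := by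
      push_cast
      ring
    rw [hc]
    by_cases hp : ∃ (p : Fin c → L) (r : L), ∀ α : Fin c →₀ ℕ, α.degree = F.card + 1 →
        lam' (monomial α 1) = r * α.prod fun κ n => p κ ^ n
    swap
    · have := ih s' lam' hs1 (fun p r hh => hp ⟨p, r, hh⟩) rfl h1
      refine this.trans ?_
      rw [← add_assoc]
      gcongr
      exact cod1_range _ _
    obtain ⟨p, r, hp⟩ := hp
    by_cases hz : ∀ α : Fin c →₀ ℕ, α.degree = F.card + 1 → lam' (monomial α 1) = 0
    · have hm : ¬ ∀ (x y : Fin c) (u v : Fin c →₀ ℕ), u.degree = F.card + 1 →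
          v.degree = F.card + 1 → lam (X x * monomial u 1) * lam (X y * monomial v 1) =
          lam (X y * monomial u 1) * lam (X x * monomial v 1) := fun hh => by
        obtain ⟨p', r', h'⟩ := pure_of_minor lam hh
        exact hnp p' r' fun α hα => h' α (by rw [hα, hF])
      push Not at hm
      obtain ⟨x, y, u, v, hu, hv, hxy⟩ := hm
      have k1 : ∀ w : Fin c →₀ ℕ, w.degree = F.card + 1 →
          ∑ x, m t x * lam (X x * monomial w 1) = 0 := fun w hw => by
        rw [← cod1_lam_lin, ← hl, ← hl']
        exact hz w hw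
      have k2 := lin_drop2 (k := k) s (m t) (fun x => lam (X x * monomial u 1))
        (fun x => lam (X x * monomial v 1)) (fun x => hsX x u hu) (fun x => hsX x v hv)
        (k1 u hu) (k1 v hv) hxy
      calc _ ≤ ((AlgebraicIndependent.matroid k L).eRk s' + F.card * c) + 2 := by
            gcongr
            exact cod1_blocks _ _ _
        _ = ((AlgebraicIndependent.matroid k L).eRk s' + 2) + F.card * c := by ring
        _ ≤ ((AlgebraicIndependent.matroid k L).eRk s + c) + F.card * c := by gcongr
        _ = _ := by ring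
    push Not at hz
    obtain ⟨α0, hα0, hne⟩ := hz
    have hα0' : α0 ≠ 0 := by
      rintro rfl
      simp at hα0
    obtain ⟨κ0, hκ0⟩ := Finsupp.ne_iff.1 hα0'
    have hk0 : α0 κ0 ≠ 0 := by simpa using hκ0
    have hle : Finsupp.single κ0 1 ≤ α0 := by
      rw [Finsupp.single_le_iff]
      omega
    obtain ⟨u, rfl⟩ := exists_add_of_le hle
    rw [cod1_deg] at hα0
    have hu : u.degree = F.card := by omega
    have hXu : ∀ κ, lam' (X κ * monomial u 1) = r * (p κ * eval p (monomial u 1)) := fun κ => by
      rw [cod1_eval lam' p r hp (g := X κ * monomial u 1), map_mul, eval_X]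
      rw [add_comm]
      exact (isHomogeneous_X _ _).mul (isHomogeneous_monomial _ hu)
    rw [← cod1_X_mul, hXu] at hne
    have hr : r ≠ 0 := left_ne_zero_of_mul hne
    have hp0 : p κ0 ≠ 0 := left_ne_zero_of_mul (right_ne_zero_of_mul hne)
    have hprod := h1 κ0
    rw [cod1_eval lam' p r hp (g := X κ0 * ∏ t ∈ F, ∑ κ', C (m t κ') * X κ') (by
      rw [add_comm]
      refine (isHomogeneous_X _ _).mul ?_
      have := IsHomogeneous.prod F (fun t => (∑ κ', C (m t κ') * X κ' : MvPolynomial (Fin c) L))
        (fun _ => 1) fun t _ => cod1_lin_hom (m t)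
      simpa using this), map_mul, eval_X, map_prod] at hprod
    obtain ⟨t', ht', hz'⟩ := Finset.prod_eq_zero_iff.1
      ((mul_eq_zero.1 ((mul_eq_zero.1 hprod).resolve_left hr)).resolve_left hp0)
    have hz2 : ∑ κ, m t' κ * p κ = 0 := by simpa using hz'
    obtain ⟨b, hb⟩ : ∃ b, F.card = b + 1 :=
      Nat.exists_eq_succ_of_ne_zero (Finset.card_ne_zero.2 ⟨t', ht'⟩)
    have ha : a = b + 3 := by omega
    subst ha
    obtain ⟨q, hq0, hqs, hq⟩ := nonpure_poly (k := k) s lam hs hnp
    have d1 := alg_drop (k := k) s (m t) q hq0 hqs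
      (hq (m t) p r fun α hα => hp α (by rw [hα, hb]))
    have d2 := alg_drop (k := k) s' (m t') (∑ κ, C (lam' (X κ * monomial u 1)) * X κ) (by
        intro h0
        have := congrArg (coeff (Finsupp.single κ0 1)) h0
        rw [coeff_sum, Finset.sum_eq_single κ0] at this
        · rw [coeff_C_mul, coeff_X_same, mul_one, coeff_zero, hXu] at this
          exact hne this
        · intro κ _ hκ
          rw [coeff_C_mul, coeff_X, if_neg, mul_zero]
          intro hh
          exact hκ (Finsupp.single_left_injective one_ne_zero hh)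
        · simp)
      (fun α => by
        rw [coeff_sum]
        refine Subalgebra.sum_mem _ fun κ _ => ?_
        rw [coeff_C_mul, coeff_X]
        refine Subalgebra.mul_mem _ ?_ ?_
        · rw [cod1_X_mul]
          exact hs1 _ (by rw [cod1_deg, hu])
        · split_ifs
          · exact Subalgebra.one_mem _
          · exact Subalgebra.zero_mem _)
      (by
        simp only [map_sum, map_mul, eval_C, eval_X, hXu]
        have : ∑ κ, r * (p κ * eval p (monomial u 1)) * m t' κ =
            r * eval p (monomial u 1) * ∑ κ, m t' κ * p κ := by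
          rw [Finset.mul_sum]
          exact Finset.sum_congr rfl fun κ _ => by ring
        rw [this, hz2, mul_zero])
    have e2 : (s' ∪ ⋃ t'' ∈ F, Set.range (m t'')) =
        (s' ∪ Set.range (m t')) ∪ ⋃ t'' ∈ F.erase t', Set.range (m t'') := by
      conv_lhs => rw [← Finset.insert_erase ht']
      rw [Finset.set_biUnion_insert, ← Set.union_assoc]
    have hcard : (F.erase t').card = b := by
      rw [Finset.card_erase_of_mem ht', hb]
      rfl
    have d3 := cod1_blocks (k := k) (s' ∪ Set.range (m t')) (F.erase t') m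
    rw [hcard] at d3
    rw [e2, hb]
    calc _ ≤ ((AlgebraicIndependent.matroid k L).eRk (s' ∪ Set.range (m t')) + b * c) + 2 := by
          gcongr
      _ = ((AlgebraicIndependent.matroid k L).eRk (s' ∪ Set.range (m t')) + 1) + b * c + 1 := by
          ring
      _ ≤ ((AlgebraicIndependent.matroid k L).eRk s' + c) + b * c + 1 := by gcongr
      _ = ((AlgebraicIndependent.matroid k L).eRk s' + 1) + c + b * c := by ring
      _ ≤ ((AlgebraicIndependent.matroid k L).eRk s + c) + c + b * c := by gcongr
      _ = _ := by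
          push_cast
          ring

end Vale.Agent.P200E
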