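import Vale.Agent.P200E.GM1

/-! The cyclic block gadget. -/

namespace Vale.Agent.P200E

open MvPolynomial TensorProduct

universe u

/-- variables: block, slot, coordinate -/
abbrev SG (N a c : ℕ) : Type := Fin N × ZMod a × Fin c

/-- coordinates of the weight lattice -/
abbrev IG (N a : ℕ) : Type := Option (Fin N × ZMod a)

section weights
variable {N a c : ℕ} [NeZero a]

/-- the invariant weight -/
def th0 (N a : ℕ) : IG N a → ℤ := Pi.single none 1

/-- slot weights -/
def eps (l : Fin N) (t : ZMod a) : IG N a → ℤ :=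
  if t = 0 then -∑ t' ∈ Finset.univ.erase (0 : ZMod a), Pi.single (some (l, t')) 1
  else Pi.single (some (l, t)) 1

/-- weights of the variables -/
def gw (i : SG N a c) : IG N a → ℤ := th0 N a + eps i.1 i.2.1

/-- total degree -/
def gθ (N a : ℕ) : (IG N a → ℤ) →+ ℤ := Pi.evalAddMonoidHom (fun _ => ℤ) none

/-- degree in the slot zero variables -/
def gφ (N a : ℕ) [NeZero a] : (IG N a → ℤ) →+ ℤ where
  toFun χ := χ none - ∑ l, ∑ t ∈ Finset.univ.erase (0 : ZMod a), χ (some (l, t))
  map_zero' := by simp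
  map_add' χ ψ := by simp only [Pi.add_apply, Finset.sum_add_distrib]; ring

/-- slot zero variables -/
def gZ (N a c : ℕ) [NeZero a] : Finset (SG N a c) := Finset.univ.filter fun i => i.2.1 = 0

/-- linear action of a shift on weights -/
def sL (γ : Fin N → ZMod a) : (IG N a → ℤ) →+ (IG N a → ℤ) where
  toFun χ := χ none • th0 N a + ∑ l, (χ (some (l, 0)) • Pi.single (some (l, 0)) 1 +
    ∑ t ∈ Finset.univ.erase (0 : ZMod a), χ (some (l, t)) • eps l (t + γ l))
  map_zero' := by simp
  map_add' χ ψ := by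
    simp only [Pi.add_apply, add_smul, Finset.sum_add_distrib]
    abel

/-- weight of the group elements -/
def cc (γ : Fin N → ZMod a) : IG N a → ℤ :=
  -∑ l, ∑ s ∈ Finset.range (γ l).val, eps l (s : ZMod a)

theorem gθ_eps (l : Fin N) (t : ZMod a) : gθ N a (eps l t) = 0 := by
  unfold eps
  split_ifs <;> simp [gθ, Finset.sum_apply]

theorem gθ_th0 : gθ N a (th0 N a) = 1 := by simp [gθ, th0]

theorem gφ_th0 : gφ N a (th0 N a) = 1 := by simp [gφ, th0]

theorem gφ_single (l : Fin N) {t : ZMod a} (ht : t ≠ 0) :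
    gφ N a (Pi.single (some (l, t)) 1) = -1 := by
  simp only [gφ, AddMonoidHom.coe_mk, ZeroHom.coe_mk]
  rw [Finset.sum_eq_single l, Finset.sum_eq_single t]
  · simp
  · intro b _ hb
    simp [Pi.single_apply, hb]
  · intro h
    exact absurd (Finset.mem_erase.2 ⟨ht, Finset.mem_univ _⟩) h
  · intro b _ hb
    simp [Pi.single_apply, hb]
  · simp

theorem sum_eps (l : Fin N) : ∑ t : ZMod a, eps l t = 0 := by
  rw [← Finset.add_sum_erase _ _ (Finset.mem_univ (0 : ZMod a))]
  have h : ∀ t ∈ Finset.univ.erase (0 : ZMod a), eps l t = Pi.single (some (l, t)) 1 :=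
    fun t ht => if_neg (Finset.mem_erase.1 ht).1
  rw [Finset.sum_congr rfl h]
  simp [eps]

end weights

section gadget
variable {k : Type u} [Field k] {N a c d : ℕ} [NeZero a]

/-- extension of scalars of a functional -/
noncomputable def lamE {T : Type u} [CommRing T] [Algebra k T]
    (lam : MvPolynomial (Fin c) k →ₗ[k] k) (q : MvPolynomial (Fin c) T) : T :=
  ∑ α ∈ q.support, lam (monomial α 1) • coeff α q

/-- the generic linear forms -/
noncomputable def lab (k : Type u) [Field k] (c : ℕ) (l : Fin N) (t : ZMod a) :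
    MvPolynomial (Fin c) (MvPolynomial (SG N a c) k) := ∑ κ, C (X (l, t, κ)) * X κ

/-- product of the nonzero slots -/
noncomputable def pri (k : Type u) [Field k] (a c : ℕ) [NeZero a] (l : Fin N) :
    MvPolynomial (Fin c) (MvPolynomial (SG N a c) k) :=
  ∏ t ∈ Finset.univ.erase (0 : ZMod a), lab k c l t

/-- the generic sum of products -/
noncomputable def gg (k : Type u) [Field k] (N a c : ℕ) [NeZero a] :
    MvPolynomial (Fin c) (MvPolynomial (SG N a c) k) := ∑ l, ∏ t : ZMod a, lab k c l t

/-- coefficients of the equations -/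
noncomputable def ghh (lam : Fin d → MvPolynomial (Fin c) k →ₗ[k] k) (i : Fin d) (j : SG N a c) :
    MvPolynomial (SG N a c) k :=
  if j.2.1 = 0 then lamE (lam i) (X j.2.2 * pri k a c j.1) else 0

theorem lamE_mem {T : Type u} [CommRing T] [Algebra k T] (lam : MvPolynomial (Fin c) k →ₗ[k] k)
    (U : Submodule k T) {q : MvPolynomial (Fin c) T} (h : ∀ α, coeff α q ∈ U) : lamE lam q ∈ U :=
  Submodule.sum_mem _ fun α _ => Submodule.smul_mem _ _ (h α)

theorem coeff_mul_hom {σ M : Type} [AddCommMonoid M] (w : σ → M)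
    {p q : MvPolynomial (Fin c) (MvPolynomial σ k)} {χ ψ : M}
    (hp : ∀ α, (coeff α p).IsWeightedHomogeneous w χ)
    (hq : ∀ α, (coeff α q).IsWeightedHomogeneous w ψ) (α : Fin c →₀ ℕ) :
    (coeff α (p * q)).IsWeightedHomogeneous w (χ + ψ) := by
  classical
  rw [coeff_mul]
  exact (weightedHomogeneousSubmodule k w (χ + ψ)).sum_mem fun x _ => (hp _).mul (hq _)

theorem coeff_prod_hom {σ M T : Type} [AddCommMonoid M] (w : σ → M) (s : Finset T)
    (p : T → MvPolynomial (Fin c) (MvPolynomial σ k)) (χ : T → M)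
    (hp : ∀ t ∈ s, ∀ α, (coeff α (p t)).IsWeightedHomogeneous w (χ t)) (α : Fin c →₀ ℕ) :
    (coeff α (∏ t ∈ s, p t)).IsWeightedHomogeneous w (∑ t ∈ s, χ t) := by
  classical
  induction s using Finset.induction_on generalizing α with
  | empty =>
    simp only [Finset.prod_empty, Finset.sum_empty, coeff_one]
    split_ifs
    · exact isWeightedHomogeneous_one _ _
    · exact isWeightedHomogeneous_zero _ _ _
  | insert t s ht ih =>
    rw [Finset.prod_insert ht, Finset.sum_insert ht]
    exact coeff_mul_hom w (hp t (Finset.mem_insert_self _ _))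
      (ih fun t' ht' => hp t' (Finset.mem_insert_of_mem ht')) α

theorem coeff_X_hom {σ M : Type} [AddCommMonoid M] (w : σ → M) (κ : Fin c) (α : Fin c →₀ ℕ) :
    (coeff α (X κ : MvPolynomial (Fin c) (MvPolynomial σ k))).IsWeightedHomogeneous w 0 := by
  classical
  rw [coeff_X]
  split_ifs
  · exact isWeightedHomogeneous_one _ _
  · exact isWeightedHomogeneous_zero _ _ _

theorem coeff_lab_hom {M : Type} [AddCommMonoid M] (w : SG N a c → M) (l : Fin N) (t : ZMod a)
    {χ : M} (h : ∀ κ, w (l, t, κ) = χ) (α : Fin c →₀ ℕ) :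
    (coeff α (lab k c l t)).IsWeightedHomogeneous w χ := by
  rw [lab, coeff_sum]
  refine (weightedHomogeneousSubmodule k w χ).sum_mem fun κ _ => ?_
  rw [coeff_C_mul]
  have := (isWeightedHomogeneous_X k w (l, t, κ)).mul (coeff_X_hom (k := k) w κ α)
  rwa [add_zero, h] at this

theorem map_cz_pri (l : Fin N) :
    MvPolynomial.map (cz k (gZ N a c)).toRingHom (pri k a c l) = pri k a c l := by
  simp only [pri, lab, map_prod, map_sum, map_mul, map_C, map_X]
  refine Finset.prod_congr rfl fun t ht => Finset.sum_congr rfl fun κ _ => ?_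
  have : (l, t, κ) ∉ gZ N a c := by simpa [gZ] using (Finset.mem_erase.1 ht).1
  simp [cz, this]

/-- the system of equations of the gadget -/
noncomputable def gad (N a : ℕ) [NeZero a] (lam : Fin d → MvPolynomial (Fin c) k →ₗ[k] k) :
    Sys k (SG N a c) (IG N a) d where
  w := gw
  θ := gθ N a
  φ := gφ N a
  Z := gZ N a c
  S := a • th0 N a
  hh := ghh lam
  θw i := by rw [gw, map_add, gθ_th0, gθ_eps, add_zero]
  φb i hi := by
    have h : i.2.1 ≠ 0 := by simpa [gZ] using hi
    rw [gw, map_add, gφ_th0, eps, if_neg h, gφ_single _ h, add_neg_cancel]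
  φz i hi := by
    have h : i.2.1 = 0 := by simpa [gZ] using hi
    rw [gw, map_add, gφ_th0, eps, if_pos h, map_neg, map_sum,
      Finset.sum_congr rfl fun t ht => gφ_single i.1 (Finset.mem_erase.1 ht).1]
    simp only [Finset.sum_const, smul_neg, nsmul_eq_mul, mul_one, neg_neg]
    positivity
  hhb i j := by
    unfold ghh
    split_ifs
    · rw [lamE, map_sum]
      refine Finset.sum_congr rfl fun α _ => ?_
      rw [map_smul]
      congr 1
      have h : MvPolynomial.map (cz k (gZ N a c)).toRingHom (X j.2.2 * pri k a c j.1) =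
          X j.2.2 * pri k a c j.1 := by rw [map_mul, map_X, map_cz_pri]
      conv_rhs => rw [← h, coeff_map]
      rfl
    · exact map_zero _
  hhw i j := by
    unfold ghh
    split_ifs with h
    · refine lamE_mem _ (weightedHomogeneousSubmodule k gw _) fun α => ?_
      have h1 := coeff_mul_hom gw (coeff_X_hom (k := k) gw j.2.2)
        (coeff_prod_hom gw (Finset.univ.erase (0 : ZMod a)) (fun t => lab k c j.1 t)
          (fun t => th0 N a + eps j.1 t) fun t _ => coeff_lab_hom gw j.1 t fun _ => rfl) α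
      have h2 : a • th0 N a - gw j =
          0 + ∑ t ∈ Finset.univ.erase (0 : ZMod a), (th0 N a + eps j.1 t) := by
        have h3 : ∑ t : ZMod a, (th0 N a + eps j.1 t) = a • th0 N a := by
          rw [Finset.sum_add_distrib, sum_eps, add_zero, Finset.sum_const, Finset.card_univ,
            ZMod.card]
        rw [← Finset.add_sum_erase _ _ (Finset.mem_univ (0 : ZMod a))] at h3
        rw [← h3, gw, h]
        abel
      rw [h2]
      exact h1
    · exact isWeightedHomogeneous_zero _ _ _

/-- the action of a shift on polynomials -/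
noncomputable def act (c : ℕ) (ζ : k) (γ : Fin N → ZMod a) :
    MvPolynomial (SG N a c) k →ₐ[k] MvPolynomial (SG N a c) k :=
  aeval fun i => C (ζ ^ (∑ m ∈ Finset.univ.filter (· < i.1), (γ m).val)) *
    X (i.1, i.2.1 + γ i.1, i.2.2)

theorem act_zero (ζ : k) : act (N := N) (a := a) c ζ 0 = AlgHom.id k _ := by
  ext1 i
  simp [act]

theorem act_add {ζ : k} (hζ : ζ ^ a = 1) (γ γ' : Fin N → ZMod a) :
    act c ζ (γ + γ') = (act c ζ γ).comp (act c ζ γ') := by
  ext1 i
  have h : ∀ x y : ZMod a, ζ ^ (x + y).val = ζ ^ x.val * ζ ^ y.val := fun x y => by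
    rw [ZMod.val_add, ← pow_eq_pow_mod _ hζ, pow_add]
  simp only [act, aeval_X, AlgHom.comp_apply, map_mul, algHom_C, algebraMap_eq, Pi.add_apply,
    ← Finset.prod_pow_eq_pow_sum, h, Finset.prod_mul_distrib]
  rw [add_assoc, add_comm (γ' i.1)]
  ring

/-- the group of shifts -/
def GG (N a : ℕ) (_ζ : k) : Type := Multiplicative (Fin N → ZMod a)

instance (ζ : k) : CommGroup (GG N a ζ) :=
  inferInstanceAs (CommGroup (Multiplicative (Fin N → ZMod a)))

instance (ζ : k) : Fintype (GG N a ζ) :=
  inferInstanceAs (Fintype (Multiplicative (Fin N → ZMod a)))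

instance (ζ : k) : DecidableEq (GG N a ζ) :=
  inferInstanceAs (DecidableEq (Multiplicative (Fin N → ZMod a)))

/-- underlying shift -/
def GG.v {ζ : k} (γ : GG N a ζ) : Fin N → ZMod a := Multiplicative.toAdd γ

/-- group element of a shift -/
def GG.mk (ζ : k) (x : Fin N → ZMod a) : GG N a ζ := Multiplicative.ofAdd x

theorem GG.v_one {ζ : k} : (1 : GG N a ζ).v = 0 := rfl

theorem GG.v_mul {ζ : k} (γ γ' : GG N a ζ) : (γ * γ').v = γ.v + γ'.v := rfl

theorem GG.v_mk {ζ : k} (x : Fin N → ZMod a) : (GG.mk ζ x).v = x := rfl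

variable {D : Type u} [DivisionRing D] [Algebra k D]

/-- the action on polynomials with coefficients in `D` -/
noncomputable def actA (D : Type u) [DivisionRing D] [Algebra k D] (c : ℕ) (ζ : k)
    (γ : Fin N → ZMod a) : AA k D (SG N a c) →ₐ[k] AA k D (SG N a c) :=
  Algebra.TensorProduct.map (act c ζ γ) (AlgHom.id k D)

noncomputable instance gAct (ζ : k) [h : Fact (ζ ^ a = 1)] :
    MulSemiringAction (GG N a ζ) (AA k D (SG N a c)) where
  smul γ r := actA D c ζ γ.v r
  one_smul r := by
    change actA D c ζ 0 r = r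
    rw [actA, act_zero, Algebra.TensorProduct.map_id]
    rfl
  mul_smul γ γ' r := by
    change actA D c ζ (γ.v + γ'.v) r = actA D c ζ γ.v (actA D c ζ γ'.v r)
    rw [actA, act_add h.out, ← AlgHom.id_comp (AlgHom.id k D), Algebra.TensorProduct.map_comp]
    rfl
  smul_zero γ := map_zero (actA D c ζ γ.v)
  smul_add γ := map_add (actA D c ζ γ.v)
  smul_one γ := map_one (actA D c ζ γ.v)
  smul_mul γ := map_mul (actA D c ζ γ.v)

theorem gAct_def {ζ : k} [Fact (ζ ^ a = 1)] (γ : GG N a ζ) (r : AA k D (SG N a c)) :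
    γ • r = actA D c ζ γ.v r := rfl

instance (ζ : k) [Fact (ζ ^ a = 1)] : SMulCommClass (GG N a ζ) k (AA k D (SG N a c)) where
  smul_comm γ x r := map_smul (actA D c ζ γ.v) x r

/-- the crossed product -/
abbrev RR (D : Type u) [DivisionRing D] [Algebra k D] (N a c : ℕ) (ζ : k) : Type u :=
  SkewMonoidAlgebra (AA k D (SG N a c)) (GG N a ζ)

noncomputable instance rrRing {ζ : k} [Fact (ζ ^ a = 1)] : Ring (RR D N a c ζ) :=
  SkewMonoidAlgebra.instRing

noncomputable instance rrSemiring {ζ : k} [Fact (ζ ^ a = 1)] : Semiring (RR D N a c ζ) :=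
  SkewMonoidAlgebra.instSemiring

noncomputable instance rrAlg {ζ : k} [Fact (ζ ^ a = 1)] : Algebra k (RR D N a c ζ) :=
  SkewMonoidAlgebra.instAlgebraOfSMulCommClass

/-- homogeneous elements of the crossed product -/
noncomputable def RH (D : Type u) [DivisionRing D] [Algebra k D] (c : ℕ) (ζ : k)
    (χ : IG N a → ℤ) : Submodule k (RR D N a c ζ) where
  carrier := {r | ∀ γ, (weightedHomogeneousComponent gw (χ - cc γ.v)).rTensor D (r.coeff γ) =
    r.coeff γ}
  zero_mem' γ := by simp
  add_mem' {x y} hx hy γ := by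
    simp only [SkewMonoidAlgebra.coeff_add, Finsupp.add_apply, map_add, hx γ, hy γ]
  smul_mem' s x hx γ := by
    simp only [SkewMonoidAlgebra.coeff_smul, Finsupp.smul_apply, map_smul, hx γ]

/-- elements with all coefficients in an ideal -/
noncomputable def PH (D : Type u) [DivisionRing D] [Algebra k D] (ζ : k)
    (I : Ideal (MvPolynomial (SG N a c) k)) : AddSubgroup (RR D N a c ζ) where
  carrier := {r | ∀ γ, r.coeff γ ∈ iA D I}
  zero_mem' γ := by simp
  add_mem' {x y} hx hy γ := by
    simpa only [SkewMonoidAlgebra.coeff_add, Finsupp.add_apply] using add_mem (hx γ) (hy γ)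
  neg_mem' {x} hx γ := by
    simpa only [SkewMonoidAlgebra.coeff_neg, Finsupp.neg_apply] using neg_mem (hx γ)

/-- polynomials inside the crossed product -/
noncomputable def jO (D : Type u) [DivisionRing D] [Algebra k D] (ζ : k)
    (r : MvPolynomial (SG N a c) k) : RR D N a c ζ := SkewMonoidAlgebra.single 1 (r ⊗ₜ[k] 1)

/-- the coefficients of the generic linear form -/
noncomputable def gam (D : Type u) [DivisionRing D] [Algebra k D] (N a : ℕ) (ζ : k) (κ : Fin c) :
    RR D N a c ζ :=
  ∑ l, SkewMonoidAlgebra.single (GG.mk ζ (Pi.single l 1)) (X (l, 0, κ) ⊗ₜ[k] 1)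

/-- `ζ` is a root of unity suitable for the exponent `a` -/
def QR (a : ℕ) (ζ : k) : Prop :=
  ∃ p e a' : ℕ, ExpChar k p ∧ a = p ^ e * a' ∧ IsPrimitiveRoot ζ a'

/-- data of a complement of the span of `f` in degree `a` -/
structure Dec (a : ℕ) (f : Fin c → MvPolynomial (Fin c) k)
    (lam : Fin d → MvPolynomial (Fin c) k →ₗ[k] k) (nu : Fin c → MvPolynomial (Fin c) k →ₗ[k] k)
    (qq : Fin d → MvPolynomial (Fin c) k) : Prop where
  hq : ∀ i, (qq i).IsHomogeneous a
  dual : ∀ i i', lam i (qq i') = if i = i' then 1 else 0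
  kill : ∀ i j, lam i (f j) = 0
  dec : ∀ q : MvPolynomial (Fin c) k, q.IsHomogeneous a →
    q = ∑ j, nu j q • f j + ∑ i, lam i q • qq i

/-- no common zero in any extension field -/
def Bpf (f : Fin c → MvPolynomial (Fin c) k) : Prop :=
  ∀ (L : Type u) [Field L] [Algebra k L] (p : Fin c → L), (∀ j, aeval p (f j) = 0) → p = 0

end gadget

end Vale.Agent.P200E
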