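import Vale.Agent.P200E.Cod1
import Vale.Agent.P200E.Def2

namespace Vale.Agent.P200E

open MvPolynomial TensorProduct

universe u

theorem cod2_ker {L : Type u} [Field L] {d : ℕ} {T : Type} (M : Fin d → T → L) (S : Set T)
    (h : ∀ C : Fin d → T, (∀ i, C i ∈ S) → (Matrix.of fun i i' => M i (C i')).det = 0) :
    ∃ (η : Fin d → L) (i0 : Fin d), η i0 = 1 ∧ ∀ j ∈ S, ∑ i, η i * M i j = 0 := by
  classical
  set col : T → Fin d → L := fun j i => M i j with hcol
  have hlt : Submodule.span L (col '' S) < ⊤ := by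
    rw [lt_top_iff_ne_top]
    intro htop
    have key : ∀ n, n = d → ∀ g : Fin n → Fin d → L, (∀ i, g i ∈ col '' S) →
        LinearIndependent L g → False := by
      rintro n rfl g hg hli
      choose C hC hCg using hg
      have h1 := h C hC
      have h2 : IsUnit (Matrix.of fun i i' => M i (C i')) := by
        rw [← Matrix.linearIndependent_cols_iff_isUnit]
        have : (Matrix.of fun i i' => M i (C i')).col = g := by
          funext i' i
          rw [← hCg i']
          rfl
        rwa [this]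
      rw [Matrix.isUnit_iff_isUnit_det, h1] at h2
      exact not_isUnit_zero h2
    obtain ⟨g, hg, -, hli⟩ := Submodule.exists_fun_fin_finrank_span_eq L (col '' S)
    refine key _ ?_ g hg hli
    rw [htop, finrank_top, Module.finrank_fin_fun]
  obtain ⟨F, hF, hker⟩ := Submodule.exists_le_ker_of_lt_top _ hlt
  have hFv : ∀ v : Fin d → L, F v = ∑ i, F (Pi.single i 1) * v i := fun v => by
    conv_lhs => rw [pi_eq_sum_univ' v]
    rw [map_sum]
    refine Finset.sum_congr rfl fun i _ => ?_
    rw [map_smul, smul_eq_mul, mul_comm]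
  obtain ⟨i0, hi0⟩ : ∃ i0, F (Pi.single i0 1) ≠ 0 := by
    by_contra hh
    push Not at hh
    apply hF
    refine LinearMap.ext fun v => ?_
    rw [hFv]
    simp [hh]
  refine ⟨fun i => (F (Pi.single i0 1))⁻¹ * F (Pi.single i 1), i0, inv_mul_cancel₀ hi0,
    fun j hj => ?_⟩
  have h0 : F (col j) = 0 := hker (Submodule.subset_span ⟨j, hj, rfl⟩)
  rw [hFv] at h0
  simp only [mul_assoc]
  rw [← Finset.mul_sum]
  exact mul_eq_zero_of_right _ h0

theorem cod2_ind {k L : Type u} [Field k] [Field L] [Algebra k L] {σ : Type}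
    (φ : MvPolynomial σ k →ₐ[k] L) {q : Ideal (MvPolynomial σ k)} (hφ : ∀ r, φ r = 0 → r ∈ q)
    {Fr : Finset σ} (h : Ind q Fr) :
    (Fr.card : ℕ∞) ≤ (AlgebraicIndependent.matroid k L).eRk (Set.range fun i => φ (X i)) := by
  classical
  have h1 : AlgebraicIndependent k fun i : Fr => φ (X (i : σ)) := by
    rw [algebraicIndependent_iff]
    intro p hp
    have e : aeval (fun i : Fr => φ (X (i : σ))) p = φ (rename Subtype.val p) := by
      have : aeval (fun i : Fr => φ (X (i : σ))) = φ.comp (rename Subtype.val) := by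
        ext1 i
        simp
      rw [this]
      rfl
    have h2 := h _ (fun i hi => by
      obtain ⟨j, -, rfl⟩ := mem_vars_rename _ _ hi
      exact j.2) (hφ _ (e ▸ hp))
    exact rename_injective _ Subtype.val_injective (by rw [h2, map_zero])
  have h2 : (AlgebraicIndependent.matroid k L).Indep (Set.range fun i : Fr => φ (X (i : σ))) :=
    AlgebraicIndependent.matroid_indep_iff.2 h1.to_subtype_range
  have h3 := h2.encard_le_eRk_of_subset
    (X := Set.range fun i => φ (X i)) (by rintro _ ⟨i, rfl⟩; exact ⟨i, rfl⟩)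
  rw [← Set.image_univ, h1.injective.injOn.encard_image, Set.encard_univ] at h3
  simpa using h3

/-- a linear combination of functionals after extension of scalars -/
noncomputable def cod2L {k L : Type u} [Field k] [Field L] [Algebra k L] {c d : ℕ}
    (lam : Fin d → MvPolynomial (Fin c) k →ₗ[k] k) (η : Fin d → L) :
    MvPolynomial (Fin c) L →ₗ[L] L :=
  (basisMonomials (Fin c) L).constr L fun α => ∑ i, η i * algebraMap k L (lam i (monomial α 1))

theorem cod2L_mon {k L : Type u} [Field k] [Field L] [Algebra k L] {c d : ℕ}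
    (lam : Fin d → MvPolynomial (Fin c) k →ₗ[k] k) (η : Fin d → L) (α : Fin c →₀ ℕ) :
    cod2L lam η (monomial α 1) = ∑ i, η i * algebraMap k L (lam i (monomial α 1)) := by
  have := (basisMonomials (Fin c) L).constr_basis L
    (fun α => ∑ i, η i * algebraMap k L (lam i (monomial α 1))) α
  rwa [coe_basisMonomials] at this

theorem cod2L_map {k L T : Type u} [Field k] [Field L] [Algebra k L] [CommRing T] [Algebra k T]
    {c d : ℕ} (lam : Fin d → MvPolynomial (Fin c) k →ₗ[k] k) (η : Fin d → L) (φ : T →ₐ[k] L)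
    (g : MvPolynomial (Fin c) T) :
    cod2L lam η (MvPolynomial.map φ.toRingHom g) = ∑ i, η i * φ (lamE (lam i) g) := by
  conv_lhs => rw [g.as_sum]
  simp only [map_sum, lamE, Finset.mul_sum]
  rw [Finset.sum_comm]
  refine Finset.sum_congr rfl fun α _ => ?_
  have e : (monomial α (φ.toRingHom (coeff α g)) : MvPolynomial (Fin c) L) =
      φ (coeff α g) • monomial α 1 := by
    rw [smul_monomial, smul_eq_mul, mul_one]
    rfl
  rw [map_monomial, e, map_smul, cod2L_mon, smul_eq_mul, Finset.mul_sum]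
  refine Finset.sum_congr rfl fun i _ => ?_
  rw [map_smul, Algebra.smul_def]
  ring

theorem cod2_lamE {k : Type u} [Field k] {c : ℕ} (lam : MvPolynomial (Fin c) k →ₗ[k] k)
    (g : MvPolynomial (Fin c) k) : lamE lam g = lam g := by
  conv_rhs => rw [g.as_sum]
  rw [map_sum, lamE]
  refine Finset.sum_congr rfl fun α _ => ?_
  have e : (monomial α (coeff α g) : MvPolynomial (Fin c) k) = coeff α g • monomial α 1 := by
    rw [smul_monomial, smul_eq_mul, mul_one]
  rw [e, map_smul, smul_eq_mul, smul_eq_mul, mul_comm]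

variable {k D : Type u} [Field k] [DivisionRing D] [Algebra k D] [FiniteDimensional k D]
  {N a c d : ℕ} [NeZero a]

theorem cod2_np {L : Type u} [Field L] [Algebra k L] {f : Fin c → MvPolynomial (Fin c) k}
    (hf : ∀ j, (f j).IsHomogeneous a)
    (hb : Bpf f) {lam : Fin d → MvPolynomial (Fin c) k →ₗ[k] k}
    {nu : Fin c → MvPolynomial (Fin c) k →ₗ[k] k} {qq : Fin d → MvPolynomial (Fin c) k}
    (hD : Dec a f lam nu qq) {η : Fin d → L} {i0 : Fin d} (h0 : η i0 = 1) (p : Fin c → L) (r : L) :
    ¬ ∀ α : Fin c →₀ ℕ, α.degree = a →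
      cod2L lam η (monomial α 1) = r * α.prod fun κ n => p κ ^ n := by
  intro h
  have key : ∀ g : MvPolynomial (Fin c) k, g.IsHomogeneous a →
      ∑ i, η i * algebraMap k L (lam i g) = r * aeval p g := fun g hg => by
    have h1 := cod1_eval _ p r h (hg.map (Algebra.ofId k L).toRingHom)
    rw [cod2L_map] at h1
    simp only [cod2_lamE] at h1
    rw [aeval_def, eval₂_eq_eval_map]
    exact h1
  have h1 : r * aeval p (qq i0) = 1 := by
    rw [← key _ (hD.hq i0), Finset.sum_eq_single i0]
    · rw [hD.dual, if_pos rfl, map_one, mul_one, h0]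
    · intro i _ hi
      rw [hD.dual, if_neg hi, map_zero, mul_zero]
    · simp
  have hr : r ≠ 0 := by
    rintro rfl
    simp at h1
  have hp : p = 0 := hb L p fun j => by
    have := key _ (hf j)
    simp only [hD.kill, map_zero, mul_zero, Finset.sum_const_zero] at this
    exact (mul_eq_zero.1 this.symm).resolve_left hr
  have h2 : coeff 0 (qq i0) = 0 := (hD.hq i0).coeff_eq_zero (by
    rw [map_zero]
    exact (NeZero.ne a).symm)
  rw [hp, aeval_zero, constantCoeff_eq, h2, map_zero, mul_zero] at h1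
  exact zero_ne_one h1

theorem gad_codim {f : Fin c → MvPolynomial (Fin c) k} (hf : ∀ j, (f j).IsHomogeneous a)
    (hb : Bpf f) {lam : Fin d → MvPolynomial (Fin c) k →ₗ[k] k}
    {nu : Fin c → MvPolynomial (Fin c) k →ₗ[k] k} {qq : Fin d → MvPolynomial (Fin c) k}
    (hD : Dec a f lam nu qq) (Bl : Finset (Fin N)) (q : Ideal (MvPolynomial (SG N a c) k))
    (hq : q.IsPrime) (hbad : (gad N a lam).Bad ((gZ N a c).filter fun j => j.1 ∈ Bl) q)
    (Fr : Finset (SG N a c)) (hFr : Ind q Fr) :
    Fr.card + 2 * Bl.card + 1 ≤ Fintype.card (SG N a c) + d := by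
  classical
  let L : Type u := FractionRing (MvPolynomial (SG N a c) k ⧸ q)
  let φ : MvPolynomial (SG N a c) k →ₐ[k] L :=
    (IsScalarTower.toAlgHom k (MvPolynomial (SG N a c) k ⧸ q) L).comp (Ideal.Quotient.mkₐ k q)
  have hφ : ∀ r, φ r = 0 ↔ r ∈ q := fun r => by
    change algebraMap (MvPolynomial (SG N a c) k ⧸ q) L (Ideal.Quotient.mk q r) = 0 ↔ _
    rw [map_eq_zero_iff _ (IsFractionRing.injective _ _), Ideal.Quotient.eq_zero_iff_mem]
  clear_value φ
  obtain ⟨η, i0, h0, hη⟩ := cod2_ker (fun i j => φ (ghh lam i j))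
    (((gZ N a c).filter fun j => j.1 ∈ Bl : Finset (SG N a c)) : Set (SG N a c)) fun C hC => by
      have h1 := (hφ _).2 (hbad C hC)
      rw [Sys.minor, AlgHom.map_det] at h1
      exact h1
  set s : Set L := η '' (Finset.univ.erase i0 : Finset (Fin d)) with hs
  set M := AlgebraicIndependent.matroid k L with hM
  have hs1 : M.eRk s + 1 ≤ d := by
    have h1 := Cod0_fin (k := k) ∅ (Finset.univ.erase i0) η
    rw [Set.empty_union, Matroid.eRk_empty, zero_add, Finset.card_erase_of_mem (Finset.mem_univ _),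
      Finset.card_univ, Fintype.card_fin] at h1
    have h2 : d = (d - 1) + 1 := by
      have := i0.pos
      omega
    conv_rhs => rw [h2, Nat.cast_add, Nat.cast_one]
    exact add_le_add_left h1 _
  have hηs : ∀ s' : Set L, s ⊆ s' → ∀ i, η i ∈ Algebra.adjoin k s' := fun s' h i => by
    by_cases hi : i = i0
    · rw [hi, h0]
      exact Subalgebra.one_mem _
    · exact Algebra.subset_adjoin (h ⟨i, by simpa using hi, rfl⟩)
  set blk : Fin N → Set L := fun l =>
    ⋃ t ∈ (Finset.univ : Finset (ZMod a)), Set.range fun κ => φ (X (l, t, κ)) with hblk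
  have hb1 : ∀ (s' : Set L) (l : Fin N), M.eRk (s' ∪ blk l) ≤ M.eRk s' + (a * c : ℕ) :=
    fun s' l => by
      have := cod1_blocks (k := k) s' (Finset.univ : Finset (ZMod a)) fun t κ => φ (X (l, t, κ))
      rw [Finset.card_univ, ZMod.card] at this
      push_cast
      exact this
  have hb2 : ∀ s' : Set L, s ⊆ s' → ∀ l ∈ Bl,
      M.eRk (s' ∪ blk l) + 2 ≤ M.eRk s' + (a * c : ℕ) := fun s' h l hl => by
    have hcard : (Finset.univ.erase (0 : ZMod a)).card + 1 = a := by
      rw [Finset.card_erase_add_one (Finset.mem_univ _), Finset.card_univ, ZMod.card]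
    have h1 := block_drop (k := k) s' (cod2L lam η) (fun α _ => by
        rw [cod2L_mon]
        exact Subalgebra.sum_mem _ fun i _ =>
          Subalgebra.mul_mem _ (hηs s' h i) (Subalgebra.algebraMap_mem _ _))
      (cod2_np hf hb hD h0) (Finset.univ.erase (0 : ZMod a)) hcard
      (fun t κ => φ (X (l, t, κ))) fun κ => by
        have h2 := hη (l, 0, κ) (by simp [gZ, hl])
        have h3 := cod2L_map lam η φ (X κ * pri k a c l)
        simp only [ghh, if_true] at h2
        rw [h2] at h3
        rw [← h3]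
        congr 1
        simp [pri, lab]
    have e : s' ∪ blk l = (s' ∪ ⋃ t ∈ Finset.univ.erase (0 : ZMod a),
        Set.range fun κ => φ (X (l, t, κ))) ∪ Set.range fun κ => φ (X (l, 0, κ)) := by
      simp only [hblk]
      conv_lhs => rw [← Finset.insert_erase (Finset.mem_univ (0 : ZMod a))]
      rw [Finset.set_biUnion_insert, Set.union_assoc, Set.union_comm (Set.range _)]
    have h4 := cod1_range (k := k) (s' ∪ ⋃ t ∈ Finset.univ.erase (0 : ZMod a),
        Set.range fun κ => φ (X (l, t, κ))) fun κ => φ (X (l, 0, κ))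
    have h5 : ((a * c : ℕ) : ℕ∞) = (Finset.univ.erase (0 : ZMod a)).card * c + c := by
      conv_lhs => rw [← hcard]
      push_cast
      ring
    rw [e, h5, ← add_assoc]
    refine le_trans ?_ (add_le_add_left h1 _)
    rw [add_right_comm]
    gcongr
  have hind : ∀ B : Finset (Fin N), M.eRk (s ∪ ⋃ l ∈ B, blk l) + (2 * (B ∩ Bl).card : ℕ) ≤
      M.eRk s + (B.card * (a * c) : ℕ) := fun B => by
    induction B using Finset.induction_on with
    | empty => simp
    | insert l B hl ih =>
      have e : (s ∪ ⋃ l' ∈ insert l B, blk l') = (s ∪ ⋃ l' ∈ B, blk l') ∪ blk l := by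
        rw [Finset.set_biUnion_insert, Set.union_assoc, Set.union_comm (blk l)]
      rw [e, Finset.card_insert_of_notMem hl, add_mul, one_mul, Nat.cast_add, ← add_assoc]
      refine le_trans ?_ (add_le_add_left ih _)
      by_cases hlB : l ∈ Bl
      · rw [Finset.insert_inter_of_mem hlB,
          Finset.card_insert_of_notMem (fun h => hl (Finset.mem_inter.1 h).1), mul_add, mul_one,
          Nat.cast_add, add_comm ((2 * (B ∩ Bl).card : ℕ) : ℕ∞), ← add_assoc,
          add_right_comm _ _ ((a * c : ℕ) : ℕ∞)]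
        exact add_le_add_left (hb2 _ Set.subset_union_left l hlB) _
      · rw [Finset.insert_inter_of_notMem hlB, add_right_comm _ _ ((a * c : ℕ) : ℕ∞)]
        exact add_le_add_left (hb1 _ l) _
  have h1 := hind Finset.univ
  rw [Finset.univ_inter, Finset.card_univ, Fintype.card_fin] at h1
  have h2 : (Fr.card : ℕ∞) ≤ M.eRk (s ∪ ⋃ l ∈ (Finset.univ : Finset (Fin N)), blk l) := by
    refine (cod2_ind φ (fun r => (hφ r).1) hFr).trans (Matroid.eRk_mono _ ?_)
    rintro _ ⟨⟨l, t, κ⟩, rfl⟩
    refine Or.inr ?_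
    simp only [hblk, Set.mem_iUnion]
    exact ⟨l, Finset.mem_univ _, t, Finset.mem_univ _, κ, rfl⟩
  have h3 : Fintype.card (SG N a c) = N * (a * c) := by
    simp [ZMod.card]
  have h4 : ((Fr.card + 2 * Bl.card + 1 : ℕ) : ℕ∞) ≤ ((N * (a * c) + d : ℕ) : ℕ∞) := by
    calc ((Fr.card + 2 * Bl.card + 1 : ℕ) : ℕ∞) = Fr.card + (2 * Bl.card : ℕ) + 1 := by
          push_cast
          rfl
      _ ≤ M.eRk s + (N * (a * c) : ℕ) + 1 := by
          exact add_le_add_left (le_trans (add_le_add_left h2 _) h1) _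
      _ = (N * (a * c) : ℕ) + (M.eRk s + 1) := by ring
      _ ≤ (N * (a * c) : ℕ) + d := by gcongr
      _ = _ := by
          push_cast
          rfl
  rw [h3]
  exact_mod_cast h4

theorem gad_cod {f : Fin c → MvPolynomial (Fin c) k} (hf : ∀ j, (f j).IsHomogeneous a)
    (hb : Bpf f) {lam : Fin d → MvPolynomial (Fin c) k →ₗ[k] k}
    {nu : Fin c → MvPolynomial (Fin c) k →ₗ[k] k} {qq : Fin d → MvPolynomial (Fin c) k}
    (hD : Dec a f lam nu qq) (hN : 2 * d + 1 ≤ N) : (gad N a lam).Cod (N + d + 1) := by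
  intro q hq hbad Fr hFr
  have h := gad_codim hf hb hD Finset.univ q hq
    (fun C hC => hbad C fun i => (Finset.mem_filter.1 (hC i)).1) Fr hFr
  rw [Finset.card_univ, Fintype.card_fin] at h
  omega

theorem gad_minor {f : Fin c → MvPolynomial (Fin c) k} (hf : ∀ j, (f j).IsHomogeneous a)
    (hb : Bpf f) {lam : Fin d → MvPolynomial (Fin c) k →ₗ[k] k}
    {nu : Fin c → MvPolynomial (Fin c) k →ₗ[k] k} {qq : Fin d → MvPolynomial (Fin c) k}
    (hD : Dec a f lam nu qq) (hN : 2 * d + 1 ≤ N) (l : Fin N) :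
    ∃ C : Fin d → SG N a c, (∀ i, C i ∈ gZ N a c ∧ (C i).1 ≠ l) ∧ (gad N a lam).minor C ≠ 0 := by
  by_contra hh
  push Not at hh
  have h := gad_codim hf hb hD (Finset.univ.erase l) ⊥ Ideal.isPrime_bot
    (fun C hC => by
      rw [Ideal.mem_bot]
      refine hh C fun i => ?_
      have := Finset.mem_filter.1 (hC i)
      exact ⟨this.1, (Finset.mem_erase.1 this.2).1⟩) Finset.univ
    (fun r _ hr => Ideal.mem_bot.1 hr)
  rw [Finset.card_erase_of_mem (Finset.mem_univ _), Finset.card_univ, Finset.card_univ,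
    Fintype.card_fin] at h
  omega

end Vale.Agent.P200E
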