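import Mathlib

/-! Graded modules and numerical definitions for the equal degree case. -/

namespace Vale.Agent.P200E

open MvPolynomial TensorProduct

universe u

/-- polynomial ring with coefficients in a division algebra -/
abbrev AA (k D : Type u) (σ : Type) [Field k] [DivisionRing D] [Algebra k D] : Type u :=
  MvPolynomial σ k ⊗[k] D

/-- finitely generated graded modules -/
structure GMod (k D : Type u) [Field k] [DivisionRing D] [Algebra k D] {σ ι : Type}
    (w : σ → ι → ℤ) where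
  E : Type u
  [i1 : AddCommGroup E]
  [i2 : Module k E]
  [i3 : Module (MvPolynomial σ k) E]
  [i4 : Module (AA k D σ) E]
  [i5 : IsScalarTower k (MvPolynomial σ k) E]
  [i6 : IsScalarTower (MvPolynomial σ k) (AA k D σ) E]
  [i7 : IsScalarTower k (AA k D σ) E]
  [i8 : Module.Finite (MvPolynomial σ k) E]
  π : (ι → ℤ) → E →ₗ[k] E
  fin : ∀ e, (Function.support fun χ => π χ e).Finite
  sum : ∀ e, ∑ᶠ χ, π χ e = e
  idem : ∀ χ e, π χ (π χ e) = π χ e
  orth : ∀ χ ψ e, χ ≠ ψ → π χ (π ψ e) = 0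
  shiftX : ∀ i χ e, π (χ + w i) ((X i : MvPolynomial σ k) • e) = (X i : MvPolynomial σ k) • π χ e
  actD : ∀ (d : D) χ e, π χ (((1 : MvPolynomial σ k) ⊗ₜ[k] d : AA k D σ) • e) =
    ((1 : MvPolynomial σ k) ⊗ₜ[k] d : AA k D σ) • π χ e
  fd : ∀ χ, FiniteDimensional k (LinearMap.range (π χ))

attribute [instance] GMod.i1 GMod.i2 GMod.i3 GMod.i4 GMod.i5 GMod.i6 GMod.i7 GMod.i8 GMod.fd

section gm
variable {k D : Type u} [Field k] [DivisionRing D] [Algebra k D] {σ ι : Type} {w : σ → ι → ℤ}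

/-- Hilbert function -/
noncomputable def GMod.h (G : GMod k D w) (χ : ι → ℤ) : ℤ :=
  (Module.finrank k (LinearMap.range (G.π χ)) : ℤ)

/-- graded submodule -/
def GMod.IsGr (G : GMod k D w) (U : Submodule (AA k D σ) G.E) : Prop :=
  ∀ χ, ∀ e ∈ U, G.π χ e ∈ U

/-- graded map of degree `ψ` -/
def IsGrMap (G G' : GMod k D w) (f : G.E →ₗ[AA k D σ] G'.E) (ψ : ι → ℤ) : Prop :=
  ∀ χ e, G'.π (χ + ψ) (f e) = f (G.π χ e)

/-- killed by an ideal -/
def GMod.Kill (G : GMod k D w) (I : Ideal (MvPolynomial σ k)) : Prop :=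
  ∀ r ∈ I, ∀ e : G.E, r • e = 0

/-- multiplication by a polynomial -/
noncomputable def GMod.mul (G : GMod k D w) (r : MvPolynomial σ k) : G.E →ₗ[AA k D σ] G.E where
  toFun e := r • e
  map_add' := smul_add r
  map_smul' a e := by
    have h : ∀ e : G.E, r • e = (algebraMap _ (AA k D σ) r) • e := fun e =>
      (algebraMap_smul (AA k D σ) r e).symm
    simp only [h, RingHom.id_apply, ← mul_smul, Algebra.commutes]

/-- extension of an ideal of the polynomial ring -/
noncomputable def iA (D : Type u) [DivisionRing D] [Algebra k D] (I : Ideal (MvPolynomial σ k)) :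
    Submodule (AA k D σ) (AA k D σ) :=
  Submodule.span (AA k D σ) ((fun r => (r ⊗ₜ[k] (1 : D) : AA k D σ)) '' I)

/-- homogeneous ideal -/
def HomI (w : σ → ι → ℤ) (I : Ideal (MvPolynomial σ k)) : Prop :=
  ∀ χ, ∀ r ∈ I, weightedHomogeneousComponent w χ r ∈ I

/-- the variables in `Fr` are independent modulo `I` -/
def Ind (I : Ideal (MvPolynomial σ k)) (Fr : Finset σ) : Prop :=
  ∀ q : MvPolynomial σ k, q.vars ⊆ Fr → q ∈ I → q = 0

/-- generically regular sequence -/
def GReg {R : Type u} [CommRing R] (q : Ideal R) [q.IsPrime] (E : Type u) [AddCommGroup E]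
    [Module R E] (zs : List R) : Prop :=
  RingTheory.Sequence.IsWeaklyRegular (LocalizedModule q.primeCompl E) zs

end gm

section num
variable {σ ι : Type}

/-- the group ring of the weight lattice -/
abbrev ZL (ι : Type) : Type := AddMonoidAlgebra ℤ (ι → ℤ)

/-- the character of weight `χ` -/
noncomputable abbrev ch (χ : ι → ℤ) : ZL ι := AddMonoidAlgebra.single χ 1

/-- action of the group ring on functions -/
noncomputable def op (P : ZL ι) (h : (ι → ℤ) → ℤ) (χ : ι → ℤ) : ℤ :=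
  P.coeff.sum fun ψ n => n * h (χ - ψ)

/-- pairing of functions with the group ring -/
noncomputable def pr (Φ : (ι → ℤ) → ℤ) (P : ZL ι) : ℤ := P.coeff.sum fun χ n => n * Φ χ

/-- augmentation ideal -/
noncomputable def aug (ι : Type) : Ideal (ZL ι) := Ideal.span (Set.range fun χ : ι → ℤ => 1 - ch χ)

/-- product of `1 - ch (w i)` over a set of variables -/
noncomputable def den (w : σ → ι → ℤ) (T : Finset σ) : ZL ι := ∏ i ∈ T, (1 - ch (w i))

/-- `K` is the numerator of the Hilbert series of `h` -/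
def HasK [Fintype σ] (w : σ → ι → ℤ) (h : (ι → ℤ) → ℤ) (K : ZL ι) : Prop :=
  ∀ χ, op (den w Finset.univ) h χ = K.coeff χ

/-- the numerator is a multiple of `δ (1 - ch S) ^ d` modulo `aug ^ c` -/
def Good [Fintype σ] (w : σ → ι → ℤ) (δ : ℕ) (S : ι → ℤ) (d c : ℕ) (h : (ι → ℤ) → ℤ) : Prop :=
  ∃ P Q : ZL ι, Q ∈ aug ι ^ c ∧ HasK w h (δ • ((1 - ch S) ^ d * P) + Q)

/-- polynomial functions of degree `< m` -/
def PolyLt : ℕ → ((ι → ℤ) → ℤ) → Prop
  | 0, Φ => Φ = 0
  | m + 1, Φ => ∀ ψ, PolyLt m fun χ => Φ (χ + ψ) - Φ χ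

/-- multiplicity -/
noncomputable def rho [Fintype σ] (w : σ → ι → ℤ) (θ : (ι → ℤ) →+ ℤ) (d : ℕ)
    (h : (ι → ℤ) → ℤ) : ℤ :=
  (-1) ^ d * ∑ᶠ χ, op (den w Finset.univ) h χ * θ χ ^ d

end num

section sys
variable {k : Type u} [Field k] {σ ι : Type} [DecidableEq σ]

/-- kill the variables in `Z` -/
noncomputable def cz (k : Type u) [Field k] (Z : Finset σ) :
    MvPolynomial σ k →ₐ[k] MvPolynomial σ k :=
  aeval fun i => if i ∈ Z then 0 else X i

/-- a system of `d` equations linear in the variables of `Z` -/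
structure Sys (k : Type u) [Field k] (σ ι : Type) [DecidableEq σ] (d : ℕ) where
  w : σ → ι → ℤ
  θ : (ι → ℤ) →+ ℤ
  φ : (ι → ℤ) →+ ℤ
  Z : Finset σ
  S : ι → ℤ
  hh : Fin d → σ → MvPolynomial σ k
  θw : ∀ i, θ (w i) = 1
  φb : ∀ i, i ∉ Z → φ (w i) = 0
  φz : ∀ i, i ∈ Z → 0 < φ (w i)
  hhb : ∀ i j, cz k Z (hh i j) = hh i j
  hhw : ∀ i j, (hh i j).IsWeightedHomogeneous w (S - w j)

variable {d : ℕ} (Y : Sys k σ ι d)

/-- the equations -/
noncomputable def Sys.ell (i : Fin d) : MvPolynomial σ k := ∑ j ∈ Y.Z, Y.hh i j * X j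

/-- the ideal of the equations -/
noncomputable def Sys.J : Ideal (MvPolynomial σ k) := Ideal.span (Set.range Y.ell)

/-- maximal minors -/
noncomputable def Sys.minor (C : Fin d → σ) : MvPolynomial σ k :=
  (Matrix.of fun i i' => Y.hh i (C i')).det

/-- all minors with columns in `T` lie in `q` -/
def Sys.Bad (T : Finset σ) (q : Ideal (MvPolynomial σ k)) : Prop :=
  ∀ C : Fin d → σ, (∀ i, C i ∈ T) → Y.minor C ∈ q

/-- the degeneracy locus has codimension at least `c` -/
def Sys.Cod [Fintype σ] (c : ℕ) : Prop :=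
  ∀ q : Ideal (MvPolynomial σ k), q.IsPrime → Y.Bad Y.Z q →
    ∀ Fr, Ind q Fr → Fr.card + c ≤ Fintype.card σ

/-- the main component -/
noncomputable def Sys.PP : Ideal (MvPolynomial σ k) where
  carrier := {r | ∃ β, β ≠ 0 ∧ cz k Y.Z β = β ∧ β * r ∈ Y.J}
  zero_mem' := ⟨1, one_ne_zero, map_one _, by simp⟩
  add_mem' := by
    rintro a b ⟨β, h1, h2, h3⟩ ⟨β', h1', h2', h3'⟩
    refine ⟨β * β', mul_ne_zero h1 h1', by rw [map_mul, h2, h2'], ?_⟩
    have : β * β' * (a + b) = β' * (β * a) + β * (β' * b) := by ring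
    rw [this]
    exact add_mem (Ideal.mul_mem_left _ _ h3) (Ideal.mul_mem_left _ _ h3')
  smul_mem' := by
    rintro c a ⟨β, h1, h2, h3⟩
    refine ⟨β, h1, h2, ?_⟩
    have : β * (c • a) = c * (β * a) := by rw [smul_eq_mul]; ring
    rw [this]
    exact Ideal.mul_mem_left _ _ h3

variable {D : Type u} [DivisionRing D] [Algebra k D]

/-- kill the variables in `Z` -/
noncomputable def cA (D : Type u) [DivisionRing D] [Algebra k D] (Z : Finset σ) :
    AA k D σ →ₐ[k] AA k D σ :=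
  Algebra.TensorProduct.map (cz k Z) (AlgHom.id k D)

/-- left ideal extended from the base -/
noncomputable def extL (Z : Finset σ) (L : Submodule (AA k D σ) (AA k D σ)) :
    Submodule (AA k D σ) (AA k D σ) :=
  Submodule.span (AA k D σ) ((fun r => cA (k := k) D Z r) '' (L : Set (AA k D σ)))

/-- killed by the base part of an ideal -/
def GMod.KillC {w : σ → ι → ℤ} (G : GMod k D w) (Z : Finset σ) (I : Ideal (MvPolynomial σ k)) :
    Prop := ∀ r ∈ I, ∀ e : G.E, cz k Z r • e = 0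

end sys

end Vale.Agent.P200E
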