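import Vale.Agent.P200E.Num2a

namespace Vale.Agent.P200E

open MvPolynomial TensorProduct

universe u

variable {σ ι : Type}

theorem Num2_inv (A : (ι → ℤ) ≃ (ι → ℤ)) (K : ZL ι) (hK : ∀ χ, K.coeff (A χ) = K.coeff χ)
    (F : (ι → ℤ) → ℤ) : pr (fun χ => F (A χ)) K = pr F K := by
  simp only [pr, Finsupp.sum]
  refine Finset.sum_bijective A A.bijective (fun χ => ?_) (fun χ _ => by rw [hK])
  simp only [Finsupp.mem_support_iff, hK]

theorem Num2_nsmul (Φ : (ι → ℤ) → ℤ) (n : ℕ) (R : ZL ι) : pr Φ (n • R) = n * pr Φ R := by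
  induction n with
  | zero => simp [Num2a_zero]
  | succ n ih => rw [succ_nsmul, pr_add, ih]; push_cast; ring

theorem Num2_poly {N : ℕ} (θ : (ι → ℤ) →+ ℤ) (d : ℕ) (H : Fin N → (ι → ℤ) →+ ℤ)
    (B : Finset (Fin N)) : PolyLt (d + 1 + B.card) fun χ => θ χ ^ d * ∏ m ∈ B, H m χ := by
  induction B using Finset.induction_on with
  | empty => simpa using polyLt_pow θ d
  | insert l B hl ih =>
    rw [Finset.card_insert_of_notMem hl, ← add_assoc]
    convert ih.mul_affine (H l) 0 using 2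
    rw [Finset.prod_insert hl]; ring

theorem dvd_pr {N d c δ : ℕ} (hc : N + d < c) (hδ : 0 < δ) (a : ℤ) (θ : (ι → ℤ) →+ ℤ) (S : ι → ℤ)
    (hS : θ S ≠ 0) (A : Fin N → (ι → ℤ) ≃ (ι → ℤ)) (G H : Fin N → (ι → ℤ) →+ ℤ)
    (hG : ∀ l χ, G l (A l χ) = G l χ + 1 + a * (H l χ - 1))
    (hH : ∀ l m χ, m ≠ l → H m (A l χ) = H m χ) (hθ : ∀ l χ, θ (A l χ) = θ χ)
    (hHS : ∀ l, H l S = 0) {P Q : ZL ι} (hQ : Q ∈ aug ι ^ c)
    (hK : ∀ l χ, (δ • ((1 - ch S) ^ d * P) + Q).coeff (A l χ) =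
      (δ • ((1 - ch S) ^ d * P) + Q).coeff χ) :
    (δ : ℤ) * θ S ^ d * (d.factorial : ℤ) * a ^ N ∣
      (-1) ^ d * pr (fun χ => θ χ ^ d) (δ • ((1 - ch S) ^ d * P) + Q) := by
  set K := δ • ((1 - ch S) ^ d * P) + Q with hKdef
  set E : ℤ := (δ : ℤ) * θ S ^ d * (d.factorial : ℤ) with hE
  have hE0 : E ≠ 0 :=
    mul_ne_zero (mul_ne_zero (by exact_mod_cast hδ.ne') (pow_ne_zero _ hS))
      (by exact_mod_cast d.factorial_ne_zero)
  let y : Finset (Fin N) → ℤ := fun B => pr (fun χ => ∏ m ∈ B, H m χ) P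
  have hx : ∀ B : Finset (Fin N),
      (-1) ^ d * pr (fun χ => θ χ ^ d * ∏ m ∈ B, H m χ) K = E * y B := by
    intro B
    have hB : B.card ≤ N := by simpa using B.card_le_univ
    have h0 := pr_aug ((Num2_poly θ d H B).mono (n := c) (by omega)) hQ
    have h1 := pr_one_sub_pow θ S d (fun χ => ∏ m ∈ B, H m χ)
      (fun χ => by simp only [map_add, hHS, add_zero]) P
    rw [hKdef, pr_add, h0, add_zero, Num2_nsmul, mul_left_comm, h1, hE]
    ring
  have hstep : ∀ (B : Finset (Fin N)) (l : Fin N), l ∉ B →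
      a * y (insert l B) = (a - 1) * y B := by
    intro B l hl
    have h1 := Num2_inv (A l) K (hK l) fun χ => θ χ ^ d * G l χ * ∏ m ∈ B, H m χ
    have e : (fun χ => θ (A l χ) ^ d * G l (A l χ) * ∏ m ∈ B, H m (A l χ)) =
        fun χ => θ χ ^ d * G l χ * ∏ m ∈ B, H m χ +
          (a * (θ χ ^ d * ∏ m ∈ insert l B, H m χ) -
            (a - 1) * (θ χ ^ d * ∏ m ∈ B, H m χ)) := by
      funext χ
      rw [hθ, hG, Finset.prod_insert hl,
        Finset.prod_congr rfl fun m hm => hH l m χ (fun e => hl (e ▸ hm))]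
      ring
    rw [e, Num2a_fun_add, Num2a_fun_sub, Num2a_fun_mul, Num2a_fun_mul] at h1
    apply mul_left_cancel₀ hE0
    have h2 := hx (insert l B)
    have h3 := hx B
    linear_combination (-1) ^ d * h1 - a * h2 + (a - 1) * h3
  have hall : ∀ B : Finset (Fin N), a ^ B.card * y B = (a - 1) ^ B.card * y ∅ := by
    intro B
    induction B using Finset.induction_on with
    | empty => simp
    | insert l B hl ih =>
      rw [Finset.card_insert_of_notMem hl, pow_succ, mul_assoc, hstep B l hl, pow_succ]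
      linear_combination (a - 1) * ih
  have hd : a ^ N ∣ y ∅ := by
    have h1 := hall Finset.univ
    rw [Finset.card_univ, Fintype.card_fin] at h1
    have hcop : IsCoprime (a ^ N) ((a - 1) ^ N) :=
      IsCoprime.pow ⟨1, -1, by ring⟩
    exact hcop.dvd_of_dvd_mul_left ⟨_, h1.symm⟩
  have h0 := hx ∅
  simp only [Finset.prod_empty, mul_one] at h0
  rw [h0]
  exact mul_dvd_mul_left _ hd

end Vale.Agent.P200E
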