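import Vale.Agent.P200E.Act0
import Vale.Agent.P200E.Num2

namespace Vale.Agent.P200E

open MvPolynomial TensorProduct

universe u

variable {N a c d : ℕ} [NeZero a]

/-- minus the sum of the nonzero slots of a block -/
def domG (l : Fin N) : (IG N a → ℤ) →+ ℤ where
  toFun χ := -∑ t ∈ Finset.univ.erase (0 : ZMod a), χ (some (l, t))
  map_zero' := by simp
  map_add' χ ψ := by simp only [Pi.add_apply, Finset.sum_add_distrib]; ring

/-- the last slot of a block -/
def domH (l : Fin N) : (IG N a → ℤ) →+ ℤ := Pi.evalAddMonoidHom (fun _ => ℤ) (some (l, -1))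

/-- the linear action as an equivalence -/
def sLE (γ : Fin N → ZMod a) : (IG N a → ℤ) ≃+ (IG N a → ℤ) where
  toFun := sL γ
  invFun := sL (-γ)
  left_inv χ := by rw [← sL_add, neg_add_cancel, sL_zero]
  right_inv χ := by rw [← sL_add, add_neg_cancel, sL_zero]
  map_add' := map_add _

/-- the shift of the variables -/
def shE (c : ℕ) (γ : Fin N → ZMod a) : SG N a c ≃ SG N a c where
  toFun i := (i.1, i.2.1 + γ i.1, i.2.2)
  invFun i := (i.1, i.2.1 - γ i.1, i.2.2)
  left_inv i := by simp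
  right_inv i := by simp

theorem dom_eps_ne {l m : Fin N} (h : l ≠ m) (t s : ZMod a) : eps l t (some (m, s)) = 0 := by
  unfold eps
  split_ifs <;> simp [Finset.sum_apply, h.symm]

theorem domG_single (l m : Fin N) (t : ZMod a) :
    domG l (Pi.single (some (m, t)) 1) = if m = l ∧ t ≠ 0 then -1 else 0 := by
  simp only [domG, AddMonoidHom.coe_mk, ZeroHom.coe_mk]
  split_ifs with h
  · rw [Finset.sum_eq_single t]
    · simp [h.1]
    · intro b _ hb
      simp [hb]
    · intro h'
      exact absurd (Finset.mem_erase.2 ⟨h.2, Finset.mem_univ _⟩) h'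
  · rw [neg_eq_zero]
    refine Finset.sum_eq_zero fun s hs => ?_
    rw [Pi.single_apply, if_neg]
    intro h'
    simp only [Option.some.injEq, Prod.mk.injEq] at h'
    exact h ⟨h'.1.symm, h'.2 ▸ (Finset.mem_erase.1 hs).1⟩

theorem domG_eps (l : Fin N) (t : ZMod a) :
    domG l (eps l t) = -1 + if t = 0 then (a : ℤ) else 0 := by
  unfold eps
  split_ifs with h
  · rw [map_neg, map_sum, Finset.sum_congr rfl fun s hs =>
      (domG_single l l s).trans (if_pos ⟨rfl, (Finset.mem_erase.1 hs).1⟩)]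
    have h1 : 1 ≤ a := Nat.one_le_iff_ne_zero.2 (NeZero.ne a)
    simp only [Finset.sum_const, Finset.card_erase_of_mem (Finset.mem_univ (0 : ZMod a)),
      Finset.card_univ, ZMod.card, smul_neg, nsmul_eq_mul, mul_one, neg_neg, Nat.cast_sub h1]
    ring
  · rw [domG_single, if_pos ⟨rfl, h⟩, add_zero]

theorem domG_eps_ne {l m : Fin N} (h : m ≠ l) (t : ZMod a) : domG l (eps m t) = 0 := by
  simp only [domG, AddMonoidHom.coe_mk, ZeroHom.coe_mk, dom_eps_ne h, Finset.sum_const_zero,
    neg_zero]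

theorem domG_sL (ha : 2 ≤ a) (l : Fin N) (χ : IG N a → ℤ) :
    domG l (sL (Pi.single l 1) χ) = domG l χ + a * domH l χ := by
  have : Fact (1 < a) := ⟨ha⟩
  have h0 : domG l (th0 N a) = 0 := by simp [domG, th0]
  have h1 : (-1 : ZMod a) ∈ Finset.univ.erase (0 : ZMod a) := by simp
  simp only [sL, AddMonoidHom.coe_mk, ZeroHom.coe_mk, map_add, map_sum, map_zsmul, h0,
    domG_single, smul_zero, zero_add, ne_eq, not_true_eq_false, and_false, if_false]
  rw [Finset.sum_eq_single l]
  · simp only [domG_eps, Pi.single_eq_same, smul_eq_mul, mul_add, Finset.sum_add_distrib,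
      add_eq_zero_iff_eq_neg, mul_ite, mul_zero, Finset.sum_ite_eq', h1, if_true]
    simp [domG, domH, mul_comm]
  · intro m _ hm
    simp [domG_eps_ne hm]
  · simp

theorem domH_sL (γ : Fin N → ZMod a) {m : Fin N} (hm : γ m = 0) (χ : IG N a → ℤ) :
    domH m (sL γ χ) = domH m χ := by
  conv_rhs => rw [← sL_zero χ]
  simp only [sL, AddMonoidHom.coe_mk, ZeroHom.coe_mk, map_add, map_sum, map_zsmul]
  congr 1
  refine Finset.sum_congr rfl fun l _ => ?_
  congr 1
  refine Finset.sum_congr rfl fun t _ => ?_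
  by_cases h : l = m
  · rw [h, hm, Pi.zero_apply]
  · simp [domH, dom_eps_ne h]

theorem gθ_sL (γ : Fin N → ZMod a) (χ : IG N a → ℤ) : gθ N a (sL γ χ) = gθ N a χ := by
  simp only [sL, AddMonoidHom.coe_mk, ZeroHom.coe_mk, map_add, map_sum, map_zsmul, gθ_eps, gθ_th0]
  simp [gθ]

theorem dom_dvd (ha : 2 ≤ a) {δ : ℕ} (hδ : 0 < δ) {h : (IG N a → ℤ) → ℤ}
    (hg : Good (gw (N := N) (a := a) (c := c)) δ (a • th0 N a) d (N + d + 1) h)
    (hh : ∀ (l : Fin N) χ, h (sL (Pi.single l 1) χ + cc (Pi.single l 1)) = h χ) :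
    (δ : ℤ) * (a : ℤ) ^ d * (d.factorial : ℤ) * (a : ℤ) ^ N ∣
      rho (gw (N := N) (a := a) (c := c)) (gθ N a) d h := by
  obtain ⟨P, Q, hQ, hK⟩ := hg
  have hS : gθ N a (a • th0 N a) = a := by rw [map_nsmul, gθ_th0]; simp
  rw [rho_eq _ _ hK]
  have := dvd_pr (N := N) (d := d) (Nat.lt_succ_self _) hδ (a : ℤ) (gθ N a) (a • th0 N a)
    (by rw [hS]; exact_mod_cast NeZero.ne a)
    (fun l => (sLE (Pi.single l 1)).toEquiv.trans (Equiv.addRight (cc (Pi.single l 1))))
    domG domH (fun l χ => ?_) (fun l m χ hm => ?_) (fun l χ => ?_) (fun l => ?_) (P := P) hQ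
    fun l χ => hK.equiv (sLE (Pi.single l 1)) (shE c (Pi.single l 1)) (sL_gw _) _ (hh l) χ
  · rwa [hS] at this
  · change domG l (sL (Pi.single l 1) χ + cc (Pi.single l 1)) = _
    rw [map_add, domG_sL ha, cc_single ha, map_neg, domG_eps, if_pos rfl]
    ring
  · change domH m (sL (Pi.single l 1) χ + cc (Pi.single l 1)) = _
    rw [map_add, domH_sL _ (Pi.single_eq_of_ne hm _), cc_single ha, map_neg]
    simp [domH, dom_eps_ne hm.symm]
  · change gθ N a (sL (Pi.single l 1) χ + cc (Pi.single l 1)) = _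
    rw [map_add, gθ_sL, cc_single ha, map_neg, gθ_eps, neg_zero, add_zero]
  · simp [domH, th0]

end Vale.Agent.P200E
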