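import Vale.Agent.P200E.Gen2

namespace Vale.Agent.P200E

open MvPolynomial TensorProduct

universe u

variable {k D : Type u} [Field k] [DivisionRing D] [Algebra k D] [FiniteDimensional k D]
  {σ ι : Type} [Fintype σ] [DecidableEq σ] {d : ℕ} {Y : Sys k σ ι d}

omit [FiniteDimensional k D] [Fintype σ] [DecidableEq σ] in
theorem Gen3_tmul_smul {w : σ → ι → ℤ} (G : GMod k D w) (t : MvPolynomial σ k) (e : G.E) :
    (t ⊗ₜ[k] (1 : D) : AA k D σ) • e = t • e := by
  rw [← algebraMap_smul (AA k D σ) t e]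
  rfl

omit [FiniteDimensional k D] [Fintype σ] [DecidableEq σ] in
theorem Gen3_mem_iff (W : Submodule (AA k D σ) (AA k D σ)) (I : Ideal (MvPolynomial σ k))
    (a : AA k D σ) :
    W.mkQ a ∈ I • (⊤ : Submodule (MvPolynomial σ k) (AA k D σ ⧸ W)) ↔ a ∈ W ⊔ iA D I := by
  constructor
  · intro h
    have h1 : I • (⊤ : Submodule (MvPolynomial σ k) (AA k D σ ⧸ W)) ≤
        ((iA D I).map W.mkQ).restrictScalars (MvPolynomial σ k) := by
      refine Submodule.smul_le.2 fun r hr y _ => ?_
      obtain ⟨y, rfl⟩ := W.mkQ_surjective y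
      exact ⟨r • y, smul_mem_iA hr y, LinearMap.map_smul_of_tower _ _ _⟩
    have h2 : a ∈ ((iA D I).map W.mkQ).comap W.mkQ := h1 h
    rwa [Submodule.comap_map_mkQ] at h2
  · intro h
    obtain ⟨x, hx, y, hy, rfl⟩ := Submodule.mem_sup.1 h
    rw [map_add, Submodule.mkQ_apply, (Submodule.Quotient.mk_eq_zero W).2 hx, zero_add]
    have h1 : y ∈ (iA D I).restrictScalars (MvPolynomial σ k) := hy
    rw [iA_restrict] at h1
    refine Submodule.smul_induction_on h1 (fun r hr n _ => ?_) (fun a b ha hb => ?_)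
    · rw [LinearMap.map_smul_of_tower]
      exact Submodule.smul_mem_smul hr Submodule.mem_top
    · rw [map_add]
      exact add_mem ha hb

omit [FiniteDimensional k D] [Fintype σ] in
theorem Gen3_cz_mem (Z : Finset σ) {q : Ideal (MvPolynomial σ k)} {r : MvPolynomial σ k}
    (hr : r ∈ q) (a : AA k D σ) : cz k Z r • a ∈ extL Z (iA D q) := by
  have h1 : cz k Z r • a = a • cA (k := k) D Z (r ⊗ₜ[k] (1 : D)) := by
    have h0 : cz k Z r • a = algebraMap (MvPolynomial σ k) (AA k D σ) (cz k Z r) * a :=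
      (algebraMap_smul (AA k D σ) (cz k Z r) a).symm
    rw [h0, Algebra.commutes]
    rfl
  rw [h1]
  exact Submodule.smul_mem _ _ (Submodule.subset_span
    ⟨_, Submodule.subset_span ⟨r, hr, rfl⟩, rfl⟩)

omit [FiniteDimensional k D] [Fintype σ] in
theorem Gen3_le_ker (G : GMod k D Y.w) {q : Ideal (MvPolynomial σ k)} (h1 : G.Kill Y.J)
    (h2 : G.KillC Y.Z q) (e : G.E) :
    extL Y.Z (iA D q) ⊔ iA D Y.J ≤ LinearMap.ker (LinearMap.toSpanSingleton (AA k D σ) G.E e) := by
  refine sup_le (Submodule.span_le.2 ?_) (Submodule.span_le.2 ?_)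
  · rintro _ ⟨r, hr, rfl⟩
    show cA (k := k) D Y.Z r • e = 0
    induction hr using Submodule.span_induction with
    | mem x hx =>
      obtain ⟨t, ht, rfl⟩ := hx
      exact (Gen3_tmul_smul G (cz k Y.Z t) e).trans (h2 t ht e)
    | zero =>
      rw [map_zero]
      exact zero_smul (AA k D σ) e
    | add x y _ _ hx hy =>
      rw [map_add]
      refine (add_smul _ _ e).trans ?_
      rw [hx, hy, add_zero]
    | smul a x _ hx =>
      rw [smul_eq_mul, map_mul]
      refine (mul_smul _ _ e).trans ?_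
      rw [hx, smul_zero]
  · rintro _ ⟨t, ht, rfl⟩
    exact (Gen3_tmul_smul G t e).trans (h1 t ht e)

theorem Gen3_reg (q : Ideal (MvPolynomial σ k)) [hp : q.IsPrime] (C : Fin d → σ)
    (hC : ∀ i, C i ∈ Y.Z) (hμ : Y.minor C ∉ q) (L : Submodule (AA k D σ) (AA k D σ))
    (zs : List σ) (hzs : ∀ j, j ∈ zs ↔ j ∈ Y.Z ∧ j ∉ Set.range C) (hn : zs.Nodup) :
    GReg q (AA k D σ ⧸ (extL Y.Z L ⊔ iA D Y.J)) (zs.map X) := by
  refine greg_of_elem q fun i x hx => ?_
  obtain ⟨r, rfl⟩ := (extL Y.Z L ⊔ iA D Y.J).mkQ_surjective x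
  have hi : i.1 < zs.length := by simpa using i.2
  have hI : Ideal.ofList ((zs.map (X : σ → MvPolynomial σ k)).take i) =
      Ideal.span ((fun i => (X i : MvPolynomial σ k)) '' {j | j ∈ zs.take i}) := by
    rw [Ideal.ofList, ← List.map_take]
    congr 1
    ext x
    simp only [List.mem_map, Set.mem_setOf_eq, Set.mem_image]
  have hz : (zs.map (X : σ → MvPolynomial σ k))[i] = X zs[i.1] := by simp
  rw [hz, ← LinearMap.map_smul_of_tower, Gen3_mem_iff, hI, sup_assoc, ← iA_sup] at hx
  have hmem := (hzs zs[i.1]).1 (List.getElem_mem hi)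
  obtain ⟨m, hm⟩ := Y.reg_X C hC L {j | j ∈ zs.take i}
    (fun j hj => (hzs j).1 (List.mem_of_mem_take hj)) zs[i.1] hmem.1 hmem.2 (by
      intro hj
      obtain ⟨n, hn1, hn2⟩ := List.getElem_of_mem hj
      rw [List.getElem_take] at hn2
      have h3 := (hn.getElem_inj_iff).1 hn2
      have h4 : n < i.1 := by
        rw [List.length_take] at hn1
        exact lt_of_lt_of_le hn1 (min_le_left _ _)
      omega) r hx
  refine ⟨Y.minor C ^ m, fun h => hμ (hp.mem_of_pow_mem m h), ?_⟩
  rw [← LinearMap.map_smul_of_tower, Gen3_mem_iff, hI, sup_assoc, ← iA_sup]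
  exact hm

theorem Sys.gen_all {c : ℕ} (hc : Y.Cod c) (q : Ideal (MvPolynomial σ k)) [q.IsPrime]
    (hq : HomI Y.w q) (hZ : ∀ j ∈ Y.Z, (X j : MvPolynomial σ k) ∈ q) (C : Fin d → σ)
    (hC : ∀ i, C i ∈ Y.Z) (hμ : Y.minor C ∉ q)
    (htors : ∀ G : GMod k D Y.w, G.Kill Y.J → G.KillC Y.Z q → (∀ e : G.E, ∃ t ∉ q, t • e = 0) →
      Good Y.w (Module.finrank k D) Y.S d c G.h)
    (G : GMod k D Y.w) (h1 : G.Kill Y.J) (h2 : G.KillC Y.Z q) :
    Good Y.w (Module.finrank k D) Y.S d c G.h := by
  classical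
  set zs : List σ := (Y.Z.filter fun j => j ∉ Set.range C).toList with hzs0
  have hzs : ∀ j, j ∈ zs ↔ j ∈ Y.Z ∧ j ∉ Set.range C := by
    intro j
    rw [hzs0, Finset.mem_toList, Finset.mem_filter]
  have hn : zs.Nodup := Finset.nodup_toList _
  have g1 : (Y.cy D).IsGr (extL Y.Z (iA D q)) :=
    isGr_extL Y.θ Y.θw Y.Z (isGr_iA Y.θ Y.θw hq)
  have g2 : (Y.cy D).IsGr (extL Y.Z (iA D q) ⊔ iA D Y.J) :=
    g1.sup (isGr_iA Y.θ Y.θw Y.homI_J)
  set W : Submodule (AA k D σ) (AA k D σ) := extL Y.Z (iA D q) ⊔ iA D Y.J with hW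
  have hF0 : Good Y.w (Module.finrank k D) Y.S d c ((Y.cy D).quot W g2).h :=
    Sys.good_ind hc (iA D q) g1 g2
  have hR0 : GReg q (AA k D σ ⧸ W) (zs.map X) := Gen3_reg q C hC hμ (iA D q) zs hzs hn
  have kJ : ∀ r ∈ Y.J, ∀ y : AA k D σ ⧸ W, r • y = 0 := by
    intro r hr y
    obtain ⟨a, rfl⟩ := W.mkQ_surjective y
    rw [← LinearMap.map_smul_of_tower, Submodule.mkQ_apply, Submodule.Quotient.mk_eq_zero]
    exact Submodule.mem_sup_right (smul_mem_iA hr a)
  have kq : ∀ r ∈ q, ∀ y : AA k D σ ⧸ W, cz k Y.Z r • y = 0 := by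
    intro r hr y
    obtain ⟨a, rfl⟩ := W.mkQ_surjective y
    rw [← LinearMap.map_smul_of_tower, Submodule.mkQ_apply, Submodule.Quotient.mk_eq_zero]
    exact Submodule.mem_sup_left (Gen3_cz_mem Y.Z hr a)
  have key : ∀ n i : ℕ, i + n = (zs.map (X : σ → MvPolynomial σ k)).length →
      ∀ G : GMod k D Y.w, G.Kill Y.J → G.KillC Y.Z q → GReg q G.E ((zs.map X).take i) →
        Good Y.w (Module.finrank k D) Y.S d c G.h := by
    intro n
    induction n with
    | zero =>
      intro i hi G h1 h2 h3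
      rw [add_zero] at hi
      rw [hi, List.take_length] at h3
      exact Sys.gen_reg hc q hq hZ C hC hμ htors zs hzs G h1 h2 h3
    | succ n ih =>
      intro i hi G h1 h2 h3
      obtain ⟨m, e, ψ, he, hsp⟩ := G.gens
      let fg : Fin m → (AA k D σ ⧸ W) →ₗ[AA k D σ] G.E := fun g =>
        W.liftQ (LinearMap.toSpanSingleton (AA k D σ) G.E (e g)) (Gen3_le_ker G h1 h2 (e g))
      let f0 : (Fin m → AA k D σ ⧸ W) →ₗ[AA k D σ] G.E :=
        ∑ g, fg g ∘ₗ LinearMap.proj g
      have f0_apply : ∀ x : Fin m → AA k D σ ⧸ W, f0 x = ∑ g, fg g (x g) := by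
        intro x
        simp only [f0, LinearMap.coe_sum, Finset.sum_apply, LinearMap.comp_apply,
          LinearMap.proj_apply]
      let F : GMod k D Y.w := ((Y.cy D).quot W g2).pw ψ
      let f : F.E →ₗ[AA k D σ] G.E := f0
      have hgr : IsGrMap F G f 0 := by
        intro χ x
        have e1 : f x = ∑ g, fg g ((x : Fin m → AA k D σ ⧸ W) g) := f0_apply x
        have e2 : f (F.π χ x) = ∑ g, fg g (((Y.cy D).quot W g2).π (χ - ψ g)
            ((x : Fin m → AA k D σ ⧸ W) g)) := f0_apply _
        rw [e1, e2, map_sum]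
        refine Finset.sum_congr rfl fun g _ => ?_
        obtain ⟨r, hr⟩ := W.mkQ_surjective ((x : Fin m → AA k D σ ⧸ W) g)
        rw [← hr]
        have h5 := isGrMap_gen Y.θ Y.θw G (he g) (χ - ψ g) r
        rw [sub_add_cancel] at h5
        rw [add_zero]
        exact h5
      have hsurj : Function.Surjective f0 := by
        intro y
        have h5 : (⊤ : Submodule (MvPolynomial σ k) G.E) ≤
            (LinearMap.range f0).restrictScalars (MvPolynomial σ k) := by
          rw [← hsp]
          refine Submodule.span_le.2 ?_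
          rintro _ ⟨g, rfl⟩
          refine ⟨Pi.single g (W.mkQ 1), ?_⟩
          rw [f0_apply, Finset.sum_eq_single g]
          · rw [Pi.single_eq_same]
            exact one_smul _ _
          · intro b _ hb
            rw [Pi.single_eq_of_ne hb, map_zero]
          · intro h; exact absurd (Finset.mem_univ g) h
        exact h5 Submodule.mem_top
      have hFgood : Good Y.w (Module.finrank k D) Y.S d c F.h := by
        have : F.h = fun χ => ∑ g, ((Y.cy D).quot W g2).h (χ - ψ g) :=
          funext fun χ => GMod.h_pw _ ψ χ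
        rw [this]
        exact Good.sum Finset.univ fun g _ => hF0.shift (ψ g)
      have hlt : i < (zs.map (X : σ → MvPolynomial σ k)).length := by omega
      have hK : Good Y.w (Module.finrank k D) Y.S d c (F.sub _ hgr.ker).h := by
        refine ih (i + 1) (by omega) _ ?_ ?_ ?_
        · intro r hr x
          apply Subtype.ext
          funext g
          exact kJ r hr _
        · intro r hr x
          apply Subtype.ext
          funext g
          exact kq r hr _
        · have h5 := greg_take q (greg_pi q hR0 m) (i + 1)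
          rw [List.take_succ_eq_append_getElem hlt] at h5 ⊢
          have h6 := greg_ker q (f0.restrictScalars (MvPolynomial σ k)) hsurj h5 h3
          let e1 : LinearMap.ker (f0.restrictScalars (MvPolynomial σ k)) ≃ₗ[MvPolynomial σ k]
              LinearMap.ker f0 :=
            { toFun := fun x => ⟨x.1, x.2⟩
              invFun := fun x => ⟨x.1, x.2⟩
              map_add' := fun _ _ => rfl
              map_smul' := fun _ _ => rfl
              left_inv := fun _ => rfl
              right_inv := fun _ => rfl }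
          exact greg_equiv q e1 h6
      have htop : ∀ (U : Submodule (AA k D σ) G.E) (hU : G.IsGr U), U = ⊤ →
          (G.sub U hU).h = G.h := by
        rintro _ hU rfl
        exact G.h_top hU
      have h7 : G.h = F.h - (F.sub _ hgr.ker).h := by
        funext χ
        have h8 := hgr.h_eq χ
        rw [htop _ hgr.range (LinearMap.range_eq_top.2 hsurj), add_zero] at h8
        rw [Pi.sub_apply, h8]
        ring
      rw [h7]
      exact hFgood.sub hK
  exact key _ 0 (zero_add _) G h1 h2 (by rw [List.take_zero]; exact greg_nil q)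

end Vale.Agent.P200E
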