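import Vale.Agent.P200E.KInd0
import Vale.Agent.P200E.Gen3

namespace Vale.Agent.P200E

open MvPolynomial TensorProduct

universe u

variable {k D : Type u} [Field k] [DivisionRing D] [Algebra k D] [FiniteDimensional k D]
  {σ ι : Type} [Fintype σ] [DecidableEq σ] {d : ℕ} {Y : Sys k σ ι d}

omit [FiniteDimensional k D] [Fintype σ] in
theorem KInd_killC {w : σ → ι → ℤ} (G : GMod k D w) {Z : Finset σ} {A : Ideal (MvPolynomial σ k)}
    (hA : G.KillC Z A) {β : MvPolynomial σ k} (hβ : ∀ e : G.E, cz k Z β • e = 0) :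
    G.KillC Z (A ⊔ Ideal.span {β}) := by
  intro r hr e
  obtain ⟨x, hx, y, hy, rfl⟩ := Submodule.mem_sup.1 hr
  obtain ⟨s, rfl⟩ := Ideal.mem_span_singleton'.1 hy
  rw [map_add, map_mul, add_smul, hA x hx, mul_smul, hβ, smul_zero, add_zero]

omit [Fintype σ] [DecidableEq σ] in
theorem KInd_lt {A : Ideal (MvPolynomial σ k)} {β : MvPolynomial σ k} (hβ : β ∉ A) :
    A < A ⊔ Ideal.span {β} :=
  lt_of_le_of_ne le_sup_left fun h => hβ (h ▸ Ideal.mem_sup_right (Ideal.mem_span_singleton_self β))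

theorem KInd_hom {w : σ → ι → ℤ} {A : Ideal (MvPolynomial σ k)} (hA : HomI w A)
    {β : MvPolynomial σ k} {χ : ι → ℤ} (hβ : β.IsWeightedHomogeneous w χ) :
    HomI w (A ⊔ Ideal.span {β}) :=
  hA.sup (homI_span fun r hr => ⟨χ, by rw [Set.mem_singleton_iff.1 hr]; exact hβ⟩)

theorem KInd_tors (G : GMod k D Y.w) {A : Ideal (MvPolynomial σ k)} [hp : A.IsPrime]
    (h : ∀ e : G.E, ∃ t ∉ A, t • e = 0) :
    ∃ (β : MvPolynomial σ k) (χ : ι → ℤ), β.IsWeightedHomogeneous Y.w χ ∧ β ∉ A ∧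
      ∀ e : G.E, cz k Y.Z β • e = 0 := by
  classical
  obtain ⟨m, e, ψ, -, hsp⟩ := G.gens
  choose t ht hte using fun i => h (e i)
  have h1 : ∏ i, t i ∉ A := by
    rw [Ideal.IsPrime.prod_mem_iff]
    rintro ⟨i, -, hi⟩
    exact ht i hi
  have h2 : ∏ i, t i ∈ Module.annihilator (MvPolynomial σ k) G.E := by
    rw [Module.mem_annihilator]
    intro x
    have hx : x ∈ Submodule.span (MvPolynomial σ k) (Set.range e) := hsp ▸ Submodule.mem_top
    induction hx using Submodule.span_induction with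
    | mem x hx =>
      obtain ⟨i, rfl⟩ := hx
      rw [← Finset.prod_erase_mul _ _ (Finset.mem_univ i), mul_smul, hte, smul_zero]
    | zero => exact smul_zero _
    | add x y _ _ hx hy => rw [smul_add, hx, hy, add_zero]
    | smul a x _ hx => rw [smul_comm, hx, smul_zero]
  obtain ⟨S, hS, hS'⟩ := KInd0_split Y.w A (∏ i, t i)
  have hSne : S.Nonempty := by
    rw [Finset.nonempty_iff_ne_empty]
    rintro rfl
    exact h1 (by simpa using hS')
  obtain ⟨χ, hχ⟩ := hSne
  refine ⟨_, χ, weightedHomogeneousComponent_isWeightedHomogeneous χ _, hS χ hχ, fun x => ?_⟩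
  have h3 := Module.mem_annihilator.1 (G.homI_ann χ _ h2)
  let U : AddSubmonoid G.E :=
    { carrier := {x | cz k Y.Z (weightedHomogeneousComponent Y.w χ (∏ i, t i)) • x = 0}
      zero_mem' := smul_zero _
      add_mem' := fun {a b} ha hb => by
        have ha' : cz k Y.Z (weightedHomogeneousComponent Y.w χ (∏ i, t i)) • a = 0 := ha
        have hb' : cz k Y.Z (weightedHomogeneousComponent Y.w χ (∏ i, t i)) • b = 0 := hb
        change cz k Y.Z (weightedHomogeneousComponent Y.w χ (∏ i, t i)) • (a + b) = 0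
        rw [smul_add, ha', hb', add_zero] }
  refine G.mem_of_π (U := U) fun ξ => ?_
  exact Y.cz_kill G (n := Y.φ ξ) (fun ξ' h' => G.orth _ _ _ fun he => h' (by rw [he])) (h3 _)

theorem KInd_main [Fintype ι] {c : ℕ} (hc : Y.Cod c) (A : Ideal (MvPolynomial σ k)) :
    HomI Y.w A → (∀ j ∈ Y.Z, (X j : MvPolynomial σ k) ∈ A) →
      ∀ G : GMod k D Y.w, G.Kill Y.J → G.KillC Y.Z A →
        Good Y.w (Module.finrank k D) Y.S d c G.h := by
  induction A using IsNoetherian.induction with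
  | hgt A ih =>
  intro hA hZ G h1 h2
  have IH : ∀ (β : MvPolynomial σ k) (χ : ι → ℤ), β.IsWeightedHomogeneous Y.w χ → β ∉ A →
      ∀ G' : GMod k D Y.w, G'.Kill Y.J → G'.KillC Y.Z A → (∀ e : G'.E, cz k Y.Z β • e = 0) →
        Good Y.w (Module.finrank k D) Y.S d c G'.h := fun β χ hβ hβA G' g1 g2 g3 =>
    ih _ (KInd_lt hβA) (KInd_hom hA hβ) (fun j hj => Ideal.mem_sup_left (hZ j hj)) G' g1
      (KInd_killC G' g2 g3)
  by_cases htop : A = ⊤
  · have h0 : ∀ e : G.E, e = 0 := fun e => by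
      have := h2 1 (htop ▸ Submodule.mem_top) e
      rwa [map_one, one_smul] at this
    rw [G.h_zero h0]
    exact Good.zero
  by_cases hp : Ideal.IsPrime A
  · by_cases hb : Y.Bad Y.Z A
    · obtain ⟨K, hK, hK'⟩ := Sys.hasK_bad hc G fun C hC e => ⟨1, by
        have := h2 _ (hb C hC) e
        rwa [Y.cz_minor, ← pow_one (Y.minor C)] at this⟩
      exact Good.of_aug hK hK'
    · obtain ⟨C, hC, hμ⟩ : ∃ C : Fin d → σ, (∀ i, C i ∈ Y.Z) ∧ Y.minor C ∉ A := by
        by_contra hn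
        push Not at hn
        exact hb hn
      refine Sys.gen_all hc A hA hZ C hC hμ (fun G' g1 g2 g3 => ?_) G h1 h2
      obtain ⟨β, χ, hβ, hβA, hk⟩ := KInd_tors G' g3
      exact IH β χ hβ hβA G' g1 g2 hk
  · obtain ⟨f, g, χ, ψ, hf, hg, hfg, hfA, hgA⟩ : ∃ (f g : MvPolynomial σ k) (χ ψ : ι → ℤ),
        f.IsWeightedHomogeneous Y.w χ ∧ g.IsWeightedHomogeneous Y.w ψ ∧ f * g ∈ A ∧ f ∉ A ∧
          g ∉ A := by
      by_contra hn
      refine hp (prime_of_hom hA htop fun f g χ ψ hf hg hfg => ?_)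
      by_contra hn'
      push Not at hn'
      exact hn ⟨f, g, χ, ψ, hf, hg, hfg, hn'.1, hn'.2⟩
    have hcf : (cz k Y.Z f).IsWeightedHomogeneous Y.w χ := by
      have := cz_whc (w := Y.w) Y.Z χ f
      rw [hf.weightedHomogeneousComponent_same] at this
      rw [this]
      exact weightedHomogeneousComponent_isWeightedHomogeneous χ _
    have hF := G.isGrMap_mul hcf
    have e1 : G.h = (G.sub _ hF.ker).h + fun ξ => (G.sub _ hF.range).h (ξ + χ) :=
      funext fun ξ => hF.h_eq ξ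
    rw [e1]
    refine Good.add (IH f χ hf hfA _ ?_ ?_ ?_) (Good.shift' (IH g ψ hg hgA _ ?_ ?_ ?_) χ)
    · exact fun r hr e => Subtype.ext (h1 r hr e.1)
    · exact fun r hr e => Subtype.ext (h2 r hr e.1)
    · exact fun e => Subtype.ext e.2
    · exact fun r hr e => Subtype.ext (h1 r hr e.1)
    · exact fun r hr e => Subtype.ext (h2 r hr e.1)
    · rintro ⟨_, e, rfl⟩
      refine Subtype.ext ?_
      change cz k Y.Z g • cz k Y.Z f • e = 0
      rw [← mul_smul, ← map_mul, mul_comm]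
      exact h2 _ hfg e

theorem Sys.good [Fintype ι] {c : ℕ} (hc : Y.Cod c) (G : GMod k D Y.w) (h1 : G.Kill Y.J) :
    Good Y.w (Module.finrank k D) Y.S d c G.h := by
  refine KInd_main hc (Ideal.span ((fun j => (X j : MvPolynomial σ k)) '' (Y.Z : Set σ)))
    (homI_span ?_) (fun j hj => Ideal.subset_span ⟨j, hj, rfl⟩) G h1 fun r hr e => ?_
  · rintro _ ⟨j, -, rfl⟩
    exact ⟨_, isWeightedHomogeneous_X k Y.w j⟩
  · have : Ideal.span ((fun j => (X j : MvPolynomial σ k)) '' (Y.Z : Set σ)) ≤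
        RingHom.ker (cz k Y.Z).toRingHom := by
      rw [Ideal.span_le]
      rintro _ ⟨j, hj, rfl⟩
      have hj' : j ∈ Y.Z := hj
      simp [cz, hj']
    have h0 : cz k Y.Z r = 0 := this hr
    rw [h0, zero_smul]

end Vale.Agent.P200E
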