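import Vale.Agent.P200E.Rho0

namespace Vale.Agent.P200E

open MvPolynomial TensorProduct

universe u

variable {k D : Type u} [Field k] [DivisionRing D] [Algebra k D] [FiniteDimensional k D]
  {σ ι : Type} [Fintype σ] [DecidableEq σ] {d : ℕ} {Y : Sys k σ ι d}

omit [FiniteDimensional k D] [Fintype σ] [DecidableEq σ] in
theorem Rho_quot_congr {w : σ → ι → ℤ} (G : GMod k D w) {U V : Submodule (AA k D σ) G.E}
    (e : U = V) (hU : G.IsGr U) (hV : G.IsGr V) : (G.quot U hU).h = (G.quot V hV).h := by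
  subst e; rfl

omit [FiniteDimensional k D] [DecidableEq σ] in
theorem Rho_sub_congr {w : σ → ι → ℤ} (G : GMod k D w) {U V : Submodule (AA k D σ) G.E}
    (e : U = V) (hU : G.IsGr U) (hV : G.IsGr V) : (G.sub U hU).h = (G.sub V hV).h := by
  subst e; rfl

theorem Rho_pr_one (n : ℕ) : pr (fun _ : ι → ℤ => (1 : ℤ)) (n • (1 : ZL ι)) = n := by
  induction n with
  | zero => simp [pr]
  | succ n ih =>
    rw [succ_nsmul, pr_add, ih]
    simp [pr, AddMonoidAlgebra.one_def]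

theorem Rho_J {c : ℕ} (hc : Y.Cod c) (hd : d + 1 ≤ c) (hJ : (Y.cy D).IsGr (iA D Y.J)) :
    rho Y.w Y.θ d ((Y.cy D).quot _ hJ).h =
      (Module.finrank k D : ℤ) * Y.θ Y.S ^ d * (d.factorial : ℤ) := by
  have hb : extL (k := k) (D := D) Y.Z ⊥ = ⊥ := by
    unfold extL
    rw [Submodule.span_eq_bot]
    rintro _ ⟨x, hx, rfl⟩
    have : x = 0 := hx
    subst this
    exact map_zero _
  have h1 : (Y.cy D).IsGr (extL Y.Z ⊥) := isGr_extL Y.θ Y.θw Y.Z (Y.cy D).isGr_bot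
  have h2 : (Y.cy D).IsGr (extL Y.Z ⊥ ⊔ iA D Y.J) := h1.sup hJ
  have hK : HasK Y.w ((Y.cy D).quot _ h1).h (Module.finrank k D • (1 : ZL ι)) := by
    have e := (Rho_quot_congr (Y.cy D) hb h1 (Y.cy D).isGr_bot).trans
      ((Y.cy D).h_quot_bot (Y.cy D).isGr_bot)
    rw [e]
    exact hasK_cyc Y.θ Y.θw
  obtain ⟨Q, hQ, hK'⟩ := Sys.hasK_ind hc ⊥ h1 h2 hK
  have hb' : extL (k := k) (D := D) Y.Z ⊥ ⊔ iA D Y.J = iA D Y.J := by rw [hb, bot_sup_eq]
  have e' := Rho_quot_congr (Y.cy D) hb' h2 hJ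
  replace hK' : HasK Y.w ((Y.cy D).quot _ hJ).h _ := fun χ =>
    (congrArg (fun g => op (den Y.w Finset.univ) g χ) e').symm.trans (hK' χ)
  have h3 := pr_one_sub_pow Y.θ Y.S d (fun _ => 1) (fun _ => rfl)
    (Module.finrank k D • (1 : ZL ι))
  simp only [mul_one] at h3
  rw [rho_eq Y.θ d hK', pr_add, pr_aug ((polyLt_pow Y.θ d).mono hd) hQ, add_zero, h3, Rho_pr_one]
  ring

theorem Rho_unif (C : Fin d → σ) (hC : ∀ i, C i ∈ Y.Z) (h0 : Y.minor C ≠ 0) :
    ∃ m : ℕ, ∀ r ∈ Y.PP, Y.minor C ^ m * r ∈ Y.J := by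
  classical
  obtain ⟨-, -, -, -, hψ⟩ := Y.exists_psi C hC h0
  obtain ⟨s, hs⟩ : Y.PP.FG := IsNoetherian.noetherian _
  choose! m hm using hψ
  refine ⟨s.sup m, fun r hr => ?_⟩
  rw [← hs] at hr
  induction hr using Submodule.span_induction with
  | mem x hx =>
    obtain ⟨j, hj⟩ := Nat.exists_eq_add_of_le' (Finset.le_sup (f := m) hx)
    rw [hj, pow_add, mul_assoc]
    exact Ideal.mul_mem_left _ _ (hm x (hs ▸ Ideal.subset_span hx))
  | zero => simp
  | add x y _ _ hx hy => rw [mul_add]; exact add_mem hx hy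
  | smul a x _ hx =>
    rw [smul_eq_mul, mul_left_comm]
    exact Ideal.mul_mem_left _ _ hx
theorem Sys.rho_PP {c : ℕ} (hc : Y.Cod c) (hd : d + 1 ≤ c) (C : Fin d → σ) (hC : ∀ i, C i ∈ Y.Z)
    (h0 : Y.minor C ≠ 0) (h : (Y.cy D).IsGr (iA D Y.PP)) :
    rho Y.w Y.θ d ((Y.cy D).quot _ h).h =
      (Module.finrank k D : ℤ) * Y.θ Y.S ^ d * (d.factorial : ℤ) := by
  have hJ : (Y.cy D).IsGr (iA D Y.J) := isGr_iA Y.θ Y.θw Y.homI_J
  have hle : iA D Y.J ≤ iA D Y.PP := Submodule.span_mono (Set.image_mono Y.J_le_PP)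
  have hV : ((Y.cy D).quot _ hJ).IsGr ((iA D Y.PP).map (iA D Y.J).mkQ) :=
    ((Y.cy D).isGrMap_mkQ _ hJ).map h
  have hcm : ((iA D Y.PP).map (iA D Y.J).mkQ).comap (iA D Y.J).mkQ = iA D Y.PP := by
    rw [Submodule.comap_map_mkQ, sup_eq_right.2 hle]
  have hW : (Y.cy D).IsGr (((iA D Y.PP).map (iA D Y.J).mkQ).comap (iA D Y.J).mkQ) :=
    fun χ e he => hcm.ge (h χ e (hcm.le he))
  have h1 := GMod.rho_add (d := d) Y.θ ((Y.cy D).quot _ hJ) _ hV
  have e1 := ((Y.cy D).h_quot_quot _ hJ _ hV hW).trans (Rho_quot_congr (Y.cy D) hcm hW h)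
  rw [e1, Rho_J hc hd hJ] at h1
  obtain ⟨m, hm⟩ := Rho_unif C hC h0
  have hkill : ∀ x ∈ iA D Y.PP, Y.minor C ^ m • x ∈ iA D Y.J := by
    intro x hx
    induction hx using Submodule.span_induction with
    | mem x hx =>
      obtain ⟨r, hr, rfl⟩ := hx
      refine Submodule.subset_span ⟨_, hm r hr, ?_⟩
      simp only [smul_tmul', smul_eq_mul]
    | zero => simp
    | add x y _ _ hx hy => rw [smul_add]; exact add_mem hx hy
    | smul a x _ hx =>
      rw [smul_eq_mul, ← mul_smul_comm]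
      exact Submodule.smul_mem _ a hx
  obtain ⟨K, hK, hK'⟩ := GMod.hasK_aug (((Y.cy D).quot _ hJ).sub _ hV) (c := d + 1)
    fun Fr hFr => by
      refine Sys.ind_tors hc hd ?_ (pow_ne_zero m h0) (by rw [map_pow, Y.cz_minor]) ?_ hFr
      · intro r hr
        rw [Module.mem_annihilator]
        rintro ⟨_, y, hy, rfl⟩
        refine Subtype.ext ?_
        change r • (iA D Y.J).mkQ y = 0
        rw [← LinearMap.map_smul_of_tower, Submodule.mkQ_apply, Submodule.Quotient.mk_eq_zero]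
        exact smul_mem_iA hr y
      · rw [Module.mem_annihilator]
        rintro ⟨_, y, hy, rfl⟩
        refine Subtype.ext ?_
        change Y.minor C ^ m • (iA D Y.J).mkQ y = 0
        rw [← LinearMap.map_smul_of_tower, Submodule.mkQ_apply, Submodule.Quotient.mk_eq_zero]
        exact hkill y hy
  rw [rho_eq Y.θ d hK', pr_aug (polyLt_pow Y.θ d) hK, mul_zero, zero_add] at h1
  exact h1.symm

theorem Sys.rho_ge {c : ℕ} (hc : Y.Cod c) (hd : d + 1 ≤ c) (C : Fin d → σ) (hC : ∀ i, C i ∈ Y.Z)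
    (h0 : Y.minor C ≠ 0) (h : (Y.cy D).IsGr (iA D Y.PP)) (G : GMod k D Y.w) (h1 : G.Kill Y.J)
    {e : G.E} {χ : ι → ℤ} (he : G.π χ e = e) (hr : ∀ r : AA k D σ, r • e = 0 ↔ r ∈ iA D Y.PP) :
    (Module.finrank k D : ℤ) * Y.θ Y.S ^ d * (d.factorial : ℤ) ≤ rho Y.w Y.θ d G.h := by
  have hf := isGrMap_gen Y.θ Y.θw G he
  have hker : LinearMap.ker (LinearMap.toSpanSingleton (AA k D σ) G.E e) = iA D Y.PP := by
    ext r
    rw [LinearMap.mem_ker, LinearMap.toSpanSingleton_apply]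
    exact hr r
  have h2 := GMod.rho_add (d := d) Y.θ G _ hf.range
  have h3 : 0 ≤ rho Y.w Y.θ d (G.quot _ hf.range).h := by
    refine Sys.rho_nonneg hc hd _ fun r hr x => ?_
    obtain ⟨y, rfl⟩ := (LinearMap.range (LinearMap.toSpanSingleton (AA k D σ) G.E e)).mkQ_surjective x
    change r • (LinearMap.range (LinearMap.toSpanSingleton (AA k D σ) G.E e)).mkQ y = 0
    rw [← LinearMap.map_smul_of_tower, h1 r hr y, map_zero]
  have h4 : ((Y.cy D).quot _ h).h = fun ψ => (G.sub _ hf.range).h (ψ - -χ) := by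
    funext ψ
    have a1 := hf.h_eq ψ
    have a2 := congrFun ((Y.cy D).h_add _ h) ψ
    have e1 := Rho_sub_congr (Y.cy D) hker hf.ker h
    rw [Pi.add_apply] at a2
    rw [sub_neg_eq_add]
    exact add_left_cancel ((a2.symm.trans a1).trans (congrArg (· + _) (congrFun e1 ψ)))
  have h5 := Sys.rho_shift hc hd (G.sub _ hf.range) (fun r hr x => Subtype.ext (h1 r hr x.1)) (-χ)
  rw [← Sys.rho_PP hc hd C hC h0 h, h4, h5, h2]
  linarith

end Vale.Agent.P200E
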