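import Vale.Agent.P200E.RHom
import Vale.Agent.P200E.Rho
import Vale.Agent.P200E.KInd
import Vale.Agent.P200E.Dom0

namespace Vale.Agent.P200E

open MvPolynomial TensorProduct

universe u

theorem dom_desc {R M M' M'' : Type*} [Ring R] [AddCommGroup M] [Module R M] [AddCommGroup M']
    [Module R M'] [AddCommGroup M''] [Module R M''] (f : M →ₗ[R] M') (hf : Function.Surjective f)
    (g : M →ₗ[R] M'') (h : ∀ x, f x = 0 → g x = 0) : ∃ g' : M' →ₗ[R] M'', ∀ x, g' (f x) = g x :=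
  ⟨(LinearMap.ker f).liftQ g h ∘ₗ (f.quotKerEquivOfSurjective hf).symm.toLinearMap, fun x => by
    have : (f.quotKerEquivOfSurjective hf).symm (f x) = Submodule.Quotient.mk x := by
      rw [LinearEquiv.symm_apply_eq]
      rfl
    rw [LinearMap.comp_apply, LinearEquiv.coe_coe, this]
    rfl⟩

section gen
variable {k D : Type u} [Field k] [DivisionRing D] [Algebra k D] {σ ι : Type} {w : σ → ι → ℤ}

theorem dom_gr (G G' : GMod k D w) (f : G.E →+ G'.E) (φ : (ι → ℤ) → ι → ℤ)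
    (hφ : Function.Injective φ) (h : ∀ χ e, G.π χ e = e → G'.π (φ χ) (f e) = f e) (χ : ι → ℤ)
    (e : G.E) : G'.π (φ χ) (f e) = f (G.π χ e) := by
  have h1 := ((G'.π (φ χ)).toAddMonoidHom.comp f).map_finsum (G.fin e)
  rw [G.sum, finsum_eq_single _ χ] at h1
  · exact h1.trans (h χ _ (G.idem χ e))
  · intro ψ hψ
    change G'.π (φ χ) (f (G.π ψ e)) = 0
    rw [← h ψ _ (G.idem ψ e)]
    exact G'.orth _ _ _ fun h' => hψ (hφ h').symm

theorem dom_iA_mul {I : Ideal (MvPolynomial σ k)} {r : AA k D σ} (hr : r ∈ iA D I) (x : AA k D σ) :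
    r * x ∈ iA D I := by
  induction hr using Submodule.span_induction with
  | mem r hr =>
    obtain ⟨p, hp, rfl⟩ := hr
    have := smul_mem_iA (D := D) hp x
    rwa [← algebraMap_smul (AA k D σ) p x] at this
  | zero => rw [zero_mul]; exact zero_mem _
  | add a b _ _ ha hb => rw [add_mul]; exact add_mem ha hb
  | smul s a _ ha => rw [smul_eq_mul, mul_assoc]; exact Submodule.smul_mem _ s ha

end gen

variable {k D : Type u} [Field k] [DivisionRing D] [Algebra k D] [FiniteDimensional k D]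
  {N a c d : ℕ} [NeZero a]
variable {ζ : k} [Fact (ζ ^ a = 1)]

/-- the quotient of the crossed product as a graded module -/
noncomputable abbrev domM (ζ : k) (lam : Fin d → MvPolynomial (Fin c) k →ₗ[k] k)
    (hP : ((gad N a lam).cy D).IsGr (iA D (gad N a lam).PP)) : GMod k D (gad N a lam).w :=
  (((gad N a lam).cy D).quot _ hP).pw fun γ : GG N a ζ => cc γ.v

/-- the quotient map -/
noncomputable def domBar (ζ : k) (lam : Fin d → MvPolynomial (Fin c) k →ₗ[k] k)
    (hP : ((gad N a lam).cy D).IsGr (iA D (gad N a lam).PP)) :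
    RR D N a c ζ →ₗ[AA k D (SG N a c)] (domM ζ lam hP).E where
  toFun x γ := (iA D (gad N a lam).PP).mkQ (x.coeff γ)
  map_add' x y := funext fun γ => by
    rw [SkewMonoidAlgebra.coeff_add, Finsupp.add_apply, map_add]
    rfl
  map_smul' s x := funext fun γ => by
    rw [SkewMonoidAlgebra.coeff_smul, Finsupp.smul_apply, map_smul]
    rfl

variable {lam : Fin d → MvPolynomial (Fin c) k →ₗ[k] k}
  {hP : ((gad N a lam).cy D).IsGr (iA D (gad N a lam).PP)}

omit [Fact (ζ ^ a = 1)] in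
theorem domBar_zero (x : RR D N a c ζ) : domBar ζ lam hP x = 0 ↔ x ∈ PH D ζ (gad N a lam).PP :=
  ⟨fun h γ => (Submodule.Quotient.mk_eq_zero _).1 (congrFun h γ),
    fun h => funext fun γ => (Submodule.Quotient.mk_eq_zero _).2 (h γ)⟩

omit [Fact (ζ ^ a = 1)] in
theorem domBar_surj : Function.Surjective (domBar ζ lam hP) := fun e => by
  choose x hx using fun γ => (iA D (gad N a lam).PP).mkQ_surjective (e γ)
  exact ⟨SkewMonoidAlgebra.ofCoeff (Finsupp.equivFunOnFinite.symm x), funext hx⟩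

omit [Fact (ζ ^ a = 1)] in
theorem domBar_hom {χ : IG N a → ℤ} {x : RR D N a c ζ} (hx : x ∈ RH D c ζ χ) :
    (domM ζ lam hP).π χ (domBar ζ lam hP x) = domBar ζ lam hP x :=
  funext fun γ => congrArg (iA D (gad N a lam).PP).mkQ (hx γ)

omit [Fact (ζ ^ a = 1)] in
theorem domBar_lift {χ : IG N a → ℤ} {e : (domM ζ lam hP).E} (he : (domM ζ lam hP).π χ e = e) :
    ∃ x ∈ RH D c ζ χ, domBar ζ lam hP x = e := by
  obtain ⟨x, rfl⟩ := domBar_surj e
  refine ⟨SkewMonoidAlgebra.ofCoeff (Finsupp.equivFunOnFinite.symm fun γ =>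
    ((gad N a lam).cy D).π (χ - cc γ.v) (x.coeff γ)), fun γ => ((gad N a lam).cy D).idem _ _, ?_⟩
  rw [← he]
  rfl

omit [Fact (ζ ^ a = 1)] in
theorem domM_kill : (domM ζ lam hP).Kill (gad N a lam).J := fun r hr e => by
  obtain ⟨x, rfl⟩ := domBar_surj e
  exact funext fun γ => (Submodule.Quotient.mk_eq_zero _).2
    (smul_mem_iA ((gad N a lam).J_le_PP hr) (x.coeff γ))

omit [Fact (ζ ^ a = 1)] in
theorem domBar_ann (C : Fin d → SG N a c) (hC : ∀ i, C i ∈ (gad N a lam).Z)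
    (h0 : (gad N a lam).minor C ≠ 0) {x : RR D N a c ζ} (hx : x ∉ PH D ζ (gad N a lam).PP)
    (r : AA k D (SG N a c)) : r • domBar ζ lam hP x = 0 ↔ r ∈ iA D (gad N a lam).PP := by
  rw [← map_smul, domBar_zero]
  constructor
  · intro h
    obtain ⟨γ, hγ⟩ := not_forall.1 hx
    exact ((gad N a lam).iA_PP_prime C hC h0 _ _ (h γ)).resolve_right hγ
  · exact fun h γ => dom_iA_mul h _

theorem gad_dom (ha : 2 ≤ a) (lam : Fin d → MvPolynomial (Fin c) k →ₗ[k] k)
    (hc : (gad N a lam).Cod (N + d + 1))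
    (hm : ∀ l : Fin N, ∃ C : Fin d → SG N a c, (∀ i, C i ∈ gZ N a c ∧ (C i).1 ≠ l) ∧
      (gad N a lam).minor C ≠ 0) (hN : 0 < N) {χ : IG N a → ℤ} {j : ℤ} {x y : RR D N a c ζ}
    (hx : x ∈ RH D c ζ χ) (hy : y ∈ RH D c ζ (j • th0 N a))
    (h : x * y ∈ PH D ζ (gad N a lam).PP) :
    x ∈ PH D ζ (gad N a lam).PP ∨ y ∈ PH D ζ (gad N a lam).PP := by
  by_contra hn
  rw [not_or] at hn
  obtain ⟨C, hC', h0⟩ := hm ⟨0, hN⟩
  have hC : ∀ i, C i ∈ (gad N a lam).Z := fun i => (hC' i).1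
  have hP : ((gad N a lam).cy D).IsGr (iA D (gad N a lam).PP) :=
    isGr_iA _ _ ((gad N a lam).homI_PP C hC h0)
  have hI := fun γ r hr => act_PP (Fact.out : ζ ^ a = 1) lam hm γ (r := r) hr
  have hd : d + 1 ≤ N + d + 1 := by omega
  let my : RR D N a c ζ →ₗ[AA k D (SG N a c)] RR D N a c ζ :=
    { toFun := fun z => z * y
      map_add' := fun z z' => Distrib.right_distrib z z' y
      map_smul' := fun s z => smul_mul_assoc s z y }
  obtain ⟨ρ, hρ⟩ := dom_desc (domBar ζ lam hP) domBar_surj (domBar ζ lam hP ∘ₗ my) fun z hz =>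
    (domBar_zero (z * y)).2 (PH_mul_right ((domBar_zero z).1 hz) y)
  replace hρ : ∀ z, ρ (domBar ζ lam hP z) = domBar ζ lam hP (z * y) := hρ
  have hgr : IsGrMap (domM ζ lam hP) (domM ζ lam hP) ρ (j • th0 N a) := by
    refine dom_gr _ _ ρ.toAddMonoidHom (· + j • th0 N a) (add_left_injective _) fun ψ e he => ?_
    obtain ⟨z, hz, rfl⟩ := domBar_lift he
    change _ = ρ _
    rw [LinearMap.toAddMonoidHom_coe, hρ]
    exact domBar_hom (RH_mul hz hy)
  have hT : ∀ γ : GG N a ζ, ∃ T : (domM ζ lam hP).E →ₗ[k] (domM ζ lam hP).E,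
      ∀ z, T (domBar ζ lam hP z) = domBar ζ lam hP (SkewMonoidAlgebra.single γ 1 * z) := fun γ =>
    dom_desc ((domBar ζ lam hP).restrictScalars k) domBar_surj
      ((domBar ζ lam hP).restrictScalars k ∘ₗ
        Algebra.lmul k (RR D N a c ζ) (SkewMonoidAlgebra.single γ 1))
      fun z hz => (domBar_zero (SkewMonoidAlgebra.single γ 1 * z)).2
        (PH_mul_left hI _ ((domBar_zero z).1 hz))
  choose T hT using hT
  have hTT : ∀ γ γ' e, γ * γ' = 1 → T γ (T γ' e) = e := fun γ γ' e hγ => by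
    obtain ⟨z, rfl⟩ := domBar_surj e
    rw [hT, hT, ← mul_assoc, SkewMonoidAlgebra.single_mul_single, hγ, smul_one, mul_one,
      ← SkewMonoidAlgebra.one_def, one_mul]
  have hTρ : ∀ γ e, ρ e = 0 → ρ (T γ e) = 0 := fun γ e he => by
    obtain ⟨z, rfl⟩ := domBar_surj e
    rw [hT, hρ, mul_assoc, ← hT, ← hρ, he, map_zero]
  have hTπ : ∀ γ ψ e, (domM ζ lam hP).π (sL γ.v ψ + cc γ.v) (T γ e) =
      T γ ((domM ζ lam hP).π ψ e) := fun γ => by
    refine dom_gr _ _ (T γ).toAddMonoidHom (fun ψ => sL γ.v ψ + cc γ.v)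
      ((add_left_injective _).comp (sLE γ.v).injective) fun ψ e he => ?_
    obtain ⟨z, hz, rfl⟩ := domBar_lift he
    change _ = T γ _
    rw [LinearMap.toAddMonoidHom_coe, hT]
    exact domBar_hom (RH_single_mul γ hz)
  have hinv : ∀ (γ : GG N a ζ) ψ, ((domM ζ lam hP).sub _ hgr.ker).h (sL γ.v ψ + cc γ.v) =
      ((domM ζ lam hP).sub _ hgr.ker).h ψ := fun γ ψ => by
    let F : LinearMap.ker ρ ≃ₗ[k] LinearMap.ker ρ :=
      { toFun := fun u => ⟨T γ u, hTρ _ _ u.2⟩
        invFun := fun u => ⟨T γ⁻¹ u, hTρ _ _ u.2⟩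
        map_add' := fun _ _ => Subtype.ext (map_add _ _ _)
        map_smul' := fun _ _ => Subtype.ext (map_smul _ _ _)
        left_inv := fun u => Subtype.ext (hTT _ _ _ (inv_mul_cancel γ))
        right_inv := fun u => Subtype.ext (hTT _ _ _ (mul_inv_cancel γ)) }
    exact (h_of_equiv ((domM ζ lam hP).sub _ hgr.ker) ((domM ζ lam hP).sub _ hgr.ker) F ψ _
      fun e => Subtype.ext (hTπ γ ψ _)).symm
  have hk1 : ((domM ζ lam hP).sub _ hgr.ker).Kill (gad N a lam).J := fun r hr e =>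
    Subtype.ext (domM_kill r hr _)
  have hk2 : ((domM ζ lam hP).sub _ hgr.range).Kill (gad N a lam).J := fun r hr e =>
    Subtype.ext (domM_kill r hr _)
  have hδ : 0 < Module.finrank k D := Module.finrank_pos
  have hdvd := dom_dvd (c := c) ha hδ (Sys.good hc _ hk1) fun l => hinv (GG.mk ζ (Pi.single l 1))
  have hS : (gad N a lam).θ (gad N a lam).S = a := by
    change gθ N a (a • th0 N a) = a
    rw [map_nsmul, gθ_th0]
    simp
  have g1 := Sys.rho_ge hc hd C hC h0 hP _ hk1 (e := ⟨domBar ζ lam hP x, by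
      rw [LinearMap.mem_ker, hρ, domBar_zero]; exact h⟩) (Subtype.ext (domBar_hom hx))
    fun r => Subtype.ext_iff.trans (domBar_ann C hC h0 hn.1 r)
  have g2 := Sys.rho_ge hc hd C hC h0 hP _ hk2 (e := ⟨domBar ζ lam hP y, domBar ζ lam hP 1, by
      rw [hρ, one_mul]⟩) (Subtype.ext (domBar_hom hy))
    fun r => Subtype.ext_iff.trans (domBar_ann C hC h0 hn.2 r)
  have g3 := Sys.rho_map hc hd domM_kill hgr
  have hq : (((gad N a lam).cy D).quot _ hP).Kill (gad N a lam).J := fun r hr e => by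
    obtain ⟨z, rfl⟩ := (iA D (gad N a lam).PP).mkQ_surjective e
    exact (Submodule.Quotient.mk_eq_zero _).2 (smul_mem_iA ((gad N a lam).J_le_PP hr) z)
  have hcard : Fintype.card (GG N a ζ) = a ^ N := by
    change Fintype.card (Multiplicative (Fin N → ZMod a)) = _
    simp
  rw [Sys.rho_pw hc hd _ hq, Sys.rho_PP hc hd C hC h0, hS, hcard] at g3
  rw [hS] at g1 g2
  have hpos : 0 < (Module.finrank k D : ℤ) * (a : ℤ) ^ d * (d.factorial : ℤ) := by
    have := Nat.factorial_pos d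
    positivity
  have g4 := Int.le_of_dvd (hpos.trans_le g1) hdvd
  change _ ≤ rho (gad N a lam).w (gad N a lam).θ d _ at g4
  push_cast at g3
  linarith

end Vale.Agent.P200E
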