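import Vale.Agent.P200E.GM3a

namespace Vale.Agent.P200E

open MvPolynomial TensorProduct

universe u

variable {k D : Type u} [Field k] [DivisionRing D] [Algebra k D] {σ ι : Type} {w : σ → ι → ℤ}

open Classical in
theorem GM3_whc_mon (χ : ι → ℤ) (m : σ →₀ ℕ) (c : k) :
    weightedHomogeneousComponent w χ (monomial m c) =
      if χ = Finsupp.weight w m then monomial m c else 0 :=
  weightedHomogeneousComponent_of_mem
    ((mem_weightedHomogeneousSubmodule _ _ _ _).2 (isWeightedHomogeneous_monomial w m c rfl))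

theorem GM3_whc_mul {r : MvPolynomial σ k} {ψ : ι → ℤ} (hr : r.IsWeightedHomogeneous w ψ)
    (χ : ι → ℤ) (a : MvPolynomial σ k) :
    weightedHomogeneousComponent w (χ + ψ) (r * a) = r * weightedHomogeneousComponent w χ a := by
  classical
  induction a using MvPolynomial.induction_on' with
  | monomial m c =>
    have h := hr.mul (isWeightedHomogeneous_monomial w m c rfl)
    rw [GM3_whc_mon]
    split_ifs with h1
    · rw [h1, add_comm]
      exact h.weightedHomogeneousComponent_same
    · rw [mul_zero]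
      refine h.weightedHomogeneousComponent_ne _ fun h2 => h1 ?_
      rw [add_comm ψ] at h2
      exact add_right_cancel h2
  | add a b ha hb => simp only [mul_add, map_add, ha, hb]

theorem homI_span {s : Set (MvPolynomial σ k)} (hs : ∀ r ∈ s, ∃ χ, r.IsWeightedHomogeneous w χ) :
    HomI w (Ideal.span s) := by
  have key : ∀ r ∈ Ideal.span s, ∀ a χ,
      weightedHomogeneousComponent w χ (r * a) ∈ Ideal.span s := by
    intro r hr
    induction hr using Submodule.span_induction with
    | mem r hr =>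
      intro a χ
      obtain ⟨ψ, hψ⟩ := hs r hr
      rw [← sub_add_cancel χ ψ, GM3_whc_mul hψ]
      exact Ideal.mul_mem_right _ _ (Ideal.subset_span hr)
    | zero => intro a χ; simp
    | add x y _ _ hx hy =>
      intro a χ
      rw [add_mul, map_add]
      exact add_mem (hx a χ) (hy a χ)
    | smul b x _ hx =>
      intro a χ
      rw [smul_eq_mul, mul_comm b, mul_assoc]
      exact hx _ χ
  intro χ r hr
  simpa using key r hr 1 χ

theorem HomI.sup {I I' : Ideal (MvPolynomial σ k)} (h : HomI w I) (h' : HomI w I') :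
    HomI w (I ⊔ I') := by
  intro χ r hr
  obtain ⟨a, ha, b, hb, rfl⟩ := Submodule.mem_sup.1 hr
  rw [map_add]
  exact add_mem (Ideal.mem_sup_left (h χ a ha)) (Ideal.mem_sup_right (h' χ b hb))

theorem smul_mem_iA {I : Ideal (MvPolynomial σ k)} {r : MvPolynomial σ k} (hr : r ∈ I)
    (x : AA k D σ) : r • x ∈ iA D I := by
  have h : r • x = x • (r ⊗ₜ[k] (1 : D) : AA k D σ) := by
    rw [← algebraMap_smul (AA k D σ) r x, smul_eq_mul, Algebra.commutes]
    rfl
  rw [h]
  exact Submodule.smul_mem _ _ (Submodule.subset_span ⟨r, hr, rfl⟩)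

theorem GM3_tmul_mem {I : Ideal (MvPolynomial σ k)} {r : MvPolynomial σ k} (hr : r ∈ I)
    (x : D) : (r ⊗ₜ[k] x : AA k D σ) ∈ iA D I := by
  have h := smul_mem_iA (D := D) hr ((1 : MvPolynomial σ k) ⊗ₜ[k] x)
  rwa [smul_tmul', smul_eq_mul, mul_one] at h

theorem iA_restrict (I : Ideal (MvPolynomial σ k)) :
    (iA D I).restrictScalars (MvPolynomial σ k) =
      I • (⊤ : Submodule (MvPolynomial σ k) (AA k D σ)) := by
  apply le_antisymm
  · intro x hx
    rw [Submodule.restrictScalars_mem] at hx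
    induction hx using Submodule.span_induction with
    | mem x hx =>
      obtain ⟨r, hr, rfl⟩ := hx
      have h := Submodule.smul_mem_smul hr (Submodule.mem_top (R := MvPolynomial σ k)
        (x := ((1 : MvPolynomial σ k) ⊗ₜ[k] (1 : D) : AA k D σ)))
      rwa [smul_tmul', smul_eq_mul, mul_one] at h
    | zero => exact zero_mem _
    | add x y _ _ hx hy => exact add_mem hx hy
    | smul a x _ hx =>
      refine Submodule.smul_induction_on hx (fun r hr y _ => ?_) fun y z hy hz => ?_
      · rw [smul_eq_mul, mul_smul_comm]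
        exact Submodule.smul_mem_smul hr Submodule.mem_top
      · rw [smul_add]
        exact add_mem hy hz
  · exact Submodule.smul_le.2 fun r hr x _ => smul_mem_iA hr x

theorem GM3_mem_iA {I : Ideal (MvPolynomial σ k)} {x : AA k D σ} (hx : x ∈ iA D I) :
    x ∈ I • (⊤ : Submodule (MvPolynomial σ k) (AA k D σ)) := by
  rw [← iA_restrict]
  exact hx

theorem isGr_iA [FiniteDimensional k D] [Finite σ] (θ : (ι → ℤ) →+ ℤ) (hθ : ∀ i, θ (w i) = 1)
    {I : Ideal (MvPolynomial σ k)} (hI : HomI w I) : (cyc k D w θ hθ).IsGr (iA D I) := by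
  intro χ e he
  have key : ∀ e : AA k D σ, e ∈ I • (⊤ : Submodule (MvPolynomial σ k) (AA k D σ)) →
      (weightedHomogeneousComponent w χ).rTensor D e ∈ iA D I := by
    intro e he
    refine Submodule.smul_induction_on he (fun r hr y h => ?_) fun y z hy hz => ?_
    · clear h
      induction y using TensorProduct.induction_on with
      | zero => simp
      | tmul a x =>
        rw [smul_tmul', LinearMap.rTensor_tmul]
        exact GM3_tmul_mem (hI χ _ (Ideal.mul_mem_right _ _ hr)) x
      | add y z hy hz =>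
        rw [smul_add, map_add]
        exact add_mem hy hz
    · rw [map_add]
      exact add_mem hy hz
  exact key e (GM3_mem_iA he)

theorem iA_sup (I I' : Ideal (MvPolynomial σ k)) : iA D (I ⊔ I') = iA D I ⊔ iA D I' := by
  apply le_antisymm
  · refine Submodule.span_le.2 ?_
    rintro _ ⟨r, hr, rfl⟩
    obtain ⟨a, ha, b, hb, rfl⟩ := Submodule.mem_sup.1 hr
    simp only [add_tmul]
    exact add_mem (Submodule.mem_sup_left (GM3_tmul_mem ha 1))
      (Submodule.mem_sup_right (GM3_tmul_mem hb 1))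
  · exact sup_le (Submodule.span_mono (Set.image_mono (le_sup_left (a := I) (b := I'))))
      (Submodule.span_mono (Set.image_mono (le_sup_right (a := I) (b := I'))))

theorem iA_span (s : Set (MvPolynomial σ k)) : iA D (Ideal.span s) =
    Submodule.span (AA k D σ) ((fun r => (r ⊗ₜ[k] (1 : D) : AA k D σ)) '' s) := by
  apply le_antisymm
  · refine Submodule.span_le.2 ?_
    rintro _ ⟨r, hr, rfl⟩
    replace hr : r ∈ Ideal.span s := hr
    induction hr using Submodule.span_induction with
    | mem r hr => exact Submodule.subset_span ⟨r, hr, rfl⟩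
    | zero => simp
    | add x y _ _ hx hy =>
      simp only [add_tmul]
      exact add_mem hx hy
    | smul b x _ hx =>
      have h := Submodule.smul_mem _ (b ⊗ₜ[k] (1 : D) : AA k D σ) hx
      rw [smul_eq_mul, Algebra.TensorProduct.tmul_mul_tmul, mul_one] at h
      exact h
  · exact Submodule.span_mono (Set.image_mono Ideal.subset_span)

theorem GMod.iA_smul (G : GMod k D w) {I : Ideal (MvPolynomial σ k)} {r : AA k D σ}
    (hr : r ∈ iA D I) (e : G.E) : r • e ∈ I • (⊤ : Submodule (MvPolynomial σ k) G.E) := by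
  refine Submodule.smul_induction_on (GM3_mem_iA hr) (fun s hs y _ => ?_) fun y z hy hz => ?_
  · rw [smul_assoc]
    exact Submodule.smul_mem_smul hs Submodule.mem_top
  · rw [add_smul]
    exact add_mem hy hz

variable [DecidableEq σ]

theorem GM3_cz_X (Z : Finset σ) (i : σ) : cz k Z (X i) = if i ∈ Z then 0 else X i := by
  simp [cz]

theorem GM3_cz_mon (Z : Finset σ) (m : σ →₀ ℕ) (c : k) :
    cz k Z (monomial m c) = if ∀ i ∈ m.support, i ∉ Z then monomial m c else 0 := by
  rw [cz, aeval_monomial]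
  split_ifs with h
  · rw [monomial_eq, algebraMap_eq]
    congr 1
    exact Finset.prod_congr rfl fun i hi => by simp only [if_neg (h i hi)]
  · push Not at h
    obtain ⟨i, hi, hZ⟩ := h
    rw [Finsupp.prod, Finset.prod_eq_zero hi, mul_zero]
    rw [if_pos hZ, zero_pow (Finsupp.mem_support_iff.1 hi)]

theorem cz_cz (Z : Finset σ) (r : MvPolynomial σ k) : cz k Z (cz k Z r) = cz k Z r := by
  induction r using MvPolynomial.induction_on' with
  | monomial m c =>
    rw [GM3_cz_mon]
    split_ifs with h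
    · rw [GM3_cz_mon, if_pos h]
    · exact map_zero _
  | add a b ha hb => simp only [map_add, ha, hb]

theorem cz_whc (Z : Finset σ) (χ : ι → ℤ) (r : MvPolynomial σ k) :
    cz k Z (weightedHomogeneousComponent w χ r) = weightedHomogeneousComponent w χ (cz k Z r) := by
  induction r using MvPolynomial.induction_on' with
  | monomial m c =>
    rw [GM3_cz_mon, GM3_whc_mon]
    split_ifs with h1 h2 h2
    · rw [GM3_cz_mon, GM3_whc_mon, if_pos h1, if_pos h2]
    · rw [GM3_cz_mon, if_neg h2, map_zero]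
    · rw [GM3_whc_mon, if_neg h1, map_zero]
    · rw [map_zero, map_zero]
  | add a b ha hb => simp only [map_add, ha, hb]

theorem GM3_cA_tmul (Z : Finset σ) (a : MvPolynomial σ k) (x : D) :
    cA (k := k) D Z (a ⊗ₜ[k] x) = cz k Z a ⊗ₜ[k] x := rfl

theorem cA_whc (Z : Finset σ) (χ : ι → ℤ) (r : AA k D σ) :
    cA (k := k) D Z ((weightedHomogeneousComponent w χ).rTensor D r) =
      (weightedHomogeneousComponent w χ).rTensor D (cA (k := k) D Z r) := by
  induction r using TensorProduct.induction_on with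
  | zero => simp
  | tmul a x => rw [LinearMap.rTensor_tmul, GM3_cA_tmul, GM3_cA_tmul, LinearMap.rTensor_tmul, cz_whc]
  | add a b ha hb => simp only [map_add, ha, hb]

theorem sub_cz_mem (Z : Finset σ) (r : MvPolynomial σ k) :
    r - cz k Z r ∈ Ideal.span ((fun j => (X j : MvPolynomial σ k)) '' (Z : Set σ)) := by
  induction r using MvPolynomial.induction_on with
  | C a => simp
  | add a b ha hb =>
    rw [map_add, add_sub_add_comm]
    exact add_mem ha hb
  | mul_X p i hp =>
    rw [map_mul, GM3_cz_X]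
    split_ifs with h
    · rw [mul_zero, sub_zero]
      exact Ideal.mul_mem_left _ _ (Ideal.subset_span ⟨i, h, rfl⟩)
    · rw [← sub_mul]
      exact Ideal.mul_mem_right _ _ hp

theorem sub_cA_mem (Z : Finset σ) (r : AA k D σ) :
    r - cA (k := k) D Z r ∈
      iA D (Ideal.span ((fun j => (X j : MvPolynomial σ k)) '' (Z : Set σ))) := by
  induction r using TensorProduct.induction_on with
  | zero => simp
  | tmul a x =>
    rw [GM3_cA_tmul, ← sub_tmul]
    exact GM3_tmul_mem (sub_cz_mem Z a) x
  | add a b ha hb =>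
    rw [map_add, add_sub_add_comm]
    exact add_mem ha hb

theorem isGr_extL [FiniteDimensional k D] [Finite σ] (θ : (ι → ℤ) →+ ℤ) (hθ : ∀ i, θ (w i) = 1)
    (Z : Finset σ) {L : Submodule (AA k D σ) (AA k D σ)} (hL : (cyc k D w θ hθ).IsGr L) :
    (cyc k D w θ hθ).IsGr (extL Z L) := by
  set G := cyc k D w θ hθ with hG
  let s : Set G.E := {e | e ∈ (fun r => cA (k := k) D Z r) '' (L : Set (AA k D σ)) ∧
    ∃ χ, G.π χ e = e}
  have h1 : extL Z L = Submodule.span (AA k D σ) s := by
    apply le_antisymm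
    · refine Submodule.span_le.2 ?_
      rintro _ ⟨r, hr, rfl⟩
      refine G.mem_of_π (U := (Submodule.span (AA k D σ) s).toAddSubmonoid) fun χ => ?_
      exact Submodule.subset_span ⟨⟨G.π χ r, hL χ r hr, cA_whc Z χ r⟩, χ, G.idem χ _⟩
    · exact Submodule.span_mono fun e he => he.1
  rw [h1]
  exact G.isGr_span fun e he => he.2

theorem Sys.ell_hom {d : ℕ} (Y : Sys k σ ι d) (i : Fin d) :
    (Y.ell i).IsWeightedHomogeneous Y.w Y.S := by
  refine IsWeightedHomogeneous.sum _ _ _ fun j _ => ?_
  have h := (Y.hhw i j).mul (isWeightedHomogeneous_X k Y.w j)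
  rwa [sub_add_cancel] at h

theorem Sys.homI_J {d : ℕ} (Y : Sys k σ ι d) : HomI Y.w Y.J :=
  homI_span (by rintro _ ⟨i, rfl⟩; exact ⟨_, Y.ell_hom i⟩)

theorem Sys.cz_minor {d : ℕ} (Y : Sys k σ ι d) (C : Fin d → σ) :
    cz k Y.Z (Y.minor C) = Y.minor C := by
  rw [Sys.minor, AlgHom.map_det]
  congr 1
  ext1 i j
  exact Y.hhb _ _

theorem GM3_phi {d : ℕ} (Y : Sys k σ ι d) (m : σ →₀ ℕ) :
    Y.φ (Finsupp.weight Y.w m) = ∑ i ∈ m.support, (m i : ℤ) * Y.φ (Y.w i) := by
  rw [Finsupp.weight_apply, Finsupp.sum, map_sum]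
  exact Finset.sum_congr rfl fun i _ => by rw [map_nsmul, nsmul_eq_mul]

theorem GM3_phi0 {d : ℕ} (Y : Sys k σ ι d) {m : σ →₀ ℕ} (h : ∀ i ∈ m.support, i ∉ Y.Z) :
    Y.φ (Finsupp.weight Y.w m) = 0 := by
  rw [GM3_phi]
  exact Finset.sum_eq_zero fun i hi => by rw [Y.φb i (h i hi), mul_zero]

theorem GM3_phi1 {d : ℕ} (Y : Sys k σ ι d) {m : σ →₀ ℕ} (h : ¬∀ i ∈ m.support, i ∉ Y.Z) :
    0 < Y.φ (Finsupp.weight Y.w m) := by
  rw [GM3_phi]
  push Not at h
  obtain ⟨i, hi, hZ⟩ := h
  refine Finset.sum_pos' (fun j _ => ?_) ⟨i, hi, ?_⟩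
  · by_cases hj : j ∈ Y.Z
    · exact mul_nonneg (Nat.cast_nonneg _) (Y.φz j hj).le
    · rw [Y.φb j hj, mul_zero]
  · exact mul_pos (by exact_mod_cast Nat.pos_of_ne_zero (Finsupp.mem_support_iff.1 hi))
      (Y.φz i hZ)

theorem Sys.cz_phi {d : ℕ} (Y : Sys k σ ι d) {χ : ι → ℤ} (hχ : Y.φ χ ≠ 0) (r : AA k D σ) :
    (weightedHomogeneousComponent Y.w χ).rTensor D (cA (k := k) D Y.Z r) = 0 := by
  have key : ∀ a : MvPolynomial σ k, weightedHomogeneousComponent Y.w χ (cz k Y.Z a) = 0 := by
    intro a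
    induction a using MvPolynomial.induction_on' with
    | monomial m c =>
      rw [GM3_cz_mon]
      split_ifs with h
      · rw [GM3_whc_mon, if_neg]
        intro h1
        exact hχ (h1 ▸ GM3_phi0 Y h)
      · exact map_zero _
    | add a b ha hb => simp only [map_add, ha, hb, add_zero]
  induction r using TensorProduct.induction_on with
  | zero => simp
  | tmul a x => rw [GM3_cA_tmul, LinearMap.rTensor_tmul, key, zero_tmul]
  | add a b ha hb => simp only [map_add, ha, hb, add_zero]

theorem Sys.cz_kill {d : ℕ} (Y : Sys k σ ι d) (G : GMod k D Y.w) {x : G.E} {n : ℤ}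
    (hx : ∀ χ, Y.φ χ ≠ n → G.π χ x = 0) {t : MvPolynomial σ k} (ht : t • x = 0) :
    cz k Y.Z t • x = 0 := by
  have h0 : ∀ χ (m : σ →₀ ℕ) (c : k), Y.φ χ - Y.φ (Finsupp.weight Y.w m) ≠ n →
      G.π χ ((monomial m c : MvPolynomial σ k) • x) = 0 := by
    intro χ m c h
    rw [← sub_add_cancel χ (Finsupp.weight Y.w m),
      G.hom_smul (isWeightedHomogeneous_monomial Y.w m c rfl), hx _ (by rwa [map_sub]), smul_zero]
  have h1 : ∀ χ, Y.φ χ ≠ n → ∀ s : MvPolynomial σ k, G.π χ (cz k Y.Z s • x) = 0 := by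
    intro χ hχ s
    induction s using MvPolynomial.induction_on' with
    | monomial m c =>
      rw [GM3_cz_mon]
      split_ifs with h
      · exact h0 χ m c (by rwa [GM3_phi0 Y h, sub_zero])
      · rw [zero_smul, map_zero]
    | add a b ha hb => simp only [map_add, add_smul, ha, hb, add_zero]
  have h2 : ∀ χ, Y.φ χ = n → ∀ s : MvPolynomial σ k,
      G.π χ (cz k Y.Z s • x) = G.π χ (s • x) := by
    intro χ hχ s
    induction s using MvPolynomial.induction_on' with
    | monomial m c =>
      rw [GM3_cz_mon]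
      split_ifs with h
      · rfl
      · rw [zero_smul, map_zero, h0 χ m c]
        have := GM3_phi1 Y h
        omega
    | add a b ha hb => simp only [map_add, add_smul, ha, hb]
  have h3 : ∀ χ, G.π χ (cz k Y.Z t • x) = 0 := fun χ => by
    by_cases hχ : Y.φ χ = n
    · rw [h2 χ hχ, ht, map_zero]
    · exact h1 χ hχ t
  rw [← G.sum (cz k Y.Z t • x)]
  simp only [h3, finsum_zero]

end Vale.Agent.P200E
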