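import Vale.Agent.P200E.RHom
import Vale.Agent.P200E.GM3

namespace Vale.Agent.P200E

open MvPolynomial TensorProduct

universe u

variable {k D : Type u} [Field k] [DivisionRing D] [Algebra k D] [FiniteDimensional k D]
  {N a c d : ℕ} [NeZero a]
variable {ζ : k} [Fact (ζ ^ a = 1)]

theorem finR_coeff {m : ℕ} (t : Fin m → MvPolynomial (SG N a c) k) (x : Fin m → RR D N a c ζ)
    (γ : GG N a ζ) : (∑ i, jO D ζ (t i) * x i).coeff γ = ∑ i, t i • (x i).coeff γ := by
  have h := map_sum (SkewMonoidAlgebra.coeffAddEquiv (k := AA k D (SG N a c)) (G := GG N a ζ))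
    (fun i => jO D ζ (t i) * x i) Finset.univ
  have h2 : (∑ i, jO D ζ (t i) * x i).coeff = ∑ i, (jO D ζ (t i) * x i).coeff := h
  rw [h2, Finset.sum_apply']
  exact Finset.sum_congr rfl fun i _ => coeff_jO_mul _ _ _

theorem finR_comm (h : GG N a ζ) (t : MvPolynomial (SG N a c) k) :
    SkewMonoidAlgebra.single h (1 : AA k D (SG N a c)) * jO D ζ t =
      jO D ζ (act c ζ h.v t) * SkewMonoidAlgebra.single h 1 := by
  rw [jO, jO, SkewMonoidAlgebra.single_mul_single, SkewMonoidAlgebra.single_mul_single, one_smul,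
    mul_one, mul_one, one_mul, one_mul, gAct_def, actA]
  simp

omit [FiniteDimensional k D] in
theorem finR_assoc (x y z : RR D N a c ζ) : x * y * z = x * (y * z) := mul_assoc x y z

theorem finR_lin {σ : Type} {I : Ideal (MvPolynomial σ k)} (hp : I.IsPrime) {Γ : Type} [Fintype Γ]
    {m : ℕ} (hm : Fintype.card Γ * Module.finrank k D < m) (x : Fin m → Γ → AA k D σ) :
    ∃ t : Fin m → MvPolynomial σ k, (∃ i, t i ∉ I) ∧ ∀ g, ∑ i, t i • x i g ∈ iA D I := by
  classical
  let b := Algebra.TensorProduct.basis (MvPolynomial σ k) (Module.finBasis k D)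
  let v : Fin m → Γ × Fin (Module.finrank k D) → MvPolynomial σ k ⧸ I :=
    fun i p => Ideal.Quotient.mk I (b.repr (x i p.1) p.2)
  have hv : ¬ LinearIndependent (MvPolynomial σ k ⧸ I) v := by
    intro h
    have := h.fintype_card_le_finrank
    rw [Module.finrank_fintype_fun_eq_card, Fintype.card_prod, Fintype.card_fin,
      Fintype.card_fin] at this
    omega
  obtain ⟨s, hs, i, hi⟩ := Fintype.not_linearIndependent_iff.1 hv
  choose t ht using fun i => Ideal.Quotient.mk_surjective (s i)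
  refine ⟨t, ⟨i, fun h => hi ?_⟩, fun g => ?_⟩
  · rw [← ht, Ideal.Quotient.eq_zero_iff_mem.2 h]
  · rw [← b.sum_repr (∑ i, t i • x i g)]
    refine Submodule.sum_mem _ fun j _ => smul_mem_iA ?_ _
    rw [← Ideal.Quotient.eq_zero_iff_mem, map_sum, Finset.sum_apply', map_sum]
    have := congrFun hs (g, j)
    rw [Finset.sum_apply] at this
    refine Eq.trans (Finset.sum_congr rfl fun i _ => ?_) this
    rw [map_smul, Finsupp.smul_apply, smul_eq_mul, map_mul, ht]
    rfl

omit [Fact (ζ ^ a = 1)] in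
theorem finR_act_hom (γ : Fin N → ZMod a) {χ : IG N a → ℤ} {r : MvPolynomial (SG N a c) k}
    (hr : r.IsWeightedHomogeneous gw χ) : (act c ζ γ r).IsWeightedHomogeneous gw (sL γ χ) := by
  have h := act_whc ζ γ χ r
  rw [hr.weightedHomogeneousComponent_same] at h
  rw [← h]
  exact weightedHomogeneousComponent_isWeightedHomogeneous _ _

theorem gad_dep {I : Ideal (MvPolynomial (SG N a c) k)} (hp : I.IsPrime) (hh : HomI gw I)
    (hI : ∀ (γ : Fin N → ZMod a), ∀ r ∈ I, act c ζ γ r ∈ I) :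
    ∃ m : ℕ, ∀ (j : Fin m → ℕ) (r : Fin m → RR D N a c ζ),
      (∀ i, r i ∈ RH D c ζ ((j i : ℤ) • th0 N a)) →
      ∃ (n : ℤ) (t : Fin m → MvPolynomial (SG N a c) k),
        (∀ i, (t i).IsWeightedHomogeneous gw ((n - j i) • th0 N a)) ∧
        (∀ i (γ : Fin N → ZMod a), act c ζ γ (t i) - t i ∈ I) ∧ (∃ i, t i ∉ I) ∧
        ∑ i, jO D ζ (t i) * r i ∈ PH D ζ I := by
  classical
  have hζ : ζ ^ a = 1 := Fact.out
  obtain ⟨m, hm⟩ : ∃ m, Fintype.card (GG N a ζ × GG N a ζ) * Module.finrank k D < m :=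
    ⟨_, Nat.lt_succ_self _⟩
  refine ⟨m, fun j r hr => ?_⟩
  let x : GG N a ζ → Fin m → RR D N a c ζ := fun g i => SkewMonoidAlgebra.single g 1 * r i
  let Sol : (Fin m → MvPolynomial (SG N a c) k) → Prop := fun t =>
    ∀ g, ∑ i, jO D ζ (t i) * x g i ∈ PH D ζ I
  have hS : ∀ t, Sol t ↔ ∀ g g', ∑ i, t i • (x g i).coeff g' ∈ iA D I := fun t =>
    forall_congr' fun g => forall_congr' fun g' => by rw [finR_coeff]
  have hsub : ∀ t t', Sol t → Sol t' → Sol fun i => t i - t' i := by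
    intro t t' h h'
    rw [hS] at h h' ⊢
    intro g g'
    have h1 := sub_mem (h g g') (h' g g')
    rw [← Finset.sum_sub_distrib] at h1
    convert h1 using 2 with i
    exact sub_smul (t i) (t' i) ((x g i).coeff g')
  have hmul : ∀ p t, Sol t → Sol fun i => p * t i := by
    intro p t h
    rw [hS] at h ⊢
    intro g g'
    simp only [mul_smul, ← Finset.smul_sum]
    exact Submodule.smul_of_tower_mem _ _ (h g g')
  have hact : ∀ (γ : Fin N → ZMod a) t, Sol t → Sol fun i => act c ζ γ (t i) := by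
    intro γ t h g
    have h1 := PH_mul_left hI (SkewMonoidAlgebra.single (GG.mk ζ γ) 1) (h ((GG.mk ζ γ)⁻¹ * g))
    have h2 := Finset.mul_sum Finset.univ (fun i => jO D ζ (t i) * x ((GG.mk ζ γ)⁻¹ * g) i)
      (SkewMonoidAlgebra.single (GG.mk ζ γ) 1)
    rw [h2] at h1
    convert h1 using 2 with i
    symm
    rw [← finR_assoc, finR_comm, finR_assoc, GG.v_mk]
    congr 1
    simp only [x]
    rw [← finR_assoc, SkewMonoidAlgebra.single_mul_single, mul_inv_cancel_left, smul_one, mul_one]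
  have hcomp : ∀ (χ : IG N a → ℤ) t, Sol t →
      Sol fun i => weightedHomogeneousComponent gw (χ - (j i : ℤ) • th0 N a) (t i) := by
    intro χ t h
    rw [hS] at h ⊢
    intro g g'
    have h1 := isGr_iA (D := D) (gad N a (d := 0) (c := c) (k := k) fun _ => 0).θ
      (gad N a (d := 0) (c := c) (k := k) fun _ => 0).θw hh (χ + (cc g.v - cc g'.v)) _ (h g g')
    change (weightedHomogeneousComponent gw _).rTensor D _ ∈ _ at h1
    rw [map_sum] at h1
    refine (congrArg (· ∈ iA D I) (Finset.sum_congr rfl fun i _ => ?_)).mp h1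
    have h2 := RH_single_mul g (hr i) g'
    rw [map_zsmul, sL_th0] at h2
    have h3 := GMod.π_smul_poly (cyc k D _ (gad N a (d := 0) (c := c) (k := k) fun _ => 0).θ
      (gad N a (d := 0) (c := c) (k := k) fun _ => 0).θw) (t i) (e := (x g i).coeff g') h2
      (χ - (j i : ℤ) • th0 N a)
    rw [show χ - (j i : ℤ) • th0 N a + ((j i : ℤ) • th0 N a + cc g.v - cc g'.v) =
      χ + (cc g.v - cc g'.v) by abel] at h3
    exact h3
  have hex : ∃ n, ∃ t, Sol t ∧ (∃ i, t i ∉ I) ∧ (Finset.univ.filter fun i => t i ∉ I).card = n := by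
    obtain ⟨t, ht, ht'⟩ := finR_lin (D := D) hp (Γ := GG N a ζ × GG N a ζ) hm
      fun i p => (x p.1 i).coeff p.2
    exact ⟨_, t, (hS t).2 fun g g' => ht' (g, g'), ht, rfl⟩
  obtain ⟨t, hSt, ⟨i0, hi0⟩, hcard⟩ := Nat.find_spec hex
  obtain ⟨χ, hχ⟩ : ∃ χ, weightedHomogeneousComponent gw χ (t i0) ∉ I := by
    by_contra hc
    push Not at hc
    apply hi0
    rw [← sum_weightedHomogeneousComponent gw (t i0)]
    exact finsum_induction (· ∈ I) I.zero_mem (fun _ _ => I.add_mem) hc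
  set τ := weightedHomogeneousComponent gw χ (t i0) with hτ
  have hτh : τ.IsWeightedHomogeneous gw χ := weightedHomogeneousComponent_isWeightedHomogeneous _ _
  have hτ0 : τ ≠ 0 := fun h => hχ (h ▸ I.zero_mem)
  obtain ⟨mm, hmm⟩ := ne_zero_iff.1 hτ0
  obtain ⟨n, hn⟩ := sum_sL mm
  rw [hτh hmm, ← Finset.add_sum_erase _ _ (Finset.mem_univ 0), sL_zero] at hn
  set P := ∏ γ ∈ Finset.univ.erase (0 : Fin N → ZMod a), act c ζ γ τ with hP
  have hPh : P.IsWeightedHomogeneous gw (∑ γ ∈ Finset.univ.erase (0 : Fin N → ZMod a), sL γ χ) :=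
    IsWeightedHomogeneous.prod _ _ _ fun γ _ => finR_act_hom γ hτh
  have hN : P * τ = ∏ γ : Fin N → ZMod a, act c ζ γ τ := by
    rw [← Finset.mul_prod_erase _ _ (Finset.mem_univ 0), act_zero, mul_comm]
    rfl
  have hNI : P * τ ∉ I := by
    rw [hN, Ideal.IsPrime.prod_mem_iff]
    rintro ⟨γ, -, hγ⟩
    have h1 := hI (-γ) _ hγ
    rw [← AlgHom.comp_apply, ← act_add hζ, neg_add_cancel, act_zero] at h1
    exact hχ h1
  have hNa : ∀ γ, act c ζ γ (P * τ) = P * τ := by
    intro γ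
    rw [hN, map_prod]
    refine Fintype.prod_equiv (Equiv.addLeft γ) _ _ fun γ' => ?_
    rw [← AlgHom.comp_apply, ← act_add hζ]
    rfl
  let t' : Fin m → MvPolynomial (SG N a c) k := fun i => P * weightedHomogeneousComponent gw
    (χ + (j i0 : ℤ) • th0 N a - (j i : ℤ) • th0 N a) (t i)
  have ht'0 : t' i0 = P * τ := by simp only [t', add_sub_cancel_right, hτ]
  have hSt' : Sol t' := hmul P _ (hcomp _ t hSt)
  refine ⟨n + j i0, t', fun i => ?_, fun i γ => ?_, ⟨i0, ht'0 ▸ hNI⟩, ?_⟩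
  · have h1 := hPh.mul (weightedHomogeneousComponent_isWeightedHomogeneous
      (χ + (j i0 : ℤ) • th0 N a - (j i : ℤ) • th0 N a) (t i))
    convert h1 using 1
    rw [sub_smul, add_smul, ← hn]
    abel
  · by_contra hc
    have h1 := Nat.find_min' hex ⟨_, hsub _ _ (hact γ _ hSt') hSt', ⟨i, hc⟩, rfl⟩
    rw [← hcard] at h1
    refine absurd h1 (not_le.2 (Finset.card_lt_card ⟨fun l hl => ?_, fun h => ?_⟩))
    · rw [Finset.mem_filter] at hl ⊢
      refine ⟨hl.1, fun h => hl.2 ?_⟩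
      have h2 : t' l ∈ I := I.mul_mem_left _ (hh _ _ h)
      exact I.sub_mem (hI γ _ h2) h2
    · have h2 := h (Finset.mem_filter.2 ⟨Finset.mem_univ i0, hi0⟩)
      rw [Finset.mem_filter, ht'0, hNa, sub_self] at h2
      exact h2.2 I.zero_mem
  · have h1 := hSt' 1
    have h2 : ∀ y : RR D N a c ζ, 1 * y = y := fun y => one_mul y
    simpa only [x, SkewMonoidAlgebra.single_one_one, h2] using h1

end Vale.Agent.P200E
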