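import Vale.Agent.P200E.Frac0

namespace Vale.Agent.P200E

open MvPolynomial TensorProduct

universe u

theorem Frac_dec {k R : Type u} [Field k] [Ring R] [Algebra k R]
    (F : ℕ → Submodule k R) (p : ℕ → R →ₗ[k] R)
    (hp : ∀ i j, ∀ x ∈ F i, p j x = if i = j then x else 0) {x : R} (hx : x ∈ ⨆ j, F j) :
    (∀ j, p j x ∈ F j) ∧ ∃ n, ∀ N, n ≤ N → ∑ j ∈ Finset.range N, p j x = x ∧ p N x = 0 := by
  induction hx using Submodule.iSup_induction' with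
  | mem i x hx =>
    refine ⟨fun j => ?_, i + 1, fun N hN => ⟨?_, ?_⟩⟩
    · rw [hp i j x hx]
      split_ifs with h
      · exact h ▸ hx
      · exact zero_mem _
    · simp only [hp i _ x hx]
      rw [Finset.sum_ite_eq, if_pos (Finset.mem_range.2 (by omega))]
    · rw [hp i N x hx, if_neg (by omega)]
  | zero => exact ⟨fun j => by simp, 0, fun N _ => by simp⟩
  | add x y _ _ hx hy =>
    obtain ⟨h1, n, hn⟩ := hx
    obtain ⟨h2, m, hm⟩ := hy
    refine ⟨fun j => by rw [map_add]; exact add_mem (h1 j) (h2 j), max n m, fun N hN => ?_⟩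
    have a := hn N (le_of_max_le_left hN)
    have b := hm N (le_of_max_le_right hN)
    simp only [map_add, Finset.sum_add_distrib, a.1, a.2, b.1, b.2, add_zero, and_self]

theorem Frac_top {R : Type u} [Ring R] (I : AddSubgroup R) (q : ℕ → R) {x : R} {n : ℕ}
    (hn : ∀ N, n ≤ N → ∑ j ∈ Finset.range N, q j = x ∧ q N = 0) (hx : x ∉ I) :
    ∃ i, i < n ∧ q i ∉ I ∧ ∀ j, i < j → q j ∈ I := by
  classical
  have hne : ((Finset.range n).filter fun j => q j ∉ I).Nonempty := by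
    by_contra h
    apply hx
    rw [← (hn n le_rfl).1]
    refine sum_mem fun j hj => ?_
    by_contra hq
    exact h ⟨j, Finset.mem_filter.2 ⟨hj, hq⟩⟩
  have h1 := Finset.mem_filter.1 (Finset.max'_mem _ hne)
  refine ⟨_, Finset.mem_range.1 h1.1, h1.2, fun j hj => ?_⟩
  by_contra hq
  by_cases hjn : j < n
  · exact absurd (Finset.le_max' _ j (Finset.mem_filter.2 ⟨Finset.mem_range.2 hjn, hq⟩))
      (not_le.2 hj)
  · exact hq ((hn j (not_lt.1 hjn)).2 ▸ zero_mem _)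

theorem Frac_dom {k R : Type u} [Field k] [Ring R] [Algebra k R] (I : AddSubgroup R)
    (hl : ∀ x, ∀ y ∈ I, x * y ∈ I) (hr : ∀ x ∈ I, ∀ y, x * y ∈ I)
    (F : ℕ → Submodule k R)
    (hmul : ∀ i j, ∀ x ∈ F i, ∀ y ∈ F j, x * y ∈ F (i + j)) (p : ℕ → R →ₗ[k] R)
    (hp : ∀ i j, ∀ x ∈ F i, p j x = if i = j then x else 0) (hpI : ∀ j, ∀ x ∈ I, p j x ∈ I)
    (hdom : ∀ i j, ∀ x ∈ F i, ∀ y ∈ F j, x * y ∈ I → x ∈ I ∨ y ∈ I) {x y : R}
    (hx : x ∈ ⨆ j, F j) (hy : y ∈ ⨆ j, F j) (h : x * y ∈ I) : x ∈ I ∨ y ∈ I := by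
  by_contra hc
  push Not at hc
  obtain ⟨h1, n, hn⟩ := Frac_dec F p hp hx
  obtain ⟨h2, m, hm⟩ := Frac_dec F p hp hy
  obtain ⟨i, hi, hi1, hi2⟩ := Frac_top I (fun j => p j x) hn hc.1
  obtain ⟨l, hl0, hl1, hl2⟩ := Frac_top I (fun j => p j y) hm hc.2
  have e : x * y = ∑ z ∈ Finset.range n ×ˢ Finset.range m, p z.1 x * p z.2 y := by
    rw [Finset.sum_product' (f := fun a b => p a x * p b y), ← Finset.sum_mul_sum,
      (hn n le_rfl).1, (hm m le_rfl).1]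
  have h3 := hpI (i + l) _ h
  have hmem : (i, l) ∈ Finset.range n ×ˢ Finset.range m :=
    Finset.mem_product.2 ⟨Finset.mem_range.2 hi, Finset.mem_range.2 hl0⟩
  rw [e, map_sum, ← Finset.add_sum_erase _ _ hmem,
    hp _ _ _ (hmul _ _ _ (h1 i) _ (h2 l)), if_pos rfl] at h3
  have h4 : ∑ z ∈ (Finset.range n ×ˢ Finset.range m).erase (i, l),
      p (i + l) (p z.1 x * p z.2 y) ∈ I := by
    refine sum_mem fun z hz => ?_
    rw [hp _ _ _ (hmul _ _ _ (h1 z.1) _ (h2 z.2))]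
    split_ifs with hz'
    · have hne := (Finset.mem_erase.1 hz).1
      by_cases h5 : i < z.1
      · exact hr _ (hi2 _ h5) _
      · refine hl _ _ (hl2 _ ?_)
        by_contra h6
        exact hne (Prod.ext (by simp only; omega) (by simp only; omega))
    · exact zero_mem _
  have h5 := (add_mem_cancel_right h4).1 h3
  exact (hdom _ _ _ (h1 i) _ (h2 l) h5).elim hi1 hl1

theorem frac_graded {k R : Type u} [Field k] [Ring R] [Algebra k R] (I : AddSubgroup R)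
    (hl : ∀ x, ∀ y ∈ I, x * y ∈ I) (hr : ∀ x ∈ I, ∀ y, x * y ∈ I) (h1 : (1 : R) ∉ I)
    (F : ℕ → Submodule k R) (T : Subalgebra k R) (hT : ∀ x, x ∈ T ↔ x ∈ ⨆ j, F j)
    (hmul : ∀ i j, ∀ x ∈ F i, ∀ y ∈ F j, x * y ∈ F (i + j)) (p : ℕ → R →ₗ[k] R)
    (hp : ∀ i j, ∀ x ∈ F i, p j x = if i = j then x else 0) (hpI : ∀ j, ∀ x ∈ I, p j x ∈ I)
    (hdom : ∀ i j, ∀ x ∈ F i, ∀ y ∈ F j, x * y ∈ I → x ∈ I ∨ y ∈ I) (m : ℕ)
    (hdep : ∀ (j : Fin m → ℕ) (r : Fin m → R), (∀ i, r i ∈ F (j i)) → ∃ t : Fin m → R,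
      (∀ i, t i ∈ T) ∧ (∀ i y, t i * y - y * t i ∈ I) ∧ (∃ i, t i ∉ I) ∧ ∑ i, t i * r i ∈ I) :
    ∃ (k' D' : Type u) (_ : Field k') (_ : DivisionRing D') (_ : Algebra k' D')
      (_ : FiniteDimensional k' D') (_ : Algebra k k') (_ : Algebra k D')
      (_ : IsScalarTower k k' D') (Ψ : T →ₐ[k] D'), ∀ x : T, Ψ x = 0 ↔ (x : R) ∈ I := by
  let J : TwoSidedIdeal T := TwoSidedIdeal.mk' {x | (x : R) ∈ I} (zero_mem I)
    (fun {x y} hx hy => (add_mem hx hy : (x : R) + y ∈ I))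
    (fun {x} hx => (neg_mem hx : -(x : R) ∈ I))
    (fun {x y} hy => hl x y hy)
    (fun {x y} hx => hr x hx y)
  have hJ : ∀ x : T, x ∈ J ↔ (x : R) ∈ I := fun x => TwoSidedIdeal.mem_mk' _ _ _ _ _ _ x
  let π : T →ₐ[k] J.ringCon.Quotient := J.ringCon.mkₐ k
  have hsurj : Function.Surjective π := J.ringCon.mkₐ_surjective
  have hπ : ∀ x : T, π x = 0 ↔ (x : R) ∈ I := fun x => by
    rw [← hJ, TwoSidedIdeal.mem_iff, ← map_zero π]
    exact J.ringCon.eq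
  have hnt : Nontrivial J.ringCon.Quotient :=
    ⟨⟨1, 0, fun h => h1 ((hπ 1).1 (by rw [map_one, h]))⟩⟩
  have hnz : NoZeroDivisors J.ringCon.Quotient := ⟨fun {a b} h => by
    obtain ⟨x, rfl⟩ := hsurj a
    obtain ⟨y, rfl⟩ := hsurj b
    rw [← map_mul, hπ] at h
    rw [hπ, hπ]
    exact Frac_dom I hl hr F hmul p hp hpI hdom ((hT _).1 x.2) ((hT _).1 y.2) h⟩
  have hD : IsDomain J.ringCon.Quotient := NoZeroDivisors.to_isDomain _
  obtain ⟨k', D', i1, i2, i3, i4, i5, i6, i7, Ψ, hΨ⟩ := frac_center (k := k)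
    (π '' {x : T | ∃ j, (x : R) ∈ F j}) (by
      rw [eq_top_iff]
      intro z _
      obtain ⟨x, rfl⟩ := hsurj z
      obtain ⟨a1, n, hn⟩ := Frac_dec F p hp ((hT _).1 x.2)
      have hm : ∀ j, p j x ∈ T := fun j => (hT _).2 (Submodule.mem_iSup_of_mem j (a1 j))
      have e : x = ∑ j ∈ Finset.range n, (⟨p j x, hm j⟩ : T) := by
        apply Subtype.ext
        rw [AddSubmonoidClass.coe_finsetSum]
        exact (hn n le_rfl).1.symm
      rw [e, map_sum]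
      exact Submodule.sum_mem _ fun j _ => Submodule.subset_span ⟨_, ⟨j, a1 j⟩, rfl⟩) m (by
      intro r hr
      choose x hx hxe using hr
      choose j hj using hx
      obtain ⟨t, t1, t2, ⟨i, t3⟩, t4⟩ := hdep j (fun i => x i) hj
      refine ⟨fun i => π ⟨t i, t1 i⟩, fun i y => ?_, ⟨i, fun h => t3 ((hπ _).1 h)⟩, ?_⟩
      · obtain ⟨y, rfl⟩ := hsurj y
        rw [← sub_eq_zero, ← map_mul, ← map_mul, ← map_sub, hπ]
        exact t2 i y
      · simp only [← hxe, ← map_mul, ← map_sum]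
        rw [hπ, AddSubmonoidClass.coe_finsetSum]
        exact t4)
  refine ⟨k', D', i1, i2, i3, i4, i5, i6, i7, Ψ.comp π, fun x => ?_⟩
  rw [AlgHom.comp_apply, ← hπ]
  exact map_eq_zero_iff Ψ hΨ

end Vale.Agent.P200E
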