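import Vale.Agent.P200E.Defs
import Vale.Agent.P200.Step

namespace Vale.Agent.P200E

open MvPolynomial TensorProduct

universe u

theorem Frac0_fd {O B : Type u} [CommRing O] [IsDomain O] [Ring B] [Algebra O B] (s : Set B)
    (hs : Submodule.span O s = ⊤) (m : ℕ)
    (hdep : ∀ r : Fin m → B, (∀ i, r i ∈ s) → ∃ t : Fin m → O,
      (∃ i, t i ≠ 0) ∧ ∑ i, t i • r i = 0) :
    FiniteDimensional (FractionRing O) (FractionRing O ⊗[O] B) := by
  let ι : B →ₗ[O] FractionRing O ⊗[O] B := TensorProduct.mk O (FractionRing O) B 1
  have hsp : Submodule.span (FractionRing O) (ι '' s) = ⊤ := by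
    have h1 : ∀ x : B, ι x ∈ Submodule.span (FractionRing O) (ι '' s) := by
      intro x
      have hx : x ∈ Submodule.span O s := hs ▸ Submodule.mem_top
      induction hx using Submodule.span_induction with
      | mem y hy => exact Submodule.subset_span ⟨y, hy, rfl⟩
      | zero => rw [map_zero]; exact zero_mem _
      | add y z _ _ hy hz => rw [map_add]; exact add_mem hy hz
      | smul o y _ hy =>
        rw [map_smul, ← algebraMap_smul (FractionRing O)]
        exact Submodule.smul_mem _ _ hy
    rw [eq_top_iff]
    intro z _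
    induction z using TensorProduct.induction_on with
    | zero => exact zero_mem _
    | tmul a x =>
      have : a ⊗ₜ[O] x = a • ι x := by simp [ι, TensorProduct.smul_tmul']
      rw [this]
      exact Submodule.smul_mem _ _ (h1 x)
    | add y z hy hz => exact add_mem (hy trivial) (hz trivial)
  obtain ⟨b, hb, hspan, hli⟩ := exists_linearIndependent (FractionRing O) (ι '' s)
  have hfin : b.Finite := by
    by_contra hinf
    have : Infinite b := Set.infinite_coe_iff.2 hinf
    let e : Fin m → b := fun i => Infinite.natEmbedding b i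
    have he : Function.Injective e := fun i j h =>
      Fin.ext ((Infinite.natEmbedding b).injective h)
    choose r hr hre using fun i => hb (e i).2
    obtain ⟨t, ⟨i, hi⟩, ht⟩ := hdep r hr
    have h2 := Fintype.linearIndependent_iff.1 (hli.comp e he)
      (fun i => algebraMap O (FractionRing O) (t i)) (by
        have := congrArg ι ht
        rw [map_sum, map_zero] at this
        rw [← this]
        refine Finset.sum_congr rfl fun j _ => ?_
        rw [map_smul, hre, algebraMap_smul]
        rfl) i
    exact hi ((IsFractionRing.to_map_eq_zero_iff).1 h2)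
  exact ⟨⟨hfin.toFinset, by rw [Set.Finite.coe_toFinset, hspan, hsp]⟩⟩

theorem frac_center {k B : Type u} [Field k] [Ring B] [IsDomain B] [Algebra k B] (s : Set B)
    (hs : Submodule.span k s = ⊤) (m : ℕ)
    (hdep : ∀ r : Fin m → B, (∀ i, r i ∈ s) → ∃ t : Fin m → B,
      (∀ i y, t i * y = y * t i) ∧ (∃ i, t i ≠ 0) ∧ ∑ i, t i * r i = 0) :
    ∃ (k' D' : Type u) (_ : Field k') (_ : DivisionRing D') (_ : Algebra k' D')
      (_ : FiniteDimensional k' D') (_ : Algebra k k') (_ : Algebra k D')
      (_ : IsScalarTower k k' D') (Ψ : B →ₐ[k] D'), Function.Injective Ψ := by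
  let φ : k →+* Subring.center B := (algebraMap k B).codRestrict _ fun r =>
    Subring.mem_center_iff.2 fun y => (Algebra.commutes r y).symm
  have hs' : Submodule.span (Subring.center B) s = ⊤ := by
    rw [eq_top_iff]
    intro x _
    have hx : x ∈ Submodule.span k s := hs ▸ Submodule.mem_top
    induction hx using Submodule.span_induction with
    | mem y hy => exact Submodule.subset_span hy
    | zero => exact zero_mem _
    | add y z _ _ hy hz => exact add_mem (hy trivial) (hz trivial)
    | smul o y _ hy =>
      have : o • y = φ o • y := Algebra.smul_def o y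
      rw [this]
      exact Submodule.smul_mem _ _ (hy trivial)
  have hfd := Frac0_fd s hs' m fun r hr => by
    obtain ⟨t, h1, ⟨i, hi⟩, h3⟩ := hdep r hr
    exact ⟨fun i => ⟨t i, Subring.mem_center_iff.2 fun y => (h1 i y).symm⟩,
      ⟨i, fun h => hi (congrArg Subtype.val h)⟩, h3⟩
  obtain ⟨hD, hinj⟩ := P200.tensor_domain (O := Subring.center B) (Λ := B) fun o x h =>
    (mul_eq_zero.1 h).imp_left fun h => Subtype.ext h
  obtain ⟨k', D', i1, i2, i3, i4, ψ, Ψ, h1, h2⟩ : ∃ (k' D' : Type u) (_ : Field k')
      (_ : DivisionRing D') (_ : Algebra k' D') (_ : FiniteDimensional k' D') (ψ : k →+* k')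
      (Ψ : B →+* D'), (∀ x, Ψ x = 0 → x = 0) ∧
        ∀ r : k, Ψ (algebraMap k B r) = algebraMap k' D' (ψ r) := by
    refine ⟨FractionRing (Subring.center B), FractionRing (Subring.center B) ⊗[Subring.center B] B,
      inferInstance, divisionRingOfFiniteDimensional (FractionRing (Subring.center B)) _,
      inferInstance, hfd, (algebraMap (Subring.center B) _).comp φ,
      (Algebra.TensorProduct.includeRight (R := Subring.center B)).toRingHom, hinj, fun r => ?_⟩
    rw [RingHom.comp_apply, ← IsScalarTower.algebraMap_apply]
    exact (Algebra.TensorProduct.includeRight (R := Subring.center B)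
      (A := FractionRing (Subring.center B)) (B := B)).commutes (φ r)
  letI a1 : Algebra k k' := ψ.toAlgebra
  letI a2 : Algebra k D' := ((algebraMap k' D').comp ψ).toAlgebra' fun r y =>
    Algebra.commutes (ψ r) y
  exact ⟨k', D', i1, i2, i3, i4, a1, a2, IsScalarTower.of_algebraMap_eq fun _ => rfl,
    ⟨Ψ, h2⟩, (injective_iff_map_eq_zero Ψ).2 h1⟩

end Vale.Agent.P200E
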