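import Vale.Agent.P200E.Defs

namespace Vale.Agent.P200E

open MvPolynomial TensorProduct

universe u

variable {k D : Type u} [Field k] [DivisionRing D] [Algebra k D] {σ ι : Type} {w : σ → ι → ℤ}

instance aaFin [FiniteDimensional k D] : Module.Finite (MvPolynomial σ k) (AA k D σ) :=
  inferInstance

/-- projection on a graded submodule -/
def GMod.subπ (G : GMod k D w) (U : Submodule (AA k D σ) G.E) (hU : G.IsGr U) (χ : ι → ℤ) :
    U →ₗ[k] U where
  toFun u := ⟨G.π χ u, hU χ u u.2⟩
  map_add' a b := Subtype.ext (map_add _ _ _)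
  map_smul' c a := Subtype.ext (map_smul _ _ _)

/-- graded submodule -/
noncomputable def GMod.sub [Finite σ] (G : GMod k D w) (U : Submodule (AA k D σ) G.E)
    (hU : G.IsGr U) : GMod k D w where
  E := U
  i8 := Module.Finite.of_injective (U.subtype.restrictScalars (MvPolynomial σ k))
    Subtype.val_injective
  π := G.subπ U hU
  fin e := (G.fin e).subset fun χ hχ h => hχ (Subtype.ext h)
  sum e := by
    apply Subtype.val_injective
    have := U.subtype.toAddMonoidHom.map_finsum (f := fun χ => G.subπ U hU χ e)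
      ((G.fin e).subset fun χ hχ h => hχ (Subtype.ext h))
    exact this.trans (G.sum e)
  idem χ e := Subtype.ext (G.idem χ e)
  orth χ ψ e h := Subtype.ext (G.orth χ ψ e h)
  shiftX i χ e := Subtype.ext (G.shiftX i χ e)
  actD d χ e := Subtype.ext (G.actD d χ e)
  fd χ := by
    let f : LinearMap.range (G.subπ U hU χ) →ₗ[k] LinearMap.range (G.π χ) :=
      { toFun := fun x => ⟨x.1.1, by
          obtain ⟨y, hy⟩ := x.2
          exact ⟨y, congrArg Subtype.val hy⟩⟩
        map_add' := fun _ _ => rfl
        map_smul' := fun _ _ => rfl }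
    exact Module.Finite.of_injective f fun a b h =>
      Subtype.ext (Subtype.ext (congrArg (fun x : LinearMap.range (G.π χ) => x.1) h))

theorem GMod.sub_π [Finite σ] (G : GMod k D w) (U : Submodule (AA k D σ) G.E) (hU : G.IsGr U)
    (χ : ι → ℤ) (u : U) : U.subtype ((G.sub U hU).π χ u) = G.π χ u := rfl

/-- projection on a quotient -/
noncomputable def GMod.quotπ (G : GMod k D w) (U : Submodule (AA k D σ) G.E) (hU : G.IsGr U)
    (χ : ι → ℤ) : (G.E ⧸ U) →ₗ[k] (G.E ⧸ U) :=
  (Submodule.Quotient.restrictScalarsEquiv k U).toLinearMap ∘ₗ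
    (U.restrictScalars k).mapQ (U.restrictScalars k) (G.π χ) (fun e he => hU χ e he) ∘ₗ
      (Submodule.Quotient.restrictScalarsEquiv k U).symm.toLinearMap

theorem GMod.quotπ_mk (G : GMod k D w) (U : Submodule (AA k D σ) G.E) (hU : G.IsGr U)
    (χ : ι → ℤ) (e : G.E) : G.quotπ U hU χ (U.mkQ e) = U.mkQ (G.π χ e) := rfl

/-- quotient by a graded submodule -/
noncomputable def GMod.quot (G : GMod k D w) (U : Submodule (AA k D σ) G.E) (hU : G.IsGr U) :
    GMod k D w where
  E := G.E ⧸ U
  i8 := Module.Finite.of_surjective (U.mkQ.restrictScalars (MvPolynomial σ k)) U.mkQ_surjective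
  π := G.quotπ U hU
  fin e := by
    obtain ⟨e, rfl⟩ := U.mkQ_surjective e
    refine (G.fin e).subset fun χ hχ h => hχ ?_
    simp only [G.quotπ_mk]
    rw [show G.π χ e = 0 from h, map_zero]
  sum e := by
    obtain ⟨e, rfl⟩ := U.mkQ_surjective e
    simp only [G.quotπ_mk]
    have := U.mkQ.toAddMonoidHom.map_finsum (f := fun χ => G.π χ e) (G.fin e)
    rw [G.sum] at this
    exact this.symm
  idem χ e := by
    obtain ⟨e, rfl⟩ := U.mkQ_surjective e
    simp only [G.quotπ_mk, G.idem]
  orth χ ψ e h := by
    obtain ⟨e, rfl⟩ := U.mkQ_surjective e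
    simp only [G.quotπ_mk, G.orth χ ψ e h, map_zero]
  shiftX i χ e := by
    obtain ⟨e, rfl⟩ := U.mkQ_surjective e
    rw [← LinearMap.map_smul_of_tower, G.quotπ_mk, G.quotπ_mk, G.shiftX,
      LinearMap.map_smul_of_tower]
  actD d χ e := by
    obtain ⟨e, rfl⟩ := U.mkQ_surjective e
    rw [← map_smul, G.quotπ_mk, G.quotπ_mk, G.actD, map_smul]
  fd χ := by
    have h : LinearMap.range (G.quotπ U hU χ) =
        (LinearMap.range (G.π χ)).map (U.mkQ.restrictScalars k) := by
      ext x
      constructor
      · rintro ⟨y, rfl⟩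
        obtain ⟨e, rfl⟩ := U.mkQ_surjective y
        exact ⟨_, ⟨e, rfl⟩, rfl⟩
      · rintro ⟨_, ⟨e, rfl⟩, rfl⟩
        exact ⟨U.mkQ e, rfl⟩
    rw [h]
    infer_instance

theorem GMod.quot_π (G : GMod k D w) (U : Submodule (AA k D σ) G.E) (hU : G.IsGr U)
    (χ : ι → ℤ) (e : G.E) : (G.quot U hU).π χ (U.mkQ e) = U.mkQ (G.π χ e) := rfl

/-- finite product of shifted copies -/
noncomputable def GMod.pw (G : GMod k D w) {Γ : Type} [Fintype Γ] (ψ : Γ → ι → ℤ) :
    GMod k D w where
  E := Γ → G.E
  π χ := LinearMap.pi fun g => G.π (χ - ψ g) ∘ₗ LinearMap.proj g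
  fin e := by
    refine (Set.finite_iUnion fun g => (G.fin (e g)).image (· + ψ g)).subset fun χ hχ => ?_
    obtain ⟨g, hg⟩ := Function.ne_iff.1 hχ
    exact Set.mem_iUnion.2 ⟨g, χ - ψ g, hg, sub_add_cancel _ _⟩
  sum e := by
    funext g
    have hf : (Function.support fun χ => (LinearMap.pi fun g => G.π (χ - ψ g) ∘ₗ
        LinearMap.proj (R := k) g) e).Finite := by
      refine (Set.finite_iUnion fun g => (G.fin (e g)).image (· + ψ g)).subset fun χ hχ => ?_
      obtain ⟨g, hg⟩ := Function.ne_iff.1 hχ
      exact Set.mem_iUnion.2 ⟨g, χ - ψ g, hg, sub_add_cancel _ _⟩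
    have := (Pi.evalAddMonoidHom (fun _ : Γ => G.E) g).map_finsum hf
    refine this.trans ?_
    exact (finsum_comp_equiv (Equiv.subRight (ψ g)) (f := fun χ => G.π χ (e g))).trans
      (G.sum (e g))
  idem χ e := funext fun g => G.idem _ _
  orth χ χ' e h := funext fun g => G.orth _ _ _ fun h' => h (sub_left_injective h')
  shiftX i χ e := funext fun g => by
    have := G.shiftX i (χ - ψ g) (e g)
    rw [sub_add_eq_add_sub] at this
    exact this
  actD d χ e := funext fun g => G.actD d _ _
  fd χ := by
    let f : (∀ g, LinearMap.range (G.π (χ - ψ g))) →ₗ[k] (Γ → G.E) :=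
      LinearMap.pi fun g => (LinearMap.range (G.π (χ - ψ g))).subtype ∘ₗ LinearMap.proj g
    refine Submodule.finiteDimensional_of_le (S₂ := LinearMap.range f) ?_
    rintro _ ⟨e, rfl⟩
    exact ⟨fun g => ⟨_, e g, rfl⟩, rfl⟩

theorem GMod.pw_π (G : GMod k D w) {Γ : Type} [Fintype Γ] (ψ : Γ → ι → ℤ) (χ : ι → ℤ)
    (e : Γ → G.E) (g : Γ) : ((G.pw ψ).π χ e : Γ → G.E) g = G.π (χ - ψ g) (e g) := rfl

theorem whc_X_mul (i : σ) (χ : ι → ℤ) (r : MvPolynomial σ k) :
    weightedHomogeneousComponent w (χ + w i) (X i * r) =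
      X i * weightedHomogeneousComponent w χ r := by
  classical
  ext m
  rw [coeff_weightedHomogeneousComponent, coeff_X_mul', coeff_X_mul']
  split_ifs with h1 h2 h2
  · rw [coeff_weightedHomogeneousComponent, if_pos]
    have h3 : m = m - Finsupp.single i 1 + Finsupp.single i 1 :=
      (tsub_add_cancel_of_le (Finsupp.single_le_iff.2
        (Nat.one_le_iff_ne_zero.2 (Finsupp.mem_support_iff.1 h2)))).symm
    rw [h3, map_add, Finsupp.weight_single, one_smul] at h1
    exact add_right_cancel h1
  · rfl
  · rw [coeff_weightedHomogeneousComponent, if_neg]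
    intro h4
    have h3 : m = m - Finsupp.single i 1 + Finsupp.single i 1 :=
      (tsub_add_cancel_of_le (Finsupp.single_le_iff.2
        (Nat.one_le_iff_ne_zero.2 (Finsupp.mem_support_iff.1 h2)))).symm
    apply h1
    rw [h3, map_add, Finsupp.weight_single, one_smul, h4]
  · rfl

theorem theta_weight (θ : (ι → ℤ) →+ ℤ) (hθ : ∀ i, θ (w i) = 1) (m : σ →₀ ℕ) :
    θ (Finsupp.weight w m) = ((Finsupp.degree m : ℕ) : ℤ) := by
  induction m using Finsupp.induction_linear with
  | zero => simp
  | add a b ha hb => simp only [map_add, ha, hb, Nat.cast_add]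
  | single i n => rw [Finsupp.weight_single, map_nsmul, hθ]; simp

theorem whc_fd [Finite σ] (θ : (ι → ℤ) →+ ℤ) (hθ : ∀ i, θ (w i) = 1) (χ : ι → ℤ) :
    FiniteDimensional k (LinearMap.range (weightedHomogeneousComponent (R := k) w χ)) := by
  classical
  have : Module.Finite k (restrictTotalDegree σ k (θ χ).toNat) := inferInstance
  refine Submodule.finiteDimensional_of_le (S₂ := restrictTotalDegree σ k (θ χ).toNat) ?_
  rintro _ ⟨r, rfl⟩
  rw [mem_restrictTotalDegree, totalDegree, Finset.sup_le_iff]
  intro m hm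
  rw [mem_support_iff, coeff_weightedHomogeneousComponent] at hm
  have h1 : Finsupp.weight w m = χ := by
    by_contra h
    exact hm (if_neg h)
  have h2 := theta_weight θ hθ m
  rw [h1] at h2
  rw [h2, Int.toNat_natCast]
  exact le_of_eq rfl

theorem rT_fin (a : AA k D σ) :
    (Function.support fun χ => (weightedHomogeneousComponent w χ).rTensor D a).Finite := by
  induction a using TensorProduct.induction_on with
  | zero => simp
  | tmul r d =>
    refine (weightedHomogeneousComponent_finsupp (w := w) r).subset fun χ hχ h => hχ ?_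
    simp only [LinearMap.rTensor_tmul]
    rw [show weightedHomogeneousComponent w χ r = 0 from h, zero_tmul]
  | add a b ha hb =>
    simp only [map_add]
    exact (ha.union hb).subset (Function.support_add _ _)

/-- the free module of rank one -/
noncomputable def cyc (k D : Type u) [Field k] [DivisionRing D] [Algebra k D]
    [FiniteDimensional k D] [Finite σ] (w : σ → ι → ℤ) (θ : (ι → ℤ) →+ ℤ)
    (hθ : ∀ i, θ (w i) = 1) : GMod k D w where
  E := AA k D σ
  π χ := (weightedHomogeneousComponent w χ).rTensor D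
  fin := rT_fin
  sum a := by
    induction a using TensorProduct.induction_on with
    | zero => simp
    | tmul r d =>
      have := ((TensorProduct.mk k (MvPolynomial σ k) D).flip d).toAddMonoidHom.map_finsum
        (weightedHomogeneousComponent_finsupp (w := w) r)
      rw [sum_weightedHomogeneousComponent] at this
      exact this.symm
    | add a b ha hb =>
      simp only [map_add]
      rw [finsum_add_distrib (rT_fin a) (rT_fin b), ha, hb]
  idem χ a := by
    rw [← LinearMap.rTensor_comp_apply]
    congr 2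
    refine LinearMap.ext fun r => ?_
    exact (weightedHomogeneousComponent_isWeightedHomogeneous χ r).weightedHomogeneousComponent_same
  orth χ ψ a h := by
    rw [← LinearMap.rTensor_comp_apply]
    have : weightedHomogeneousComponent (R := k) w χ ∘ₗ weightedHomogeneousComponent w ψ = 0 := by
      refine LinearMap.ext fun r => ?_
      exact (weightedHomogeneousComponent_isWeightedHomogeneous ψ r).weightedHomogeneousComponent_ne
        χ h
    rw [this]
    simp
  shiftX i χ a := by
    induction a using TensorProduct.induction_on with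
    | zero => simp
    | tmul r d => simp only [smul_tmul', LinearMap.rTensor_tmul, smul_eq_mul, whc_X_mul]
    | add a b ha hb => simp only [smul_add, map_add, ha, hb]
  actD d χ a := by
    induction a using TensorProduct.induction_on with
    | zero => simp
    | tmul r d' => simp
    | add a b ha hb => simp only [smul_add, map_add, ha, hb]
  fd χ := by
    have := whc_fd (k := k) θ hθ χ
    refine Submodule.finiteDimensional_of_le (S₂ := LinearMap.range
      ((LinearMap.range (weightedHomogeneousComponent (R := k) w χ)).subtype.rTensor D)) ?_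
    rintro _ ⟨a, rfl⟩
    refine ⟨(weightedHomogeneousComponent w χ).rangeRestrict.rTensor D a, ?_⟩
    rw [← LinearMap.rTensor_comp_apply]
    rfl

theorem cyc_π [FiniteDimensional k D] [Finite σ] (θ : (ι → ℤ) →+ ℤ) (hθ : ∀ i, θ (w i) = 1)
    (χ : ι → ℤ) (a : AA k D σ) :
    (cyc k D w θ hθ).π χ a = (weightedHomogeneousComponent w χ).rTensor D a := rfl

/-- the free module of rank one of a system -/
noncomputable abbrev Sys.cy [Finite σ] [DecidableEq σ] {d : ℕ} (Y : Sys k σ ι d) (D : Type u)
    [DivisionRing D] [Algebra k D] [FiniteDimensional k D] : GMod k D Y.w := cyc k D Y.w Y.θ Y.θw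

end Vale.Agent.P200E
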