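import Vale.Agent.P200E.GM1

namespace Vale.Agent.P200E

open MvPolynomial TensorProduct

universe u

variable {k D : Type u} [Field k] [DivisionRing D] [Algebra k D] {σ ι : Type} {w : σ → ι → ℤ}

theorem GMod.h_nonneg (G : GMod k D w) (χ : ι → ℤ) : 0 ≤ G.h χ := Int.natCast_nonneg _

theorem gm2_key {E E' : Type u} [AddCommGroup E] [Module k E] [AddCommGroup E'] [Module k E']
    (P : Submodule k E) [FiniteDimensional k P] (f : E →ₗ[k] E') :
    Module.finrank k P = Module.finrank k (P ⊓ LinearMap.ker f : Submodule k E) +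
      Module.finrank k (P.map f) := by
  have h := (f.domRestrict P).finrank_range_add_finrank_ker
  rw [LinearMap.range_domRestrict, LinearMap.ker_domRestrict] at h
  rw [← h, add_comm, ← Submodule.finrank_map_subtype_eq P, Submodule.map_comap_subtype]

theorem gm2_sub [Finite σ] (G : GMod k D w) (U : Submodule (AA k D σ) G.E) (hU : G.IsGr U)
    (χ : ι → ℤ) : (G.sub U hU).h χ =
      Module.finrank k (LinearMap.range (G.π χ) ⊓ U.restrictScalars k : Submodule k G.E) := by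
  have h : LinearMap.range (G.π χ) ⊓ U.restrictScalars k =
      (LinearMap.range (G.subπ U hU χ)).map (U.subtype.restrictScalars k) := by
    ext x
    constructor
    · rintro ⟨⟨y, rfl⟩, hx⟩
      exact ⟨_, ⟨⟨_, hx⟩, rfl⟩, G.idem χ y⟩
    · rintro ⟨_, ⟨y, rfl⟩, rfl⟩
      exact ⟨⟨y, rfl⟩, hU χ y y.2⟩
  rw [h]
  exact congrArg Nat.cast (LinearEquiv.finrank_eq
    (Submodule.equivMapOfInjective (U.subtype.restrictScalars k) Subtype.val_injective _))

theorem gm2_quot (G : GMod k D w) (U : Submodule (AA k D σ) G.E) (hU : G.IsGr U)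
    (χ : ι → ℤ) : (G.quot U hU).h χ =
      Module.finrank k ((LinearMap.range (G.π χ)).map (U.mkQ.restrictScalars k)) := by
  have h : LinearMap.range (G.quotπ U hU χ) =
      (LinearMap.range (G.π χ)).map (U.mkQ.restrictScalars k) := by
    ext x
    constructor
    · rintro ⟨y, rfl⟩
      obtain ⟨e, rfl⟩ := U.mkQ_surjective y
      exact ⟨_, ⟨e, rfl⟩, rfl⟩
    · rintro ⟨_, ⟨e, rfl⟩, rfl⟩
      exact ⟨U.mkQ e, rfl⟩
  rw [← h]
  rfl

theorem GMod.h_add [Finite σ] (G : GMod k D w) (U : Submodule (AA k D σ) G.E) (hU : G.IsGr U) :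
    G.h = (G.sub U hU).h + (G.quot U hU).h := by
  funext χ
  rw [Pi.add_apply, gm2_sub, gm2_quot, GMod.h, gm2_key _ (U.mkQ.restrictScalars k)]
  have : LinearMap.ker (U.mkQ.restrictScalars k) = U.restrictScalars k := by
    ext x; simp
  rw [this]; push_cast; rfl

theorem IsGrMap.ker {G G' : GMod k D w} {f : G.E →ₗ[AA k D σ] G'.E} {ψ : ι → ℤ}
    (hf : IsGrMap G G' f ψ) : G.IsGr (LinearMap.ker f) := fun χ e he => by
  rw [LinearMap.mem_ker] at he ⊢
  rw [← hf, he, map_zero]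

theorem IsGrMap.range {G G' : GMod k D w} {f : G.E →ₗ[AA k D σ] G'.E} {ψ : ι → ℤ}
    (hf : IsGrMap G G' f ψ) : G'.IsGr (LinearMap.range f) := by
  rintro χ _ ⟨e, rfl⟩
  refine ⟨G.π (χ - ψ) e, ?_⟩
  rw [← hf, sub_add_cancel]

theorem IsGrMap.comap {G G' : GMod k D w} {f : G.E →ₗ[AA k D σ] G'.E} {ψ : ι → ℤ}
    (hf : IsGrMap G G' f ψ) {U : Submodule (AA k D σ) G'.E} (hU : G'.IsGr U) :
    G.IsGr (U.comap f) := fun χ e he => by
  rw [Submodule.mem_comap] at he ⊢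
  rw [← hf]
  exact hU _ _ he

theorem IsGrMap.map {G G' : GMod k D w} {f : G.E →ₗ[AA k D σ] G'.E} {ψ : ι → ℤ}
    (hf : IsGrMap G G' f ψ) {U : Submodule (AA k D σ) G.E} (hU : G.IsGr U) :
    G'.IsGr (U.map f) := by
  rintro χ _ ⟨e, he, rfl⟩
  refine ⟨G.π (χ - ψ) e, hU _ _ he, ?_⟩
  rw [← hf, sub_add_cancel]

theorem IsGrMap.h_eq [Finite σ] {G G' : GMod k D w} {f : G.E →ₗ[AA k D σ] G'.E} {ψ : ι → ℤ}
    (hf : IsGrMap G G' f ψ) (χ : ι → ℤ) :
    G.h χ = (G.sub _ hf.ker).h χ + (G'.sub _ hf.range).h (χ + ψ) := by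
  rw [gm2_sub, gm2_sub, GMod.h, gm2_key _ (f.restrictScalars k)]
  have : (LinearMap.range (G.π χ)).map (f.restrictScalars k) =
      LinearMap.range (G'.π (χ + ψ)) ⊓ (LinearMap.range f).restrictScalars k := by
    ext x
    constructor
    · rintro ⟨_, ⟨e, rfl⟩, rfl⟩
      exact ⟨⟨f e, hf χ e⟩, ⟨_, rfl⟩⟩
    · rintro ⟨⟨y, rfl⟩, ⟨e, he⟩⟩
      refine ⟨_, ⟨e, rfl⟩, ?_⟩
      change f _ = _
      rw [← hf, he, G'.idem]
  rw [this]; push_cast; rfl

theorem h_of_equiv (G G' : GMod k D w) (f : G.E ≃ₗ[k] G'.E) (χ ψ : ι → ℤ)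
    (hf : ∀ e, G'.π ψ (f e) = f (G.π χ e)) : G.h χ = G'.h ψ := by
  have : (LinearMap.range (G.π χ)).map f.toLinearMap = LinearMap.range (G'.π ψ) := by
    ext x
    constructor
    · rintro ⟨_, ⟨e, rfl⟩, rfl⟩
      exact ⟨f e, hf e⟩
    · rintro ⟨y, rfl⟩
      obtain ⟨e, rfl⟩ := f.surjective y
      exact ⟨_, ⟨e, rfl⟩, (hf e).symm⟩
  rw [GMod.h, GMod.h, ← this, LinearEquiv.finrank_map_eq]

theorem IsGrMap.h_bij {G G' : GMod k D w} {f : G.E →ₗ[AA k D σ] G'.E} {ψ : ι → ℤ}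
    (hf : IsGrMap G G' f ψ) (hb : Function.Bijective f) (χ : ι → ℤ) :
    G.h χ = G'.h (χ + ψ) :=
  h_of_equiv G G' (LinearEquiv.ofBijective (f.restrictScalars k) hb) _ _ (hf χ)

theorem GMod.isGr_bot (G : GMod k D w) : G.IsGr ⊥ := fun χ e he => by
  rw [Submodule.mem_bot] at he ⊢
  rw [he, map_zero]

theorem GMod.isGr_top (G : GMod k D w) : G.IsGr ⊤ := fun _ _ _ => trivial

theorem GMod.IsGr.sup {G : GMod k D w} {U V : Submodule (AA k D σ) G.E} (hU : G.IsGr U)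
    (hV : G.IsGr V) : G.IsGr (U ⊔ V) := fun χ e he => by
  obtain ⟨x, hx, y, hy, rfl⟩ := Submodule.mem_sup.1 he
  rw [map_add]
  exact Submodule.add_mem_sup (hU _ _ hx) (hV _ _ hy)

theorem GMod.h_top [Finite σ] (G : GMod k D w) (h : G.IsGr ⊤) : (G.sub ⊤ h).h = G.h := by
  funext χ
  rw [gm2_sub, Submodule.restrictScalars_top, inf_top_eq, GMod.h]

theorem GMod.h_quot_bot (G : GMod k D w) (h : G.IsGr ⊥) : (G.quot ⊥ h).h = G.h := by
  funext χ
  have h1 := gm2_key (LinearMap.range (G.π χ))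
    ((⊥ : Submodule (AA k D σ) G.E).mkQ.restrictScalars k)
  have h3 : LinearMap.ker ((⊥ : Submodule (AA k D σ) G.E).mkQ.restrictScalars k) = ⊥ := by
    ext x; simp
  rw [h3, inf_bot_eq, finrank_bot, zero_add] at h1
  rw [gm2_quot, GMod.h, h1]

theorem GMod.h_zero (G : GMod k D w) (h : ∀ e : G.E, e = 0) : G.h = 0 := by
  funext χ
  have : LinearMap.range (G.π χ) = ⊥ := eq_bot_iff.2 fun x _ => h x
  rw [GMod.h, this]; simp

theorem GMod.h_quot_quot (G : GMod k D w) (U : Submodule (AA k D σ) G.E) (hU : G.IsGr U)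
    (V : Submodule (AA k D σ) (G.E ⧸ U)) (hV : (G.quot U hU).IsGr V)
    (hW : G.IsGr (V.comap U.mkQ)) :
    ((G.quot U hU).quot V hV).h = (G.quot (V.comap U.mkQ) hW).h := by
  funext χ
  refine (gm2_quot (G.quot U hU) V hV χ).trans (Eq.trans ?_ (gm2_quot G _ hW χ).symm)
  have h1 := gm2_key (LinearMap.range (G.π χ)) ((V.comap U.mkQ).mkQ.restrictScalars k)
  have h2 := gm2_key (LinearMap.range (G.π χ))
    ((V.mkQ.restrictScalars k) ∘ₗ (U.mkQ.restrictScalars k))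
  have h3 : LinearMap.ker ((V.mkQ.restrictScalars k) ∘ₗ (U.mkQ.restrictScalars k)) =
      LinearMap.ker ((V.comap U.mkQ).mkQ.restrictScalars k) := by
    ext x; simp
  have h4 : LinearMap.range ((G.quot U hU).π χ) =
      (LinearMap.range (G.π χ)).map (U.mkQ.restrictScalars k) := by
    ext x
    constructor
    · rintro ⟨y, rfl⟩
      obtain ⟨e, rfl⟩ := U.mkQ_surjective y
      exact ⟨_, ⟨e, rfl⟩, rfl⟩
    · rintro ⟨_, ⟨e, rfl⟩, rfl⟩
      exact ⟨U.mkQ e, rfl⟩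
  rw [h3, Submodule.map_comp] at h2
  rw [h4]
  exact congrArg Nat.cast (Nat.add_left_cancel (h2.symm.trans h1))

theorem GMod.isGrMap_mkQ (G : GMod k D w) (U : Submodule (AA k D σ) G.E) (hU : G.IsGr U) :
    IsGrMap G (G.quot U hU) U.mkQ 0 := fun χ e => by
  rw [add_zero]; rfl

theorem GMod.h_pw (G : GMod k D w) {Γ : Type} [Fintype Γ] (ψ : Γ → ι → ℤ) (χ : ι → ℤ) :
    (G.pw ψ).h χ = ∑ g, G.h (χ - ψ g) := by
  let f : (∀ g, LinearMap.range (G.π (χ - ψ g))) →ₗ[k] (Γ → G.E) :=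
    LinearMap.pi fun g => (LinearMap.range (G.π (χ - ψ g))).subtype ∘ₗ LinearMap.proj g
  have hf : Function.Injective f := fun x y h => funext fun g => Subtype.ext (congrFun h g)
  have h : LinearMap.range ((G.pw ψ).π χ) = LinearMap.range f := by
    ext x
    constructor
    · rintro ⟨e, rfl⟩
      exact ⟨fun g => ⟨_, e g, rfl⟩, rfl⟩
    · rintro ⟨e, rfl⟩
      refine ⟨f e, funext fun g => ?_⟩
      obtain ⟨y, hy⟩ := (e g).2
      change G.π _ (e g).1 = (e g).1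
      rw [← hy, G.idem]
  simp only [GMod.h]
  rw [h, ← Nat.cast_sum]
  exact congrArg Nat.cast ((LinearMap.finrank_range_of_inj hf).trans (Module.finrank_pi_fintype k))

theorem GMod.h_dvd (G : GMod k D w) (χ : ι → ℤ) : (Module.finrank k D : ℤ) ∣ G.h χ := by
  let φ : D →+* AA k D σ := (Algebra.TensorProduct.includeRight : D →ₐ[k] AA k D σ).toRingHom
  let _ : Module D G.E := Module.compHom G.E φ
  have : IsScalarTower k D G.E := ⟨fun c d e => by
    change ((1 : MvPolynomial σ k) ⊗ₜ[k] (c • d) : AA k D σ) • e =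
      c • (((1 : MvPolynomial σ k) ⊗ₜ[k] d : AA k D σ) • e)
    rw [tmul_smul, smul_assoc]⟩
  let W : Submodule D G.E :=
    { carrier := LinearMap.range (G.π χ)
      zero_mem' := zero_mem _
      add_mem' := add_mem
      smul_mem' := by
        rintro d _ ⟨e, rfl⟩
        exact ⟨d • e, G.actD d χ e⟩ }
  have h : Module.finrank k D * Module.finrank D W = Module.finrank k W :=
    Module.finrank_mul_finrank k D W
  refine ⟨Module.finrank D W, ?_⟩
  rw [← Nat.cast_mul, h]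
  rfl

end Vale.Agent.P200E
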