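import Vale.Agent.P200E.GM1

namespace Vale.Agent.P200E

open MvPolynomial TensorProduct

universe u

variable {k D : Type u} [Field k] [DivisionRing D] [Algebra k D] {σ ι : Type} {w : σ → ι → ℤ}

theorem gm3a_C (G : GMod k D w) (c : k) (e : G.E) : (C c : MvPolynomial σ k) • e = c • e := by
  rw [← algebraMap_eq, algebraMap_smul]

theorem gm3a_tmul (G : GMod k D w) (r : MvPolynomial σ k) (d : D) (e : G.E) :
    (r ⊗ₜ[k] d : AA k D σ) • e = r • (((1 : MvPolynomial σ k) ⊗ₜ[k] d : AA k D σ) • e) := by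
  rw [← smul_assoc, smul_tmul', smul_eq_mul, mul_one]

theorem gm3a_mono (G : GMod k D w) (m : σ →₀ ℕ) (c : k) (χ : ι → ℤ) (e : G.E) :
    G.π (χ + Finsupp.weight w m) ((monomial m c : MvPolynomial σ k) • e) =
      (monomial m c : MvPolynomial σ k) • G.π χ e := by
  induction m using Finsupp.induction_linear generalizing c χ e with
  | zero =>
    rw [map_zero, add_zero, ← C_apply, gm3a_C, gm3a_C, map_smul]
  | add a b ha hb =>
    rw [← mul_one c, ← monomial_mul, mul_smul, mul_smul, map_add, add_comm (Finsupp.weight w a),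
      ← add_assoc, ha, hb]
  | single i n =>
    rw [← C_mul_X_pow_eq_monomial, mul_smul, mul_smul, gm3a_C, gm3a_C, map_smul]
    congr 1
    rw [Finsupp.weight_single]
    induction n with
    | zero => simp
    | succ n ih => rw [pow_succ', mul_smul, mul_smul, succ_nsmul, ← add_assoc, G.shiftX, ih]

theorem GMod.hom_smul (G : GMod k D w) {r : MvPolynomial σ k} {ψ : ι → ℤ}
    (hr : r.IsWeightedHomogeneous w ψ) (χ : ι → ℤ) (e : G.E) :
    G.π (χ + ψ) (r • e) = r • G.π χ e := by
  conv_lhs => rw [r.as_sum]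
  conv_rhs => rw [r.as_sum]
  rw [Finset.sum_smul, Finset.sum_smul, map_sum]
  refine Finset.sum_congr rfl fun m hm => ?_
  rw [← hr (mem_support_iff.1 hm), gm3a_mono]

theorem GMod.isGrMap_mul (G : GMod k D w) {r : MvPolynomial σ k} {ψ : ι → ℤ}
    (hr : r.IsWeightedHomogeneous w ψ) : IsGrMap G G (G.mul r) ψ :=
  fun χ e => G.hom_smul hr χ e

theorem gm3a_poly (G : GMod k D w) (r : MvPolynomial σ k) {e : G.E} {χ : ι → ℤ}
    (he : G.π χ e = e) (ψ : ι → ℤ) :
    G.π (ψ + χ) (r • e) = weightedHomogeneousComponent w ψ r • e := by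
  induction r using MvPolynomial.induction_on' with
  | monomial m c =>
    have h1 := gm3a_mono G m c χ e
    rw [he] at h1
    have h2 : (monomial m c : MvPolynomial σ k).IsWeightedHomogeneous w (Finsupp.weight w m) :=
      isWeightedHomogeneous_monomial w m c rfl
    by_cases h : ψ = Finsupp.weight w m
    · rw [h, h2.weightedHomogeneousComponent_same, add_comm, h1]
    · rw [h2.weightedHomogeneousComponent_ne ψ h, zero_smul, ← h1]
      refine G.orth _ _ _ fun h' => h ?_
      rw [add_comm χ] at h'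
      exact add_right_cancel h'
  | add p q hp hq => rw [add_smul, map_add, map_add, add_smul, hp, hq]

theorem GMod.π_smul (G : GMod k D w) (r : AA k D σ) {e : G.E} {χ : ι → ℤ} (he : G.π χ e = e)
    (ψ : ι → ℤ) : G.π (ψ + χ) (r • e) = (weightedHomogeneousComponent w ψ).rTensor D r • e := by
  induction r using TensorProduct.induction_on with
  | zero => rw [map_zero, zero_smul (AA k D σ) e, map_zero]
  | tmul p d =>
    rw [LinearMap.rTensor_tmul, gm3a_tmul, gm3a_tmul G (weightedHomogeneousComponent w ψ p)]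
    exact gm3a_poly G p (by rw [G.actD, he]) ψ
  | add a b ha hb => rw [add_smul, map_add, map_add, add_smul, ha, hb]

theorem gm3a_hom (G : GMod k D w) (r : AA k D σ) (ψ χ : ι → ℤ) (e : G.E) :
    G.π (χ + ψ) ((weightedHomogeneousComponent w ψ).rTensor D r • e) =
      (weightedHomogeneousComponent w ψ).rTensor D r • G.π χ e := by
  induction r using TensorProduct.induction_on with
  | zero => rw [map_zero, zero_smul (AA k D σ) e, zero_smul (AA k D σ) (G.π χ e), map_zero]
  | tmul p d =>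
    rw [LinearMap.rTensor_tmul, gm3a_tmul, gm3a_tmul G (weightedHomogeneousComponent w ψ p),
      G.hom_smul (weightedHomogeneousComponent_isWeightedHomogeneous ψ p), G.actD]
  | add a b ha hb => rw [map_add, add_smul, map_add, add_smul, ha, hb]

theorem GMod.π_smul_hom (G : GMod k D w) {r : AA k D σ} {ψ : ι → ℤ}
    (hr : (weightedHomogeneousComponent w ψ).rTensor D r = r) (χ : ι → ℤ) (e : G.E) :
    G.π (χ + ψ) (r • e) = r • G.π χ e := by
  rw [← hr]
  exact gm3a_hom G r ψ χ e

theorem GMod.π_smul_poly (G : GMod k D w) (r : MvPolynomial σ k) {e : G.E} {χ : ι → ℤ}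
    (he : G.π χ e = e) (ψ : ι → ℤ) :
    G.π (ψ + χ) (r • e) = weightedHomogeneousComponent w ψ r • e := gm3a_poly G r he ψ

theorem GMod.isGr_span (G : GMod k D w) {s : Set G.E} (hs : ∀ e ∈ s, ∃ χ, G.π χ e = e) :
    G.IsGr (Submodule.span (AA k D σ) s) := by
  have key : ∀ e ∈ Submodule.span (AA k D σ) s, ∀ (r : AA k D σ) χ,
      G.π χ (r • e) ∈ Submodule.span (AA k D σ) s := by
    intro e he
    induction he using Submodule.span_induction with
    | mem x hx =>
      intro r χ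
      obtain ⟨ψ, hψ⟩ := hs x hx
      rw [← sub_add_cancel χ ψ, G.π_smul r hψ]
      exact Submodule.smul_mem _ _ (Submodule.subset_span hx)
    | zero => intro r χ; simp
    | add x y _ _ hx hy =>
      intro r χ
      rw [smul_add, map_add]
      exact add_mem (hx r χ) (hy r χ)
    | smul a x _ hx =>
      intro r χ
      rw [← mul_smul]
      exact hx _ χ
  intro χ e he
  have := key e he 1 χ
  rwa [one_smul] at this

theorem GMod.mem_of_π (G : GMod k D w) {U : AddSubmonoid G.E} {e : G.E}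
    (h : ∀ χ, G.π χ e ∈ U) : e ∈ U := by
  rw [← G.sum e, finsum_eq_sum _ (G.fin e)]
  exact sum_mem fun χ _ => h χ

theorem GMod.exists_hom_ne (G : GMod k D w) {U : Submodule (AA k D σ) G.E} (hU : G.IsGr U)
    (h : U ≠ ⊥) : ∃ e ∈ U, e ≠ 0 ∧ ∃ χ, G.π χ e = e := by
  obtain ⟨e, he, h0⟩ := (Submodule.ne_bot_iff U).1 h
  by_contra hc
  apply h0
  have : e ∈ (⊥ : AddSubmonoid G.E) := G.mem_of_π fun χ => by
    rw [AddSubmonoid.mem_bot]
    by_contra h1
    exact hc ⟨_, hU χ e he, h1, χ, G.idem χ e⟩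
  exact AddSubmonoid.mem_bot.1 this

theorem GMod.gens (G : GMod k D w) : ∃ (m : ℕ) (e : Fin m → G.E) (ψ : Fin m → ι → ℤ),
    (∀ i, G.π (ψ i) (e i) = e i) ∧ Submodule.span (MvPolynomial σ k) (Set.range e) = ⊤ := by
  classical
  obtain ⟨S, hS⟩ := Module.Finite.fg_top (R := MvPolynomial σ k) (M := G.E)
  let T : Finset (G.E × (ι → ℤ)) := S.biUnion fun x => (G.fin x).toFinset.image fun χ => (x, χ)
  let f := T.equivFin.symm
  refine ⟨T.card, fun i => G.π (f i).1.2 (f i).1.1, fun i => (f i).1.2, fun i => G.idem _ _, ?_⟩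
  rw [eq_top_iff, ← hS, Submodule.span_le]
  intro x hx
  refine G.mem_of_π (U := (Submodule.span (MvPolynomial σ k) _).toAddSubmonoid) fun χ => ?_
  by_cases h0 : G.π χ x = 0
  · rw [h0]
    exact zero_mem _
  · have hm : (x, χ) ∈ T := Finset.mem_biUnion.2 ⟨x, hx, Finset.mem_image.2
      ⟨χ, (Set.Finite.mem_toFinset _).2 h0, rfl⟩⟩
    refine Submodule.subset_span ⟨T.equivFin ⟨_, hm⟩, ?_⟩
    simp [f]

theorem gm3a_phi (φ : (ι → ℤ) →+ ℤ) (hφ : ∀ i, 0 ≤ φ (w i)) (m : σ →₀ ℕ) :
    0 ≤ φ (Finsupp.weight w m) := by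
  induction m using Finsupp.induction_linear with
  | zero => simp
  | add a b ha hb => rw [map_add, map_add]; exact add_nonneg ha hb
  | single i n => rw [Finsupp.weight_single, map_nsmul]; exact nsmul_nonneg (hφ i) n

theorem GMod.bdd (G : GMod k D w) (φ : (ι → ℤ) →+ ℤ) (hφ : ∀ i, 0 ≤ φ (w i)) :
    ∃ m : ℤ, ∀ χ, φ χ < m → ∀ e, G.π χ e = 0 := by
  classical
  obtain ⟨m, g, ψ, hg, hsp⟩ := G.gens
  obtain ⟨b, hb⟩ := (Set.finite_range fun i => φ (ψ i)).bddBelow
  refine ⟨b, fun χ hχ e => ?_⟩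
  have he : e ∈ Submodule.span (MvPolynomial σ k) (Set.range g) := hsp ▸ Submodule.mem_top
  obtain ⟨c, rfl⟩ := (Submodule.mem_span_range_iff_exists_fun _).1 he
  rw [map_sum]
  refine Finset.sum_eq_zero fun i _ => ?_
  rw [← sub_add_cancel χ (ψ i), G.π_smul_poly _ (hg i)]
  have : weightedHomogeneousComponent w (χ - ψ i) (c i) = 0 := by
    ext α
    rw [coeff_weightedHomogeneousComponent, if_neg, coeff_zero]
    intro h
    have h1 := gm3a_phi φ hφ α
    have h2 : b ≤ φ (ψ i) := hb ⟨i, rfl⟩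
    rw [h, map_sub] at h1
    omega
  rw [this, zero_smul]

theorem GMod.homI_ann (G : GMod k D w) : HomI w (Module.annihilator (MvPolynomial σ k) G.E) := by
  intro χ r hr
  rw [Module.mem_annihilator] at hr ⊢
  intro e
  rw [← G.sum e, finsum_eq_sum _ (G.fin e), Finset.smul_sum]
  refine Finset.sum_eq_zero fun ψ _ => ?_
  rw [← G.π_smul_poly r (G.idem ψ e), hr, map_zero]

theorem isGrMap_gen [FiniteDimensional k D] [Finite σ] (θ : (ι → ℤ) →+ ℤ) (hθ : ∀ i, θ (w i) = 1)
    (G : GMod k D w) {e : G.E} {χ : ι → ℤ} (he : G.π χ e = e) :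
    IsGrMap (cyc k D w θ hθ) G (LinearMap.toSpanSingleton (AA k D σ) G.E e) χ :=
  fun ψ r => G.π_smul r he ψ

end Vale.Agent.P200E
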