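import Vale.Agent.P200E.Loc0

namespace Vale.Agent.P200E

open MvPolynomial TensorProduct

universe u

variable {R : Type u} [CommRing R] (q : Ideal R) [q.IsPrime]
  {E F : Type u} [AddCommGroup E] [Module R E] [AddCommGroup F] [Module R F]

theorem Loc_nak0 {N : Type u} [AddCommGroup N] [Module R N] [Module.Finite R N] {I : Ideal R}
    (hI : I ≤ q) (h : ∀ n : N, ∃ t ∉ q, t • n ∈ I • (⊤ : Submodule R N)) :
    ∃ u ∉ q, ∀ n : N, u • n = 0 := by
  classical
  obtain ⟨s, hs⟩ := Module.Finite.fg_top (R := R) (M := N)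
  choose t ht h1 using h
  have hT : (∏ n ∈ s, t n) ∉ q := (Submonoid.prod_mem q.primeCompl fun n _ => ht n :)
  set T := ∏ n ∈ s, t n with hTd
  have h2 : LinearMap.range (algebraMap R (Module.End R N) T) ≤ I • (⊤ : Submodule R N) := by
    rw [LinearMap.range_eq_map, ← hs, Submodule.map_le_iff_le_comap, Submodule.span_le]
    intro n hn
    have h3 : T • n ∈ I • (⊤ : Submodule R N) := by
      rw [hTd, ← Finset.prod_erase_mul _ _ hn, mul_smul]
      exact Submodule.smul_mem _ _ (h1 n)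
    rw [← hs] at h3
    exact h3
  obtain ⟨p, hp, -, hc, h0⟩ :=
    LinearMap.exists_monic_and_natDegree_eq_and_coeff_mem_pow_and_aeval_eq_zero R _ I h2
  rw [Polynomial.aeval_algebraMap_apply_eq_algebraMap_eval] at h0
  refine ⟨p.eval T, fun hq => ?_, fun n => ?_⟩
  · rw [Polynomial.eval_eq_sum_range, Finset.sum_range_succ, hp.coeff_natDegree, one_mul] at hq
    have h3 : ∑ i ∈ Finset.range p.natDegree, p.coeff i * T ^ i ∈ q :=
      Submodule.sum_mem _ fun i hi => Ideal.mul_mem_right _ _ (hI (Ideal.pow_le_self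
        (by have := Finset.mem_range.1 hi; omega) (hc i)))
    exact hT (‹q.IsPrime›.mem_of_pow_mem _ ((Submodule.add_mem_iff_right _ h3).1 hq))
  · exact LinearMap.congr_fun h0 n

theorem Loc_nak [IsNoetherianRing R] [Module.Finite R F] (K U : Submodule R F) {z : R}
    (hz : z ∈ q) (h : ∀ x ∈ K, ∃ t ∉ q, ∃ a ∈ U, ∃ y ∈ K, t • x = a + z • y) :
    ∀ x ∈ K, ∃ t ∉ q, t • x ∈ U := by
  obtain ⟨u, hu, h1⟩ := Loc_nak0 q (N := K.map U.mkQ) (I := Ideal.span {z})
    ((Ideal.span_singleton_le_iff_mem _).2 hz) (by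
      rintro ⟨_, x, hx, rfl⟩
      obtain ⟨t, ht, a, ha, y, hy, h2⟩ := h x hx
      refine ⟨t, ht, ?_⟩
      rw [Submodule.mem_smul_top_iff]
      have h3 : t • U.mkQ x = z • U.mkQ y := by
        rw [← map_smul, h2, map_add, map_smul, Submodule.mkQ_apply,
          (Submodule.Quotient.mk_eq_zero U).2 ha, zero_add]
      change t • U.mkQ x ∈ _
      rw [h3]
      exact Submodule.smul_mem_smul (Ideal.mem_span_singleton_self z)
        (Submodule.mem_map_of_mem hy))
  intro x hx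
  refine ⟨u, hu, ?_⟩
  have h2 : u • U.mkQ x = 0 := congrArg Subtype.val (h1 ⟨_, Submodule.mem_map_of_mem hx⟩)
  rwa [← map_smul, Submodule.mkQ_apply, Submodule.Quotient.mk_eq_zero] at h2

theorem Loc_down [IsNoetherianRing R] [Module.Finite R F] (f : F →ₗ[R] E)
    {zs : List R} (hz : ∀ z ∈ zs, z ∈ q) (hE : GReg q E zs)
    (h : ∀ x, f x ∈ Ideal.ofList zs • (⊤ : Submodule R E) →
      ∃ t ∉ q, t • x ∈ Ideal.ofList zs • (⊤ : Submodule R F)) (i : ℕ) (hi : i ≤ zs.length) :
    ∀ x, f x ∈ Ideal.ofList (zs.take i) • (⊤ : Submodule R E) →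
      ∃ t ∉ q, t • x ∈ Ideal.ofList (zs.take i) • (⊤ : Submodule R F) := by
  rw [greg_iff] at hE
  induction hi using Nat.decreasingInduction with
  | self => rwa [List.take_length]
  | of_succ i hi ih =>
    intro x hx
    refine Loc_nak q ((Ideal.ofList (zs.take i) • (⊤ : Submodule R E)).comap f) _
      (hz _ (List.getElem_mem hi)) (fun x hx => ?_) x hx
    have hx' : f x ∈ Ideal.ofList (zs.take i) • (⊤ : Submodule R E) := hx
    obtain ⟨t, ht, h1⟩ := ih x ((Loc0_succ hi _).2 ⟨_, hx', 0, Submodule.mem_top, by simp⟩)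
    obtain ⟨a, ha, y, -, h2⟩ := (Loc0_succ hi _).1 h1
    have h3 : zs[i] • f y = t • f x - f a := by
      rw [← map_smul f t, h2, map_add, map_smul]; abel
    obtain ⟨s, hs, h4⟩ := hE i hi (f y) (by
      rw [h3]; exact sub_mem (Submodule.smul_mem _ _ hx') (Loc0_map_mem f ha))
    refine ⟨s * t, Loc0_mul q hs ht, s • a, Submodule.smul_mem _ _ ha, s • y, ?_, ?_⟩
    · rw [Submodule.mem_comap, map_smul]; exact h4
    · rw [mul_smul, h2, smul_add, smul_comm s zs[i] y]

theorem greg_inj [IsNoetherianRing R] [Module.Finite R F] [Module.Finite R E] (f : F →ₗ[R] E)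
    {zs : List R} (hz : ∀ z ∈ zs, z ∈ q) (hE : GReg q E zs)
    (h : ∀ x, f x ∈ Ideal.ofList zs • (⊤ : Submodule R E) →
      ∃ t ∉ q, t • x ∈ Ideal.ofList zs • (⊤ : Submodule R F)) :
    (∀ x, f x = 0 → ∃ t ∉ q, t • x = 0) ∧ GReg q (E ⧸ LinearMap.range f) zs := by
  have key := Loc_down q f hz hE h
  constructor
  · intro x hx
    obtain ⟨t, ht, h1⟩ := key 0 (Nat.zero_le _) x (by rw [hx]; exact zero_mem _)
    exact ⟨t, ht, by simpa using h1⟩
  · rw [greg_iff] at hE ⊢
    intro i hi x hx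
    obtain ⟨e, rfl⟩ := (LinearMap.range f).mkQ_surjective x
    have h3 : Ideal.ofList (zs.take i) • (⊤ : Submodule R (E ⧸ LinearMap.range f)) =
        (Ideal.ofList (zs.take i) • (⊤ : Submodule R E)).map (LinearMap.range f).mkQ := by
      rw [Submodule.map_smul'', Submodule.map_top, Submodule.range_mkQ]
    rw [h3] at hx ⊢
    obtain ⟨b, hb, h4⟩ := hx
    rw [← map_smul, Submodule.mkQ_apply, Submodule.mkQ_apply, eq_comm,
      Submodule.Quotient.eq] at h4
    obtain ⟨x, hx⟩ := h4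
    obtain ⟨t, ht, h1⟩ := key (i + 1) hi x ((Loc0_succ hi _).2 ⟨-b, neg_mem hb, e,
      Submodule.mem_top, by rw [hx]; abel⟩)
    obtain ⟨a, ha, y, -, h2⟩ := (Loc0_succ hi _).1 h1
    have h5 : zs[i] • (t • e - f y) = f a + t • b := by
      have h6 : t • f x = f a + zs[i] • f y := by rw [← map_smul, h2, map_add, map_smul]
      rw [hx, smul_sub] at h6
      rw [smul_sub, smul_comm zs[i] t e, sub_eq_iff_eq_add.1 h6]
      abel
    obtain ⟨s, hs, h7⟩ := hE i hi _ (by
      rw [h5]; exact add_mem (Loc0_map_mem f ha) (Submodule.smul_mem _ _ hb))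
    refine ⟨s * t, Loc0_mul q hs ht, _, h7, ?_⟩
    have h8 : (LinearMap.range f).mkQ (f y) = 0 :=
      (Submodule.Quotient.mk_eq_zero _).2 (LinearMap.mem_range_self f y)
    rw [map_smul, map_sub, h8, sub_zero, map_smul, mul_smul]

end Vale.Agent.P200E
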