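import Vale.Agent.P200E.Ind2
import Vale.Agent.P200E.Loc

namespace Vale.Agent.P200E

open MvPolynomial TensorProduct

universe u

variable {k D : Type u} [Field k] [DivisionRing D] [Algebra k D] [FiniteDimensional k D]
  {σ ι : Type} [Fintype σ] [DecidableEq σ] {d : ℕ} {Y : Sys k σ ι d}

/-- torsion elements at a prime -/
def gen1Tor {R : Type u} [CommRing R] (q : Ideal R) [hq : q.IsPrime] (E : Type u) [AddCommGroup E]
    [Module R E] : Submodule R E where
  carrier := {e | ∃ t ∉ q, t • e = 0}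
  zero_mem' := ⟨1, (Ideal.ne_top_iff_one q).1 hq.ne_top, smul_zero _⟩
  add_mem' := by
    rintro a b ⟨t, ht, ha⟩ ⟨s, hs, hb⟩
    refine ⟨t * s, fun h => (hq.mem_or_mem h).elim ht hs, ?_⟩
    rw [smul_add, mul_smul, mul_smul, hb, smul_comm, ha, smul_zero, smul_zero, add_zero]
  smul_mem' := by
    rintro c a ⟨t, ht, ha⟩
    exact ⟨t, ht, by rw [smul_comm, ha, smul_zero]⟩

omit [FiniteDimensional k D] [Fintype σ] in
theorem gen1_cA_smul (Z : Finset σ) (s : MvPolynomial σ k) (r : AA k D σ) :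
    cA (k := k) D Z (s • r) = cz k Z s • cA (k := k) D Z r := by
  induction r using TensorProduct.induction_on with
  | zero => simp
  | tmul a b => simp [cA, smul_tmul']
  | add a b ha hb => simp only [smul_add, map_add, ha, hb]

omit [FiniteDimensional k D] [Fintype σ] [DecidableEq σ] in
theorem gen1_kill {w : σ → ι → ℤ} (G : GMod k D w) {J I : Ideal (MvPolynomial σ k)}
    (h : G.Kill J) {r : AA k D σ} (hr : r ∈ iA D (J ⊔ I)) (e : G.E) :
    r • e ∈ I • (⊤ : Submodule (MvPolynomial σ k) G.E) := by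
  have h1 := G.iA_smul hr e
  rw [Submodule.sup_smul] at h1
  have h2 : J • (⊤ : Submodule (MvPolynomial σ k) G.E) ≤ I • ⊤ :=
    Submodule.smul_le.2 fun s hs a _ => by rw [h s hs]; exact zero_mem _
  rwa [sup_eq_right.2 h2] at h1

theorem Sys.gen_step {c : ℕ} (hc : Y.Cod c) (q : Ideal (MvPolynomial σ k)) [q.IsPrime]
    (hq : HomI Y.w q) (hZ : ∀ j ∈ Y.Z, (X j : MvPolynomial σ k) ∈ q) (C : Fin d → σ)
    (hC : ∀ i, C i ∈ Y.Z) (hμ : Y.minor C ∉ q)
    (htors : ∀ G : GMod k D Y.w, G.Kill Y.J → G.KillC Y.Z q → (∀ e : G.E, ∃ t ∉ q, t • e = 0) →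
      Good Y.w (Module.finrank k D) Y.S d c G.h)
    (zs : List σ) (hzs : ∀ j, j ∈ zs ↔ j ∈ Y.Z ∧ j ∉ Set.range C)
    (G : GMod k D Y.w) (h1 : G.Kill Y.J) (h2 : G.KillC Y.Z q)
    (h3 : GReg q G.E (zs.map X)) (h4 : ¬ ∀ e : G.E, ∃ t ∉ q, t • e = 0) :
    ∃ (V : Submodule (AA k D σ) G.E) (hV : G.IsGr V), V ≠ ⊥ ∧
      Good Y.w (Module.finrank k D) Y.S d c (G.sub V hV).h ∧ GReg q (G.E ⧸ V) (zs.map X) := by
  classical
  have hpr : q.IsPrime := inferInstance
  obtain ⟨m, hm⟩ := G.bdd Y.φ fun i => by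
    by_cases hi : i ∈ Y.Z
    · exact (Y.φz i hi).le
    · exact (Y.φb i hi).ge
  obtain ⟨n, ⟨χ0, hn, e0, he0⟩, hmin⟩ := Int.exists_least_of_bdd
    (P := fun n => ∃ χ, Y.φ χ = n ∧ ∃ v, G.π χ v ∉ gen1Tor q G.E)
    ⟨m, fun z ⟨χ, hz, v, hv⟩ => not_lt.1 fun h => hv (by
      rw [hm χ (hz ▸ h) v]; exact zero_mem _)⟩ (by
      by_contra hne
      refine h4 fun e => G.mem_of_π (U := (gen1Tor q G.E).toAddSubmonoid) fun χ => ?_
      by_contra h
      exact hne ⟨_, χ, rfl, e, h⟩)
  set e := G.π χ0 e0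
  have he : G.π χ0 e = e := G.idem _ _
  have low : ∀ χ, Y.φ χ < n → ∀ v, G.π χ v ∈ gen1Tor q G.E := fun χ h v => by
    by_contra h'
    exact absurd (hmin _ ⟨χ, rfl, v, h'⟩) (not_le.2 h)
  let L : Submodule (AA k D σ) (AA k D σ) :=
    { carrier := {r | cA (k := k) D Y.Z r • e = 0}
      zero_mem' := by
        simp only [Set.mem_ofPred_eq, map_zero]
        exact zero_smul (AA k D σ) e
      add_mem' := fun {a b} ha hb => by
        simp only [Set.mem_ofPred_eq] at ha hb ⊢
        rw [map_add, add_smul, ha, hb, add_zero]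
      smul_mem' := fun a b hb => by
        simp only [Set.mem_ofPred_eq] at hb ⊢
        rw [smul_eq_mul, map_mul, mul_smul, hb, smul_zero] }
  have hL : (Y.cy D).IsGr L := fun χ (r : AA k D σ) hr => by
    show cA (k := k) D Y.Z ((weightedHomogeneousComponent Y.w χ).rTensor D r) • e = 0
    rw [cA_whc, ← G.π_smul _ he, show cA (k := k) D Y.Z r • e = 0 from hr, map_zero]
  have g1 : (Y.cy D).IsGr (extL Y.Z L) := isGr_extL _ _ _ hL
  have g2 : (Y.cy D).IsGr (extL Y.Z L ⊔ iA D Y.J) := g1.sup (isGr_iA _ _ Y.homI_J)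
  set W := extL Y.Z L ⊔ iA D Y.J with hW
  have hWL : ∀ r ∈ L, cA (k := k) D Y.Z r ∈ W := fun r hr =>
    Submodule.mem_sup_left (Submodule.subset_span ⟨r, hr, rfl⟩)
  have hker : W ≤ LinearMap.ker (LinearMap.toSpanSingleton (AA k D σ) G.E e) := by
    refine sup_le (Submodule.span_le.2 ?_) fun r hr => ?_
    · rintro _ ⟨r, hr, rfl⟩
      exact hr
    · have := gen1_kill G (I := ⊥) h1 (r := r) (by rwa [sup_bot_eq]) e
      rwa [Submodule.bot_smul] at this
  let F := (Y.cy D).quot W g2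
  let f : F.E →ₗ[AA k D σ] G.E := W.liftQ _ hker
  obtain ⟨mk, mk1, mk2, hf0⟩ : ∃ mk : AA k D σ →ₗ[AA k D σ] F.E, Function.Surjective mk ∧
      (∀ r ∈ W, mk r = 0) ∧ ∀ r, f (mk r) = r • e :=
    ⟨W.mkQ, W.mkQ_surjective, fun r => (Submodule.Quotient.mk_eq_zero W).2, fun r => rfl⟩
  have hf : IsGrMap F G f χ0 := fun χ x => by
    obtain ⟨r, rfl⟩ := W.mkQ_surjective x
    exact isGrMap_gen Y.θ Y.θw G he χ r
  have sF : ∀ (s : MvPolynomial σ k) (r : AA k D σ), s • mk r = mk (s • r) :=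
    fun s r => (mk.map_smul_of_tower s r).symm
  have kJ : F.Kill Y.J := fun s hs x => by
    obtain ⟨r, rfl⟩ := mk1 x
    rw [sF]
    exact mk2 _ (Submodule.mem_sup_right (smul_mem_iA hs r))
  have kC : F.KillC Y.Z q := fun s hs x => by
    obtain ⟨r, rfl⟩ := mk1 x
    rw [sF]
    refine mk2 _ ?_
    have a1 : s • (1 : AA k D σ) ∈ L := by
      show cA (k := k) D Y.Z (s • 1) • e = 0
      rw [gen1_cA_smul, map_one, smul_assoc, one_smul, h2 s hs]
    have a2 := W.smul_mem r (hWL _ a1)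
    rwa [gen1_cA_smul, map_one, smul_eq_mul, mul_smul_comm, mul_one] at a2
  have hI : Ideal.ofList (zs.map (X : σ → MvPolynomial σ k)) =
      Ideal.span ((fun i => (X i : MvPolynomial σ k)) '' {i | i ∈ Y.Z ∧ i ∉ Set.range C}) := by
    rw [Ideal.ofList]
    congr 1
    ext z
    simp only [Set.mem_ofPred_eq, List.mem_map, Set.mem_image, hzs]
  have hZq : Ideal.span ((fun j => (X j : MvPolynomial σ k)) '' (Y.Z : Set σ)) ≤ q :=
    Ideal.span_le.2 (by rintro _ ⟨j, hj, rfl⟩; exact hZ j hj)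
  obtain ⟨k1, k2⟩ := greg_inj q (f.restrictScalars (MvPolynomial σ k)) (zs := zs.map X)
    (fun z hz => by
      obtain ⟨j, hj, rfl⟩ := List.mem_map.1 hz
      exact hZ j ((hzs j).1 hj).1) h3 (by
      intro x hx
      obtain ⟨r, rfl⟩ := mk1 x
      rw [hI] at hx ⊢
      set I := Ideal.span ((fun i => (X i : MvPolynomial σ k)) '' {i | i ∈ Y.Z ∧ i ∉ Set.range C})
        with hId
      have a1 : Y.minor C • (r - cA (k := k) D Y.Z r) ∈ iA D (Y.J ⊔ I) := by
        have b1 : r - cA (k := k) D Y.Z r ∈ (iA D (Ideal.span ((fun j => (X j : MvPolynomial σ k))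
          '' (Y.Z : Set σ)))).restrictScalars (MvPolynomial σ k) := sub_cA_mem Y.Z r
        rw [iA_restrict] at b1
        refine Submodule.smul_induction_on b1 (fun s hs a _ => ?_) fun a b ha hb => ?_
        · rw [← mul_smul]
          refine smul_mem_iA ?_ a
          refine (Submodule.span_le (p := Submodule.comap
            (LinearMap.mulLeft (MvPolynomial σ k) (Y.minor C)) (Y.J ⊔ I))).2 ?_ hs
          rintro _ ⟨j, hj, rfl⟩
          exact Y.minor_X C hC j hj
        · rw [smul_add]; exact add_mem ha hb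
      have a2 : cA (k := k) D Y.Z (Y.minor C • r) • e ∈
          I • (⊤ : Submodule (MvPolynomial σ k) G.E) := by
        have b1 := sub_mem (Submodule.smul_mem _ (Y.minor C) hx) (gen1_kill G h1 a1 e)
        rw [gen1_cA_smul, Y.cz_minor]
        have b2 : Y.minor C • (f.restrictScalars (MvPolynomial σ k)) (mk r) -
            (Y.minor C • (r - cA (k := k) D Y.Z r)) • e = (Y.minor C • cA (k := k) D Y.Z r) • e := by
          rw [LinearMap.restrictScalars_apply, hf0, smul_sub, sub_smul, smul_assoc, sub_sub_cancel]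
        rwa [b2] at b1
      set v := cA (k := k) D Y.Z (Y.minor C • r) • e with hv
      have a3 : ∀ χ, Y.φ χ ≠ n → G.π χ v = 0 := fun χ hχ => by
        rw [← sub_add_cancel χ χ0, hv, G.π_smul _ he, Y.cz_phi (by rw [map_sub]; omega)]
        exact zero_smul (AA k D σ) e
      have a4 : ∀ χ, Y.φ χ = n → ∀ s ∈ I, ∀ a : G.E, G.π χ (s • a) ∈ gen1Tor q G.E := by
        intro χ hχ s hs
        induction hs using Submodule.span_induction with
        | mem s hs =>
          obtain ⟨j, hj, rfl⟩ := hs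
          intro a
          rw [← sub_add_cancel χ (Y.w j), G.shiftX]
          refine Submodule.smul_mem _ _ (low _ ?_ a)
          have := Y.φz j hj.1
          rw [map_sub]; omega
        | zero => intro a; rw [zero_smul, map_zero]; exact zero_mem _
        | add s s' _ _ hs hs' => intro a; rw [add_smul, map_add]; exact add_mem (hs a) (hs' a)
        | smul b s _ hs => intro a; rw [smul_eq_mul, mul_comm, mul_smul]; exact hs _
      obtain ⟨t, ht, htv⟩ : v ∈ gen1Tor q G.E :=
        G.mem_of_π (U := (gen1Tor q G.E).toAddSubmonoid) fun χ => by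
          by_cases hχ : Y.φ χ = n
          · refine Submodule.smul_induction_on (p := fun v => G.π χ v ∈ gen1Tor q G.E) a2
              (fun s hs a _ => a4 χ hχ s hs a) fun a b ha hb => ?_
            rw [map_add]; exact add_mem ha hb
          · rw [a3 χ hχ]; exact zero_mem _
      have a5 := Y.cz_kill G a3 htv
      have a6 : cz k Y.Z t ∉ q := fun h => ht (by
        simpa using q.add_mem (hZq (sub_cz_mem Y.Z t)) h)
      have a7 : (cz k Y.Z t • Y.minor C • r) ∈ L := by
        show cA (k := k) D Y.Z _ • e = 0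
        rw [gen1_cA_smul, cz_cz, smul_assoc, a5]
      have a8 := hWL _ a7
      rw [gen1_cA_smul, gen1_cA_smul, cz_cz, Y.cz_minor] at a8
      refine ⟨cz k Y.Z t * Y.minor C, fun h => (hpr.mem_or_mem h).elim a6 hμ, ?_⟩
      have a9 : (cz k Y.Z t * Y.minor C) • mk r = cz k Y.Z t •
          ((Y.minor C • (r - cA (k := k) D Y.Z r)) • mk 1) := by
        rw [← mk.map_smul, sF, sF, smul_eq_mul, mul_one, smul_sub, smul_sub, map_sub, mul_smul,
          mk2 _ a8, sub_zero]
      rw [a9]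
      exact Submodule.smul_mem _ _ (gen1_kill F kJ a1 _))
  refine ⟨LinearMap.range f, hf.range, fun h => he0 ?_, ?_, ?_⟩
  · have : e ∈ LinearMap.range f := ⟨mk 1, by rw [hf0, one_smul]⟩
    rw [h, Submodule.mem_bot] at this
    rw [this]; exact zero_mem _
  · have a1 := ((Sys.good_ind hc L g1 g2).sub (htors (F.sub _ hf.ker)
      (fun s hs x => Subtype.ext (kJ s hs x.1)) (fun s hs x => Subtype.ext (kC s hs x.1))
      fun x => (k1 x.1 x.2).imp fun t ht => ⟨ht.1, Subtype.ext ht.2⟩)).shift χ0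
    convert a1 using 1
    funext χ
    have a2 := hf.h_eq (χ - χ0)
    rw [sub_add_cancel] at a2
    show _ = F.h (χ - χ0) - _
    omega
  · exact greg_equiv q ((Submodule.quotEquivOfEq _ _ (by ext; rfl)).trans
      (Submodule.Quotient.restrictScalarsEquiv (MvPolynomial σ k) (LinearMap.range f))) k2

end Vale.Agent.P200E
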