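import Vale.Agent.P200E.Gen1

namespace Vale.Agent.P200E

open MvPolynomial TensorProduct

universe u

variable {k D : Type u} [Field k] [DivisionRing D] [Algebra k D] [FiniteDimensional k D]
  {σ ι : Type} [Fintype σ] [DecidableEq σ] {d : ℕ} {Y : Sys k σ ι d}

theorem Sys.gen_reg {c : ℕ} (hc : Y.Cod c) (q : Ideal (MvPolynomial σ k)) [q.IsPrime]
    (hq : HomI Y.w q) (hZ : ∀ j ∈ Y.Z, (X j : MvPolynomial σ k) ∈ q) (C : Fin d → σ)
    (hC : ∀ i, C i ∈ Y.Z) (hμ : Y.minor C ∉ q)
    (htors : ∀ G : GMod k D Y.w, G.Kill Y.J → G.KillC Y.Z q → (∀ e : G.E, ∃ t ∉ q, t • e = 0) →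
      Good Y.w (Module.finrank k D) Y.S d c G.h)
    (zs : List σ) (hzs : ∀ j, j ∈ zs ↔ j ∈ Y.Z ∧ j ∉ Set.range C)
    (G : GMod k D Y.w) (h1 : G.Kill Y.J) (h2 : G.KillC Y.Z q) (h3 : GReg q G.E (zs.map X)) :
    Good Y.w (Module.finrank k D) Y.S d c G.h := by
  haveI : IsNoetherian (MvPolynomial σ k) G.E := inferInstance
  haveI : IsNoetherian (AA k D σ) G.E := isNoetherian_of_tower (MvPolynomial σ k) inferInstance
  have key : ∀ (U : Submodule (AA k D σ) G.E) (hU : G.IsGr U), GReg q (G.E ⧸ U) (zs.map X) →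
      Good Y.w (Module.finrank k D) Y.S d c (G.quot U hU).h := by
    intro U
    induction U using (wellFounded_gt (α := Submodule (AA k D σ) G.E)).induction with
    | _ U ih =>
      intro hU hreg
      have k1 : (G.quot U hU).Kill Y.J := by
        intro r hr e
        obtain ⟨e, rfl⟩ := U.mkQ_surjective e
        have : r • U.mkQ e = 0 := by
          rw [← LinearMap.map_smul_of_tower, h1 r hr, map_zero]
        exact this
      have k2 : (G.quot U hU).KillC Y.Z q := by
        intro r hr e
        obtain ⟨e, rfl⟩ := U.mkQ_surjective e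
        have : cz k Y.Z r • U.mkQ e = 0 := by
          rw [← LinearMap.map_smul_of_tower, h2 r hr, map_zero]
        exact this
      by_cases h4 : ∀ e : (G.quot U hU).E, ∃ t ∉ q, t • e = 0
      · exact htors _ k1 k2 h4
      · obtain ⟨V, hV, hne, hg, hr⟩ := Sys.gen_step hc q hq hZ C hC hμ htors zs hzs
          (G.quot U hU) k1 k2 hreg h4
        let V' : Submodule (AA k D σ) (G.E ⧸ U) := V
        have hW : G.IsGr (V'.comap U.mkQ) := (G.isGrMap_mkQ U hU).comap hV
        have hle : U ≤ V'.comap U.mkQ := by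
          intro x hx
          rw [Submodule.mem_comap, Submodule.mkQ_apply, (Submodule.Quotient.mk_eq_zero U).2 hx]
          exact V'.zero_mem
        have hmap : (V'.comap U.mkQ).map U.mkQ = V' :=
          Submodule.map_comap_eq_of_surjective U.mkQ_surjective _
        have hlt : U < V'.comap U.mkQ := by
          refine lt_of_le_of_ne hle fun he => hne ?_
          have : V' = ⊥ := by
            rw [← hmap, ← he]
            exact Submodule.mkQ_map_self U
          exact this
        have e1 : ((G.E ⧸ U) ⧸ V') ≃ₗ[AA k D σ] G.E ⧸ V'.comap U.mkQ :=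
          (Submodule.quotEquivOfEq _ _ hmap.symm).trans
            (Submodule.quotientQuotientEquivQuotient U _ hle)
        have hr' : GReg q ((G.E ⧸ U) ⧸ V') (zs.map X) := hr
        have h5 := ih _ hlt hW (greg_equiv q (e1.restrictScalars (MvPolynomial σ k)) hr')
        rw [(G.quot U hU).h_add V hV, G.h_quot_quot U hU V' hV hW]
        exact hg.add h5
  have h6 := key ⊥ G.isGr_bot (greg_equiv q
    ((Submodule.quotEquivOfEqBot (⊥ : Submodule (AA k D σ) G.E) rfl).symm.restrictScalars
      (MvPolynomial σ k)) h3)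
  rwa [G.h_quot_bot] at h6

end Vale.Agent.P200E
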