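import Vale.Agent.P200E.IndP

namespace Vale.Agent.P200E

open MvPolynomial TensorProduct

universe u

variable {k D : Type u} [Field k] [DivisionRing D] [Algebra k D] [FiniteDimensional k D]
  {σ ι : Type} [Fintype σ] [DecidableEq σ] {d : ℕ} {Y : Sys k σ ι d}

omit [FiniteDimensional k D] [Fintype σ] [DecidableEq σ] in
theorem Ind2_congr {w : σ → ι → ℤ} (G : GMod k D w) {U U' : Submodule (AA k D σ) G.E}
    (e : U = U') (h : G.IsGr U) (h' : G.IsGr U') : (G.quot U h).h = (G.quot U' h').h := by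
  subst e
  rfl

/-- the intermediate submodules -/
noncomputable def Ind2_M (Y : Sys k σ ι d) (L : Submodule (AA k D σ) (AA k D σ)) (n : ℕ) :
    Submodule (AA k D σ) (AA k D σ) :=
  extL Y.Z L ⊔ iA D (Ideal.span (Y.ell '' {i' | i'.val < n}))

theorem Ind2_gr {L : Submodule (AA k D σ) (AA k D σ)} (h1 : (Y.cy D).IsGr (extL Y.Z L)) (n : ℕ) :
    (Y.cy D).IsGr (Ind2_M Y L n) :=
  h1.sup (isGr_iA Y.θ Y.θw (homI_span (by rintro _ ⟨i, _, rfl⟩; exact ⟨_, Y.ell_hom i⟩)))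

omit [FiniteDimensional k D] [Fintype σ] in
theorem Ind2_succ (L : Submodule (AA k D σ) (AA k D σ)) (i : Fin d) :
    Ind2_M Y L (i.val + 1) = Ind2_M Y L i.val ⊔ iA D (Ideal.span {Y.ell i}) := by
  have h : {i' : Fin d | i'.val < i.val + 1} = {i' : Fin d | i'.val < i.val} ∪ {i} := by
    ext j
    simp only [Set.mem_ofPred_eq, Set.mem_union, Set.mem_singleton_iff, Fin.ext_iff]
    omega
  rw [Ind2_M, Ind2_M, h, Set.image_union, Ideal.span_union, iA_sup, Set.image_singleton,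
    sup_assoc]

omit [FiniteDimensional k D] [Fintype σ] [DecidableEq σ] in
theorem Ind2_comap {w : σ → ι → ℤ} (G : GMod k D w) {U : Submodule (AA k D σ) G.E}
    (hU : G.IsGr U) (r : MvPolynomial σ k) :
    (LinearMap.range ((G.quot U hU).mul r)).comap U.mkQ = U ⊔ LinearMap.range (G.mul r) := by
  have hmk : ∀ x : G.E, U.mkQ (r • x) = (G.quot U hU).mul r (U.mkQ x) := fun x => rfl
  apply le_antisymm
  · rintro x ⟨y, hy⟩
    obtain ⟨z, rfl⟩ := U.mkQ_surjective y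
    have h2 : x - r • z ∈ U := (Submodule.Quotient.eq U).1 (hy.symm.trans (hmk z).symm)
    rw [← sub_add_cancel x (r • z)]
    exact add_mem (Submodule.mem_sup_left h2) (Submodule.mem_sup_right ⟨z, rfl⟩)
  · refine sup_le (fun x hx => ⟨0, ?_⟩) ?_
    · rw [map_zero]
      exact ((Submodule.Quotient.mk_eq_zero U).2 hx).symm
    · rintro _ ⟨z, rfl⟩
      exact ⟨U.mkQ z, (hmk z).symm⟩

omit [FiniteDimensional k D] [DecidableEq σ] in
theorem Ind2_h {w : σ → ι → ℤ} (G : GMod k D w) {U W : Submodule (AA k D σ) G.E}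
    (hU : G.IsGr U) (hW : G.IsGr W) {r : MvPolynomial σ k} {S : ι → ℤ}
    (hf : IsGrMap (G.quot U hU) (G.quot U hU) ((G.quot U hU).mul r) S)
    (e : U ⊔ LinearMap.range (G.mul r) = W) :
    (G.quot W hW).h = ((G.quot U hU).h - fun χ => (G.quot U hU).h (χ - S)) +
      fun χ => ((G.quot U hU).sub _ hf.ker).h (χ - S) := by
  have hcm := (Ind2_comap G hU r).trans e
  have hW' : G.IsGr ((LinearMap.range ((G.quot U hU).mul r)).comap U.mkQ) := by
    rw [hcm]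
    exact hW
  have e1 := G.h_quot_quot _ hU _ hf.range hW'
  have e2 := Ind2_congr G hcm hW' hW
  have e3 := (G.quot U hU).h_add _ hf.range
  rw [← e2, ← e1]
  funext χ
  have a1 := congrFun e3 χ
  have a2 := hf.h_eq (χ - S)
  rw [sub_add_cancel] at a2
  simp only [Pi.add_apply, Pi.sub_apply] at a1 ⊢
  linarith

omit [FiniteDimensional k D] [Fintype σ] [DecidableEq σ] in
theorem Ind2_mem (r : MvPolynomial σ k) (x : AA k D σ) :
    x ∈ iA D (Ideal.span {r}) ↔ ∃ y : AA k D σ, r • y = x := by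
  constructor
  · intro hx
    rw [iA_span, Set.image_singleton, Submodule.mem_span_singleton] at hx
    obtain ⟨y, rfl⟩ := hx
    refine ⟨y, ?_⟩
    rw [← algebraMap_smul (AA k D σ) r y, smul_eq_mul, Algebra.commutes]
    rfl
  · rintro ⟨y, rfl⟩
    exact smul_mem_iA (Ideal.mem_span_singleton_self r) y

theorem Ind2_step {c : ℕ} (hc : Y.Cod c) {L : Submodule (AA k D σ) (AA k D σ)}
    (h1 : (Y.cy D).IsGr (extL Y.Z L)) (i : Fin d) {K : ZL ι}
    (hK : HasK Y.w ((Y.cy D).quot _ (Ind2_gr h1 i.val)).h K) :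
    ∃ Q ∈ aug ι ^ c,
      HasK Y.w ((Y.cy D).quot _ (Ind2_gr h1 (i.val + 1))).h ((1 - ch Y.S) * K + Q) := by
  have hf := ((Y.cy D).quot _ (Ind2_gr h1 i.val)).isGrMap_mul (Y.ell_hom i)
  have hmk : ∀ (s : MvPolynomial σ k) (r : AA k D σ),
      (Ind2_M Y L i.val).mkQ (s • r) = s • (Ind2_M Y L i.val).mkQ r := fun s r =>
    LinearMap.map_smul_of_tower _ _ _
  obtain ⟨Q, hQ, hQK⟩ := Sys.hasK_bad hc (((Y.cy D).quot _ (Ind2_gr h1 i.val)).sub _ hf.ker) (by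
    intro C hC e
    obtain ⟨e, he⟩ := e
    obtain ⟨r, rfl⟩ := (Ind2_M Y L i.val).mkQ_surjective e
    have h2 : (Ind2_M Y L i.val).mkQ (Y.ell i • r) = 0 := by
      rw [hmk]
      exact he
    rw [Submodule.mkQ_apply, Submodule.Quotient.mk_eq_zero] at h2
    obtain ⟨m, hm⟩ := Y.reg_ell C hC L i r h2
    refine ⟨m, Subtype.ext ?_⟩
    have h3 : (Ind2_M Y L i.val).mkQ (Y.minor C ^ m • r) = 0 := by
      rw [Submodule.mkQ_apply, Submodule.Quotient.mk_eq_zero]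
      exact hm
    rw [hmk] at h3
    exact h3)
  have hr : LinearMap.range ((Y.cy D).mul (Y.ell i)) = iA D (Ideal.span {Y.ell i}) :=
    Submodule.ext fun x => (Ind2_mem (Y.ell i) x).symm
  have e4 := Ind2_h (Y.cy D) (Ind2_gr h1 i.val) (Ind2_gr h1 (i.val + 1)) hf
    ((congrArg (fun V => Ind2_M Y L i.val ⊔ V) hr).trans (Ind2_succ L i).symm)
  refine ⟨ch Y.S * Q, Ideal.mul_mem_left _ _ hQ, ?_⟩
  rw [e4, sub_mul, one_mul]
  exact (hK.sub (hK.shift _)).add (hQK.shift _)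

theorem Sys.hasK_ind {c : ℕ} (hc : Y.Cod c) (L : Submodule (AA k D σ) (AA k D σ))
    (h1 : (Y.cy D).IsGr (extL Y.Z L)) (h2 : (Y.cy D).IsGr (extL Y.Z L ⊔ iA D Y.J)) {K0 : ZL ι}
    (hK : HasK Y.w ((Y.cy D).quot _ h1).h K0) :
    ∃ Q ∈ aug ι ^ c, HasK Y.w ((Y.cy D).quot _ h2).h ((1 - ch Y.S) ^ d * K0 + Q) := by
  have key : ∀ n, n ≤ d → ∃ Q ∈ aug ι ^ c,
      HasK Y.w ((Y.cy D).quot _ (Ind2_gr h1 n)).h ((1 - ch Y.S) ^ n * K0 + Q) := by
    intro n
    induction n with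
    | zero =>
      intro _
      refine ⟨0, zero_mem _, ?_⟩
      have e : Ind2_M Y L 0 = extL Y.Z L := by
        rw [Ind2_M, iA_span]
        simp
      rw [pow_zero, one_mul, add_zero, Ind2_congr (Y.cy D) e _ h1]
      exact hK
    | succ n ih =>
      intro hn
      obtain ⟨Q, hQ, hQK⟩ := ih (by omega)
      obtain ⟨Q', hQ', hK'⟩ := Ind2_step hc h1 ⟨n, hn⟩ hQK
      refine ⟨(1 - ch Y.S) * Q + Q', add_mem (Ideal.mul_mem_left _ _ hQ) hQ', ?_⟩
      have e : (1 - ch Y.S) ^ (n + 1) * K0 + ((1 - ch Y.S) * Q + Q') =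
          (1 - ch Y.S) * ((1 - ch Y.S) ^ n * K0 + Q) + Q' := by ring
      rw [e]
      exact hK'
  obtain ⟨Q, hQ, hQK⟩ := key d le_rfl
  have e : Ind2_M Y L d = extL Y.Z L ⊔ iA D Y.J := by
    have h : {i' : Fin d | i'.val < d} = Set.univ := Set.eq_univ_of_forall fun i => i.2
    rw [Ind2_M, h, Set.image_univ, Sys.J]
  rw [Ind2_congr (Y.cy D) e _ h2] at hQK
  exact ⟨Q, hQ, hQK⟩

theorem Sys.good_ind {c : ℕ} (hc : Y.Cod c) (L : Submodule (AA k D σ) (AA k D σ))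
    (h1 : (Y.cy D).IsGr (extL Y.Z L)) (h2 : (Y.cy D).IsGr (extL Y.Z L ⊔ iA D Y.J)) :
    Good Y.w (Module.finrank k D) Y.S d c ((Y.cy D).quot _ h2).h := by
  obtain ⟨K0, _, hK⟩ := ((Y.cy D).quot _ h1).stanley
  obtain ⟨P, rfl⟩ := hK.dvd (((Y.cy D).quot _ h1).h_dvd)
  obtain ⟨Q, hQ, hQK⟩ := Sys.hasK_ind hc L h1 h2 hK
  refine ⟨P, Q, hQ, ?_⟩
  rwa [mul_smul_comm] at hQK

end Vale.Agent.P200E
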