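import Vale.Agent.P200E.IndP0
import Vale.Agent.P200E.Cod0

namespace Vale.Agent.P200E

open MvPolynomial TensorProduct

universe u

theorem IndP_ind {k L : Type u} [Field k] [Field L] [Algebra k L] {σ : Type}
    (φ : MvPolynomial σ k →ₐ[k] L) {q : Ideal (MvPolynomial σ k)} (hφ : ∀ r, φ r = 0 → r ∈ q)
    {Fr : Finset σ} (h : Ind q Fr) :
    (Fr.card : ℕ∞) ≤ (AlgebraicIndependent.matroid k L).eRk (Set.range fun i => φ (X i)) := by
  classical
  have h1 : AlgebraicIndependent k fun i : Fr => φ (X (i : σ)) := by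
    rw [algebraicIndependent_iff]
    intro p hp
    have e : aeval (fun i : Fr => φ (X (i : σ))) p = φ (rename Subtype.val p) := by
      have : aeval (fun i : Fr => φ (X (i : σ))) = φ.comp (rename Subtype.val) := by
        ext1 i
        simp
      rw [this]
      rfl
    have h2 := h _ (fun i hi => by
      obtain ⟨j, -, rfl⟩ := mem_vars_rename _ _ hi
      exact j.2) (hφ _ (e ▸ hp))
    exact rename_injective _ Subtype.val_injective (by rw [h2, map_zero])
  have h2 : (AlgebraicIndependent.matroid k L).Indep (Set.range fun i : Fr => φ (X (i : σ))) :=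
    AlgebraicIndependent.matroid_indep_iff.2 h1.to_subtype_range
  have h3 := h2.encard_le_eRk_of_subset
    (X := Set.range fun i => φ (X i)) (by rintro _ ⟨i, rfl⟩; exact ⟨i, rfl⟩)
  rw [← Set.image_univ, h1.injective.injOn.encard_image, Set.encard_univ] at h3
  simpa using h3

variable {k D : Type u} [Field k] [DivisionRing D] [Algebra k D] [FiniteDimensional k D]
  {σ ι : Type} [Fintype σ] [DecidableEq σ] {d : ℕ} {Y : Sys k σ ι d}

omit [Fintype σ] in
theorem IndP_base {L : Type u} [Field L] [Algebra k L] (φ : MvPolynomial σ k →ₐ[k] L)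
    (Z : Finset σ) (S : Subalgebra k L) (hS : ∀ j, j ∉ Z → φ (X j) ∈ S) {β : MvPolynomial σ k}
    (hβ : cz k Z β = β) : φ β ∈ S := by
  have h : ∀ β : MvPolynomial σ k, φ (cz k Z β) ∈ S := by
    intro β
    induction β using MvPolynomial.induction_on with
    | C r =>
      have : φ (cz k Z (C r)) = algebraMap k L r := (φ.comp (cz k Z)).commutes r
      rw [this]
      exact S.algebraMap_mem r
    | add x y hx hy =>
      rw [map_add, map_add]
      exact add_mem hx hy
    | mul_X x p hx =>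
      rw [map_mul, map_mul]
      refine mul_mem hx ?_
      by_cases hp : p ∈ Z
      · simp [cz, hp]
      · simpa [cz, hp] using hS p hp
  rw [← hβ]
  exact h β

theorem IndP_core {L : Type u} [Field L] [Algebra k L] (φ : MvPolynomial σ k →ₐ[k] L)
    {q : Ideal (MvPolynomial σ k)} (hφ : ∀ r, φ r = 0 ↔ r ∈ q) (hJ : Y.J ≤ q)
    {Fr : Finset σ} (h : Ind q Fr) {C : Fin d → σ} (hC : ∀ i, C i ∈ Y.Z) (hμ : Y.minor C ∉ q) :
    (Fr.card : ℕ∞) ≤ (AlgebraicIndependent.matroid k L).eRk
      ((fun j => φ (X j)) '' ((Finset.univ.image C)ᶜ : Finset σ)) := by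
  refine (IndP_ind φ (fun r => (hφ r).1) h).trans (Cod0_le ?_)
  have hinj : Function.Injective C := Y.minor_inj fun h0 => hμ (h0 ▸ q.zero_mem)
  set S := Algebra.adjoin k ((fun j => φ (X j)) '' ((Finset.univ.image C)ᶜ : Finset σ)) with hS
  have hm : ∀ j, j ∉ Set.range C → φ (X j) ∈ S := fun j hj =>
    Algebra.subset_adjoin ⟨j, by simpa using hj, rfl⟩
  have hZ : ∀ j, j ∉ Y.Z → j ∉ Set.range C := by
    rintro j hj ⟨i, rfl⟩
    exact hj (hC i)
  have hb : ∀ β : MvPolynomial σ k, cz k Y.Z β = β → φ β ∈ S := fun β hβ =>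
    IndP_base φ Y.Z S (fun j hj => hm j (hZ j hj)) hβ
  rintro _ ⟨j, rfl⟩
  by_cases hj : j ∈ Set.range C
  · obtain ⟨u, v, hu1, hu2, -, -, hv, huv, -⟩ := Y.exists_uv C hC hinj
    have hjZ : j ∈ Y.Z := by
      obtain ⟨i, rfl⟩ := hj
      exact hC i
    obtain ⟨β, hβ, hvj⟩ := hv j hjZ
    have e1 := huv j hjZ
    rw [hvj, map_sum] at e1
    have hx : φ (Y.minor C) * φ (X j) ∈ S := by
      rw [← map_mul, ← e1, map_sum]
      refine sum_mem fun i _ => ?_
      rw [map_mul, map_mul, bas_fix (fun j hj => hu1 j (hZ j hj)) (hβ i)]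
      refine mul_mem (hb _ (hβ i)) ?_
      by_cases hi : i ∈ Set.range C
      · obtain ⟨i', rfl⟩ := hi
        rw [hu2, (hφ _).2 (hJ (Ideal.subset_span ⟨i', rfl⟩))]
        exact zero_mem _
      · rw [hu1 i hi]
        exact hm i hi
    exact IsAlgebraic.of_mul (mem_nonZeroDivisors_of_ne_zero fun h0 => hμ ((hφ _).1 h0))
      (isAlgebraic_algebraMap (⟨_, hb _ (Y.cz_minor C)⟩ : S))
      (isAlgebraic_algebraMap (⟨_, hx⟩ : S))
  · exact Cod0_mem (hm j hj)

theorem IndP_card {C : Fin d → σ} (hinj : Function.Injective C) :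
    ((Finset.univ.image C)ᶜ : Finset σ).card + d = Fintype.card σ := by
  have h1 := Finset.card_add_card_compl (Finset.univ.image C)
  rw [Finset.card_image_of_injective _ hinj, Finset.card_univ, Fintype.card_fin] at h1
  omega

omit [Fintype σ] [DecidableEq σ] in
theorem IndP_phi (q : Ideal (MvPolynomial σ k)) [q.IsPrime] :
    ∃ φ : MvPolynomial σ k →ₐ[k] FractionRing (MvPolynomial σ k ⧸ q), ∀ r, φ r = 0 ↔ r ∈ q := by
  refine ⟨(IsScalarTower.toAlgHom k (MvPolynomial σ k ⧸ q) _).comp (Ideal.Quotient.mkₐ k q),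
    fun r => ?_⟩
  change algebraMap (MvPolynomial σ k ⧸ q) _ (Ideal.Quotient.mk q r) = 0 ↔ _
  rw [map_eq_zero_iff _ (IsFractionRing.injective _ _), Ideal.Quotient.eq_zero_iff_mem]

theorem Sys.ind_J {c : ℕ} (hc : Y.Cod c) (hd : d + 1 ≤ c) {I : Ideal (MvPolynomial σ k)}
    (hI : Y.J ≤ I) {Fr : Finset σ} (h : Ind I Fr) : Fr.card + d ≤ Fintype.card σ := by
  obtain ⟨q, hq, hIq, hF⟩ := h.prime
  by_cases hbad : Y.Bad Y.Z q
  · have := hc q hq hbad Fr hF
    omega
  · simp only [Sys.Bad, not_forall] at hbad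
    obtain ⟨C, hC, hμ⟩ := hbad
    obtain ⟨φ, hφ⟩ := IndP_phi q
    have h1 := IndP_core φ hφ (hI.trans hIq) hF hC hμ
    have h2 := Cod0_fin (k := k) ∅ ((Finset.univ.image C)ᶜ : Finset σ) fun j => φ (X j)
    rw [Set.empty_union, Matroid.eRk_empty, zero_add] at h2
    have h3 := IndP_card (Y.minor_inj fun h0 => hμ (h0 ▸ q.zero_mem))
    have h4 : Fr.card ≤ ((Finset.univ.image C)ᶜ : Finset σ).card := by
      exact_mod_cast h1.trans h2
    omega

theorem Sys.ind_tors {c : ℕ} (hc : Y.Cod c) (hd : d + 1 ≤ c) {I : Ideal (MvPolynomial σ k)}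
    (hI : Y.J ≤ I) {β : MvPolynomial σ k} (h0 : β ≠ 0) (hβ : cz k Y.Z β = β) (hβI : β ∈ I)
    {Fr : Finset σ} (h : Ind I Fr) : Fr.card + (d + 1) ≤ Fintype.card σ := by
  obtain ⟨q, hq, hIq, hF⟩ := h.prime
  by_cases hbad : Y.Bad Y.Z q
  · have := hc q hq hbad Fr hF
    omega
  · simp only [Sys.Bad, not_forall] at hbad
    obtain ⟨C, hC, hμ⟩ := hbad
    obtain ⟨φ, hφ⟩ := IndP_phi q
    have h1 := IndP_core φ hφ (hI.trans hIq) hF hC hμ
    have h3 := IndP_card (Y.minor_inj fun h0 => hμ (h0 ▸ q.zero_mem))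
    set A : Finset σ := (Finset.univ.image C)ᶜ with hA
    let e : Fin A.card → σ := fun i => (A.equivFin.symm i : σ)
    let g : σ → MvPolynomial (Fin A.card) k := fun j =>
      if h : j ∈ A then X (A.equivFin ⟨j, h⟩) else 0
    have hcomp : (rename e).comp ((aeval g).comp (cz k Y.Z)) = cz k Y.Z := by
      ext1 j
      by_cases hj : j ∈ Y.Z
      · simp [cz, hj]
      · have hjA : j ∈ A := by
          rw [hA, Finset.mem_compl, Finset.mem_image]
          rintro ⟨i, -, rfl⟩
          exact hj (hC i)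
        simp [cz, hj, g, hjA, e]
    have hβ' : rename e (aeval g β) = β := by
      have := DFunLike.congr_fun hcomp β
      simp only [AlgHom.comp_apply, hβ] at this
      exact this
    have hne : aeval g β ≠ 0 := fun h => h0 (by rw [← hβ', h, map_zero])
    have h5 := alg_drop (k := k) ∅ (fun i => φ (X (e i)))
      (map (algebraMap k (FractionRing (MvPolynomial σ k ⧸ q))) (aeval g β))
      (fun h => hne (map_injective _ (algebraMap k _).injective (by rw [h, map_zero])))
      (fun α => by rw [coeff_map]; exact Subalgebra.algebraMap_mem _ _) (by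
        have e1 : aeval (fun i => φ (X (e i))) = φ.comp (rename e) := by
          ext1 i
          simp
        rw [eval_map, ← aeval_def, e1, AlgHom.comp_apply, hβ']
        exact (hφ _).2 (hIq hβI))
    rw [Set.empty_union, Matroid.eRk_empty, zero_add] at h5
    have h6 : (fun j => φ (X j)) '' (A : Set σ) ⊆ Set.range fun i => φ (X (e i)) := by
      rintro _ ⟨j, hj, rfl⟩
      exact ⟨A.equivFin ⟨j, hj⟩, by simp [e]⟩
    have h7 : (Fr.card : ℕ∞) + 1 ≤ A.card :=
      le_trans (add_le_add_left (h1.trans (Matroid.eRk_mono _ h6)) _) h5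
    have h8 : Fr.card + 1 ≤ A.card := by exact_mod_cast h7
    omega

end Vale.Agent.P200E
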