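import Vale.Agent.P200E.Stan0

namespace Vale.Agent.P200E

open MvPolynomial TensorProduct

universe u

variable {k D : Type u} [Field k] [DivisionRing D] [Algebra k D] {σ ι : Type} {w : σ → ι → ℤ}

/-- Stanley pieces supported on the variables of `A` -/
noncomputable def stanCl [DecidableEq σ] (w : σ → ι → ℤ) (I : Ideal (MvPolynomial σ k))
    (A : Finset σ) : AddSubmonoid (ZL ι) :=
  AddSubmonoid.closure {x : ZL ι | ∃ (χ : ι → ℤ) (Fr : Finset σ),
    Fr ⊆ A ∧ Ind I Fr ∧ x = ch χ * den w (A \ Fr)}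

/-- the numerator is a sum of Stanley pieces -/
def StanSt [DecidableEq σ] (w : σ → ι → ℤ) (I : Ideal (MvPolynomial σ k)) (A : Finset σ)
    (h : (ι → ℤ) → ℤ) : Prop :=
  ∃ K ∈ stanCl w I A, op (den w A) h = fun χ => K.coeff χ

theorem stan_ind [DecidableEq σ] {E : Type u} [AddCommGroup E] [Module (MvPolynomial σ k) E]
    {x : σ} (hx : ∀ e : E, (X x : MvPolynomial σ k) • e = 0 → e = 0)
    {I' : Ideal (MvPolynomial σ k)}
    (hI : ∀ q : MvPolynomial σ k, (∀ e : E, ∃ e' : E, q • e = (X x : MvPolynomial σ k) • e') →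
      q ∈ I') {Fr : Finset σ} (hF : Ind I' Fr) (n : ℕ) : ∀ q : MvPolynomial σ k,
      q.degreeOf x < n → q.vars ⊆ insert x Fr → (∀ e : E, q • e = 0) → q = 0 := by
  induction n with
  | zero => intro q h; omega
  | succ n ih =>
    intro q hn hv hq
    have e1 := q.divMonomial_add_modMonomial_single x
    set q1 := q.divMonomial (Finsupp.single x 1)
    set q0 := q.modMonomial (Finsupp.single x 1) with hq0
    have h0 : q0 = 0 := by
      refine hF q0 (fun i hi => ?_) (hI q0 fun e => ⟨-(q1 • e), ?_⟩)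
      · obtain ⟨m, hm, him⟩ := (mem_vars_iff_mem_support i).1 hi
        rw [mem_support_iff] at hm
        have h1 : ¬ Finsupp.single x 1 ≤ m := fun h => hm (coeff_modMonomial_of_le _ h)
        rw [hq0, coeff_modMonomial_of_not_le _ h1] at hm
        have h2 := hv ((mem_vars_iff_mem_support i).2 ⟨m, mem_support_iff.2 hm, him⟩)
        refine (Finset.mem_insert.1 h2).resolve_left fun h => h1 ?_
        rw [← h]
        exact Finsupp.single_le_iff.2 (Nat.one_le_iff_ne_zero.2 (Finsupp.mem_support_iff.1 him))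
      · have := hq e
        rw [← e1, add_smul, mul_smul] at this
        rw [smul_neg]
        exact eq_neg_of_add_eq_zero_right this
    rw [h0, add_zero] at e1
    by_cases h1 : q1 = 0
    · rw [← e1, h1, mul_zero]
    refine absurd (ih q1 ?_ (fun i hi => hv ?_) fun e => hx _ ?_) h1
    · have := (degreeOf_mul_X_eq_degreeOf_add_one_iff x q1).2 h1
      rw [mul_comm, e1] at this
      omega
    · obtain ⟨m, hm, him⟩ := (mem_vars_iff_mem_support i).1 hi
      refine (mem_vars_iff_mem_support i).2 ⟨Finsupp.single x 1 + m, ?_, ?_⟩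
      · rw [mem_support_iff, ← e1, coeff_X_mul]; exact mem_support_iff.1 hm
      · have := Finsupp.mem_support_iff.1 him
        rw [Finsupp.mem_support_iff, Finsupp.add_apply]
        omega
    · rw [← mul_smul, e1, hq]

variable [DecidableEq σ] {I : Ideal (MvPolynomial σ k)} {A : Finset σ} {h h' : (ι → ℤ) → ℤ}

theorem StanSt.zero : StanSt w I A 0 :=
  ⟨0, zero_mem _, by funext χ; simp [op]⟩

theorem StanSt.add (h1 : StanSt w I A h) (h2 : StanSt w I A h') : StanSt w I A (h + h') := by
  obtain ⟨K, k1, k2⟩ := h1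
  obtain ⟨K', k1', k2'⟩ := h2
  refine ⟨K + K', add_mem k1 k1', ?_⟩
  rw [op_add_right, k2, k2']
  funext χ
  simp

theorem stan_mul {I' : Ideal (MvPolynomial σ k)} {A' : Finset σ} (P : ZL ι)
    (hP : ∀ χ Fr, Fr ⊆ A → Ind I Fr → P * (ch χ * den w (A \ Fr)) ∈ stanCl w I' A') {K : ZL ι}
    (hK : K ∈ stanCl w I A) : P * K ∈ stanCl w I' A' := by
  induction hK using AddSubmonoid.closure_induction with
  | mem x hx =>
    obtain ⟨χ, Fr, a1, a2, rfl⟩ := hx
    exact hP χ Fr a1 a2
  | zero => rw [mul_zero]; exact zero_mem _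
  | add x y _ _ hx hy => rw [mul_add]; exact add_mem hx hy

theorem StanSt.shift (h1 : StanSt w I A h) (ψ : ι → ℤ) : StanSt w I A fun χ => h (χ + ψ) := by
  obtain ⟨K, k1, k2⟩ := h1
  refine ⟨ch (-ψ) * K, stan_mul _ (fun χ Fr a1 a2 => AddSubmonoid.subset_closure
    ⟨-ψ + χ, Fr, a1, a2, ?_⟩) k1, ?_⟩
  · rw [← mul_assoc, AddMonoidAlgebra.single_mul_single, one_mul]
  · have : (fun χ => h (χ + ψ)) = op (ch (-ψ)) h := by
      rw [op_ch]; simp only [sub_neg_eq_add]
    rw [this, ← op_mul, mul_comm, op_mul, k2, op_coeff]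

theorem StanSt.ins {x : σ} (hx : x ∉ A) (h1 : StanSt w I A h) : StanSt w I (insert x A) h := by
  obtain ⟨K, k1, k2⟩ := h1
  refine ⟨(1 - ch (w x)) * K, stan_mul _ (fun χ Fr a1 a2 => AddSubmonoid.subset_closure
    ⟨χ, Fr, a1.trans (Finset.subset_insert _ _), a2, ?_⟩) k1, ?_⟩
  · rw [Finset.insert_sdiff_of_notMem _ fun h => hx (a1 h), den, den,
      Finset.prod_insert fun h => hx (Finset.mem_sdiff.1 h).1]
    ring
  · rw [den, Finset.prod_insert hx, op_mul, ← den, k2, op_coeff]

theorem StanSt.reg {x : σ} (hx : x ∉ A) {I' : Ideal (MvPolynomial σ k)}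
    (hI : ∀ Fr, Ind I' Fr → Ind I (insert x Fr))
    (h1 : StanSt w I' A fun χ => h χ - h (χ - w x)) : StanSt w I (insert x A) h := by
  obtain ⟨K, k1, k2⟩ := h1
  refine ⟨1 * K, stan_mul _ (fun χ Fr a1 a2 => AddSubmonoid.subset_closure
    ⟨χ, insert x Fr, Finset.insert_subset_insert _ a1, hI Fr a2, ?_⟩) k1, ?_⟩
  · rw [one_mul, Finset.insert_sdiff_insert, Finset.sdiff_insert_of_notMem hx]
  · rw [den, Finset.prod_insert hx, mul_comm, op_mul, ← den, op_one_sub, k2, one_mul]

theorem stan_empty (G : GMod k D w) (hG : ∀ i, ∀ e : G.E, (X i : MvPolynomial σ k) • e = 0)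
    (hI : G.Kill I) : StanSt w I ∅ G.h := by
  classical
  by_cases h0 : ∀ e : G.E, e = 0
  · rw [G.h_zero h0]; exact StanSt.zero
  have hC : ∀ (a : k) (e : G.E), (C a : MvPolynomial σ k) • e = a • e := fun a e =>
    algebraMap_smul (MvPolynomial σ k) a e
  have hi : Ind I ∅ := fun q hq hqI => by
    rw [Finset.subset_empty, vars_eq_empty_iff_eq_C] at hq
    by_contra hne
    refine h0 fun e => ?_
    have h1 := hI q hqI e
    rw [hq, hC] at h1
    exact (smul_eq_zero.1 h1).resolve_left fun h => hne (by rw [hq, h, map_zero])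
  have hs : ∀ (r : MvPolynomial σ k) (e : G.E), ∃ a : k, r • e = a • e := fun r e => by
    induction r using MvPolynomial.induction_on with
    | C a => exact ⟨a, hC a e⟩
    | add p q hp hq =>
      obtain ⟨a, ha⟩ := hp
      obtain ⟨b, hb⟩ := hq
      exact ⟨a + b, by rw [add_smul, add_smul, ha, hb]⟩
    | mul_X p i _ => exact ⟨0, by rw [mul_smul, hG, smul_zero, zero_smul]⟩
  obtain ⟨m, e, ψ, h1, h2⟩ := G.gens
  have h3 : ∀ χ, χ ∉ Finset.univ.image ψ → G.h χ = 0 := fun χ hχ => by
    have : G.π χ = 0 := LinearMap.ext fun v => by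
      have hv : v ∈ Submodule.span (MvPolynomial σ k) (Set.range e) := h2 ▸ Submodule.mem_top
      induction hv using Submodule.span_induction with
      | mem v hv =>
        obtain ⟨i, rfl⟩ := hv
        rw [← h1 i]
        exact G.orth _ _ _ fun h => hχ (Finset.mem_image.2 ⟨i, Finset.mem_univ _, h.symm⟩)
      | zero => exact map_zero _
      | add a b _ _ ha hb => rw [map_add, ha, hb]; simp
      | smul r a _ ha =>
        obtain ⟨c, hc⟩ := hs r a
        rw [hc, map_smul, ha]; simp
    rw [GMod.h, this, LinearMap.range_zero, finrank_bot, Nat.cast_zero]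
  have h4 : ∀ χ, ch χ ∈ stanCl w I ∅ := fun χ =>
    AddSubmonoid.subset_closure ⟨χ, ∅, subset_rfl, hi, by simp [den]⟩
  refine ⟨∑ χ ∈ Finset.univ.image ψ, (G.h χ).toNat • ch χ, sum_mem fun χ _ => nsmul_mem
    (h4 χ) _, ?_⟩
  rw [den, Finset.prod_empty, op_one]
  funext χ
  simp only [AddMonoidAlgebra.coeff_sum, AddMonoidAlgebra.coeff_smul, Finsupp.finsetSum_apply,
    Finsupp.smul_apply, AddMonoidAlgebra.coeff_single, Finsupp.single_apply]
  rw [Finset.sum_eq_single χ (fun b _ hb => by simp [hb]) fun hχ => by simp [h3 χ hχ]]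
  simp [G.h_nonneg χ]

theorem stan_all [Finite σ] (A : Finset σ) : ∀ (G : GMod k D w) (I : Ideal (MvPolynomial σ k)),
    (∀ i ∉ A, ∀ e : G.E, (X i : MvPolynomial σ k) • e = 0) → G.Kill I → StanSt w I A G.h := by
  induction A using Finset.induction_on with
  | empty => exact fun G I h1 h2 => stan_empty G (fun i => h1 i (Finset.notMem_empty i)) h2
  | insert x A hx ih =>
    have hX := isWeightedHomogeneous_X k w x
    have ks : ∀ (G : GMod k D w) (U : Submodule (AA k D σ) G.E) (hU : G.IsGr U)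
        (r : MvPolynomial σ k), (∀ e : G.E, r • e = 0) → ∀ e : (G.sub U hU).E, r • e = 0 :=
      fun G U hU r h e => Subtype.ext (h e.1)
    have kq : ∀ (G : GMod k D w) (U : Submodule (AA k D σ) G.E) (hU : G.IsGr U)
        (r : MvPolynomial σ k), (∀ e : G.E, r • e ∈ U) → ∀ e : (G.quot U hU).E, r • e = 0 :=
      fun G U hU r h e => by
        obtain ⟨e, rfl⟩ := U.mkQ_surjective e
        exact ((U.mkQ.map_smul_of_tower r e).symm.trans
          ((Submodule.Quotient.mk_eq_zero U).2 (h e)))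
    have nil : ∀ (n : ℕ) (G : GMod k D w) (I : Ideal (MvPolynomial σ k)),
        (∀ i ∉ insert x A, ∀ e : G.E, (X i : MvPolynomial σ k) • e = 0) → G.Kill I →
        (∀ e : G.E, (X x ^ n : MvPolynomial σ k) • e = 0) → StanSt w I (insert x A) G.h := by
      intro n
      induction n with
      | zero =>
        intro G I _ _ h
        rw [G.h_zero fun e => by simpa using h e]
        exact StanSt.zero
      | succ n ihn =>
        intro G I h1 h2 h3
        have hf := G.isGrMap_mul hX
        rw [funext hf.h_eq]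
        refine StanSt.add (h := (G.sub _ hf.ker).h) (StanSt.ins hx (ih _ I (fun i hi => ?_)
          fun r hr => ks G _ _ r (h2 r hr))) (StanSt.shift (ihn _ I
            (fun i hi => ks G _ _ _ (h1 i hi)) (fun r hr => ks G _ _ r (h2 r hr)) ?_) _)
        · by_cases hix : i = x
          · subst hix; exact fun e => Subtype.ext e.2
          · exact ks G _ _ _ (h1 i fun h => (Finset.mem_insert.1 h).elim hix hi)
        · rintro ⟨_, e, rfl⟩
          refine Subtype.ext ?_
          show (X x ^ n : MvPolynomial σ k) • (X x : MvPolynomial σ k) • e = 0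
          rw [← mul_smul, ← pow_succ, h3]
    intro G I h1 h2
    obtain ⟨n, hn⟩ : ∃ n : ℕ, ∀ e : G.E, (X x ^ (n + 1) : MvPolynomial σ k) • e = 0 →
        (X x ^ n : MvPolynomial σ k) • e = 0 := by
      obtain ⟨n, hn⟩ := monotone_stabilizes_iff_noetherian.2
        (inferInstance : IsNoetherian (MvPolynomial σ k) G.E)
        ⟨fun n => LinearMap.ker (LinearMap.lsmul (MvPolynomial σ k) G.E (X x ^ n)),
          monotone_nat_of_le_succ fun n e he => by
            rw [LinearMap.mem_ker, LinearMap.lsmul_apply] at he ⊢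
            rw [pow_succ', mul_smul, he, smul_zero]⟩
      refine ⟨n, fun e he => ?_⟩
      have h3 : e ∈ LinearMap.ker (LinearMap.lsmul (MvPolynomial σ k) G.E (X x ^ (n + 1))) := he
      exact (hn (n + 1) (Nat.le_succ n)).ge h3
    have hT := (G.isGrMap_mul (hX.pow n)).ker
    rw [G.h_add _ hT]
    refine StanSt.add (nil n _ I (fun i hi => ks G _ _ _ (h1 i hi))
      (fun r hr => ks G _ _ r (h2 r hr)) fun e => Subtype.ext e.2) ?_
    have e1 : ∀ i ∉ insert x A, ∀ e : (G.quot _ hT).E, (X i : MvPolynomial σ k) • e = 0 :=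
      fun i hi => kq G _ _ _ fun e => by rw [h1 i hi]; exact zero_mem _
    have e2 : (G.quot _ hT).Kill I := fun r hr => kq G _ _ _ fun e => by
      rw [h2 r hr]; exact zero_mem _
    have e3 : ∀ e : (G.quot _ hT).E, (X x : MvPolynomial σ k) • e = 0 → e = 0 := fun e he => by
      obtain ⟨e, rfl⟩ := (LinearMap.ker (G.mul (X x ^ n))).mkQ_surjective e
      have h3 := (Submodule.Quotient.mk_eq_zero _).1
        (((LinearMap.ker (G.mul (X x ^ n))).mkQ.map_smul_of_tower (X x : MvPolynomial σ k) e).trans he)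
      refine (Submodule.Quotient.mk_eq_zero _).2 (hn e ?_)
      rw [pow_succ, mul_smul]
      exact h3
    generalize G.quot _ hT = E at e1 e2 e3
    have hf := E.isGrMap_mul hX
    have h4 : (E.quot _ hf.range).h = fun χ => E.h χ - E.h (χ - w x) := by
      funext χ
      have a1 := congrFun (E.h_add _ hf.range) χ
      have a2 := hf.h_eq (χ - w x)
      rw [(E.sub _ hf.ker).h_zero fun e => Subtype.ext (e3 _ e.2), sub_add_cancel] at a2
      simp only [Pi.add_apply, Pi.zero_apply] at a1 a2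
      omega
    refine StanSt.reg hx (I' := Module.annihilator (MvPolynomial σ k) (E.quot _ hf.range).E)
      (fun Fr hF q hv hq => stan_ind e3 (fun q hq => Module.mem_annihilator.2
        (kq E _ hf.range q fun e => ?_)) hF _ q (Nat.lt_succ_self _) hv (e2 q hq)) ?_
    · obtain ⟨e', he'⟩ := hq e
      exact ⟨e', he'.symm⟩
    · rw [← h4]
      refine ih _ _ (fun i hi => kq E _ _ _ fun e => ?_) fun r hr => Module.mem_annihilator.1 hr
      by_cases hix : i = x
      · subst hix; exact ⟨e, rfl⟩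
      · rw [e1 i fun h => (Finset.mem_insert.1 h).elim hix hi]; exact zero_mem _

omit [DecidableEq σ] in
theorem GMod.stanley [Fintype σ] [DecidableEq σ] [FiniteDimensional k D] (G : GMod k D w) :
    ∃ K ∈ AddSubmonoid.closure {x : ZL ι | ∃ (χ : ι → ℤ) (Fr : Finset σ),
      Ind (Module.annihilator (MvPolynomial σ k) G.E) Fr ∧ x = ch χ * den w Frᶜ},
      HasK w G.h K := by
  obtain ⟨K, k1, k2⟩ := stan_all Finset.univ G (Module.annihilator (MvPolynomial σ k) G.E)
    (fun i hi => absurd (Finset.mem_univ i) hi) fun r hr => Module.mem_annihilator.1 hr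
  refine ⟨K, AddSubmonoid.closure_mono ?_ k1, fun χ => congrFun k2 χ⟩
  rintro _ ⟨χ, Fr, -, a, rfl⟩
  exact ⟨χ, Fr, a, by rw [Finset.compl_eq_univ_sdiff]⟩

end Vale.Agent.P200E
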