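import Vale.Agent.P200E.Bas
import Vale.Agent.P200E.Stan

namespace Vale.Agent.P200E

open MvPolynomial TensorProduct

universe u

variable {k D : Type u} [Field k] [DivisionRing D] [Algebra k D] [FiniteDimensional k D]
  {σ ι : Type} [Fintype σ] [DecidableEq σ] {d : ℕ} {Y : Sys k σ ι d}

theorem Ind.prime {I : Ideal (MvPolynomial σ k)} {Fr : Finset σ} (h : Ind I Fr) :
    ∃ q : Ideal (MvPolynomial σ k), q.IsPrime ∧ I ≤ q ∧ Ind q Fr := by
  let S : Submonoid (MvPolynomial σ k) :=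
    { carrier := {q | q ≠ 0 ∧ q.vars ⊆ Fr}
      one_mem' := ⟨one_ne_zero, by simp⟩
      mul_mem' := fun {a b} ha hb => ⟨mul_ne_zero ha.1 hb.1,
        (vars_mul a b).trans (Finset.union_subset ha.2 hb.2)⟩ }
  have hd : Disjoint (I : Set (MvPolynomial σ k)) S :=
    Set.disjoint_left.2 fun q hq hS => hS.1 (h q hS.2 hq)
  obtain ⟨q, hq, hle, hdis⟩ := Ideal.exists_le_prime_disjoint I S hd
  refine ⟨q, hq, hle, fun r hr hrq => ?_⟩
  by_contra h0
  exact Set.disjoint_left.1 hdis hrq ⟨h0, hr⟩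

theorem GMod.hasK_aug {w : σ → ι → ℤ} (G : GMod k D w) {c : ℕ}
    (h : ∀ Fr, Ind (Module.annihilator (MvPolynomial σ k) G.E) Fr →
      Fr.card + c ≤ Fintype.card σ) : ∃ K ∈ aug ι ^ c, HasK w G.h K := by
  obtain ⟨K, hK, hG⟩ := G.stanley
  refine ⟨K, ?_, hG⟩
  refine (AddSubmonoid.closure_le (S := (aug ι ^ c).toAddSubmonoid)).2 ?_ hK
  rintro _ ⟨χ, Fr, hFr, rfl⟩
  refine Ideal.mul_mem_left _ _ (Ideal.pow_le_pow_right ?_ (den_mem w Frᶜ))
  have := h Fr hFr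
  rw [Finset.card_compl]
  omega

theorem Sys.hasK_bad {c : ℕ} (hc : Y.Cod c) (G : GMod k D Y.w)
    (h : ∀ C : Fin d → σ, (∀ i, C i ∈ Y.Z) → ∀ e : G.E, ∃ m : ℕ, Y.minor C ^ m • e = 0) :
    ∃ K ∈ aug ι ^ c, HasK Y.w G.h K := by
  refine G.hasK_aug fun Fr hFr => ?_
  obtain ⟨q, hq, hle, hI⟩ := hFr.prime
  refine hc q hq (fun C hC => ?_) Fr hI
  obtain ⟨s, hs⟩ := Module.Finite.fg_top (R := MvPolynomial σ k) (M := G.E)
  choose m hm using h C hC
  refine hq.mem_of_pow_mem (s.sup m) (hle ?_)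
  rw [Module.mem_annihilator]
  intro e
  have he : e ∈ Submodule.span (MvPolynomial σ k) (s : Set G.E) := hs ▸ Submodule.mem_top
  induction he using Submodule.span_induction with
  | mem x hx =>
    obtain ⟨t, ht⟩ := Nat.exists_eq_add_of_le' (Finset.le_sup (f := m) hx)
    rw [ht, pow_add, mul_smul, hm, smul_zero]
  | zero => exact smul_zero _
  | add x y _ _ hx hy => rw [smul_add, hx, hy, add_zero]
  | smul r x _ hx => rw [smul_comm, hx, smul_zero]

end Vale.Agent.P200E
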