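import Vale.Agent.P200E.Defs

namespace Vale.Agent.P200E

open MvPolynomial TensorProduct

universe u

variable {k D : Type u} [Field k] [DivisionRing D] [Algebra k D] [FiniteDimensional k D]
  {σ ι : Type} [Fintype σ] [DecidableEq σ] {d : ℕ} {Y : Sys k σ ι d}

omit [Fintype σ] [DecidableEq σ] in
theorem KInd0_split (w : σ → ι → ℤ) (I : Ideal (MvPolynomial σ k)) (f : MvPolynomial σ k) :
    ∃ S : Finset (ι → ℤ), (∀ χ ∈ S, weightedHomogeneousComponent w χ f ∉ I) ∧
      f - ∑ χ ∈ S, weightedHomogeneousComponent w χ f ∈ I := by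
  classical
  have hf : (Function.support fun χ => weightedHomogeneousComponent w χ f).Finite :=
    weightedHomogeneousComponent_finsupp (w := w) f
  have h1 : f = ∑ χ ∈ hf.toFinset, weightedHomogeneousComponent w χ f := by
    conv_lhs => rw [← sum_weightedHomogeneousComponent w f]
    exact finsum_eq_sum_of_support_subset _ fun x hx => by
      simpa using hx
  refine ⟨hf.toFinset.filter fun χ => weightedHomogeneousComponent w χ f ∉ I,
    fun χ hχ => (Finset.mem_filter.1 hχ).2, ?_⟩
  have h2 := Finset.sum_filter_add_sum_filter_not hf.toFinset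
    (fun χ => weightedHomogeneousComponent w χ f ∉ I) (fun χ => weightedHomogeneousComponent w χ f)
  rw [← h1] at h2
  rw [sub_eq_of_eq_add' h2.symm]
  exact I.sum_mem fun χ hχ => not_not.1 (Finset.mem_filter.1 hχ).2

theorem prime_of_hom [Fintype ι] {w : σ → ι → ℤ} {I : Ideal (MvPolynomial σ k)} (hI : HomI w I)
    (h1 : I ≠ ⊤) (h : ∀ (f g : MvPolynomial σ k) (χ ψ : ι → ℤ), f.IsWeightedHomogeneous w χ →
      g.IsWeightedHomogeneous w ψ → f * g ∈ I → f ∈ I ∨ g ∈ I) : I.IsPrime := by
  classical
  refine ⟨h1, fun {f g} hfg => ?_⟩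
  by_contra hne
  push Not at hne
  obtain ⟨S, hS, hfS⟩ := KInd0_split w I f
  obtain ⟨T, hT, hgT⟩ := KInd0_split w I g
  have hSne : S.Nonempty := by
    rw [Finset.nonempty_iff_ne_empty]
    rintro rfl
    exact hne.1 (by simpa using hfS)
  have hTne : T.Nonempty := by
    rw [Finset.nonempty_iff_ne_empty]
    rintro rfl
    exact hne.2 (by simpa using hgT)
  obtain ⟨a, ha, b, hb, hab⟩ := UniqueSums.uniqueAdd_of_nonempty hSne hTne
  set f' := ∑ χ ∈ S, weightedHomogeneousComponent w χ f
  set g' := ∑ χ ∈ T, weightedHomogeneousComponent w χ g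
  have h2 : f' * g' ∈ I := by
    have : f' * g' = f * g - (f - f') * g - f' * (g - g') := by ring
    rw [this]
    exact I.sub_mem (I.sub_mem hfg (I.mul_mem_right _ hfS)) (I.mul_mem_left _ hgT)
  have h3 := hI (a + b) _ h2
  have h4 : weightedHomogeneousComponent w (a + b) (f' * g') =
      weightedHomogeneousComponent w a f * weightedHomogeneousComponent w b g := by
    have hh : ∀ x y, (weightedHomogeneousComponent w x f *
        weightedHomogeneousComponent w y g).IsWeightedHomogeneous w (x + y) := fun x y =>
      (weightedHomogeneousComponent_isWeightedHomogeneous x f).mul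
        (weightedHomogeneousComponent_isWeightedHomogeneous y g)
    rw [Finset.sum_mul_sum, map_sum, Finset.sum_eq_single a, map_sum, Finset.sum_eq_single b]
    · exact (hh a b).weightedHomogeneousComponent_same
    · intro y hy hyb
      exact (hh a y).weightedHomogeneousComponent_ne _ fun he => hyb (hab ha hy he.symm).2
    · intro hb'
      exact absurd hb hb'
    · intro x hx hxa
      rw [map_sum]
      refine Finset.sum_eq_zero fun y hy => ?_
      exact (hh x y).weightedHomogeneousComponent_ne _ fun he => hxa (hab hx hy he.symm).1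
    · intro ha'
      exact absurd ha ha'
  rw [h4] at h3
  rcases h _ _ a b (weightedHomogeneousComponent_isWeightedHomogeneous a f)
    (weightedHomogeneousComponent_isWeightedHomogeneous b g) h3 with h5 | h5
  · exact hS a ha h5
  · exact hT b hb h5

end Vale.Agent.P200E
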