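import Vale.Agent.P200E.Def2
import Vale.Agent.P200.Reg

namespace Vale.Agent.P200E

open MvPolynomial TensorProduct

universe u

variable {k : Type u} [Field k] {c a : ℕ}

theorem Lam_inv {P : Type u} [AddCommGroup P] [Module k P] (f : Fin c → P) :
    ∃ g : P →ₗ[k] (Fin c → k), ∀ w ∈ Submodule.span k (Set.range f), ∑ j, g w j • f j = w := by
  let φ := Fintype.linearCombination k f
  obtain ⟨s, hs⟩ := φ.rangeRestrict.exists_rightInverse_of_surjective φ.range_rangeRestrict
  obtain ⟨g, hg⟩ := LinearMap.exists_extend s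
  refine ⟨g, fun w hw => ?_⟩
  have hw' : w ∈ LinearMap.range φ := by rwa [Fintype.range_linearCombination]
  have h1 : g w = s ⟨w, hw'⟩ := LinearMap.congr_fun hg ⟨w, hw'⟩
  have h2 : φ (s ⟨w, hw'⟩) = w := congrArg Subtype.val (LinearMap.congr_fun hs ⟨w, hw'⟩)
  rw [h1, ← Fintype.linearCombination_apply]
  exact h2

theorem Lam_comp {P : Type u} [AddCommGroup P] [Module k P] (V W : Submodule k P)
    [FiniteDimensional k V] : ∃ (d : ℕ) (lam : Fin d → P →ₗ[k] k) (qq : Fin d → P),
      (∀ i, qq i ∈ V) ∧ (∀ i i', lam i (qq i') = if i = i' then 1 else 0) ∧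
      (∀ i, ∀ w ∈ W, lam i w = 0) ∧ ∀ q ∈ V, q - ∑ i, lam i q • qq i ∈ W := by
  let Q := V.map W.mkQ
  let b := Module.finBasis k Q
  choose qq hq hb using fun i => (b i).2
  choose l hl using fun i => LinearMap.exists_extend (b.coord i)
  have hl' : ∀ i (x : Q), l i x = b.repr x i := fun i x => LinearMap.congr_fun (hl i) x
  refine ⟨_, fun i => l i ∘ₗ W.mkQ, qq, hq, fun i i' => ?_, fun i w hw => ?_, fun q hqV => ?_⟩
  · rw [LinearMap.comp_apply, hb, hl', b.repr_self, Finsupp.single_apply]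
    simp only [eq_comm]
  · rw [LinearMap.comp_apply, W.mkQ_apply, (Submodule.Quotient.mk_eq_zero W).2 hw, map_zero]
  · rw [← Submodule.Quotient.mk_eq_zero, ← W.mkQ_apply, map_sub, map_sum, sub_eq_zero]
    have h1 := congrArg Subtype.val (b.sum_repr ⟨W.mkQ q, q, hqV, rfl⟩)
    simp only [Submodule.coe_sum, Submodule.coe_smul] at h1
    rw [← h1]
    refine Finset.sum_congr rfl fun i _ => ?_
    rw [map_smul, hb, LinearMap.comp_apply, ← hl']

theorem exists_dec (f : Fin c → MvPolynomial (Fin c) k) (hf : ∀ j, (f j).IsHomogeneous a) :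
    ∃ (d : ℕ) (lam : Fin d → MvPolynomial (Fin c) k →ₗ[k] k)
      (nu : Fin c → MvPolynomial (Fin c) k →ₗ[k] k) (qq : Fin d → MvPolynomial (Fin c) k),
      Dec a f lam nu qq := by
  obtain ⟨g, hg⟩ := Lam_inv (k := k) f
  obtain ⟨d, lam, qq, h1, h2, h3, h4⟩ := Lam_comp (homogeneousSubmodule (Fin c) k a)
    (Submodule.span k (Set.range f))
  let r : MvPolynomial (Fin c) k →ₗ[k] MvPolynomial (Fin c) k :=
    LinearMap.id - ∑ i, (lam i).smulRight (qq i)
  have hr : ∀ q, r q = q - ∑ i, lam i q • qq i := fun q => by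
    simp [r, LinearMap.sum_apply]
  refine ⟨d, lam, fun j => LinearMap.proj j ∘ₗ g ∘ₗ r, qq, h1, h2,
    fun i j => h3 i _ (Submodule.subset_span ⟨j, rfl⟩), fun q hq => ?_⟩
  have h5 := hg _ (h4 q hq)
  simp only [LinearMap.comp_apply, LinearMap.proj_apply, hr]
  rw [h5, sub_add_cancel]

theorem Lam_pow (ha : 0 < a) {f : Fin c → MvPolynomial (Fin c) k}
    (hf : ∀ j, (f j).IsHomogeneous a) (hreg : P200.IsReg f) (j : Fin c) :
    (X j : MvPolynomial (Fin c) k) ^ (c * a + 1) ∈ Ideal.span (Set.range f) := by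
  have h1 := P200.hser_eq ha hf hreg c le_rfl
  have h2 := P200.hser_zero f
  have h3 : P200.hser f c = (∑ i ∈ Finset.range a, PowerSeries.X ^ i) ^ c := by
    rw [h1, ← geom_sum_mul_neg, mul_pow, mul_assoc, mul_comm _ (P200.hser f 0), h2, mul_one]
  have h5 : ((∑ i ∈ Finset.range a, PowerSeries.X ^ i) ^ c : PowerSeries ℤ) =
      (((∑ i ∈ Finset.range a, Polynomial.X ^ i) ^ c : Polynomial ℤ) : PowerSeries ℤ) := by
    rw [← Polynomial.coeToPowerSeries.ringHom_apply]
    simp only [map_pow, map_sum, Polynomial.coeToPowerSeries.ringHom_apply, Polynomial.coe_X]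
  have h6 : ((∑ i ∈ Finset.range a, Polynomial.X ^ i) ^ c : Polynomial ℤ).natDegree ≤ c * a := by
    refine Polynomial.natDegree_pow_le_of_le c (Polynomial.natDegree_sum_le_of_forall_le _ _ ?_)
    intro i hi
    rw [Polynomial.natDegree_X_pow]
    exact (Finset.mem_range.1 hi).le
  have h4 := congrArg (PowerSeries.coeff (c * a + 1)) h3
  rw [h5, Polynomial.coeff_coe, Polynomial.coeff_eq_zero_of_natDegree_lt (by omega)] at h4
  simp only [P200.hser, PowerSeries.coeff_mk] at h4
  have h7 : P200.ipart (P200.idl f c) (c * a + 1) = homogeneousSubmodule (Fin c) k (c * a + 1) := by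
    refine Submodule.eq_of_le_of_finrank_eq inf_le_right ?_
    rw [P200.finrank_hom]
    omega
  have h8 : (X j : MvPolynomial (Fin c) k) ^ (c * a + 1) ∈ P200.ipart (P200.idl f c) (c * a + 1) := by
    rw [h7]
    exact isHomogeneous_X_pow j _
  rw [← P200.idl_top]
  exact h8.1

theorem bpf_of_reg (ha : 0 < a) {f : Fin c → MvPolynomial (Fin c) k}
    (hf : ∀ j, (f j).IsHomogeneous a) (hreg : P200.IsReg f) : Bpf f := by
  intro L _ _ p hp
  have h1 : Ideal.span (Set.range f) ≤ RingHom.ker (aeval p : MvPolynomial (Fin c) k →ₐ[k] L) := by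
    rw [Ideal.span_le]
    rintro _ ⟨j, rfl⟩
    exact hp j
  funext j
  have h2 := h1 (Lam_pow ha hf hreg j)
  rw [RingHom.mem_ker, map_pow, aeval_X] at h2
  exact pow_eq_zero_iff (Nat.succ_ne_zero _) |>.1 h2

end Vale.Agent.P200E
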