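import Vale.Agent.P200E.GM3

namespace Vale.Agent.P200E

open MvPolynomial TensorProduct

universe u

variable {k D : Type u} [Field k] [DivisionRing D] [Algebra k D] {σ ι : Type} {w : σ → ι → ℤ}
variable [DecidableEq σ]

omit [DecidableEq σ] in
theorem linR_span {S : Set (AA k D σ)} {M : Submodule (AA k D σ) (AA k D σ)}
    (F : AA k D σ →+ AA k D σ) (h : ∀ g ∈ S, ∀ a, F (a * g) ∈ M) {x : AA k D σ}
    (hx : x ∈ Submodule.span (AA k D σ) S) : F x ∈ M := by
  have key : ∀ a, F (a * x) ∈ M := by
    induction hx using Submodule.span_induction with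
    | mem g hg => exact h g hg
    | zero => intro a; simp
    | add x y _ _ hx hy => intro a; rw [mul_add, map_add]; exact add_mem (hx a) (hy a)
    | smul b x _ hx => intro a; rw [smul_eq_mul, ← mul_assoc]; exact hx _
  simpa using key 1

theorem linR_cz (Z : Finset σ) (Q : MvPolynomial σ k →ₗ[k] MvPolynomial σ k)
    (hQ : ∀ i, i ∉ Z → ∀ a, Q (a * X i) = Q a * X i) (p a : MvPolynomial σ k) :
    Q (a * cz k Z p) = Q a * cz k Z p := by
  induction p using MvPolynomial.induction_on generalizing a with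
  | C c =>
    rw [algHom_C, algebraMap_eq, mul_comm a, mul_comm (Q a), C_mul', C_mul', map_smul]
  | add p q hp hq => simp only [map_add, mul_add, hp, hq]
  | mul_X p i hp =>
    by_cases hi : i ∈ Z
    · simp [cz, hi]
    · have : cz k Z (X i) = X i := by simp [cz, hi]
      rw [map_mul (cz k Z), this, ← mul_assoc, hQ i hi, hp, mul_assoc]

omit [DecidableEq σ] in
theorem linR_tm (Q Q' : MvPolynomial σ k →ₗ[k] MvPolynomial σ k) (p : MvPolynomial σ k)
    (h : ∀ a, Q (a * p) = Q' a * p) (d : D) (a : AA k D σ) :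
    Q.rTensor D (a * (p ⊗ₜ[k] d)) = Q'.rTensor D a * (p ⊗ₜ[k] d) := by
  induction a using TensorProduct.induction_on with
  | zero => simp
  | tmul q e => simp [h]
  | add a b ha hb => simp only [add_mul, map_add, ha, hb]

theorem linR_cA (Z : Finset σ) (Q : MvPolynomial σ k →ₗ[k] MvPolynomial σ k)
    (hQ : ∀ i, i ∉ Z → ∀ a, Q (a * X i) = Q a * X i) (l a : AA k D σ) :
    Q.rTensor D (a * cA (k := k) D Z l) = Q.rTensor D a * cA (k := k) D Z l := by
  induction l using TensorProduct.induction_on with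
  | zero => simp
  | tmul p d =>
    have : cA (k := k) D Z (p ⊗ₜ[k] d) = cz k Z p ⊗ₜ[k] d := by simp [cA]
    rw [this]
    exact linR_tm Q Q _ (linR_cz Z Q hQ p) d a
  | add a b ha hb => simp only [mul_add, map_add, ha, hb]

theorem linR_stab (Z : Finset σ) (L : Submodule (AA k D σ) (AA k D σ))
    (s : Set (MvPolynomial σ k)) (Q : MvPolynomial σ k →ₗ[k] MvPolynomial σ k)
    (hQ : ∀ i, i ∉ Z → ∀ a, Q (a * X i) = Q a * X i)
    (hs : ∀ p ∈ s, ∃ Q' : MvPolynomial σ k →ₗ[k] MvPolynomial σ k, ∀ a, Q (a * p) = Q' a * p)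
    {x : AA k D σ} (hx : x ∈ extL Z L ⊔ iA D (Ideal.span s)) :
    Q.rTensor D x ∈ extL Z L ⊔ iA D (Ideal.span s) := by
  rw [iA_span, extL, ← Submodule.span_union] at hx ⊢
  refine linR_span (Q.rTensor D).toAddMonoidHom ?_ hx
  rintro g hg a
  have hg' := Submodule.subset_span (R := AA k D σ) hg
  rcases hg with ⟨l, -, rfl⟩ | ⟨p, hp, rfl⟩
  · change Q.rTensor D _ ∈ _
    rw [linR_cA Z Q hQ]
    exact Submodule.smul_mem _ _ hg'
  · obtain ⟨Q', hQ'⟩ := hs p hp
    change Q.rTensor D _ ∈ _
    rw [linR_tm Q Q' p hQ']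
    exact Submodule.smul_mem _ _ hg'

theorem linR_fix (Z : Finset σ) (u : MvPolynomial σ k →ₐ[k] MvPolynomial σ k)
    (hub : ∀ j, j ∉ Z → u (X j) = X j) (p : MvPolynomial σ k) : u (cz k Z p) = cz k Z p := by
  have : u.comp (cz k Z) = cz k Z := by
    ext1 i
    by_cases hi : i ∈ Z <;> simp [cz, hi, hub]
  exact DFunLike.congr_fun this p

theorem linR_map (Z : Finset σ) (L : Submodule (AA k D σ) (AA k D σ))
    (s s' : Set (MvPolynomial σ k)) (u : MvPolynomial σ k →ₐ[k] MvPolynomial σ k)
    (hub : ∀ j, j ∉ Z → u (X j) = X j) (hs : ∀ p ∈ s, u p ∈ Ideal.span s')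
    {x : AA k D σ} (hx : x ∈ extL Z L ⊔ iA D (Ideal.span s)) :
    Algebra.TensorProduct.map u (AlgHom.id k D) x ∈ extL Z L ⊔ iA D (Ideal.span s') := by
  rw [iA_span, extL, ← Submodule.span_union] at hx
  refine linR_span (Algebra.TensorProduct.map u (AlgHom.id k D)).toAddMonoidHom ?_ hx
  rintro g hg a
  change Algebra.TensorProduct.map u (AlgHom.id k D) _ ∈ _
  rw [map_mul]
  refine Submodule.smul_mem _ _ ?_
  rcases hg with ⟨l, hl, rfl⟩ | ⟨p, hp, rfl⟩
  · have : ∀ l : AA k D σ, Algebra.TensorProduct.map u (AlgHom.id k D) (cA (k := k) D Z l) =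
        cA (k := k) D Z l := by
      intro l
      induction l using TensorProduct.induction_on with
      | zero => simp
      | tmul p d => simp [cA, linR_fix Z u hub]
      | add a b ha hb => simp only [map_add, ha, hb]
    rw [this]
    exact Submodule.mem_sup_left (Submodule.subset_span ⟨l, hl, rfl⟩)
  · exact Submodule.mem_sup_right (Submodule.subset_span ⟨u p, hs p hp, by simp⟩)

omit [DecidableEq σ] in
theorem linR_map_smul (u : MvPolynomial σ k →ₐ[k] MvPolynomial σ k) (p : MvPolynomial σ k)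
    (x : AA k D σ) : Algebra.TensorProduct.map u (AlgHom.id k D) (p • x) =
      u p • Algebra.TensorProduct.map u (AlgHom.id k D) x := by
  induction x using TensorProduct.induction_on with
  | zero => simp
  | tmul q d => simp [smul_tmul']
  | add a b ha hb => simp only [smul_add, map_add, ha, hb]

omit [DecidableEq σ] in
theorem linR_rT_smul (Q Q' : MvPolynomial σ k →ₗ[k] MvPolynomial σ k) (p p' : MvPolynomial σ k)
    (h : ∀ a, Q (p * a) = p' * Q' a) (x : AA k D σ) :
    Q.rTensor D (p • x) = p' • Q'.rTensor D x := by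
  induction x using TensorProduct.induction_on with
  | zero => simp
  | tmul q d => simp [smul_tmul', h]
  | add a b ha hb => simp only [smul_add, map_add, ha, hb]

/-- division by a variable -/
noncomputable def linR_div (j : σ) : MvPolynomial σ k →ₗ[k] MvPolynomial σ k where
  toFun p := p.divMonomial (Finsupp.single j 1)
  map_add' p q := add_divMonomial _ _ _
  map_smul' c p := by
    ext m
    simp [coeff_divMonomial]

theorem linR_div_mul {i j : σ} (h : i ≠ j) (a : MvPolynomial σ k) :
    linR_div j (a * X i) = linR_div j a * X i := by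
  ext m
  change coeff m ((a * X i).divMonomial _) = coeff m (a.divMonomial _ * X i)
  rw [coeff_divMonomial, coeff_mul_X', coeff_mul_X', coeff_divMonomial]
  have h1 : i ∈ (Finsupp.single j 1 + m).support ↔ i ∈ m.support := by
    simp [Finsupp.single_apply, h.symm]
  by_cases hi : i ∈ m.support
  · rw [if_pos (h1.2 hi), if_pos hi]
    congr 1
    ext l
    by_cases hl : l = i
    · subst hl
      simp [Finsupp.single_apply, h.symm]
    · simp [Finsupp.single_apply, Ne.symm hl]
  · rw [if_neg (mt h1.1 hi), if_neg hi]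

omit [DecidableEq σ] in
theorem linR_whc_mul {wZ : σ → ℕ} {p : MvPolynomial σ k} {n : ℕ}
    (hp : p.IsWeightedHomogeneous wZ n) (e : ℕ) :
    ∃ Q' : MvPolynomial σ k →ₗ[k] MvPolynomial σ k,
      (∀ a, weightedHomogeneousComponent wZ e (a * p) = Q' a * p) ∧
      (n = 0 → Q' = weightedHomogeneousComponent wZ e) := by
  refine ⟨if n ≤ e then weightedHomogeneousComponent wZ (e - n) else 0, fun a => ?_, ?_⟩
  · induction a using MvPolynomial.induction_on' with
    | monomial m c =>
      have h1 := isWeightedHomogeneous_monomial wZ m c rfl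
      have h2 := h1.mul hp
      by_cases he : e = Finsupp.weight wZ m + n
      · rw [if_pos (by omega), he, h2.weightedHomogeneousComponent_same, Nat.add_sub_cancel,
          h1.weightedHomogeneousComponent_same]
      · rw [h2.weightedHomogeneousComponent_ne _ he]
        split_ifs with h3
        · rw [h1.weightedHomogeneousComponent_ne _ (by omega), zero_mul]
        · simp
    | add a b ha hb => simp only [add_mul, map_add, ha, hb]
  · rintro rfl
    simp

theorem linR_hom_cz (Z : Finset σ) (p : MvPolynomial σ k) :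
    (cz k Z p).IsWeightedHomogeneous (fun i => if i ∈ Z then 1 else 0 : σ → ℕ) 0 := by
  induction p using MvPolynomial.induction_on with
  | C c => rw [algHom_C, algebraMap_eq]; exact isWeightedHomogeneous_C _ _
  | add p q hp hq => rw [map_add]; exact hp.add hq
  | mul_X p i hp =>
    by_cases hi : i ∈ Z
    · simpa [cz, hi] using isWeightedHomogeneous_zero _ _ _
    · have h1 : cz k Z (X i) = X i := by simp [cz, hi]
      have h2 := hp.mul (isWeightedHomogeneous_X k (fun i => if i ∈ Z then 1 else 0 : σ → ℕ) i)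
      rw [map_mul, h1]
      simpa [hi] using h2

theorem linR_scale (Z : Finset σ) (μ : MvPolynomial σ k) (hμ : cz k Z μ = μ)
    (s : MvPolynomial σ k →ₐ[k] MvPolynomial σ k) (hb : ∀ j, j ∉ Z → s (X j) = X j)
    (hz : ∀ j ∈ Z, s (X j) = μ * X j) (e : ℕ) (p : MvPolynomial σ k) :
    weightedHomogeneousComponent (fun i => if i ∈ Z then 1 else 0 : σ → ℕ) e (s p) =
      μ ^ e * weightedHomogeneousComponent (fun i => if i ∈ Z then 1 else 0 : σ → ℕ) e p := by
  set wZ : σ → ℕ := fun i => if i ∈ Z then 1 else 0 with hwZ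
  have h0 : ∀ m : σ →₀ ℕ, s (monomial m 1) = μ ^ (Finsupp.weight wZ m) * monomial m 1 := by
    intro m
    induction m using Finsupp.induction_linear with
    | zero => simp
    | add a b ha hb =>
      rw [← mul_one (1 : k), ← monomial_mul, map_mul, ha, hb, map_add, pow_add]
      ring
    | single i n =>
      rw [← X_pow_eq_monomial, map_pow, Finsupp.weight_single]
      by_cases hi : i ∈ Z
      · simp [hz i hi, hwZ, hi, mul_pow]
      · simp [hb i hi, hwZ, hi]
  induction p using MvPolynomial.induction_on' with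
  | monomial m c =>
    have h1 := isWeightedHomogeneous_monomial wZ m c rfl
    have h2 : s (monomial m c) = μ ^ (Finsupp.weight wZ m) * monomial m c := by
      rw [← mul_one c, ← smul_eq_mul, ← smul_monomial, map_smul, h0, mul_smul_comm]
    have h3 : μ.IsWeightedHomogeneous wZ 0 := hμ ▸ linR_hom_cz Z μ
    have h4 := (h3.pow (Finsupp.weight wZ m)).mul h1
    rw [smul_zero, zero_add] at h4
    rw [h2]
    by_cases he : e = Finsupp.weight wZ m
    · rw [he, h4.weightedHomogeneousComponent_same, h1.weightedHomogeneousComponent_same]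
    · rw [h4.weightedHomogeneousComponent_ne _ he, h1.weightedHomogeneousComponent_ne _ he,
        mul_zero]
  | add a b ha hb => simp only [map_add, mul_add, ha, hb]

omit [DecidableEq σ] in
theorem linR_sum (wZ : σ → ℕ) (r : AA k D σ) : ∃ E : ℕ, ∀ E', E ≤ E' →
    ∑ e ∈ Finset.range E', (weightedHomogeneousComponent wZ e).rTensor D r = r := by
  induction r using TensorProduct.induction_on with
  | zero => exact ⟨0, fun _ _ => by simp⟩
  | tmul p d =>
    induction p using MvPolynomial.induction_on' with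
    | monomial m c =>
      refine ⟨Finsupp.weight wZ m + 1, fun E' hE => ?_⟩
      have h1 := isWeightedHomogeneous_monomial wZ m c rfl
      rw [Finset.sum_eq_single (Finsupp.weight wZ m)]
      · rw [LinearMap.rTensor_tmul, h1.weightedHomogeneousComponent_same]
      · intro e _ he
        rw [LinearMap.rTensor_tmul, h1.weightedHomogeneousComponent_ne _ he, zero_tmul]
      · intro h
        exact absurd (Finset.mem_range.2 hE) h
    | add a b ha hb =>
      obtain ⟨E1, h1⟩ := ha
      obtain ⟨E2, h2⟩ := hb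
      refine ⟨max E1 E2, fun E' hE => ?_⟩
      simp only [add_tmul, map_add, Finset.sum_add_distrib]
      rw [h1 E' (le_trans (le_max_left _ _) hE), h2 E' (le_trans (le_max_right _ _) hE)]
  | add a b ha hb =>
    obtain ⟨E1, h1⟩ := ha
    obtain ⟨E2, h2⟩ := hb
    refine ⟨max E1 E2, fun E' hE => ?_⟩
    simp only [map_add, Finset.sum_add_distrib]
    rw [h1 E' (le_trans (le_max_left _ _) hE), h2 E' (le_trans (le_max_right _ _) hE)]

theorem linR (Z : Finset σ) (μ : MvPolynomial σ k) (hμ : cz k Z μ = μ)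
    (u v : MvPolynomial σ k →ₐ[k] MvPolynomial σ k)
    (hub : ∀ j, j ∉ Z → u (X j) = X j) (hvb : ∀ j, j ∉ Z → v (X j) = X j)
    (hu : ∀ j ∈ Z, ∃ β : σ → MvPolynomial σ k, (∀ i, cz k Z (β i) = β i) ∧
      u (X j) = ∑ i ∈ Z, β i * X i)
    (huv : ∀ j ∈ Z, u (v (X j)) = μ * X j) (hvu : ∀ j ∈ Z, v (u (X j)) = μ * X j)
    (L : Submodule (AA k D σ) (AA k D σ)) (T : Set σ) (hT : T ⊆ Z) (j : σ) (hj : j ∈ Z)
    (hjT : j ∉ T) (r : AA k D σ)
    (h : u (X j) • r ∈ extL Z L ⊔ iA D (Ideal.span ((fun i => u (X i)) '' T))) :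
    ∃ m : ℕ, μ ^ m • r ∈ extL Z L ⊔ iA D (Ideal.span ((fun i => u (X i)) '' T)) := by
  set wZ : σ → ℕ := fun i => if i ∈ Z then 1 else 0 with hwZ
  have h1 := linR_map Z L _ ((fun i => (X i : MvPolynomial σ k)) '' T) v hvb (by
    rintro _ ⟨i, hi, rfl⟩
    rw [hvu i (hT hi)]
    exact Ideal.mul_mem_left _ _ (Ideal.subset_span ⟨i, hi, rfl⟩)) h
  rw [linR_map_smul, hvu j hj, mul_comm, mul_smul] at h1
  have h2 := linR_stab Z L _ (linR_div j)
    (fun i hi a => linR_div_mul (fun hij : i = j => hi (hij ▸ hj)) a) (by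
      rintro _ ⟨i, hi, rfl⟩
      exact ⟨linR_div j, linR_div_mul fun hij : i = j => hjT (hij ▸ hi)⟩) h1
  rw [linR_rT_smul (linR_div j) LinearMap.id (X j) 1
    (fun a => by rw [one_mul]; exact X_mul_divMonomial _ _), one_smul, LinearMap.rTensor_id,
    LinearMap.id_apply] at h2
  have h3 := linR_map Z L _ ((fun i => u (X i)) '' T) u hub (by
    rintro _ ⟨i, hi, rfl⟩
    exact Ideal.subset_span ⟨i, hi, rfl⟩) h2
  have hμu : u μ = μ := by rw [← hμ, linR_fix Z u hub]
  rw [linR_map_smul, hμu] at h3
  have hμ0 : μ.IsWeightedHomogeneous wZ 0 := hμ ▸ linR_hom_cz Z μ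
  have h4 : ∀ e, μ ^ (e + 1) • (weightedHomogeneousComponent wZ e).rTensor D r ∈
      extL Z L ⊔ iA D (Ideal.span ((fun i => u (X i)) '' T)) := by
    intro e
    have h5 := linR_stab Z L _ (weightedHomogeneousComponent wZ e) (fun i hi a => by
      have h6 := isWeightedHomogeneous_X k wZ i
      obtain ⟨Q', hQ, hQ'⟩ := linR_whc_mul h6 e
      rw [hQ, hQ' (by simp [hwZ, hi])]) (by
      rintro _ ⟨i, hi, rfl⟩
      obtain ⟨β, hβ, hβ'⟩ := hu i (hT hi)
      have h6 : (u (X i)).IsWeightedHomogeneous wZ 1 := by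
        rw [hβ']
        refine (weightedHomogeneousSubmodule k wZ 1).sum_mem fun l hl => ?_
        have h7 := (linR_hom_cz Z (β l)).mul (isWeightedHomogeneous_X k wZ l)
        rw [hβ] at h7
        simpa [hwZ, hl] using h7
      obtain ⟨Q', hQ, -⟩ := linR_whc_mul h6 e
      exact ⟨Q', hQ⟩) h3
    obtain ⟨Q', hQ, hQ'⟩ := linR_whc_mul hμ0 e
    rw [linR_rT_smul _ (weightedHomogeneousComponent wZ e) μ μ
      (fun a => by rw [mul_comm, hQ, hQ' rfl, mul_comm])] at h5
    have h8 : ∀ r : AA k D σ, (weightedHomogeneousComponent wZ e).rTensor D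
        (Algebra.TensorProduct.map u (AlgHom.id k D)
          (Algebra.TensorProduct.map v (AlgHom.id k D) r)) =
        μ ^ e • (weightedHomogeneousComponent wZ e).rTensor D r := by
      intro r
      induction r using TensorProduct.induction_on with
      | zero => simp
      | tmul p d =>
        have := linR_scale Z μ hμ (u.comp v) (fun j hj => by simp [hvb j hj, hub j hj]) huv e p
        simp only [Algebra.TensorProduct.map_tmul, LinearMap.rTensor_tmul, smul_tmul',
          smul_eq_mul, AlgHom.id_apply]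
        rw [← this]
        rfl
      | add a b ha hb => simp only [map_add, smul_add, ha, hb]
    rwa [h8, ← mul_smul, ← pow_succ'] at h5
  obtain ⟨E, hE⟩ := linR_sum wZ r
  refine ⟨E, ?_⟩
  rw [← hE E le_rfl, Finset.smul_sum]
  refine Submodule.sum_mem _ fun e he => ?_
  obtain ⟨n, rfl⟩ := Nat.exists_eq_add_of_le' (Nat.succ_le_of_lt (Finset.mem_range.1 he))
  rw [pow_add, mul_smul]
  exact Submodule.smul_of_tower_mem _ _ (h4 e)

end Vale.Agent.P200E
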