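import Vale.Agent.P200E.Defs

namespace Vale.Agent.P200E

open MvPolynomial TensorProduct

universe u

variable {R : Type u} [CommRing R] (q : Ideal R) [q.IsPrime]
  {E F : Type u} [AddCommGroup E] [Module R E] [AddCommGroup F] [Module R F]

theorem Loc0_map_mem {M N : Type*} [AddCommGroup M] [Module R M] [AddCommGroup N] [Module R N]
    (f : M →ₗ[R] N) {I : Ideal R} {x : M} (hx : x ∈ I • (⊤ : Submodule R M)) :
    f x ∈ I • (⊤ : Submodule R N) := by
  have h : f x ∈ (I • (⊤ : Submodule R M)).map f := Submodule.mem_map_of_mem hx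
  rw [Submodule.map_smul''] at h
  exact Submodule.smul_mono le_rfl le_top h

theorem Loc0_mul {s t : R} (hs : s ∉ q) (ht : t ∉ q) : s * t ∉ q := fun h =>
  (‹q.IsPrime›.mem_or_mem h).elim hs ht

theorem Loc0_one : (1 : R) ∉ q := (Ideal.ne_top_iff_one q).1 ‹q.IsPrime›.ne_top

theorem Loc0_mk_mem (I : Ideal R) (x : E) (s : q.primeCompl) :
    LocalizedModule.mk x s ∈ I • (⊤ : Submodule R (LocalizedModule q.primeCompl E)) ↔
      ∃ t ∉ q, t • x ∈ I • (⊤ : Submodule R E) := by
  constructor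
  · intro h
    have key : ∀ m ∈ I • (⊤ : Submodule R (LocalizedModule q.primeCompl E)),
        ∃ y ∈ I • (⊤ : Submodule R E), ∃ s' : q.primeCompl, m = LocalizedModule.mk y s' := by
      intro m hm
      refine Submodule.smul_induction_on hm (fun r hr n _ => ?_) ?_
      · induction n using LocalizedModule.induction_on with
        | h y s' =>
          exact ⟨r • y, Submodule.smul_mem_smul hr Submodule.mem_top, s',
            LocalizedModule.smul'_mk _ _ _⟩
      · rintro _ _ ⟨y, hy, s', rfl⟩ ⟨y', hy', s'', rfl⟩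
        exact ⟨s'' • y + s' • y', add_mem (Submodule.smul_mem _ (s'' : R) hy)
          (Submodule.smul_mem _ (s' : R) hy'), s' * s'', LocalizedModule.mk_add_mk⟩
    obtain ⟨y, hy, s', h1⟩ := key _ h
    obtain ⟨u, hu⟩ := LocalizedModule.mk_eq.1 h1
    refine ⟨u * s', Loc0_mul q u.2 s'.2, ?_⟩
    have h2 : ((u : R) * s') • x = (u : R) • (s : R) • y := by rw [mul_smul]; exact hu
    rw [h2]
    exact Submodule.smul_mem _ _ (Submodule.smul_mem _ _ hy)
  · rintro ⟨t, ht, h⟩
    have h1 := Loc0_map_mem ((LocalizedModule.divBy (⟨t, ht⟩ * s : q.primeCompl)) ∘ₗ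
      LocalizedModule.mkLinearMap q.primeCompl E) h
    have h2 : ((LocalizedModule.divBy (⟨t, ht⟩ * s : q.primeCompl)) ∘ₗ
      LocalizedModule.mkLinearMap q.primeCompl E) (t • x) = LocalizedModule.mk x s := by
      rw [← LocalizedModule.mk_cancel_common_left (⟨t, ht⟩ : q.primeCompl) s x]
      simp only [LinearMap.comp_apply, LocalizedModule.mkLinearMap_apply,
        LocalizedModule.divBy_apply, LocalizedModule.liftOn_mk, one_mul]
      rfl
    rwa [h2] at h1

theorem greg_iff {zs : List R} : GReg q E zs ↔ ∀ (i : ℕ) (hi : i < zs.length) (x : E),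
    zs[i] • x ∈ Ideal.ofList (zs.take i) • (⊤ : Submodule R E) →
      ∃ t ∉ q, t • x ∈ Ideal.ofList (zs.take i) • (⊤ : Submodule R E) := by
  unfold GReg
  rw [RingTheory.Sequence.isWeaklyRegular_iff]
  refine forall₂_congr fun i hi => ?_
  rw [isSMulRegular_quotient_iff_mem_of_smul_mem]
  constructor
  · intro h x hx
    refine (Loc0_mk_mem q _ x 1).1 (h _ ?_)
    rw [LocalizedModule.smul'_mk]
    exact (Loc0_mk_mem q _ _ 1).2 ⟨1, Loc0_one q, by rwa [one_smul]⟩
  · intro h m hm
    induction m using LocalizedModule.induction_on with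
    | h x s =>
      rw [LocalizedModule.smul'_mk] at hm
      obtain ⟨t, ht, h1⟩ := (Loc0_mk_mem q _ _ _).1 hm
      rw [smul_comm] at h1
      obtain ⟨t', ht', h2⟩ := h _ h1
      exact (Loc0_mk_mem q _ _ _).2 ⟨t' * t, Loc0_mul q ht' ht, by rwa [mul_smul]⟩

theorem greg_nil : GReg q E [] := (greg_iff q).2 fun i hi => by simp at hi

theorem greg_equiv (e : E ≃ₗ[R] F) {zs : List R} (h : GReg q E zs) : GReg q F zs := by
  rw [greg_iff] at h ⊢
  intro i hi x hx
  have h1 := Loc0_map_mem e.symm.toLinearMap hx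
  rw [map_smul] at h1
  obtain ⟨t, ht, h2⟩ := h i hi _ h1
  have h3 := Loc0_map_mem e.toLinearMap h2
  refine ⟨t, ht, ?_⟩
  simpa using h3

theorem greg_take {zs : List R} (h : GReg q E zs) (i : ℕ) : GReg q E (zs.take i) := by
  rw [greg_iff] at h ⊢
  intro j hj x hx
  rw [List.length_take] at hj
  have h1 : (zs.take i).take j = zs.take j := by
    rw [List.take_take, min_eq_left (by omega)]
  rw [h1] at hx ⊢
  rw [List.getElem_take] at hx
  exact h j (by omega) x hx

theorem Loc0_succ {zs : List R} {i : ℕ} (hi : i < zs.length) (N : Submodule R E) {x : E} :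
    x ∈ Ideal.ofList (zs.take (i + 1)) • N ↔
      ∃ a ∈ Ideal.ofList (zs.take i) • N, ∃ y ∈ N, x = a + zs[i] • y := by
  rw [List.take_succ_eq_append_getElem hi, Ideal.ofList_append, Ideal.ofList_singleton,
    Submodule.sup_smul, Submodule.ideal_span_singleton_smul, Submodule.mem_sup]
  constructor
  · rintro ⟨a, ha, b, hb, rfl⟩
    obtain ⟨y, hy, rfl⟩ := (Submodule.mem_smul_pointwise_iff_exists _ _ _).1 hb
    exact ⟨a, ha, y, hy, rfl⟩
  · rintro ⟨a, ha, y, hy, rfl⟩
    exact ⟨a, ha, _, Submodule.smul_mem_pointwise_smul _ _ _ hy, rfl⟩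

theorem Loc0_ker (f : F →ₗ[R] E) (hf : Function.Surjective f) {l : List R}
    (hE : GReg q E l) (i : ℕ) (hi : i ≤ l.length) : ∀ x, f x = 0 →
      x ∈ Ideal.ofList (l.take i) • (⊤ : Submodule R F) →
      ∃ t ∉ q, t • x ∈ Ideal.ofList (l.take i) • LinearMap.ker f := by
  rw [greg_iff] at hE
  induction i with
  | zero =>
    intro x _ hx
    refine ⟨1, Loc0_one q, ?_⟩
    simpa using hx
  | succ i ih =>
    intro x h0 hx
    have hi' : i < l.length := hi
    obtain ⟨a, ha, y, -, rfl⟩ := (Loc0_succ hi' _).1 hx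
    have h1 : l[i] • f y ∈ Ideal.ofList (l.take i) • (⊤ : Submodule R E) := by
      have h2 : l[i] • f y = - f a := by
        rw [map_add, map_smul] at h0
        exact eq_neg_of_add_eq_zero_right h0
      rw [h2]
      exact neg_mem (Loc0_map_mem f ha)
    obtain ⟨s, hs, h2⟩ := hE i hi' _ h1
    have h3 : Ideal.ofList (l.take i) • (⊤ : Submodule R E) =
        (Ideal.ofList (l.take i) • (⊤ : Submodule R F)).map f := by
      rw [Submodule.map_smul'', Submodule.map_top, LinearMap.range_eq_top.2 hf]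
    rw [h3] at h2
    obtain ⟨b, hb, h4⟩ := h2
    have h5 : f (s • y - b) = 0 := by rw [map_sub, map_smul, h4, sub_self]
    obtain ⟨t, ht, h6⟩ := ih hi'.le (s • a + l[i] • b) (by
      have : s • a + l[i] • b = s • (a + l[i] • y) - l[i] • (s • y - b) := by
        rw [smul_add, smul_sub, smul_comm s l[i] y]; abel
      rw [this, map_sub, map_smul, h0, map_smul, h5, smul_zero, smul_zero, sub_self])
      (add_mem (Submodule.smul_mem _ _ ha) (Submodule.smul_mem _ _ hb))
    refine ⟨t * s, Loc0_mul q ht hs, (Loc0_succ hi' _).2 ⟨_, h6, t • (s • y - b),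
      Submodule.smul_mem _ _ h5, ?_⟩⟩
    module

theorem greg_ker (f : F →ₗ[R] E) (hf : Function.Surjective f) {l : List R} {z : R}
    (hF : GReg q F (l ++ [z])) (hE : GReg q E l) : GReg q (LinearMap.ker f) (l ++ [z]) := by
  rw [greg_iff] at hF ⊢
  intro i hi x hx
  have hi' : i ≤ l.length := by simpa [Nat.lt_succ_iff] using hi
  have h1 := Loc0_map_mem (LinearMap.ker f).subtype hx
  rw [map_smul] at h1
  obtain ⟨t, ht, h2⟩ := hF i hi _ h1
  rw [List.take_append_of_le_length hi'] at h2 ⊢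
  obtain ⟨s, hs, h3⟩ := Loc0_ker q f hf hE i hi' _ (by
    rw [map_smul, Submodule.subtype_apply, LinearMap.mem_ker.1 x.2, smul_zero]) h2
  refine ⟨s * t, Loc0_mul q hs ht, ?_⟩
  rw [Submodule.mem_smul_top_iff, mul_smul]
  exact h3

theorem greg_of_elem {zs : List R}
    (h : ∀ (i : Fin zs.length) (x : E), zs[i] • x ∈ Ideal.ofList (zs.take i) • (⊤ : Submodule R E) →
      ∃ t ∉ q, t • x ∈ Ideal.ofList (zs.take i) • (⊤ : Submodule R E)) : GReg q E zs :=
  (greg_iff q).2 fun i hi => h ⟨i, hi⟩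

theorem greg_pi {zs : List R} (h : GReg q E zs) (m : ℕ) : GReg q (Fin m → E) zs := by
  rw [greg_iff] at h ⊢
  intro i hi x hx
  have h1 : ∀ j, ∃ t ∉ q, t • x j ∈ Ideal.ofList (zs.take i) • (⊤ : Submodule R E) := fun j =>
    h i hi _ (Loc0_map_mem (LinearMap.proj j : (Fin m → E) →ₗ[R] E) hx)
  choose t ht h2 using h1
  refine ⟨∏ j, t j, (Submonoid.prod_mem q.primeCompl fun j _ => ht j :), ?_⟩
  rw [← Finset.univ_sum_single ((∏ j, t j) • x)]
  refine Submodule.sum_mem _ fun j _ => ?_
  refine Loc0_map_mem (LinearMap.single R (fun _ : Fin m => E) j) ?_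
  rw [← Finset.prod_erase_mul _ _ (Finset.mem_univ j), Pi.smul_apply, mul_smul]
  exact Submodule.smul_mem _ _ (h2 j)

end Vale.Agent.P200E
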