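import Vale.Agent.P200E.Defs

namespace Vale.Agent.P200E

open MvPolynomial TensorProduct

universe u

variable {σ ι : Type}

theorem Num1_single (ψ : ι → ℤ) (n : ℤ) (h : (ι → ℤ) → ℤ) (χ : ι → ℤ) :
    op (AddMonoidAlgebra.single ψ n) h χ = n * h (χ - ψ) := by
  simp [op]

theorem Num1_zero (h : (ι → ℤ) → ℤ) : op (0 : ZL ι) h = 0 := by
  funext χ; simp [op]

theorem op_add (P Q : ZL ι) (h : (ι → ℤ) → ℤ) : op (P + Q) h = op P h + op Q h := by
  funext χ
  simp only [op, AddMonoidAlgebra.coeff_add, Pi.add_apply]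
  exact Finsupp.sum_add_index' (fun _ => by simp) (fun _ _ _ => by ring)

theorem op_mul (P Q : ZL ι) (h : (ι → ℤ) → ℤ) : op (P * Q) h = op P (op Q h) := by
  induction P using AddMonoidAlgebra.induction_linear with
  | zero => simp [Num1_zero]
  | add a b ha hb => rw [add_mul, op_add, op_add, ha, hb]
  | single ψ n =>
    funext χ
    rw [Num1_single]
    induction Q using AddMonoidAlgebra.induction_linear with
    | zero => simp [Num1_zero]
    | add a b ha hb => rw [mul_add, op_add, op_add, Pi.add_apply, Pi.add_apply, ha, hb, mul_add]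
    | single ψ' n' =>
      rw [AddMonoidAlgebra.single_mul_single, Num1_single, Num1_single, sub_sub, mul_assoc]

theorem op_one (h : (ι → ℤ) → ℤ) : op 1 h = h := by
  funext χ
  rw [AddMonoidAlgebra.one_def, Num1_single]; simp

theorem op_ch (ψ : ι → ℤ) (h : (ι → ℤ) → ℤ) : op (ch ψ) h = fun χ => h (χ - ψ) := by
  funext χ
  rw [Num1_single, one_mul]

theorem Num1_sub (P Q : ZL ι) (h : (ι → ℤ) → ℤ) : op (P - Q) h = op P h - op Q h := by
  have := op_add (P - Q) Q h
  rw [sub_add_cancel] at this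
  rw [this, add_sub_cancel_right]

theorem op_one_sub (ψ : ι → ℤ) (h : (ι → ℤ) → ℤ) :
    op (1 - ch ψ) h = fun χ => h χ - h (χ - ψ) := by
  rw [Num1_sub, op_one, op_ch]; rfl

theorem op_add_right (P : ZL ι) (h h' : (ι → ℤ) → ℤ) : op P (h + h') = op P h + op P h' := by
  funext χ
  simp only [op, Pi.add_apply, mul_add, Finsupp.sum, Finset.sum_add_distrib]

theorem op_sub_right (P : ZL ι) (h h' : (ι → ℤ) → ℤ) : op P (h - h') = op P h - op P h' := by
  funext χ
  simp only [op, Pi.sub_apply, mul_sub, Finsupp.sum, Finset.sum_sub_distrib]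

theorem op_coeff (P Q : ZL ι) : op P (fun χ => Q.coeff χ) = fun χ => (P * Q).coeff χ := by
  funext χ
  induction P using AddMonoidAlgebra.induction_linear with
  | zero => simp [Num1_zero]
  | add a b ha hb => rw [add_mul, op_add, Pi.add_apply, ha, hb]; rfl
  | single ψ n =>
    rw [Num1_single, AddMonoidAlgebra.coeff_single_mul_apply, neg_add_eq_sub]

theorem one_sub_mem_aug (ψ : ι → ℤ) : 1 - ch ψ ∈ aug ι := Ideal.subset_span ⟨ψ, rfl⟩

theorem den_mem (w : σ → ι → ℤ) (T : Finset σ) : den w T ∈ aug ι ^ T.card := by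
  classical
  induction T using Finset.induction_on with
  | empty => simp
  | insert i s hi ih =>
    rw [den, Finset.prod_insert hi, Finset.card_insert_of_notMem hi, pow_succ']
    exact Ideal.mul_mem_mul (one_sub_mem_aug _) ih

variable [Fintype σ] {w : σ → ι → ℤ}

theorem HasK.unique {h : (ι → ℤ) → ℤ} {K K' : ZL ι} (h1 : HasK w h K) (h2 : HasK w h K') :
    K = K' := by
  apply AddMonoidAlgebra.coeff_injective
  ext χ
  rw [← h1 χ, ← h2 χ]

theorem HasK.zero : HasK w 0 0 := fun χ => by simp [op]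

theorem HasK.add {h h' : (ι → ℤ) → ℤ} {K K' : ZL ι} (h1 : HasK w h K) (h2 : HasK w h' K') :
    HasK w (h + h') (K + K') := fun χ => by
  rw [op_add_right, Pi.add_apply, h1 χ, h2 χ]; rfl

theorem HasK.sub {h h' : (ι → ℤ) → ℤ} {K K' : ZL ι} (h1 : HasK w h K) (h2 : HasK w h' K') :
    HasK w (h - h') (K - K') := fun χ => by
  rw [op_sub_right, Pi.sub_apply, h1 χ, h2 χ]; rfl

theorem HasK.shift {h : (ι → ℤ) → ℤ} {K : ZL ι} (h1 : HasK w h K) (ψ : ι → ℤ) :
    HasK w (fun χ => h (χ - ψ)) (ch ψ * K) := fun χ => by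
  have e : op (den w Finset.univ) h = fun χ => K.coeff χ := funext h1
  rw [← op_ch, ← op_mul, mul_comm, op_mul, e, op_coeff]

theorem HasK.sum {Γ : Type} (s : Finset Γ) {h : Γ → (ι → ℤ) → ℤ} {K : Γ → ZL ι}
    (h1 : ∀ g ∈ s, HasK w (h g) (K g)) : HasK w (fun χ => ∑ g ∈ s, h g χ) (∑ g ∈ s, K g) := by
  classical
  induction s using Finset.induction_on with
  | empty => exact HasK.zero
  | insert g s hg ih =>
    simp only [Finset.sum_insert hg]
    exact (h1 g (Finset.mem_insert_self _ _)).add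
      (ih fun g' hg' => h1 g' (Finset.mem_insert_of_mem hg'))

theorem HasK.dvd {h : (ι → ℤ) → ℤ} {K : ZL ι} (h1 : HasK w h K) {δ : ℕ}
    (hδ : ∀ χ, (δ : ℤ) ∣ h χ) : ∃ P : ZL ι, K = δ • P := by
  have hd : ∀ χ, (δ : ℤ) ∣ K.coeff χ := fun χ => by
    rw [← h1 χ, op]
    exact Finset.dvd_sum fun ψ _ => Dvd.dvd.mul_left (hδ _) _
  refine ⟨AddMonoidAlgebra.ofCoeff (K.coeff.mapRange (fun n => n / δ) (by simp)), ?_⟩
  apply AddMonoidAlgebra.coeff_injective
  ext χ
  rw [AddMonoidAlgebra.coeff_smul_apply, AddMonoidAlgebra.coeff_ofCoeff, Finsupp.mapRange_apply,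
    nsmul_eq_mul, Int.mul_ediv_cancel' (hd χ)]

variable {δ d c : ℕ} {S : ι → ℤ}

theorem Good.zero : Good w δ S d c 0 :=
  ⟨0, 0, zero_mem _, by simpa using HasK.zero⟩

theorem Good.add {h h' : (ι → ℤ) → ℤ} (h1 : Good w δ S d c h) (h2 : Good w δ S d c h') :
    Good w δ S d c (h + h') := by
  obtain ⟨P, Q, hQ, hK⟩ := h1
  obtain ⟨P', Q', hQ', hK'⟩ := h2
  refine ⟨P + P', Q + Q', add_mem hQ hQ', ?_⟩
  convert hK.add hK' using 1
  simp only [nsmul_eq_mul]; ring

theorem Good.sub {h h' : (ι → ℤ) → ℤ} (h1 : Good w δ S d c h) (h2 : Good w δ S d c h') :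
    Good w δ S d c (h - h') := by
  obtain ⟨P, Q, hQ, hK⟩ := h1
  obtain ⟨P', Q', hQ', hK'⟩ := h2
  refine ⟨P - P', Q - Q', sub_mem hQ hQ', ?_⟩
  convert hK.sub hK' using 1
  simp only [nsmul_eq_mul]; ring

theorem Good.shift {h : (ι → ℤ) → ℤ} (h1 : Good w δ S d c h) (ψ : ι → ℤ) :
    Good w δ S d c fun χ => h (χ - ψ) := by
  obtain ⟨P, Q, hQ, hK⟩ := h1
  refine ⟨ch ψ * P, ch ψ * Q, Ideal.mul_mem_left _ _ hQ, ?_⟩
  convert hK.shift ψ using 1
  simp only [nsmul_eq_mul]; ring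

theorem Good.shift' {h : (ι → ℤ) → ℤ} (h1 : Good w δ S d c h) (ψ : ι → ℤ) :
    Good w δ S d c fun χ => h (χ + ψ) := by
  simpa only [sub_neg_eq_add] using h1.shift (-ψ)

theorem Good.sum {Γ : Type} (s : Finset Γ) {h : Γ → (ι → ℤ) → ℤ}
    (h1 : ∀ g ∈ s, Good w δ S d c (h g)) : Good w δ S d c fun χ => ∑ g ∈ s, h g χ := by
  classical
  induction s using Finset.induction_on with
  | empty => exact Good.zero
  | insert g s hg ih =>
    simp only [Finset.sum_insert hg]
    exact (h1 g (Finset.mem_insert_self _ _)).add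
      (ih fun g' hg' => h1 g' (Finset.mem_insert_of_mem hg'))

theorem Good.of_aug {h : (ι → ℤ) → ℤ} {K : ZL ι} (hK : K ∈ aug ι ^ c) (h1 : HasK w h K) :
    Good w δ S d c h := ⟨0, K, hK, by simpa using h1⟩

omit [Fintype σ] in
theorem Num1_den_equiv (s : (ι → ℤ) ≃+ (ι → ℤ)) (w' : σ → ι → ℤ) (hs : ∀ i, s (w i) = w' i)
    (b : ι → ℤ) (T : Finset σ) (h : (ι → ℤ) → ℤ) (χ : ι → ℤ) :
    op (den w' T) h (s χ + b) = op (den w T) (fun χ => h (s χ + b)) χ := by
  classical
  induction T using Finset.induction_on generalizing χ with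
  | empty => simp [den, op_one]
  | insert i T hi ih =>
    simp only [den, Finset.prod_insert hi] at ih ⊢
    rw [op_mul, op_mul, op_one_sub, op_one_sub]
    simp only
    rw [← ih, ← ih, map_sub, hs, add_sub_right_comm]

theorem HasK.equiv {h : (ι → ℤ) → ℤ} {K : ZL ι} (h1 : HasK w h K) (s : (ι → ℤ) ≃+ (ι → ℤ))
    (τ : σ ≃ σ) (hs : ∀ i, s (w i) = w (τ i)) (b : ι → ℤ) (hh : ∀ χ, h (s χ + b) = h χ) (χ : ι → ℤ) :
    K.coeff (s χ + b) = K.coeff χ := by
  have e : den (fun i => w (τ i)) Finset.univ = den w Finset.univ :=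
    Equiv.prod_comp τ fun i => 1 - ch (w i)
  rw [← h1, ← h1, ← e, Num1_den_equiv s _ hs, funext hh, e]

end Vale.Agent.P200E
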