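import Vale.Agent.P200E.Num1

namespace Vale.Agent.P200E

open MvPolynomial TensorProduct

universe u

variable {σ ι : Type}

theorem Num2a_single (Φ : (ι → ℤ) → ℤ) (ψ : ι → ℤ) (n : ℤ) :
    pr Φ (AddMonoidAlgebra.single ψ n) = n * Φ ψ := by
  simp [pr]

theorem Num2a_zero (Φ : (ι → ℤ) → ℤ) : pr Φ (0 : ZL ι) = 0 := by simp [pr]

theorem pr_add (Φ : (ι → ℤ) → ℤ) (P Q : ZL ι) : pr Φ (P + Q) = pr Φ P + pr Φ Q := by
  simp only [pr, AddMonoidAlgebra.coeff_add]
  exact Finsupp.sum_add_index' (fun _ => by simp) (fun _ _ _ => by ring)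

theorem Num2a_sub (Φ : (ι → ℤ) → ℤ) (P Q : ZL ι) : pr Φ (P - Q) = pr Φ P - pr Φ Q := by
  have := pr_add Φ (P - Q) Q
  rw [sub_add_cancel] at this
  rw [this, add_sub_cancel_right]

theorem pr_ch_mul (Φ : (ι → ℤ) → ℤ) (ψ : ι → ℤ) (P : ZL ι) :
    pr Φ (ch ψ * P) = pr (fun χ => Φ (χ + ψ)) P := by
  induction P using AddMonoidAlgebra.induction_linear with
  | zero => simp [Num2a_zero]
  | add a b ha hb => rw [mul_add, pr_add, pr_add, ha, hb]
  | single χ n =>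
    rw [AddMonoidAlgebra.single_mul_single, Num2a_single, Num2a_single, one_mul, add_comm]

theorem Num2a_fun_sub (Φ Ψ : (ι → ℤ) → ℤ) (P : ZL ι) :
    pr (fun χ => Φ χ - Ψ χ) P = pr Φ P - pr Ψ P := by
  simp only [pr, mul_sub, Finsupp.sum, Finset.sum_sub_distrib]

theorem Num2a_fun_add (Φ Ψ : (ι → ℤ) → ℤ) (P : ZL ι) :
    pr (fun χ => Φ χ + Ψ χ) P = pr Φ P + pr Ψ P := by
  simp only [pr, mul_add, Finsupp.sum, Finset.sum_add_distrib]

theorem Num2a_fun_mul (c : ℤ) (Φ : (ι → ℤ) → ℤ) (P : ZL ι) :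
    pr (fun χ => c * Φ χ) P = c * pr Φ P := by
  simp only [pr, Finsupp.sum, Finset.mul_sum]
  exact Finset.sum_congr rfl fun _ _ => by ring

theorem Num2a_one_sub (Φ : (ι → ℤ) → ℤ) (ψ : ι → ℤ) (P : ZL ι) :
    pr Φ ((1 - ch ψ) * P) = - pr (fun χ => Φ (χ + ψ) - Φ χ) P := by
  rw [sub_mul, one_mul, Num2a_sub, pr_ch_mul, Num2a_fun_sub (fun χ => Φ (χ + ψ)) Φ]
  ring

theorem pr_aug {m : ℕ} {Φ : (ι → ℤ) → ℤ} (hΦ : PolyLt m Φ) {Q : ZL ι} (hQ : Q ∈ aug ι ^ m) :
    pr Φ Q = 0 := by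
  induction m generalizing Φ Q with
  | zero =>
    have : Φ = 0 := hΦ
    subst this
    simp [pr]
  | succ m ih =>
    rw [pow_succ'] at hQ
    refine Submodule.mul_induction_on hQ (fun a ha b hb => ?_)
      (fun x y hx hy => by rw [pr_add, hx, hy, add_zero])
    revert b
    induction ha using Submodule.span_induction with
    | mem x hx =>
      obtain ⟨ψ, rfl⟩ := hx
      intro b hb
      rw [Num2a_one_sub, ih (hΦ ψ) hb, neg_zero]
    | zero => intro b _; rw [zero_mul, Num2a_zero]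
    | add x y _ _ hx hy => intro b hb; rw [add_mul, pr_add, hx b hb, hy b hb, add_zero]
    | smul r x _ hx =>
      intro b hb
      rw [smul_eq_mul, mul_comm r x, mul_assoc]
      exact hx _ (Ideal.mul_mem_left _ _ hb)

theorem Num2a_lt_zero (m : ℕ) : PolyLt m (0 : (ι → ℤ) → ℤ) := by
  induction m with
  | zero => rfl
  | succ m ih =>
    intro ψ
    convert ih using 1
    funext χ; simp

theorem Num2a_lt_succ {m : ℕ} {Φ : (ι → ℤ) → ℤ} (h : PolyLt m Φ) : PolyLt (m + 1) Φ := by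
  induction m generalizing Φ with
  | zero =>
    have : Φ = 0 := h
    subst this
    exact Num2a_lt_zero 1
  | succ m ih => exact fun ψ => ih (h ψ)

theorem PolyLt.mono {m n : ℕ} {Φ : (ι → ℤ) → ℤ} (h : PolyLt m Φ) (hmn : m ≤ n) : PolyLt n Φ := by
  induction hmn with
  | refl => exact h
  | step _ ih => exact Num2a_lt_succ ih

theorem Num2a_lt_add {m : ℕ} {Φ Ψ : (ι → ℤ) → ℤ} (h : PolyLt m Φ) (h' : PolyLt m Ψ) :
    PolyLt m fun χ => Φ χ + Ψ χ := by
  induction m generalizing Φ Ψ with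
  | zero =>
    have e : Φ = 0 := h
    have e' : Ψ = 0 := h'
    subst e e'
    funext χ; simp
  | succ m ih =>
    intro ψ
    convert ih (h ψ) (h' ψ) using 2
    ring

theorem Num2a_lt_smul {m : ℕ} {Φ : (ι → ℤ) → ℤ} (h : PolyLt m Φ) (c : ℤ) :
    PolyLt m fun χ => c * Φ χ := by
  induction m generalizing Φ with
  | zero =>
    have e : Φ = 0 := h
    subst e
    funext χ; simp
  | succ m ih =>
    intro ψ
    convert ih (h ψ) using 2
    ring

theorem Num2a_lt_shift {m : ℕ} {Φ : (ι → ℤ) → ℤ} (h : PolyLt m Φ) (ψ : ι → ℤ) :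
    PolyLt m fun χ => Φ (χ + ψ) := by
  induction m generalizing Φ with
  | zero =>
    have e : Φ = 0 := h
    subst e
    rfl
  | succ m ih =>
    intro ψ'
    convert ih (h ψ') using 3
    rw [add_right_comm]

theorem PolyLt.mul_affine {m : ℕ} {Φ : (ι → ℤ) → ℤ} (h : PolyLt m Φ) (g : (ι → ℤ) →+ ℤ) (b : ℤ) :
    PolyLt (m + 1) fun χ => Φ χ * (g χ + b) := by
  induction m generalizing Φ with
  | zero =>
    have e : Φ = 0 := h
    subst e
    convert Num2a_lt_zero 1 using 1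
    funext χ; simp
  | succ m ih =>
    intro ψ
    convert Num2a_lt_add (ih (h ψ)) (Num2a_lt_smul (Num2a_lt_shift h ψ) (g ψ)) using 2
    simp only [map_add]; ring

theorem polyLt_pow (θ : (ι → ℤ) →+ ℤ) (d : ℕ) : PolyLt (d + 1) fun χ => θ χ ^ d := by
  induction d with
  | zero =>
    intro ψ
    funext χ; simp
  | succ d ih =>
    convert ih.mul_affine θ 0 using 2
    rw [add_zero, pow_succ]

/-- iterated differences of a one variable function -/
theorem Num2a_fwd (θ : (ι → ℤ) →+ ℤ) (S : ι → ℤ) (d : ℕ) (Φ : (ι → ℤ) → ℤ)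
    (hΦ : ∀ χ, Φ (χ + S) = Φ χ) (P : ZL ι) (f : ℤ → ℤ) :
    (-1) ^ d * pr (fun χ => f (θ χ) * Φ χ) ((1 - ch S) ^ d * P) =
      pr (fun χ => (fwdDiff (θ S))^[d] f (θ χ) * Φ χ) P := by
  induction d generalizing f with
  | zero => simp
  | succ d ih =>
    rw [pow_succ' (1 - ch S), mul_assoc, Num2a_one_sub, Function.iterate_succ_apply, ← ih]
    have e : (fun χ => f (θ (χ + S)) * Φ (χ + S) - f (θ χ) * Φ χ) =
        fun χ => fwdDiff (θ S) f (θ χ) * Φ χ := by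
      funext χ
      rw [hΦ, map_add, fwdDiff]; ring
    rw [e]; ring

theorem Num2a_fwd_pow (s : ℤ) (d : ℕ) (x : ℤ) :
    (fwdDiff s)^[d] (fun t : ℤ => t ^ d) x = s ^ d * (d.factorial : ℤ) := by
  have h1 := congrFun (fwdDiff_iter_eq_factorial (R := ℚ) (n := d))
  by_cases hs : s = 0
  · subst hs
    cases d with
    | zero => simp
    | succ d =>
      rw [Function.iterate_succ_apply']
      simp [fwdDiff]
  · have hs' : (s : ℚ) ≠ 0 := by exact_mod_cast hs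
    have h2 := h1 ((x : ℚ) / s)
    rw [fwdDiff_iter_eq_sum_shift] at h2 ⊢
    have h3 : ((∑ k ∈ Finset.range (d + 1),
        ((-1 : ℤ) ^ (d - k) * (d.choose k)) • (x + k • s) ^ d : ℤ) : ℚ) =
        (s : ℚ) ^ d * ∑ k ∈ Finset.range (d + 1),
          ((-1 : ℤ) ^ (d - k) * (d.choose k)) • ((x : ℚ) / s + k • (1 : ℚ)) ^ d := by
      rw [Finset.mul_sum]
      push_cast
      refine Finset.sum_congr rfl fun k _ => ?_
      simp only [zsmul_eq_mul, nsmul_eq_mul, mul_one]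
      push_cast
      rw [mul_left_comm, ← mul_pow]
      congr 2
      field_simp
    rw [h2] at h3
    have h4 : ((d.factorial : ℚ → ℚ)) ((x : ℚ) / s) = (d.factorial : ℚ) := rfl
    rw [h4] at h3
    apply Int.cast_injective (α := ℚ)
    rw [h3]; push_cast; ring

theorem Num2a_den (θ : (ι → ℤ) →+ ℤ) (w : σ → ι → ℤ) (hθ : ∀ i, θ (w i) = 1) (T : Finset σ)
    (P : ZL ι) (f : ℤ → ℤ) :
    (-1) ^ T.card * pr (fun χ => f (θ χ)) (den w T * P) =
      pr (fun χ => (fwdDiff (1 : ℤ))^[T.card] f (θ χ)) P := by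
  classical
  induction T using Finset.induction_on generalizing f with
  | empty => simp [den]
  | insert i T hi ih =>
    rw [den, Finset.prod_insert hi, Finset.card_insert_of_notMem hi, mul_assoc, Num2a_one_sub,
      Function.iterate_succ_apply, ← ih]
    have e : (fun χ => f (θ (χ + w i)) - f (θ χ)) = fun χ => fwdDiff 1 f (θ χ) := by
      funext χ
      rw [map_add, hθ, fwdDiff]
    rw [e, den]; ring

theorem pr_den (θ : (ι → ℤ) →+ ℤ) (w : σ → ι → ℤ) (hθ : ∀ i, θ (w i) = 1) (T : Finset σ)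
    (ψ : ι → ℤ) : (-1) ^ T.card * pr (fun χ => θ χ ^ T.card) (ch ψ * den w T) =
      (T.card.factorial : ℤ) := by
  rw [mul_comm (ch ψ), Num2a_den θ w hθ T (ch ψ) fun t => t ^ T.card, Num2a_single,
    Num2a_fwd_pow]
  simp

theorem pr_one_sub_pow (θ : (ι → ℤ) →+ ℤ) (S : ι → ℤ) (d : ℕ) (Φ : (ι → ℤ) → ℤ)
    (hΦ : ∀ χ, Φ (χ + S) = Φ χ) (P : ZL ι) :
    (-1) ^ d * pr (fun χ => θ χ ^ d * Φ χ) ((1 - ch S) ^ d * P) =
      θ S ^ d * (d.factorial : ℤ) * pr Φ P := by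
  rw [Num2a_fwd θ S d Φ hΦ P fun t => t ^ d, ← Num2a_fun_mul]
  simp only [Num2a_fwd_pow]

theorem rho_eq [Fintype σ] {w : σ → ι → ℤ} (θ : (ι → ℤ) →+ ℤ) (d : ℕ) {h : (ι → ℤ) → ℤ} {K : ZL ι}
    (hK : HasK w h K) : rho w θ d h = (-1) ^ d * pr (fun χ => θ χ ^ d) K := by
  rw [rho, pr, Finsupp.sum]
  congr 1
  simp only [hK _]
  refine finsum_eq_sum_of_support_subset _ fun χ hχ => ?_
  exact Finsupp.mem_support_iff.2 (left_ne_zero_of_mul hχ)

end Vale.Agent.P200E
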