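import Vale.Agent.P200E.Bas

namespace Vale.Agent.P200E

open MvPolynomial TensorProduct

universe u

variable {k D : Type u} [Field k] [DivisionRing D] [Algebra k D] [FiniteDimensional k D]
  {σ ι : Type} [Fintype σ] [DecidableEq σ] {d : ℕ} {Y : Sys k σ ι d}

theorem aa_domain (x y : AA k D σ) (h : x * y = 0) : x = 0 ∨ y = 0 := by

  let Φ : AA k D σ →ₐ[k] AddMonoidAlgebra D (σ →₀ ℕ) :=
    Algebra.TensorProduct.lift (AddMonoidAlgebra.mapAlgHom _ (Algebra.ofId k D))
      AddMonoidAlgebra.singleZeroAlgHom (fun p e => by
        induction p using AddMonoidAlgebra.induction_linear with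
        | zero => simp
        | add p q hp hq => rw [map_add]; exact hp.add_left hq
        | single m c =>
          simp only [AddMonoidAlgebra.mapAlgHom_single, AddMonoidAlgebra.singleZeroAlgHom_apply]
          unfold Commute SemiconjBy
          rw [AddMonoidAlgebra.single_mul_single, AddMonoidAlgebra.single_mul_single, add_comm]
          congr 1
          exact Algebra.commutes c e)
  let Ψ : AddMonoidAlgebra D (σ →₀ ℕ) →+ AA k D σ :=
    (Finsupp.liftAddHom fun m => (TensorProduct.mk k (MvPolynomial σ k) D
      (monomial m 1)).toAddMonoidHom).comp AddMonoidAlgebra.coeffAddEquiv.toAddMonoidHom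
  have key : ∀ z, Ψ (Φ z) = z := by
    intro z
    induction z using TensorProduct.induction_on with
    | zero => simp
    | add a b ha hb => rw [map_add, map_add, ha, hb]
    | tmul p e =>
      induction p using AddMonoidAlgebra.induction_linear with
      | zero => simp
      | add p q hp hq => rw [add_tmul, map_add, map_add, hp, hq]
      | single m c =>
        have h1 : Φ (AddMonoidAlgebra.single m c ⊗ₜ[k] e) = AddMonoidAlgebra.single m (c • e) := by
          simp only [Φ, Algebra.TensorProduct.lift_tmul, AddMonoidAlgebra.mapAlgHom_single,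
            AddMonoidAlgebra.singleZeroAlgHom_apply, AddMonoidAlgebra.single_mul_single, add_zero]
          congr 1
          exact (Algebra.smul_def c e).symm
        have h2 : Ψ (AddMonoidAlgebra.single m (c • e)) = monomial m 1 ⊗ₜ[k] (c • e) := by
          simp [Ψ]
        rw [h1, h2, ← smul_tmul, smul_monomial, smul_eq_mul, mul_one]
        rfl
  have hinj : ∀ z, Φ z = 0 → z = 0 := fun z hz => by rw [← key z, hz, map_zero]
  have h' : Φ x * Φ y = 0 := by rw [← map_mul, h, map_zero]
  exact (mul_eq_zero.1 h').imp (hinj x) (hinj y)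

theorem mem_iA_ker (ψ : MvPolynomial σ k →ₐ[k] MvPolynomial σ k) (x : AA k D σ) :
    x ∈ iA D (RingHom.ker ψ) ↔ Algebra.TensorProduct.map ψ (AlgHom.id k D) x = 0 := by

  constructor
  · intro hx
    induction hx using Submodule.span_induction with
    | mem z hz =>
      obtain ⟨r, hr, rfl⟩ := hz
      have : ψ r = 0 := hr
      simp [this]
    | zero => exact map_zero _
    | add a b _ _ ha hb => rw [map_add, ha, hb, add_zero]
    | smul a b _ hb => rw [smul_eq_mul, map_mul, hb, mul_zero]
  · intro hx
    have hex := Module.Flat.rTensor_exact D (LinearMap.exact_subtype_ker_map ψ.toLinearMap)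
    obtain ⟨y, rfl⟩ := (hex x).1 hx
    clear hx
    induction y using TensorProduct.induction_on with
    | zero => simp
    | add a b ha hb => rw [map_add]; exact add_mem ha hb
    | tmul r e =>
      have : (LinearMap.ker ψ.toLinearMap).subtype.rTensor D (r ⊗ₜ[k] e) =
          ((1 : MvPolynomial σ k) ⊗ₜ[k] e : AA k D σ) • ((r : MvPolynomial σ k) ⊗ₜ[k] (1 : D)) := by
        simp [Algebra.TensorProduct.tmul_mul_tmul]
      rw [this]
      exact Submodule.smul_mem _ _ (Submodule.subset_span ⟨r, r.2, rfl⟩)

theorem Sys.J_le_PP (Y : Sys k σ ι d) : Y.J ≤ Y.PP := by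

  intro r hr
  exact ⟨1, one_ne_zero, map_one _, by simpa using hr⟩

end Vale.Agent.P200E
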