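import Vale.Agent.P200E.Def2

namespace Vale.Agent.P200E

open MvPolynomial TensorProduct

universe u

variable {k : Type u} [Field k]

/-- Gaussian coefficients -/
def qb1c (ζ : k) : ℕ → ℕ → k
  | _, 0 => 1
  | 0, _ + 1 => 0
  | n + 1, i + 1 => ζ ^ (i + 1) * qb1c ζ n (i + 1) + qb1c ζ n i

theorem qb1c_zero (ζ : k) (n : ℕ) : qb1c ζ n 0 = 1 := by cases n <;> rfl

theorem qb1c_gt (ζ : k) : ∀ n i, n < i → qb1c ζ n i = 0 := by
  intro n
  induction n with
  | zero =>
    intro i hi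
    obtain ⟨i, rfl⟩ := Nat.exists_eq_succ_of_ne_zero hi.ne'
    rfl
  | succ n ih =>
    intro i hi
    obtain ⟨i, rfl⟩ := Nat.exists_eq_succ_of_ne_zero (by omega : i ≠ 0)
    rw [qb1c, ih _ (by omega), ih _ (by omega)]
    simp

theorem qb1c_self (ζ : k) (n : ℕ) : qb1c ζ n n = 1 := by
  induction n with
  | zero => rfl
  | succ n ih => rw [qb1c, ih, qb1c_gt _ _ _ (Nat.lt_succ_self n)]; simp

theorem qb1c_rel (ζ : k) : ∀ n i,
    ζ ^ i * (1 - ζ ^ (i + 1)) * qb1c ζ n (i + 1) = (ζ ^ i - ζ ^ n) * qb1c ζ n i := by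
  intro n
  induction n with
  | zero =>
    intro i
    cases i with
    | zero => simp [qb1c]
    | succ i => simp [qb1c]
  | succ n ih =>
    intro i
    cases i with
    | zero =>
      have h := ih 0
      have h1 : qb1c ζ (n + 1) (0 + 1) = ζ ^ (0 + 1) * qb1c ζ n (0 + 1) + qb1c ζ n 0 := rfl
      rw [h1, qb1c_zero, qb1c_zero]
      rw [qb1c_zero] at h
      linear_combination ζ * h
    | succ i =>
      have h1 := ih i
      have h2 := ih (i + 1)
      rw [qb1c, qb1c]
      linear_combination ζ ^ (i + 2) * h2 + ζ * h1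

theorem qb1c_prim {ζ : k} {n : ℕ} (hζ : IsPrimitiveRoot ζ n) :
    ∀ i, i + 1 < n → qb1c ζ n (i + 1) = 0 := by
  intro i
  have hne : ∀ i, i + 1 < n → ζ ^ i * (1 - ζ ^ (i + 1)) ≠ 0 := fun i hi =>
    mul_ne_zero (pow_ne_zero _ (hζ.ne_zero (by omega)))
      (sub_ne_zero.2 (hζ.pow_ne_one_of_pos_of_lt (by omega) hi).symm)
  induction i with
  | zero =>
    intro hi
    have h := qb1c_rel ζ n 0
    rw [hζ.pow_eq_one, pow_zero, sub_self, zero_mul] at h
    have h2 := hne 0 hi
    rw [pow_zero] at h2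
    exact (mul_eq_zero.1 h).resolve_left h2
  | succ i ih =>
    intro hi
    have h := qb1c_rel ζ n (i + 1)
    rw [ih (by omega), mul_zero] at h
    exact (mul_eq_zero.1 h).resolve_left (hne _ hi)

theorem qb1_mul_pow {B : Type u} [Ring B] [Algebra k B] {ζ : k} {x y : B}
    (hxy : x * y = ζ • (y * x)) (i : ℕ) : x * y ^ i = ζ ^ i • (y ^ i * x) := by
  induction i with
  | zero => simp
  | succ i ih =>
    rw [pow_succ, ← mul_assoc, ih, smul_mul_assoc, mul_assoc, hxy, mul_smul_comm, smul_smul,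
      ← mul_assoc, ← pow_succ]

theorem qb1_expand {B : Type u} [Ring B] [Algebra k B] {ζ : k} {x y : B}
    (hxy : x * y = ζ • (y * x)) (n : ℕ) :
    (x + y) ^ n = ∑ i ∈ Finset.range (n + 1), qb1c ζ n i • (y ^ i * x ^ (n - i)) := by
  induction n with
  | zero => simp [qb1c]
  | succ n ih =>
    rw [pow_succ', ih, add_mul, Finset.mul_sum, Finset.mul_sum, Finset.sum_range_succ' _ (n + 1)]
    simp only [qb1c, add_smul, Finset.sum_add_distrib, Nat.add_sub_add_right]
    rw [add_right_comm]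
    congr 1
    · rw [Finset.sum_range_succ' _ n, Finset.sum_range_succ _ n, qb1c_gt _ _ _ (Nat.lt_succ_self n)]
      simp only [mul_zero, zero_smul, add_zero]
      congr 1
      · refine Finset.sum_congr rfl fun i hi => ?_
        have hi' : n - i = n - (i + 1) + 1 := by
          have := Finset.mem_range.1 hi
          omega
        rw [mul_smul_comm, ← mul_assoc, qb1_mul_pow hxy, smul_mul_assoc, smul_smul, mul_assoc,
          ← pow_succ', hi', mul_comm (qb1c _ _ _)]
      · simp [qb1c_zero, pow_succ']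
    · refine Finset.sum_congr rfl fun i _ => ?_
      rw [mul_smul_comm, ← mul_assoc, ← pow_succ']

theorem qb1_prim {B : Type u} [Ring B] [Algebra k B] {ζ : k} {x y : B} {n : ℕ} (hn : 0 < n)
    (hζ : IsPrimitiveRoot ζ n) (hxy : x * y = ζ • (y * x)) : (x + y) ^ n = x ^ n + y ^ n := by
  obtain ⟨n, rfl⟩ := Nat.exists_eq_succ_of_ne_zero hn.ne'
  rw [qb1_expand hxy, Finset.sum_range_succ, Finset.sum_range_succ', Finset.sum_eq_zero]
  · simp [qb1c_zero, qb1c_self]
  · intro i hi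
    rw [qb1c_prim hζ i (by have := Finset.mem_range.1 hi; omega), zero_smul]
theorem QR.pow_eq_one {a : ℕ} {ζ : k} (h : QR a ζ) : ζ ^ a = 1 := by
  obtain ⟨p, e, a', -, rfl, h⟩ := h
  rw [mul_comm, pow_mul, h.pow_eq_one, one_pow]

theorem QR.map {k' : Type u} [Field k'] [Algebra k k'] {a : ℕ} {ζ : k} (h : QR a ζ) :
    QR a (algebraMap k k' ζ) := by
  obtain ⟨p, e, a', hp, rfl, h⟩ := h
  exact ⟨p, e, a', expChar_of_injective_algebraMap (algebraMap k k').injective p, rfl,
    h.map_of_injective (algebraMap k k').injective⟩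

theorem exists_QR [IsAlgClosed k] {a : ℕ} (ha : 0 < a) : ∃ ζ : k, QR a ζ := by
  obtain ⟨p, hp⟩ := ExpChar.exists k
  have key : ∀ e a' : ℕ, a = p ^ e * a' → (a' : k) ≠ 0 → ∃ ζ : k, QR a ζ := by
    intro e a' h1 h2
    have : NeZero (a' : k) := ⟨h2⟩
    obtain ⟨ζ, hζ⟩ := HasEnoughRootsOfUnity.exists_primitiveRoot k a'
    exact ⟨ζ, p, e, a', hp, h1, hζ⟩
  cases hp with
  | zero => exact key 0 a (by simp) (Nat.cast_ne_zero.2 ha.ne')
  | prime hprime =>
    obtain ⟨e, a', h1, h2⟩ := Nat.exists_eq_pow_mul_and_not_dvd ha.ne' p hprime.ne_one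
    exact key e a' h2 fun h => h1 ((CharP.cast_eq_zero_iff k p a').1 h)

theorem QR.add_pow {B : Type u} [Ring B] [Algebra k B] {a : ℕ} (ha : 0 < a) {ζ : k} (h : QR a ζ)
    {x y : B} (hxy : x * y = ζ • (y * x)) : (x + y) ^ a = x ^ a + y ^ a := by
  obtain ⟨p, e, a', hp, rfl, h⟩ := h
  rcases subsingleton_or_nontrivial B with hB | hB
  · exact Subsingleton.elim _ _
  have := expChar_of_injective_algebraMap (algebraMap k B).injective p
  have ha' : 0 < a' := Nat.pos_of_mul_pos_left ha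
  have hc : Commute x (y ^ a') := by
    change x * y ^ a' = y ^ a' * x
    rw [qb1_mul_pow hxy, h.pow_eq_one, one_smul]
  rw [mul_comm, pow_mul, pow_mul, pow_mul, qb1_prim ha' h hxy,
    add_pow_expChar_pow_of_commute _ _ (hc.pow_left a')]

theorem QR.sum_pow {B : Type u} [Ring B] [Algebra k B] {a : ℕ} (ha : 0 < a) {ζ : k} (h : QR a ζ)
    {N : ℕ} (x : Fin N → B) (hx : ∀ l m, l < m → x l * x m = ζ • (x m * x l)) :
    (∑ l, x l) ^ a = ∑ l, x l ^ a := by
  induction N with
  | zero => simp [ha.ne']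
  | succ N ih =>
    rw [Fin.sum_univ_succ, Fin.sum_univ_succ, h.add_pow ha, ih]
    · intro l m hlm
      exact hx _ _ (Fin.succ_lt_succ_iff.2 hlm)
    · rw [Finset.mul_sum, Finset.sum_mul, Finset.smul_sum]
      exact Finset.sum_congr rfl fun m _ => hx _ _ (Fin.succ_pos m)

end Vale.Agent.P200E
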