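import Vale.Agent.P200E.QB1
import Vale.Agent.P200E.Act

namespace Vale.Agent.P200E

open MvPolynomial TensorProduct

universe u

variable {k : Type u} [Field k] {N a c d : ℕ} [NeZero a]

/-- polynomials over the coefficient ring inside the tensor product -/
noncomputable def qb2Phi {Ω B : Type u} [CommRing Ω] [Algebra k Ω] [Ring B] [Algebra k B]
    (c : ℕ) (j : Ω →ₐ[k] B) : MvPolynomial (Fin c) Ω →ₐ[k] B ⊗[k] MvPolynomial (Fin c) k :=
  (Algebra.TensorProduct.map j (AlgHom.id k _)).comp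
    ((algebraTensorAlgEquiv k Ω).symm.toAlgHom.restrictScalars k)

theorem qb2Phi_monomial {Ω B : Type u} [CommRing Ω] [Algebra k Ω] [Ring B] [Algebra k B]
    (j : Ω →ₐ[k] B) (α : Fin c →₀ ℕ) (r : Ω) :
    qb2Phi c j (monomial α r) = j r ⊗ₜ[k] monomial α 1 := by
  simp [qb2Phi]

theorem qb2Phi_CX {Ω B : Type u} [CommRing Ω] [Algebra k Ω] [Ring B] [Algebra k B]
    (j : Ω →ₐ[k] B) (κ : Fin c) (r : Ω) :
    qb2Phi c j (C r * X κ) = j r ⊗ₜ[k] X κ := by
  rw [C_mul_X_eq_monomial, qb2Phi_monomial]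
  rfl

theorem qb2Phi_comm {Ω B : Type u} [CommRing Ω] [Algebra k Ω] [Ring B] [Algebra k B]
    (j : Ω →ₐ[k] B) (g : Ω →ₐ[k] Ω) (y : B) (hy : ∀ r, y * j r = j (g r) * y)
    (q : MvPolynomial (Fin c) Ω) :
    (y ⊗ₜ[k] (1 : MvPolynomial (Fin c) k)) * qb2Phi c j q =
      qb2Phi c j (MvPolynomial.map g.toRingHom q) * (y ⊗ₜ[k] 1) := by
  induction q using MvPolynomial.induction_on' with
  | monomial α r =>
    rw [map_monomial, qb2Phi_monomial, qb2Phi_monomial, Algebra.TensorProduct.tmul_mul_tmul,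
      Algebra.TensorProduct.tmul_mul_tmul, hy, one_mul, mul_one]
    rfl
  | add p q hp hq => simp only [map_add, mul_add, add_mul, hp, hq]

theorem qb2Phi_dec {f : Fin c → MvPolynomial (Fin c) k}
    {lam : Fin d → MvPolynomial (Fin c) k →ₗ[k] k}
    {nu : Fin c → MvPolynomial (Fin c) k →ₗ[k] k} {qq : Fin d → MvPolynomial (Fin c) k} {a : ℕ}
    (hD : Dec a f lam nu qq) {Ω B : Type u} [CommRing Ω] [Algebra k Ω] [Ring B] [Algebra k B]
    (j : Ω →ₐ[k] B) {q : MvPolynomial (Fin c) Ω} (hq : q.IsHomogeneous a) :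
    qb2Phi c j q = ∑ i, j (lamE (nu i) q) ⊗ₜ[k] f i + ∑ i, j (lamE (lam i) q) ⊗ₜ[k] qq i := by
  conv_lhs => rw [q.as_sum, map_sum]
  simp only [lamE, map_sum, map_smul, sum_tmul]
  rw [Finset.sum_comm, Finset.sum_comm (t := q.support), ← Finset.sum_add_distrib]
  refine Finset.sum_congr rfl fun α hα => ?_
  have h1 : (monomial α (1 : k)).IsHomogeneous a :=
    isHomogeneous_monomial _ (by
      rw [Finsupp.degree_eq_weight_one]
      exact hq (mem_support_iff.1 hα))
  rw [qb2Phi_monomial]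
  conv_lhs => rw [hD.dec _ h1]
  simp only [tmul_add, tmul_sum, smul_tmul]

theorem qb2_gg_hom : (gg k N a c).IsHomogeneous a := by
  refine IsHomogeneous.sum _ _ _ fun l _ => ?_
  have h := IsHomogeneous.prod Finset.univ (fun t : ZMod a => lab k c l t) (fun _ => 1)
    fun t _ => IsHomogeneous.sum _ _ _ fun κ _ => isHomogeneous_C_mul_X _ _
  simpa using h

theorem qb2_prod_range {M : Type*} [CommMonoid M] (F : ZMod a → M) :
    ∏ s ∈ Finset.range a, F s = ∏ t, F t := by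
  refine Finset.prod_nbij' (fun s : ℕ => (s : ZMod a)) ZMod.val (fun _ _ => Finset.mem_univ _)
    (fun t _ => Finset.mem_range.2 (ZMod.val_lt t))
    (fun s hs => ZMod.val_cast_of_lt (Finset.mem_range.1 hs)) (fun t _ => ZMod.natCast_zmod_val t)
    fun _ _ => rfl

theorem qb2_act_lab (ha : 2 ≤ a) (ζ : k) (l m : Fin N) (t : ZMod a) :
    MvPolynomial.map (act c ζ (Pi.single l 1)).toRingHom (lab k c m t) =
      (if l < m then ζ else 1) • lab k c m (t + if m = l then 1 else 0) := by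
  have : Fact (1 < a) := ⟨ha⟩
  have h : ∑ m' ∈ Finset.univ.filter (· < m), ((Pi.single l 1 : Fin N → ZMod a) m').val =
      if l < m then 1 else 0 := by
    simp only [Pi.single_apply, apply_ite ZMod.val, ZMod.val_one, ZMod.val_zero]
    simp
  rw [map_act_lab, h, Pi.single_apply]
  split_ifs <;> simp [Algebra.smul_def]
theorem gen_pow {ζ : k} (hζ : QR a ζ) {f : Fin c → MvPolynomial (Fin c) k}
    {lam : Fin d → MvPolynomial (Fin c) k →ₗ[k] k}
    {nu : Fin c → MvPolynomial (Fin c) k →ₗ[k] k} {qq : Fin d → MvPolynomial (Fin c) k}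
    (hD : Dec a f lam nu qq) (ha : 2 ≤ a) {B : Type u} [Ring B] [Algebra k B]
    (j : MvPolynomial (SG N a c) k →ₐ[k] B) (y : Fin N → B)
    (hy : ∀ l r, y l * j r = j (act c ζ (Pi.single l 1) r) * y l)
    (hyy : ∀ l m, y l * y m = y m * y l) (hya : ∀ l, y l ^ a = 1) :
    (∑ κ, (∑ l, j (X (l, 0, κ)) * y l) ⊗ₜ[k] (X κ : MvPolynomial (Fin c) k)) ^ a =
      ∑ i, j (lamE (nu i) (gg k N a c)) ⊗ₜ[k] f i +
        ∑ i, j (lamE (lam i) (gg k N a c)) ⊗ₜ[k] qq i := by
  let Y : Fin N → B ⊗[k] MvPolynomial (Fin c) k := fun l => y l ⊗ₜ[k] 1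
  let u : Fin N → B ⊗[k] MvPolynomial (Fin c) k := fun l => qb2Phi c j (lab k c l 0) * Y l
  have hY : ∀ l q, Y l * qb2Phi c j q =
      qb2Phi c j (MvPolynomial.map (act c ζ (Pi.single l 1)).toRingHom q) * Y l :=
    fun l q => qb2Phi_comm j _ _ (hy l) q
  have hYY : ∀ l m, Y l * Y m = Y m * Y l := fun l m => by
    simp only [Y, Algebra.TensorProduct.tmul_mul_tmul, hyy l m]
  have h1 : ∑ κ, (∑ l, j (X (l, 0, κ)) * y l) ⊗ₜ[k] (X κ : MvPolynomial (Fin c) k) = ∑ l, u l := by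
    simp only [u, Y, lab, map_sum, qb2Phi_CX, Finset.sum_mul, Algebra.TensorProduct.tmul_mul_tmul,
      mul_one, sum_tmul]
    exact Finset.sum_comm
  have h2 : ∀ l m, l < m → u l * u m = ζ • (u m * u l) := by
    intro l m hlm
    have e1 : ∀ l m, u l * u m = qb2Phi c j (lab k c l 0 *
        MvPolynomial.map (act c ζ (Pi.single l 1)).toRingHom (lab k c m 0)) * (Y l * Y m) := by
      intro l m
      simp only [u]
      rw [map_mul, mul_assoc, ← mul_assoc (Y l), hY]
      simp only [mul_assoc]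
    rw [e1, e1, qb2_act_lab ha, qb2_act_lab ha, if_pos hlm, if_neg hlm.not_gt, if_neg hlm.ne,
      if_neg hlm.ne', hYY m l, one_smul, add_zero, mul_smul_comm, map_smul, smul_mul_assoc,
      mul_comm (lab k c l 0)]
  have h3 : ∀ l n, u l ^ n =
      qb2Phi c j (∏ s ∈ Finset.range n, lab k c l (s : ZMod a)) * Y l ^ n := by
    intro l n
    induction n with
    | zero => simp
    | succ n ih =>
      rw [pow_succ', ih, Finset.prod_range_succ', mul_comm (∏ _ ∈ _, _), map_mul, pow_succ']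
      simp only [u]
      rw [mul_assoc, ← mul_assoc (Y l), hY, map_prod]
      simp only [qb2_act_lab ha, lt_irrefl, if_false, if_true, one_smul, mul_assoc, Nat.cast_add,
        Nat.cast_one, Nat.cast_zero]
  have h4 : ∀ l, Y l ^ a = 1 := fun l => by
    simp only [Y, Algebra.TensorProduct.tmul_pow, hya, one_pow]
    rfl
  rw [h1, hζ.sum_pow (by omega) u h2, ← qb2Phi_dec hD j qb2_gg_hom, gg, map_sum]
  refine Finset.sum_congr rfl fun l _ => ?_
  rw [h3, h4, mul_one, qb2_prod_range]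

end Vale.Agent.P200E
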