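import Vale.Agent.P200E.RHom0

namespace Vale.Agent.P200E

open MvPolynomial TensorProduct

universe u

variable {k D : Type u} [Field k] [DivisionRing D] [Algebra k D] [FiniteDimensional k D]
  {N a c d : ℕ} [NeZero a]
variable {ζ : k} [Fact (ζ ^ a = 1)]

omit [FiniteDimensional k D] in
theorem rhom_mul0 (χ ψ : IG N a → ℤ) (x y : AA k D (SG N a c)) :
    (weightedHomogeneousComponent gw (χ + ψ)).rTensor D
      ((weightedHomogeneousComponent gw χ).rTensor D x *
        (weightedHomogeneousComponent gw ψ).rTensor D y) =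
      (weightedHomogeneousComponent gw χ).rTensor D x *
        (weightedHomogeneousComponent gw ψ).rTensor D y := by
  induction x using TensorProduct.induction_on with
  | zero => simp
  | tmul r s =>
    induction y using TensorProduct.induction_on with
    | zero => simp
    | tmul r' s' =>
      simp only [LinearMap.rTensor_tmul, Algebra.TensorProduct.tmul_mul_tmul]
      rw [((weightedHomogeneousComponent_isWeightedHomogeneous χ r).mul
        (weightedHomogeneousComponent_isWeightedHomogeneous ψ r')).weightedHomogeneousComponent_same]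
    | add y z hy hz => simp only [map_add, mul_add, hy, hz]
  | add x z hx hz => simp only [map_add, add_mul, hx, hz]

omit [FiniteDimensional k D] in
theorem rhom_mul {χ ψ : IG N a → ℤ} {x y : AA k D (SG N a c)}
    (hx : (weightedHomogeneousComponent gw χ).rTensor D x = x)
    (hy : (weightedHomogeneousComponent gw ψ).rTensor D y = y) :
    (weightedHomogeneousComponent gw (χ + ψ)).rTensor D (x * y) = x * y := by
  have h := rhom_mul0 χ ψ x y
  rwa [hx, hy] at h

theorem rhom_act {χ : IG N a → ℤ} {y : AA k D (SG N a c)} (γ : GG N a ζ)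
    (hy : (weightedHomogeneousComponent gw χ).rTensor D y = y) :
    (weightedHomogeneousComponent gw (sL γ.v χ)).rTensor D (γ • y) = γ • y := by
  rw [gAct_def, actA_whc, hy]

omit [Fact (ζ ^ a = 1)] in
theorem rhom_cc (γ δ : GG N a ζ) : cc δ.v = cc γ.v + sL γ.v (cc (γ⁻¹ * δ).v) := by
  rw [← cc_add, ← GG.v_mul, mul_inv_cancel_left]

omit [FiniteDimensional k D] [Fact (ζ ^ a = 1)] in
theorem rhom_single {χ : IG N a → ℤ} (γ : GG N a ζ) {r : AA k D (SG N a c)}
    (hr : (weightedHomogeneousComponent gw (χ - cc γ.v)).rTensor D r = r) :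
    SkewMonoidAlgebra.single γ r ∈ RH D c ζ χ := by
  intro δ
  rw [SkewMonoidAlgebra.coeff_single_apply]
  split_ifs with h
  · subst h
    exact hr
  · exact map_zero _

theorem RH_mul {χ : IG N a → ℤ} {j : ℤ} {x y : RR D N a c ζ} (hx : x ∈ RH D c ζ χ)
    (hy : y ∈ RH D c ζ (j • th0 N a)) : x * y ∈ RH D c ζ (χ + j • th0 N a) := by
  intro δ
  rw [SkewMonoidAlgebra.coeff_mul_left, SkewMonoidAlgebra.sum_def', map_sum]
  refine Finset.sum_congr rfl fun γ _ => ?_
  have h := rhom_mul (hx γ) (rhom_act γ (hy (γ⁻¹ * δ)))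
  have h2 : χ - cc γ.v + sL γ.v (j • th0 N a - cc (γ⁻¹ * δ).v) = χ + j • th0 N a - cc δ.v := by
    rw [rhom_cc γ δ, map_sub, map_zsmul, sL_th0]
    abel
  rwa [h2] at h

theorem RH_single_mul {χ : IG N a → ℤ} (γ : GG N a ζ) {y : RR D N a c ζ} (hy : y ∈ RH D c ζ χ) :
    SkewMonoidAlgebra.single γ 1 * y ∈ RH D c ζ (sL γ.v χ + cc γ.v) := by
  intro δ
  rw [SkewMonoidAlgebra.coeff_single_mul, one_mul]
  have h := rhom_act γ (hy (γ⁻¹ * δ))
  have h2 : sL γ.v (χ - cc (γ⁻¹ * δ).v) = sL γ.v χ + cc γ.v - cc δ.v := by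
    rw [rhom_cc γ δ, map_sub]
    abel
  rwa [h2] at h

theorem jO_mem_RH {χ : IG N a → ℤ} {r : MvPolynomial (SG N a c) k}
    (hr : r.IsWeightedHomogeneous gw χ) : jO D ζ r ∈ RH D c ζ χ := by
  refine rhom_single 1 ?_
  rw [GG.v_one, cc_zero, sub_zero, LinearMap.rTensor_tmul, hr.weightedHomogeneousComponent_same]

theorem one_mem_RH : (1 : RR D N a c ζ) ∈ RH D c ζ 0 :=
  jO_mem_RH (isWeightedHomogeneous_one k gw)

theorem gam_mem_RH (ha : 2 ≤ a) (κ : Fin c) : gam D N a ζ κ ∈ RH D c ζ (th0 N a) := by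
  refine Submodule.sum_mem _ fun l _ => rhom_single _ ?_
  rw [GG.v_mk, cc_single ha, sub_neg_eq_add, LinearMap.rTensor_tmul]
  congr 1
  exact (isWeightedHomogeneous_X k gw ((l, 0, κ) : SG N a c)).weightedHomogeneousComponent_same

theorem rhom_gθ_cc (γ : Fin N → ZMod a) : gθ N a (cc γ) = 0 := by
  simp only [cc, map_neg, map_sum, gθ_eps, Finset.sum_const_zero, neg_zero]

theorem RH_neg {j : ℤ} (hj : j < 0) {x : RR D N a c ζ} (hx : x ∈ RH D c ζ (j • th0 N a)) :
    x = 0 := by
  classical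
  refine SkewMonoidAlgebra.ext fun γ => ?_
  have h : weightedHomogeneousComponent (R := k) (gw (N := N) (a := a) (c := c))
      (j • th0 N a - cc γ.v) = 0 := by
    refine LinearMap.ext fun r => ?_
    ext m
    rw [coeff_weightedHomogeneousComponent, if_neg]
    · rfl
    · intro h
      have h2 := theta_weight (w := gw (N := N) (a := a) (c := c)) (gθ N a)
        (fun i => by rw [gw, map_add, gθ_th0, gθ_eps, add_zero]) m
      rw [h, map_sub, rhom_gθ_cc, map_zsmul, gθ_th0] at h2
      simp only [smul_eq_mul, mul_one, sub_zero] at h2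
      omega
  rw [← hx γ, h]
  simp

/-- projection on a homogeneous piece -/
noncomputable def rhomP (D : Type u) [DivisionRing D] [Algebra k D] (c : ℕ) (ζ : k)
    (χ : IG N a → ℤ) : RR D N a c ζ →ₗ[k] RR D N a c ζ where
  toFun x := ⟨Finsupp.equivFunOnFinite.symm fun γ =>
    (weightedHomogeneousComponent gw (χ - cc γ.v)).rTensor D (x.coeff γ)⟩
  map_add' x y := by
    refine SkewMonoidAlgebra.ext fun γ => ?_
    simp only [SkewMonoidAlgebra.coeff_add, Finsupp.add_apply, map_add,
      Finsupp.equivFunOnFinite_symm_apply_apply]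
  map_smul' s x := by
    refine SkewMonoidAlgebra.ext fun γ => ?_
    simp only [SkewMonoidAlgebra.coeff_smul, Finsupp.smul_apply, map_smul,
      Finsupp.equivFunOnFinite_symm_apply_apply, RingHom.id_apply]

omit [FiniteDimensional k D] [Fact (ζ ^ a = 1)] in
theorem rhomP_coeff (χ : IG N a → ℤ) (x : RR D N a c ζ) (γ : GG N a ζ) :
    (rhomP D c ζ χ x).coeff γ =
      (weightedHomogeneousComponent gw (χ - cc γ.v)).rTensor D (x.coeff γ) := rfl

theorem exists_proj : ∃ p : ℕ → RR D N a c ζ →ₗ[k] RR D N a c ζ,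
    (∀ (j : ℕ) x, p j x ∈ RH D c ζ ((j : ℤ) • th0 N a)) ∧
    (∀ (i j : ℕ), ∀ x ∈ RH D c ζ ((i : ℤ) • th0 N a), p j x = if i = j then x else 0) ∧
    ∀ I : Ideal (MvPolynomial (SG N a c) k), HomI gw I → ∀ j, ∀ x ∈ PH D ζ I, p j x ∈ PH D ζ I := by
  have hθ : ∀ i : SG N a c, gθ N a (gw i) = 1 := fun i => by
    rw [gw, map_add, gθ_th0, gθ_eps, add_zero]
  refine ⟨fun j => rhomP D c ζ ((j : ℤ) • th0 N a), fun j x γ => ?_, fun i j x hx => ?_,
    fun I hI j x hx γ => ?_⟩
  · exact (cyc k D gw (gθ N a) hθ).idem _ _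
  · refine SkewMonoidAlgebra.ext fun γ => ?_
    rw [rhomP_coeff]
    split_ifs with h
    · subst h
      exact hx γ
    · rw [← hx γ]
      refine (cyc k D gw (gθ N a) hθ).orth _ _ _ fun h' => h ?_
      have h2 := congrArg (gθ N a) (sub_left_injective h')
      simp only [map_zsmul, gθ_th0, smul_eq_mul, mul_one, Nat.cast_inj] at h2
      exact h2.symm
  · exact isGr_iA (gθ N a) hθ hI _ _ (hx γ)

end Vale.Agent.P200E
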