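import Vale.Agent.P200E.QB2
import Vale.Agent.P200E.RHom

namespace Vale.Agent.P200E

open MvPolynomial TensorProduct

universe u

theorem push_pow {k R B : Type u} [Field k] [Ring R] [Algebra k R] [Ring B] [Algebra k B]
    {a c d : ℕ} (T : Subalgebra k R) (Ψ : T →ₐ[k] B) (g τ : Fin c → T) (τ' : Fin d → T)
    (f : Fin c → MvPolynomial (Fin c) k) (qq : Fin d → MvPolynomial (Fin c) k)
    (h : (∑ κ, (g κ : R) ⊗ₜ[k] (X κ : MvPolynomial (Fin c) k)) ^ a =
      ∑ i, (τ i : R) ⊗ₜ[k] f i + ∑ i, (τ' i : R) ⊗ₜ[k] qq i) :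
    (∑ κ, Ψ (g κ) ⊗ₜ[k] (X κ : MvPolynomial (Fin c) k)) ^ a =
      ∑ i, Ψ (τ i) ⊗ₜ[k] f i + ∑ i, Ψ (τ' i) ⊗ₜ[k] qq i := by
  let v : T ⊗[k] MvPolynomial (Fin c) k →ₐ[k] R ⊗[k] MvPolynomial (Fin c) k :=
    Algebra.TensorProduct.map T.val (AlgHom.id k _)
  let w : T ⊗[k] MvPolynomial (Fin c) k →ₐ[k] B ⊗[k] MvPolynomial (Fin c) k :=
    Algebra.TensorProduct.map Ψ (AlgHom.id k _)
  have hv : Function.Injective v :=
    Module.Flat.rTensor_preserves_injective_linearMap (M := MvPolynomial (Fin c) k)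
      T.val.toLinearMap Subtype.val_injective
  have h1 : (∑ κ, g κ ⊗ₜ[k] (X κ : MvPolynomial (Fin c) k)) ^ a =
      ∑ i, τ i ⊗ₜ[k] f i + ∑ i, τ' i ⊗ₜ[k] qq i := by
    apply hv
    simpa [v, map_pow, map_sum] using h
  have h2 := congrArg w h1
  simpa [w, map_pow, map_sum] using h2

variable {k D : Type u} [Field k] [DivisionRing D] [Algebra k D] [FiniteDimensional k D]
  {N a c d : ℕ} [NeZero a]
variable {ζ : k} [Fact (ζ ^ a = 1)]

/-- polynomials inside the crossed product as an algebra map -/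
noncomputable def qb3j (D : Type u) [DivisionRing D] [Algebra k D] (N a c : ℕ) [NeZero a] (ζ : k)
    [Fact (ζ ^ a = 1)] : MvPolynomial (SG N a c) k →ₐ[k] RR D N a c ζ where
  toFun := jO D ζ
  map_one' := rfl
  map_mul' r s := by simp [jO]
  map_zero' := by simp [jO]
  map_add' r s := by simp [jO, add_tmul]
  commutes' r := rfl

omit [FiniteDimensional k D] in
theorem qb3j_apply (r : MvPolynomial (SG N a c) k) : qb3j D N a c ζ r = jO D ζ r := rfl
theorem gam_pow (ha : 2 ≤ a) (hζ : QR a ζ) {f : Fin c → MvPolynomial (Fin c) k}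
    {lam : Fin d → MvPolynomial (Fin c) k →ₗ[k] k}
    {nu : Fin c → MvPolynomial (Fin c) k →ₗ[k] k} {qq : Fin d → MvPolynomial (Fin c) k}
    (hD : Dec a f lam nu qq) {B : Type u} [Ring B] [Algebra k B]
    (T : Subalgebra k (RR D N a c ζ)) (Ψ : T →ₐ[k] B) (g τ : Fin c → T) (τ' : Fin d → T)
    (hg : ∀ κ, (g κ : RR D N a c ζ) = gam D N a ζ κ)
    (hτ : ∀ i, (τ i : RR D N a c ζ) = jO D ζ (lamE (nu i) (gg k N a c)))
    (hτ' : ∀ i, (τ' i : RR D N a c ζ) = jO D ζ (lamE (lam i) (gg k N a c))) :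
    (∑ κ, Ψ (g κ) ⊗ₜ[k] (X κ : MvPolynomial (Fin c) k)) ^ a =
      ∑ i, Ψ (τ i) ⊗ₜ[k] f i + ∑ i, Ψ (τ' i) ⊗ₜ[k] qq i := by
  refine push_pow (R := RR D N a c ζ) (B := B) T Ψ g τ τ' f qq ?_
  obtain ⟨y, hy⟩ : ∃ y : Fin N → RR D N a c ζ,
      ∀ l, y l = SkewMonoidAlgebra.single (GG.mk ζ (Pi.single l 1)) 1 := ⟨_, fun _ => rfl⟩
  have key := gen_pow (B := RR D N a c ζ) hζ hD ha (qb3j D N a c ζ) y ?_ ?_ ?_
  · simp only [hg, hτ, hτ']
    have h1 : ∀ κ, gam D N a ζ κ = ∑ l, qb3j D N a c ζ (X (l, 0, κ)) * y l := fun κ => by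
      refine Finset.sum_congr rfl fun l _ => ?_
      rw [qb3j_apply]
      simp only [jO, hy, SkewMonoidAlgebra.single_mul_single, one_mul, smul_one, mul_one]
    simp only [h1, ← qb3j_apply]
    exact key
  · intro l r
    rw [qb3j_apply, qb3j_apply]
    simp only [jO, hy, SkewMonoidAlgebra.single_mul_single, one_mul, one_smul, mul_one, gAct_def,
      GG.v_mk, actA, Algebra.TensorProduct.map_tmul, map_one]
  · intro l m
    simp only [hy, SkewMonoidAlgebra.single_mul_single, smul_one, mul_one, mul_comm]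
  · intro l
    have h1 : (GG.mk ζ (Pi.single l 1) : GG N a ζ) ^ a = 1 := by
      change Multiplicative.ofAdd (Pi.single l 1 : Fin N → ZMod a) ^ a = 1
      rw [← ofAdd_nsmul, ofAdd_eq_one]
      ext m
      simp
    have h2 := (SkewMonoidAlgebra.of (AA k D (SG N a c)) (GG N a ζ)).map_pow
      (GG.mk ζ (Pi.single l 1)) a
    rw [h1, map_one, SkewMonoidAlgebra.of_apply] at h2
    rw [hy]
    exact h2.symm

end Vale.Agent.P200E
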