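import Vale.Agent.P200E.Act
import Vale.Agent.P200E.GM3

namespace Vale.Agent.P200E

open MvPolynomial TensorProduct

universe u

section gen
variable {k D : Type u} [Field k] [DivisionRing D] [Algebra k D] {σ : Type}

theorem tmul_mul_RHom0 (r : MvPolynomial σ k) (x : AA k D σ) :
    (r ⊗ₜ[k] (1 : D) : AA k D σ) * x = r • x := by
  rw [← algebraMap_smul (AA k D σ) r x, smul_eq_mul]
  rfl

theorem mul_tmul_RHom0 (r : MvPolynomial σ k) (x : AA k D σ) :
    x * (r ⊗ₜ[k] (1 : D) : AA k D σ) = r • x := by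
  rw [← algebraMap_smul (AA k D σ) r x, smul_eq_mul, Algebra.commutes]
  rfl

theorem iA_mul_RHom0 {I : Ideal (MvPolynomial σ k)} {r : AA k D σ} (hr : r ∈ iA D I)
    (x : AA k D σ) : r * x ∈ iA D I := by
  induction hr using Submodule.span_induction with
  | mem r hr =>
    obtain ⟨p, hp, rfl⟩ := hr
    have := smul_mem_iA (D := D) hp x
    rwa [← tmul_mul_RHom0] at this
  | zero => rw [zero_mul]; exact zero_mem _
  | add a b _ _ ha hb => rw [add_mul]; exact add_mem ha hb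
  | smul s a _ ha => rw [smul_eq_mul, mul_assoc]; exact Submodule.smul_mem _ s ha

end gen

variable {k D : Type u} [Field k] [DivisionRing D] [Algebra k D] [FiniteDimensional k D]
  {N a c d : ℕ} [NeZero a]
variable {ζ : k} [Fact (ζ ^ a = 1)]

omit [FiniteDimensional k D] in
theorem gAct_tmul_RHom0 (γ : GG N a ζ) (r : MvPolynomial (SG N a c) k) :
    γ • (r ⊗ₜ[k] (1 : D) : AA k D (SG N a c)) = (act c ζ γ.v r) ⊗ₜ[k] (1 : D) := by
  rw [gAct_def, actA, Algebra.TensorProduct.map_tmul]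
  rfl

omit [FiniteDimensional k D] in
theorem gAct_iA_RHom0 {I : Ideal (MvPolynomial (SG N a c) k)}
    (hI : ∀ (γ : Fin N → ZMod a), ∀ r ∈ I, act c ζ γ r ∈ I) (γ : GG N a ζ)
    {y : AA k D (SG N a c)} (hy : y ∈ iA D I) : γ • y ∈ iA D I := by
  induction hy using Submodule.span_induction with
  | mem r hr =>
    obtain ⟨p, hp, rfl⟩ := hr
    change γ • (p ⊗ₜ[k] (1 : D) : AA k D (SG N a c)) ∈ _
    rw [gAct_tmul_RHom0]
    exact GM3_tmul_mem (hI _ p hp) 1
  | zero => rw [smul_zero]; exact zero_mem _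
  | add a b _ _ ha hb => rw [smul_add]; exact add_mem ha hb
  | smul s a _ ha =>
    rw [smul_eq_mul, smul_mul']
    exact Submodule.smul_mem _ _ ha

theorem PH_mul_left {I : Ideal (MvPolynomial (SG N a c) k)}
    (hI : ∀ (γ : Fin N → ZMod a), ∀ r ∈ I, act c ζ γ r ∈ I) (x : RR D N a c ζ) {y : RR D N a c ζ}
    (hy : y ∈ PH D ζ I) : x * y ∈ PH D ζ I := by
  intro γ
  rw [SkewMonoidAlgebra.coeff_mul_left]
  refine Submodule.sum_mem _ fun g _ => ?_
  exact Submodule.smul_mem _ (x.coeff g) (gAct_iA_RHom0 hI g (hy _))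

theorem PH_mul_right {I : Ideal (MvPolynomial (SG N a c) k)} {x : RR D N a c ζ}
    (hx : x ∈ PH D ζ I) (y : RR D N a c ζ) : x * y ∈ PH D ζ I := by
  intro γ
  rw [SkewMonoidAlgebra.coeff_mul_left]
  refine Submodule.sum_mem _ fun g _ => ?_
  exact iA_mul_RHom0 (hx g) _

theorem jO_mul (r s : MvPolynomial (SG N a c) k) : jO D ζ (r * s) = jO D ζ r * jO D ζ s := by
  rw [jO, jO, jO, SkewMonoidAlgebra.single_mul_single, one_smul, mul_one,
    Algebra.TensorProduct.tmul_mul_tmul, mul_one]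

theorem coeff_jO_mul (r : MvPolynomial (SG N a c) k) (x : RR D N a c ζ) (γ : GG N a ζ) :
    (jO D ζ r * x).coeff γ = r • x.coeff γ := by
  rw [jO, SkewMonoidAlgebra.coeff_single_one_mul, tmul_mul_RHom0]

theorem jO_comm {I : Ideal (MvPolynomial (SG N a c) k)} {r : MvPolynomial (SG N a c) k}
    (hr : ∀ γ : Fin N → ZMod a, act c ζ γ r - r ∈ I) (x : RR D N a c ζ) :
    jO D ζ r * x - x * jO D ζ r ∈ PH D ζ I := by
  intro γ
  have h1 : (x * jO D ζ r).coeff γ = act c ζ γ.v r • x.coeff γ := by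
    rw [jO, SkewMonoidAlgebra.coeff_mul_single_one, gAct_tmul_RHom0, mul_tmul_RHom0]
  have h2 : (jO D ζ r * x - x * jO D ζ r).coeff γ =
      (jO D ζ r * x).coeff γ - (x * jO D ζ r).coeff γ := by
    rw [SkewMonoidAlgebra.coeff_sub, Finsupp.sub_apply]
  rw [h2, h1, coeff_jO_mul, ← tmul_mul_RHom0, ← tmul_mul_RHom0, ← sub_mul, ← sub_tmul,
    tmul_mul_RHom0]
  have h3 := neg_mem (hr γ.v)
  rw [neg_sub] at h3
  exact smul_mem_iA h3 _

end Vale.Agent.P200E
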