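import Vale.Agent.P200E.Ind2
import Vale.Agent.P200E.Num2
import Vale.Agent.P200E.PP

namespace Vale.Agent.P200E

open MvPolynomial TensorProduct

universe u

variable {k D : Type u} [Field k] [DivisionRing D] [Algebra k D] [FiniteDimensional k D]
  {σ ι : Type} [Fintype σ] [DecidableEq σ] {d : ℕ} {Y : Sys k σ ι d}

theorem Rho0_ex {w : σ → ι → ℤ} (G : GMod k D w) : ∃ K, HasK w G.h K := by
  obtain ⟨K, -, h⟩ := G.stanley
  exact ⟨K, h⟩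

theorem Rho0_ann {w : σ → ι → ℤ} {G : GMod k D w} {I : Ideal (MvPolynomial σ k)} (h : G.Kill I) :
    I ≤ Module.annihilator (MvPolynomial σ k) G.E := fun r hr =>
  Module.mem_annihilator.2 (h r hr)

theorem Rho0_zero (Φ : (ι → ℤ) → ℤ) : pr Φ (0 : ZL ι) = 0 := by simp [pr]

theorem Rho0_sum (Φ : (ι → ℤ) → ℤ) {Γ : Type} (s : Finset Γ) (K : Γ → ZL ι) :
    pr Φ (∑ g ∈ s, K g) = ∑ g ∈ s, pr Φ (K g) := by
  classical
  induction s using Finset.induction_on with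
  | empty => simpa using Rho0_zero Φ
  | insert g s hg ih => rw [Finset.sum_insert hg, Finset.sum_insert hg, pr_add, ih]

theorem Rho0_sh (θ : (ι → ℤ) →+ ℤ) {K : ZL ι} (hK : K ∈ aug ι ^ d) (ψ : ι → ℤ) :
    pr (fun χ => θ χ ^ d) (ch ψ * K) = pr (fun χ => θ χ ^ d) K := by
  have h1 : (1 - ch ψ) * K ∈ aug ι ^ (d + 1) := by
    rw [pow_succ']
    exact Ideal.mul_mem_mul (one_sub_mem_aug ψ) hK
  have h2 : K = ch ψ * K + (1 - ch ψ) * K := by ring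
  conv_rhs => rw [h2, pr_add, pr_aug (polyLt_pow θ d) h1, add_zero]

theorem Rho0_aug {c : ℕ} (hc : Y.Cod c) (hd : d + 1 ≤ c) (G : GMod k D Y.w) (h : G.Kill Y.J) :
    ∃ K ∈ aug ι ^ d, HasK Y.w G.h K :=
  G.hasK_aug fun _ hFr => Sys.ind_J hc hd (Rho0_ann h) hFr

theorem GMod.rho_add {w : σ → ι → ℤ} (θ : (ι → ℤ) →+ ℤ) (G : GMod k D w)
    (U : Submodule (AA k D σ) G.E) (hU : G.IsGr U) :
    rho w θ d G.h = rho w θ d (G.sub U hU).h + rho w θ d (G.quot U hU).h := by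
  obtain ⟨K1, h1⟩ := Rho0_ex (G.sub U hU)
  obtain ⟨K2, h2⟩ := Rho0_ex (G.quot U hU)
  have h3 := h1.add h2
  rw [← G.h_add U hU] at h3
  rw [rho_eq θ d h1, rho_eq θ d h2, rho_eq θ d h3, pr_add, mul_add]

theorem Sys.rho_nonneg {c : ℕ} (hc : Y.Cod c) (hd : d + 1 ≤ c) (G : GMod k D Y.w)
    (h : G.Kill Y.J) : 0 ≤ rho Y.w Y.θ d G.h := by
  obtain ⟨K, hK, hG⟩ := G.stanley
  rw [rho_eq Y.θ d hG]
  clear hG
  induction hK using AddSubmonoid.closure_induction with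
  | mem x hx =>
    obtain ⟨χ, Fr, hFr, rfl⟩ := hx
    have h1 := Sys.ind_J hc hd (Rho0_ann h) hFr
    have h2 : d ≤ Frᶜ.card := by
      rw [Finset.card_compl]
      omega
    rcases h2.eq_or_lt with h3 | h3
    · have h4 := pr_den Y.θ Y.w Y.θw Frᶜ χ
      rw [← h3] at h4
      rw [h4]
      exact Int.natCast_nonneg _
    · rw [pr_aug (polyLt_pow Y.θ d)
        (Ideal.mul_mem_left _ _ (Ideal.pow_le_pow_right h3 (den_mem Y.w Frᶜ))), mul_zero]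
  | zero => rw [Rho0_zero, mul_zero]
  | add x y _ _ hx hy =>
    rw [pr_add, mul_add]
    exact add_nonneg hx hy

theorem Sys.rho_shift {c : ℕ} (hc : Y.Cod c) (hd : d + 1 ≤ c) (G : GMod k D Y.w)
    (h : G.Kill Y.J) (ψ : ι → ℤ) :
    rho Y.w Y.θ d (fun χ => G.h (χ - ψ)) = rho Y.w Y.θ d G.h := by
  obtain ⟨K, hK, hG⟩ := Rho0_aug hc hd G h
  rw [rho_eq Y.θ d hG, rho_eq Y.θ d (hG.shift ψ), Rho0_sh Y.θ hK]

theorem Sys.rho_map {c : ℕ} (hc : Y.Cod c) (hd : d + 1 ≤ c) {G G' : GMod k D Y.w}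
    (h : G'.Kill Y.J) {f : G.E →ₗ[AA k D σ] G'.E} {ψ : ι → ℤ} (hf : IsGrMap G G' f ψ) :
    rho Y.w Y.θ d G.h = rho Y.w Y.θ d (G.sub _ hf.ker).h + rho Y.w Y.θ d (G'.sub _ hf.range).h := by
  have hk : (G'.sub _ hf.range).Kill Y.J := fun r hr e => Subtype.ext (h r hr e.1)
  obtain ⟨K1, h1⟩ := Rho0_ex (G.sub _ hf.ker)
  obtain ⟨K2, hK, h2⟩ := Rho0_aug hc hd _ hk
  have h3 := h1.add (h2.shift (-ψ))
  have e : ((G.sub _ hf.ker).h + fun χ => (G'.sub _ hf.range).h (χ - -ψ)) = G.h := by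
    funext χ
    rw [Pi.add_apply, sub_neg_eq_add, hf.h_eq χ]
  rw [e] at h3
  rw [rho_eq Y.θ d h1, rho_eq Y.θ d h2, rho_eq Y.θ d h3, pr_add, mul_add, Rho0_sh Y.θ hK]

theorem Sys.rho_pw {c : ℕ} (hc : Y.Cod c) (hd : d + 1 ≤ c) (G : GMod k D Y.w)
    (h : G.Kill Y.J) {Γ : Type} [Fintype Γ] (ψ : Γ → ι → ℤ) :
    rho Y.w Y.θ d (G.pw ψ).h = Fintype.card Γ * rho Y.w Y.θ d G.h := by
  obtain ⟨K, hK, hG⟩ := Rho0_aug hc hd G h
  have h1 := HasK.sum (Finset.univ : Finset Γ) fun g _ => hG.shift (ψ g)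
  have e : (fun χ => ∑ g, G.h (χ - ψ g)) = (G.pw ψ).h := funext fun χ => (G.h_pw ψ χ).symm
  rw [e] at h1
  rw [rho_eq Y.θ d hG, rho_eq Y.θ d h1, Rho0_sum, Finset.sum_congr rfl fun g _ => Rho0_sh Y.θ hK (ψ g),
    Finset.sum_const, Finset.card_univ, nsmul_eq_mul]
  ring

end Vale.Agent.P200E
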