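import Vale.Agent.P200E.GM2
import Vale.Agent.P200E.GM3
import Vale.Agent.P200E.Num1

namespace Vale.Agent.P200E

open MvPolynomial TensorProduct

universe u

variable {k D : Type u} [Field k] [DivisionRing D] [Algebra k D] {σ ι : Type} {w : σ → ι → ℤ}

/-- monomials of a given weight avoiding some variables -/
def stan0S (w : σ → ι → ℤ) (T : Finset σ) (χ : ι → ℤ) : Set (σ →₀ ℕ) :=
  {m | Finsupp.weight w m = χ ∧ ∀ i ∈ T, m i = 0}

theorem stan0_fin [Finite σ] (θ : (ι → ℤ) →+ ℤ) (hθ : ∀ i, θ (w i) = 1) (T : Finset σ)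
    (χ : ι → ℤ) : (stan0S w T χ).Finite := by
  refine (Finsupp.finite_of_degree_le (σ := σ) (θ χ).toNat).subset fun m hm => ?_
  have h2 := theta_weight θ hθ m
  rw [hm.1] at h2
  simp only [Set.mem_setOf_eq, h2, Int.toNat_natCast, le_refl]

theorem stan0_step [Finite σ] [DecidableEq σ] (θ : (ι → ℤ) →+ ℤ) (hθ : ∀ i, θ (w i) = 1)
    {T : Finset σ} {i : σ} (hi : i ∉ T) (χ : ι → ℤ) :
    (stan0S w T χ).ncard = (stan0S w (insert i T) χ).ncard + (stan0S w T (χ - w i)).ncard := by
  have hinj : Function.Injective fun m : σ →₀ ℕ => m + Finsupp.single i 1 := add_left_injective _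
  rw [← Set.ncard_image_of_injective (stan0S w T (χ - w i)) hinj,
    ← Set.ncard_union_eq _ (stan0_fin θ hθ _ _) ((stan0_fin θ hθ _ _).image _)]
  · congr 1
    ext m
    constructor
    · rintro ⟨h1, h2⟩
      by_cases h : m i = 0
      · left
        refine ⟨h1, fun j hj => ?_⟩
        rcases Finset.mem_insert.1 hj with rfl | hj
        · exact h
        · exact h2 j hj
      · right
        have hle : Finsupp.single i 1 ≤ m := Finsupp.single_le_iff.2 (by omega)
        obtain ⟨u, rfl⟩ := exists_add_of_le hle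
        refine ⟨u, ⟨?_, fun j hj => ?_⟩, add_comm _ _⟩
        · rw [← h1, map_add, Finsupp.weight_single, one_smul, add_sub_cancel_left]
        · have := h2 j hj
          rw [Finsupp.add_apply] at this
          omega
    · rintro (⟨h1, h2⟩ | ⟨u, ⟨h1, h2⟩, rfl⟩)
      · exact ⟨h1, fun j hj => h2 j (Finset.mem_insert_of_mem hj)⟩
      · refine ⟨by rw [map_add, h1, Finsupp.weight_single, one_smul, sub_add_cancel],
          fun j hj => ?_⟩
        have hne : i ≠ j := fun h => hi (h ▸ hj)
        simp [h2 j hj, hne]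
  · rw [Set.disjoint_left]
    rintro m ⟨-, h2⟩ ⟨u, -, rfl⟩
    have := h2 i (Finset.mem_insert_self _ _)
    simp at this

theorem stan0_op [Finite σ] (θ : (ι → ℤ) →+ ℤ) (hθ : ∀ i, θ (w i) = 1) (δ : ℤ) (T : Finset σ) :
    op (den w T) (fun χ => δ * (stan0S w ∅ χ).ncard) = fun χ => δ * (stan0S w T χ).ncard := by
  classical
  induction T using Finset.induction_on with
  | empty => rw [den, Finset.prod_empty, op_one]
  | insert i T hi ih =>
    rw [den, Finset.prod_insert hi, op_mul, ← den, ih, op_one_sub]
    funext χ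
    rw [stan0_step θ hθ hi χ]
    push_cast
    ring

theorem stan0_h [Finite σ] [FiniteDimensional k D] (θ : (ι → ℤ) →+ ℤ) (hθ : ∀ i, θ (w i) = 1)
    (χ : ι → ℤ) : (cyc k D w θ hθ).h χ = (Module.finrank k D : ℤ) * (stan0S w ∅ χ).ncard := by
  classical
  let W := LinearMap.range (weightedHomogeneousComponent (R := k) w χ)
  have h1 : LinearMap.range ((weightedHomogeneousComponent (R := k) w χ).rTensor D) =
      LinearMap.range (W.subtype.rTensor D) := by
    apply le_antisymm
    · rintro _ ⟨a, rfl⟩
      refine ⟨(weightedHomogeneousComponent w χ).rangeRestrict.rTensor D a, ?_⟩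
      rw [← LinearMap.rTensor_comp_apply]
      rfl
    · rintro _ ⟨a, rfl⟩
      induction a using TensorProduct.induction_on with
      | zero => simp
      | tmul x d =>
        obtain ⟨_, r, rfl⟩ := x
        exact ⟨r ⊗ₜ d, rfl⟩
      | add a b ha hb => rw [map_add]; exact add_mem ha hb
  have h2 : W = restrictSupport k (stan0S w ∅ χ) := by
    ext r
    rw [mem_restrictSupport_iff]
    constructor
    · rintro ⟨q, rfl⟩ m hm
      refine ⟨weightedHomogeneousComponent_isWeightedHomogeneous χ q
        (mem_support_iff.1 (Finset.mem_coe.1 hm)), by simp⟩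
    · intro h
      have : r.IsWeightedHomogeneous w χ := fun m hm => (h (Finset.mem_coe.2 (mem_support_iff.2 hm))).1
      exact ⟨r, this.weightedHomogeneousComponent_same⟩
  have h3 : Module.finrank k W = (stan0S w ∅ χ).ncard := by
    rw [h2, Module.finrank_eq_nat_card_basis (basisRestrictSupport k _), Nat.card_coe_set_eq]
  have h4 : Module.finrank k (LinearMap.range (W.subtype.rTensor D)) =
      Module.finrank k (W ⊗[k] D) := LinearMap.finrank_range_of_inj
        (Module.Flat.rTensor_preserves_injective_linearMap _ W.injective_subtype)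
  have h5 : (cyc k D w θ hθ).h χ = (Module.finrank k
      (LinearMap.range ((weightedHomogeneousComponent (R := k) w χ).rTensor D)) : ℤ) := rfl
  rw [h5, h1, h4, Module.finrank_tensorProduct, h3]
  push_cast
  ring

theorem hasK_cyc [Fintype σ] [FiniteDimensional k D] (θ : (ι → ℤ) →+ ℤ) (hθ : ∀ i, θ (w i) = 1) :
    HasK w (cyc k D w θ hθ).h (Module.finrank k D • (1 : ZL ι)) := by
  classical
  intro χ
  rw [show (cyc k D w θ hθ).h = _ from funext (stan0_h θ hθ), stan0_op θ hθ]
  have h : stan0S w Finset.univ χ = if χ = 0 then {0} else ∅ := by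
    ext m
    split_ifs with h0
    · subst h0
      constructor
      · intro hm
        exact Finsupp.ext fun i => hm.2 i (Finset.mem_univ _)
      · rintro rfl
        exact ⟨map_zero _, fun _ _ => rfl⟩
    · refine ⟨fun hm => h0 ?_, False.elim⟩
      have : m = 0 := Finsupp.ext fun i => hm.2 i (Finset.mem_univ _)
      rw [← hm.1, this, map_zero]
  simp only [h]
  rw [AddMonoidAlgebra.one_def]
  split_ifs with h0
  · subst h0
    simp
  · simp [Ne.symm h0]

end Vale.Agent.P200E
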