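import Vale.Agent.P200E.Dom
import Vale.Agent.P200E.FinR
import Vale.Agent.P200E.Frac
import Vale.Agent.P200E.QB3
import Vale.Agent.P200E.Lam
import Vale.Agent.P200E.Cod2

namespace Vale.Agent.P200E

open MvPolynomial TensorProduct

universe u

/-- the sum of a multiplicative family of subspaces -/
def stepSub {k R : Type u} [Field k] [Ring R] [Algebra k R] (F : ℕ → Submodule k R)
    (h1 : (1 : R) ∈ F 0) (hmul : ∀ i j, ∀ x ∈ F i, ∀ y ∈ F j, x * y ∈ F (i + j)) :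
    Subalgebra k R :=
  Submodule.toSubalgebra (⨆ j, F j) (Submodule.mem_iSup_of_mem 0 h1)
    fun x y hx hy => by
      induction hx using Submodule.iSup_induction' with
      | zero => rw [zero_mul]; exact zero_mem _
      | add x x' _ _ h1 h2 => rw [add_mul]; exact add_mem h1 h2
      | mem i x hx =>
        induction hy using Submodule.iSup_induction' with
        | zero => rw [mul_zero]; exact zero_mem _
        | add y y' _ _ h1 h2 => rw [mul_add]; exact add_mem h1 h2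
        | mem j y hy => exact Submodule.mem_iSup_of_mem (i + j) (hmul i j x hx y hy)

section aux
variable {k D : Type u} [Field k] [DivisionRing D] [Algebra k D] [FiniteDimensional k D]
  {N a c d : ℕ} [NeZero a]
variable {ζ : k} [Fact (ζ ^ a = 1)]

/-- constants inside the crossed product -/
noncomputable def stepD (D : Type u) [DivisionRing D] [Algebra k D] (N a c : ℕ) [NeZero a] (ζ : k)
    [Fact (ζ ^ a = 1)] : D →ₐ[k] RR D N a c ζ where
  toRingHom := (SkewMonoidAlgebra.singleOneRingHom (k := AA k D (SG N a c)) (G := GG N a ζ)).comp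
    (Algebra.TensorProduct.includeRight (R := k) (A := MvPolynomial (SG N a c) k)
      (B := D)).toRingHom
  commutes' r := by
    change SkewMonoidAlgebra.single 1 (Algebra.TensorProduct.includeRight (R := k)
      (A := MvPolynomial (SG N a c) k) (B := D) (algebraMap k D r)) =
      SkewMonoidAlgebra.single 1 (algebraMap k _ r)
    rw [AlgHom.commutes]

omit [FiniteDimensional k D] in
theorem stepD_apply (x : D) : stepD D N a c ζ x =
    SkewMonoidAlgebra.single 1 ((1 : MvPolynomial (SG N a c) k) ⊗ₜ[k] x) := rfl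

theorem stepD_mem (x : D) : stepD D N a c ζ x ∈ RH D c ζ 0 := by
  intro γ
  rw [stepD_apply, SkewMonoidAlgebra.coeff_single_apply]
  split_ifs with h
  · subst h
    rw [GG.v_one, cc_zero, sub_zero, LinearMap.rTensor_tmul,
      (isWeightedHomogeneous_one k gw).weightedHomogeneousComponent_same]
  · exact map_zero _

omit [FiniteDimensional k D] in
theorem stepD_mul_single (x : D) (γ : GG N a ζ) (r : MvPolynomial (SG N a c) k) :
    stepD D N a c ζ x * SkewMonoidAlgebra.single γ (r ⊗ₜ[k] (1 : D)) =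
      SkewMonoidAlgebra.single γ (r ⊗ₜ[k] x) := by
  rw [stepD_apply, SkewMonoidAlgebra.single_mul_single, one_mul, one_smul,
    Algebra.TensorProduct.tmul_mul_tmul, one_mul, mul_one]

omit [FiniteDimensional k D] in
theorem single_mul_stepD (x : D) (γ : GG N a ζ) (r : MvPolynomial (SG N a c) k) :
    SkewMonoidAlgebra.single γ (r ⊗ₜ[k] (1 : D)) * stepD D N a c ζ x =
      SkewMonoidAlgebra.single γ (r ⊗ₜ[k] x) := by
  rw [stepD_apply, SkewMonoidAlgebra.single_mul_single, mul_one, gAct_def, actA,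
    Algebra.TensorProduct.map_tmul, map_one, Algebra.TensorProduct.tmul_mul_tmul, one_mul, mul_one]
  rfl

omit [FiniteDimensional k D] in
theorem stepD_mul_gam (x : D) (κ : Fin c) : stepD D N a c ζ x * gam D N a ζ κ =
    ∑ l, SkewMonoidAlgebra.single (GG.mk ζ (Pi.single l 1)) (X (l, 0, κ) ⊗ₜ[k] x) := by
  refine (Finset.mul_sum (R := RR D N a c ζ) _ _ _).trans ?_
  exact Finset.sum_congr rfl fun l _ => stepD_mul_single x _ _

omit [FiniteDimensional k D] in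
theorem stepD_comm_gam (x : D) (κ : Fin c) :
    stepD D N a c ζ x * gam D N a ζ κ = gam D N a ζ κ * stepD D N a c ζ x := by
  rw [stepD_mul_gam]
  refine Eq.trans ?_ (Finset.sum_mul (R := RR D N a c ζ) _ _ _).symm
  exact Finset.sum_congr rfl fun l _ => (single_mul_stepD x _ _).symm

omit [FiniteDimensional k D] [Fact (ζ ^ a = 1)] in
theorem step_mk_inj (ha : 2 ≤ a) {l l' : Fin N}
    (h : GG.mk ζ (Pi.single l (1 : ZMod a)) = GG.mk ζ (Pi.single l' 1)) : l = l' := by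
  haveI : Fact (1 < a) := ⟨ha⟩
  by_contra hne
  have h2 : (Pi.single l (1 : ZMod a) : Fin N → ZMod a) = Pi.single l' 1 := congrArg GG.v h
  have h3 := congrFun h2 l
  rw [Pi.single_eq_same, Pi.single_eq_of_ne hne] at h3
  exact one_ne_zero h3

omit [FiniteDimensional k D] in
theorem step_coeff (ha : 2 ≤ a) (v : Fin c → D) (l : Fin N) :
    (∑ m, stepD D N a c ζ (v m) * gam D N a ζ m).coeff (GG.mk ζ (Pi.single l 1)) =
      ∑ m, (X (l, 0, m) ⊗ₜ[k] v m : AA k D (SG N a c)) := by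
  have hs : ∀ {T : Type} (s : Finset T) (g : T → RR D N a c ζ) (γ : GG N a ζ),
      (∑ t ∈ s, g t).coeff γ = ∑ t ∈ s, (g t).coeff γ := fun s g γ => by
    have := map_sum (SkewMonoidAlgebra.coeffAddEquiv (k := AA k D (SG N a c)) (G := GG N a ζ)) g s
    have h2 := congrArg (fun F => F γ) this
    simp only [Finsupp.finsetSum_apply] at h2
    exact h2
  rw [hs]
  refine Finset.sum_congr rfl fun m _ => ?_
  rw [stepD_mul_gam, hs, Finset.sum_eq_single l]
  · rw [SkewMonoidAlgebra.coeff_single_apply, if_pos rfl]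
  · intro l' _ hl'
    rw [SkewMonoidAlgebra.coeff_single_apply, if_neg fun h => hl' (step_mk_inj ha h)]
  · intro h
    exact absurd (Finset.mem_univ l) h

omit [FiniteDimensional k D] [Fact (ζ ^ a = 1)] in
theorem step_jO_mem {I : Ideal (MvPolynomial (SG N a c) k)} {r : MvPolynomial (SG N a c) k}
    (hr : r ∈ I) : jO D ζ r ∈ PH D ζ I := by
  intro γ
  rw [jO, SkewMonoidAlgebra.coeff_single_apply]
  split_ifs
  · exact Submodule.subset_span ⟨r, hr, rfl⟩
  · exact zero_mem _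

omit [FiniteDimensional k D] [Fact (ζ ^ a = 1)] in
theorem step_of_jO_mem {I : Ideal (MvPolynomial (SG N a c) k)} {r : MvPolynomial (SG N a c) k}
    (hr : jO D ζ r ∈ PH D ζ I) : (r ⊗ₜ[k] (1 : D) : AA k D (SG N a c)) ∈ iA D I := by
  have := hr 1
  rwa [jO, SkewMonoidAlgebra.coeff_single_apply, if_pos rfl] at this

theorem step_mul {i j : ℕ} {x y : RR D N a c ζ} (hx : x ∈ RH D c ζ ((i : ℤ) • th0 N a))
    (hy : y ∈ RH D c ζ ((j : ℤ) • th0 N a)) : x * y ∈ RH D c ζ (((i + j : ℕ) : ℤ) • th0 N a) := by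
  have := RH_mul hx hy
  rwa [← add_smul, ← Nat.cast_add] at this

/-- the subalgebra of elements of invariant weight -/
noncomputable def stepT (D : Type u) [DivisionRing D] [Algebra k D] [FiniteDimensional k D]
    (N a c : ℕ) [NeZero a] (ζ : k) [Fact (ζ ^ a = 1)] : Subalgebra k (RR D N a c ζ) :=
  stepSub (R := RR D N a c ζ) (fun j : ℕ => RH D c ζ ((j : ℤ) • th0 N a))
    (by rw [Nat.cast_zero, zero_smul]; exact one_mem_RH) fun _ _ _ hx _ hy => step_mul hx hy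

theorem mem_stepT {j : ℤ} {x : RR D N a c ζ} (hx : x ∈ RH D c ζ (j • th0 N a)) :
    x ∈ stepT D N a c ζ := by
  rcases lt_or_ge j 0 with h | h
  · rw [RH_neg h hx]
    exact zero_mem _
  · obtain ⟨n, rfl⟩ := Int.eq_ofNat_of_zero_le h
    exact Submodule.mem_iSup_of_mem (p := fun j : ℕ => RH D c ζ ((j : ℤ) • th0 N a)) n hx

theorem step_frac0 (I : Ideal (MvPolynomial (SG N a c) k)) (hp : I.IsPrime)
    (hh : HomI gw I) (hI : ∀ (γ : Fin N → ZMod a), ∀ r ∈ I, act c ζ γ r ∈ I)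
    (hj : ∀ r, jO D ζ r ∈ PH D ζ I → r ∈ I)
    (hdom : ∀ i j : ℕ, ∀ x ∈ RH D c ζ ((i : ℤ) • th0 N a), ∀ y ∈ RH D c ζ ((j : ℤ) • th0 N a),
      x * y ∈ PH D ζ I → x ∈ PH D ζ I ∨ y ∈ PH D ζ I) :
    ∃ (k' D' : Type u) (_ : Field k') (_ : DivisionRing D') (_ : Algebra k' D')
      (_ : FiniteDimensional k' D') (_ : Algebra k k') (_ : Algebra k D')
      (_ : IsScalarTower k k' D') (Ψ : stepT D N a c ζ →ₐ[k] D'),
      ∀ x : stepT D N a c ζ, Ψ x = 0 ↔ (x : RR D N a c ζ) ∈ PH D ζ I := by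
  obtain ⟨p, -, hp2, hp3⟩ := exists_proj (D := D) (N := N) (a := a) (c := c) (ζ := ζ)
  obtain ⟨m, hdep⟩ := gad_dep (D := D) (ζ := ζ) hp hh hI
  have h1 : (1 : RR D N a c ζ) ∉ PH D ζ I := fun h =>
    hp.ne_top ((Ideal.eq_top_iff_one _).2 (hj 1 h))
  have h2 : ∀ (j : Fin m → ℕ) (r : Fin m → RR D N a c ζ),
      (∀ i, r i ∈ RH D c ζ ((j i : ℤ) • th0 N a)) → ∃ t : Fin m → RR D N a c ζ,
      (∀ i, t i ∈ stepT D N a c ζ) ∧ (∀ i y, t i * y - y * t i ∈ PH D ζ I) ∧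
        (∃ i, t i ∉ PH D ζ I) ∧ ∑ i, t i * r i ∈ PH D ζ I := fun j r hr => by
    obtain ⟨n, t, ht1, ht2, ⟨i, hi⟩, ht4⟩ := hdep j r hr
    exact ⟨fun i => jO D ζ (t i), fun i => mem_stepT (jO_mem_RH (ht1 i)),
      fun i y => jO_comm (ht2 i) y, ⟨i, fun h => hi (hj _ h)⟩, ht4⟩
  have h3 : ∀ x : RR D N a c ζ, ∀ y ∈ PH D ζ I, x * y ∈ PH D ζ I :=
    fun x y hy => PH_mul_left hI x hy
  have h4 : ∀ x ∈ PH D ζ I, ∀ y : RR D N a c ζ, x * y ∈ PH D ζ I :=
    fun x hx y => PH_mul_right hx y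
  have h5 : ∀ i j : ℕ, ∀ x ∈ RH D c ζ ((i : ℤ) • th0 N a), ∀ y ∈ RH D c ζ ((j : ℤ) • th0 N a),
      x * y ∈ RH D c ζ (((i + j : ℕ) : ℤ) • th0 N a) := fun i j x hx y hy => step_mul hx hy
  have h6 : ∀ x : RR D N a c ζ, x ∈ stepT D N a c ζ ↔
      x ∈ ⨆ j : ℕ, RH D c ζ ((j : ℤ) • th0 N a) := fun x => Iff.rfl
  have h := frac_graded (k := k) (R := RR D N a c ζ) (PH D ζ I) h3 h4 h1
    (fun j : ℕ => RH D c ζ ((j : ℤ) • th0 N a)) (stepT D N a c ζ) h6 h5 p hp2 (hp3 _ hh)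
    hdom m h2
  exact h

theorem step_frac (ha : 2 ≤ a) (lam : Fin d → MvPolynomial (Fin c) k →ₗ[k] k)
    (hc : (gad N a lam).Cod (N + d + 1))
    (hm : ∀ l : Fin N, ∃ C : Fin d → SG N a c, (∀ i, C i ∈ gZ N a c ∧ (C i).1 ≠ l) ∧
      (gad N a lam).minor C ≠ 0) (hN : 0 < N) :
    ∃ (k' D' : Type u) (_ : Field k') (_ : DivisionRing D') (_ : Algebra k' D')
      (_ : FiniteDimensional k' D') (_ : Algebra k k') (_ : Algebra k D')
      (_ : IsScalarTower k k' D') (Ψ : stepT D N a c ζ →ₐ[k] D'),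
      ∀ x : stepT D N a c ζ, Ψ x = 0 ↔ (x : RR D N a c ζ) ∈ PH D ζ (gad N a lam).PP := by
  obtain ⟨C, hC, h0⟩ := hm ⟨0, hN⟩
  have hCZ : ∀ i, C i ∈ (gad N a lam).Z := fun i => (hC i).1
  exact step_frac0 _ ((gad N a lam).PP_prime C hCZ h0) ((gad N a lam).homI_PP C hCZ h0)
    (fun γ r hr => act_PP Fact.out lam hm γ hr)
    (fun r hr => ((gad N a lam).tmul_mem_iA (D := D) C hCZ h0 r).1 (step_of_jO_mem hr))
    fun i j x hx y hy h => gad_dom ha lam hc hm hN hx hy h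

end aux

theorem stepA {k D : Type u} [Field k] [DivisionRing D] [Algebra k D] [FiniteDimensional k D]
    {c a : ℕ} (ha : 2 ≤ a) {ζ : k} (hζ : QR a ζ) (f : Fin c → MvPolynomial (Fin c) k)
    (hf : ∀ j, (f j).IsHomogeneous a) (hreg : P200.IsReg f) :
    ∃ (k' D' : Type u) (_ : Field k') (_ : DivisionRing D') (_ : Algebra k' D')
      (_ : FiniteDimensional k' D') (_ : Algebra k k') (_ : Algebra k D')
      (_ : IsScalarTower k k' D') (ι : D →ₐ[k] D') (γ τ : Fin c → D'),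
      (∀ x m, Commute (ι x) (γ m)) ∧
      (∑ m, γ m ⊗ₜ[k] (X m : MvPolynomial (Fin c) k)) ^ a = ∑ j, τ j ⊗ₜ[k] f j ∧
      ∀ v : Fin c → D, ∑ m, ι (v m) * γ m = 0 → v = 0 := by
  haveI : NeZero a := ⟨by omega⟩
  haveI : Fact (ζ ^ a = 1) := ⟨by
    obtain ⟨p, e, a', -, rfl, h⟩ := hζ
    rw [mul_comm, pow_mul, h.pow_eq_one, one_pow]⟩
  obtain ⟨d, lam, nu, qq, hD⟩ := exists_dec f hf
  have hb := bpf_of_reg (by omega) hf hreg
  have hN : 0 < 2 * d + 1 := Nat.succ_pos _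
  have hm := gad_minor hf hb hD (le_refl (2 * d + 1))
  obtain ⟨k', D', i1, i2, i3, i4, i5, i6, i7, Ψ, hΨ⟩ :=
    step_frac (D := D) (ζ := ζ) ha lam (gad_cod hf hb hD le_rfl) hm hN
  have hD0 : ∀ x : D, stepD D (2 * d + 1) a c ζ x ∈ stepT D (2 * d + 1) a c ζ := fun x =>
    mem_stepT (j := 0) (by rw [zero_smul]; exact stepD_mem x)
  have hg : ∀ κ : Fin c, gam D (2 * d + 1) a ζ κ ∈ stepT D (2 * d + 1) a c ζ := fun κ =>
    mem_stepT (j := 1) (by rw [one_smul]; exact gam_mem_RH ha κ)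
  have hl : ∀ μ : MvPolynomial (Fin c) k →ₗ[k] k,
      jO D ζ (lamE μ (gg k (2 * d + 1) a c)) ∈ stepT D (2 * d + 1) a c ζ := fun μ =>
    mem_stepT (j := (a : ℤ)) (by rw [natCast_zsmul]; exact jO_mem_RH (lamE_gg_hom μ))
  refine ⟨k', D', i1, i2, i3, i4, i5, i6, i7,
    Ψ.comp ((stepD D (2 * d + 1) a c ζ).codRestrict _ hD0), fun κ => Ψ ⟨_, hg κ⟩,
    fun j => Ψ ⟨_, hl (nu j)⟩, fun x m => ?_, ?_, fun v hv => ?_⟩
  · have h : Commute (⟨_, hD0 x⟩ : stepT D (2 * d + 1) a c ζ) ⟨_, hg m⟩ :=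
      Subtype.ext (stepD_comm_gam x m)
    exact h.map Ψ
  · have h := gam_pow ha hζ hD (stepT D (2 * d + 1) a c ζ) Ψ (fun κ => ⟨_, hg κ⟩)
      (fun j => ⟨_, hl (nu j)⟩) (fun i => ⟨_, hl (lam i)⟩) (fun _ => rfl) (fun _ => rfl)
      (fun _ => rfl)
    have h0 : ∀ i, Ψ ⟨_, hl (lam i)⟩ = 0 := fun i => (hΨ _).2 (step_jO_mem
      ((gad (2 * d + 1) a lam).J_le_PP (by
        rw [← gad_ell]
        exact Ideal.subset_span ⟨i, rfl⟩)))
    simpa only [h0, zero_tmul, Finset.sum_const_zero, add_zero] using h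
  · have h : Ψ (∑ m, (⟨_, hD0 (v m)⟩ : stepT D (2 * d + 1) a c ζ) * ⟨_, hg m⟩) = 0 := by
      rw [map_sum]
      simp only [map_mul]
      exact hv
    have h2 := (hΨ _).1 h (GG.mk ζ (Pi.single ⟨0, hN⟩ 1))
    rw [AddSubmonoidClass.coe_finset_sum] at h2
    simp only [MulMemClass.mk_mul_mk] at h2
    rw [step_coeff ha] at h2
    obtain ⟨C, hC, h0⟩ := hm ⟨0, hN⟩
    refine (gad (2 * d + 1) a lam).indep C (fun i => (hC i).1) h0
      (fun m => (⟨0, hN⟩, 0, m)) (fun m m' hmm => congrArg (fun i => i.2.2) hmm)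
      (fun m => by simp [gad, gZ]) ?_ v h2
    rintro m ⟨i, hi⟩
    exact (hC i).2 (congrArg Prod.fst hi)

end Vale.Agent.P200E
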