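import Vale.Agent.P200E.Step
import Vale.Agent.P200.Main

namespace Vale.Agent.P200E

open MvPolynomial TensorProduct

universe u

theorem Tow_down {k k1 D : Type u} [Field k] [Field k1] [Ring D] [Algebra k k1] [Algebra k1 D]
    [Algebra k D] [IsScalarTower k k1 D] {c : ℕ} :
    ∃ Φ : D ⊗[k1] MvPolynomial (Fin c) k1 →+* D ⊗[k] MvPolynomial (Fin c) k,
      ∀ d g, Φ (d ⊗ₜ MvPolynomial.map (algebraMap k k1) g) = d ⊗ₜ g := by
  let g : MvPolynomial (Fin c) k1 →ₐ[k1] D ⊗[k] MvPolynomial (Fin c) k :=
    (Algebra.TensorProduct.map (Algebra.ofId k1 D) (AlgHom.id k _)).comp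
      (algebraTensorAlgEquiv k k1).symm.toAlgHom
  have hc : ∀ (x : D) y, Commute ((Algebra.TensorProduct.includeLeft (S := k1) x :
      D ⊗[k] MvPolynomial (Fin c) k)) (g y) := by
    intro x y
    induction y using MvPolynomial.induction_on' with
    | monomial u r =>
      have h0 : g (monomial u r) = algebraMap k1 D r ⊗ₜ monomial u 1 := by simp [g]
      rw [h0, Algebra.TensorProduct.includeLeft_apply]
      simp only [Commute, SemiconjBy, Algebra.TensorProduct.tmul_mul_tmul, one_mul, mul_one,
        Algebra.commutes]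
    | add p q hp hq => rw [map_add]; exact hp.add_right hq
  refine ⟨(Algebra.TensorProduct.lift (S := k1) Algebra.TensorProduct.includeLeft g hc).toRingHom,
    fun d p => ?_⟩
  simp [g]

theorem Tow_QR {k k1 : Type u} [Field k] [Field k1] [Algebra k k1] {a : ℕ} {ζ : k}
    (hζ : QR a ζ) : QR a (algebraMap k k1 ζ) := by
  obtain ⟨p, e, a', h1, h2, h3⟩ := hζ
  exact ⟨p, e, a', expChar_of_injective_algebraMap (algebraMap k k1).injective p, h2,
    h3.map_of_injective (algebraMap k k1).injective⟩

theorem towerA {k : Type u} [Field k] {c a : ℕ} (ha : 2 ≤ a) {ζ : k} (hζ : QR a ζ)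
    (f : Fin c → MvPolynomial (Fin c) k) (hf : ∀ j, (f j).IsHomogeneous a) (hreg : P200.IsReg f)
    (i : ℕ) (hi : i ≤ c) :
    ∃ (k' D : Type u) (_ : Field k') (_ : DivisionRing D) (_ : Algebra k' D)
      (_ : FiniteDimensional k' D) (_ : Algebra k k') (_ : Algebra k D) (_ : IsScalarTower k k' D)
      (γ τ : Fin i → Fin c → D) (w : Fin c → Fin i → D),
      (∀ b b', b ≠ b' → ∀ m l, Commute (γ b m) (γ b' l)) ∧
      (∀ b, (∑ m, γ b m ⊗ₜ[k] (X m : MvPolynomial (Fin c) k)) ^ a = ∑ j, τ b j ⊗ₜ[k] f j) ∧
      ∀ b b', ∑ m, γ b m * w m b' = if b = b' then 1 else 0 := by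
  induction i with
  | zero =>
    exact ⟨k, k, inferInstance, inferInstance, inferInstance, inferInstance, inferInstance,
      inferInstance, inferInstance, Fin.elim0, Fin.elim0, fun _ => Fin.elim0, fun a => a.elim0,
      fun a => a.elim0, fun a => a.elim0⟩
  | succ i ih =>
    obtain ⟨k1, D, i1, i2, i3, i4, i5, i6, i7, γ, τ, w, hcomm, h1, hw⟩ := ih (by omega)
    obtain ⟨k2, D', j1, j2, j3, j4, j5, j6, j7, ι, γ', τ', hc, h1', hind⟩ :=
      stepA (k := k1) (D := D) ha (Tow_QR hζ) _ (fun j => (hf j).map (algebraMap k k1))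
        (hreg.baseChange (k := k1))
    obtain ⟨v, hv0, hv⟩ := P200.exists_kernel (k := k1) (by omega : i < c) γ
    let s : D' := ∑ m, γ' m * ι (v m)
    have hs : s ≠ 0 := by
      intro h
      apply hv0
      apply hind
      rw [← h]
      exact Finset.sum_congr rfl fun m _ => (hc _ _).eq
    letI alg : Algebra k k2 := ((algebraMap k1 k2).comp (algebraMap k k1)).toAlgebra
    letI alg' : Algebra k D' := ((algebraMap k1 D').comp (algebraMap k k1)).toAlgebra'
      fun r d => Algebra.commutes _ d
    have t1 : IsScalarTower k k1 D' := IsScalarTower.of_algebraMap_eq fun _ => rfl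
    have t2 : IsScalarTower k k2 D' := IsScalarTower.of_algebraMap_eq fun r =>
      IsScalarTower.algebraMap_apply k1 k2 D' (algebraMap k k1 r)
    refine ⟨k2, D', j1, j2, j3, j4, alg, alg', t2, Fin.cons γ' fun a m => ι (γ a m),
      Fin.cons τ' fun a m => ι (τ a m), fun m => Fin.cons (ι (v m) * s⁻¹)
        fun a => ι (w m a) - ι (v m) * s⁻¹ * ∑ l, γ' l * ι (w l a), ?_, ?_, ?_⟩
    · intro a a' haa m l
      induction a using Fin.cases with
      | zero =>
        induction a' using Fin.cases with
        | zero => exact absurd rfl haa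
        | succ a' => simpa using (hc _ _).symm
      | succ a =>
        induction a' using Fin.cases with
        | zero => simpa using hc _ _
        | succ a' => simpa using (hcomm a a' (fun h => haa (by rw [h])) m l).map ι
    · intro b
      induction b using Fin.cases with
      | zero =>
        obtain ⟨Φ, hΦ⟩ := Tow_down (k := k) (k1 := k1) (D := D') (c := c)
        have hX : ∀ d m, Φ (d ⊗ₜ X m) = d ⊗ₜ X m := fun d m => by
          rw [← hΦ, map_X]
        have h := congrArg Φ h1'
        simp only [map_pow, map_sum, hΦ, hX] at h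
        simpa only [Fin.cons_zero] using h
      | succ b =>
        have h := congrArg (Algebra.TensorProduct.map (ι.restrictScalars k)
          (AlgHom.id k (MvPolynomial (Fin c) k))) (h1 b)
        simp only [map_pow, map_sum, Algebra.TensorProduct.map_tmul, AlgHom.id_apply,
          AlgHom.restrictScalars_apply] at h
        simpa only [Fin.cons_succ] using h
    · have hv' : ∀ a, ∑ m, ι (γ a m) * ι (v m) = 0 := fun a => by
        simpa using congrArg ι (hv a)
      have hw' : ∀ a a', ∑ m, ι (γ a m) * ι (w m a') = if a = a' then 1 else 0 := fun a a' => by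
        simpa [apply_ite ι] using congrArg ι (hw a a')
      intro a a'
      induction a using Fin.cases with
      | zero =>
        induction a' using Fin.cases with
        | zero =>
          simp only [Fin.cons_zero, ← mul_assoc, ← Finset.sum_mul, if_true]
          exact mul_inv_cancel₀ hs
        | succ a' =>
          simp only [Fin.cons_zero, Fin.cons_succ, mul_sub, Finset.sum_sub_distrib, ← mul_assoc,
            ← Finset.sum_mul]
          rw [mul_inv_cancel₀ hs, one_mul, sub_self, if_neg (Fin.succ_ne_zero a').symm]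
      | succ a =>
        induction a' using Fin.cases with
        | zero =>
          simp only [Fin.cons_zero, Fin.cons_succ, ← mul_assoc, ← Finset.sum_mul, hv']
          simp
        | succ a' =>
          simp only [Fin.cons_succ, mul_sub, Finset.sum_sub_distrib, ← mul_assoc,
            ← Finset.sum_mul, hv', hw']
          simp

end Vale.Agent.P200E
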